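import Vale.Agent.P096.G.Defs

/-! Means on amenable groups. -/

namespace Vale.Agent.P096

open scoped InnerProductSpace Topology ComplexConjugate
open Filter
open Vale.Agent.P132 (FC BC ex pp qq rr EE chi Std PM MD)

universe u

lemma am_tele {f : ℕ → ℂ} (hf : ∀ k, ‖f k‖ ≤ 1) (n : ℕ) :
    ‖(av fun k : Fin (n + 1) => f (k + 1)) - av fun k : Fin (n + 1) => f k‖ ≤ 2 / (n + 1) := by
  rw [← av_sub, av, Fin.sum_univ_eq_sum_range (fun k => f (k + 1) - f k), Finset.sum_range_sub,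
    norm_smul, norm_inv, Complex.norm_natCast, Fintype.card_fin, div_eq_inv_mul]
  push_cast
  refine mul_le_mul_of_nonneg_left ((norm_sub_le _ _).trans ?_) (by positivity)
  linarith [hf (n + 1), hf 0]

theorem am_of_central {G : Type*} [Group G] (z : G) (hz : ∀ x, z * x = x * z) (h2 : z * z = 1)
    (h : ∀ x y : G, x * y = y * x ∨ x * y = z * (y * x)) : Am G := by
  classical
  intro S ε hε
  induction S using Finset.induction_on with
  | empty => exact ⟨Unit, inferInstance, inferInstance, fun _ => 1, by simp⟩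
  | insert s S _ ih =>
    obtain ⟨ι, _, _, a, ha⟩ := ih
    obtain ⟨n, hn⟩ := exists_nat_one_div_lt (half_pos hε)
    refine ⟨ι × Fin (n + 1) × Bool, inferInstance, inferInstance,
      fun x => a x.1 * (s ^ x.2.1.val * cond x.2.2 z 1), fun g hg F hF => ?_⟩
    rcases Finset.mem_insert.1 hg with rfl | hg
    · obtain ⟨F', hF'⟩ : ∃ F' : G → ℂ, ∀ x, F' x = av fun b : Bool => F (x * cond b z 1) :=
        ⟨_, fun _ => rfl⟩
      have b1 : ∀ x, ‖F' x‖ ≤ 1 := fun x => hF' x ▸ norm_av_le fun _ => hF _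
      have b2 : ∀ x, F' (z * x) = F' x := fun x => by
        rw [hz]
        simp only [hF', av, Fintype.sum_bool, cond_true, cond_false, mul_one, mul_assoc, h2,
          add_comm]
      have b3 : ∀ i (k : ℕ), F' (g * (a i * g ^ k)) = F' (a i * g ^ (k + 1)) := fun i k => by
        rw [← mul_assoc, pow_succ', ← mul_assoc]
        rcases h g (a i) with e | e
        · rw [e]
        · rw [e, mul_assoc z, b2]
      rw [av_prod, av_prod, ← av_sub]
      refine norm_av_le fun i => ?_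
      rw [av_prod, av_prod]
      simp only [← mul_assoc _ _ (cond _ z 1), ← hF', b3]
      refine (am_tele (f := fun k => F' (a i * g ^ k)) (fun _ => b1 _) n).trans ?_
      rw [div_lt_div_iff₀ (by positivity) two_pos] at hn
      rw [div_le_iff₀ (by positivity)]
      linarith
    · rw [av_prod, av_prod, av_comm, av_comm (ι := ι), ← av_sub]
      refine norm_av_le fun j => ?_
      simpa only [mul_assoc] using
        ha g hg (fun x => F (x * (s ^ j.1.val * cond j.2 z 1))) fun _ => hF _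

theorem am_comm (G : Type*) [CommGroup G] : Am G :=
  am_of_central 1 (by simp) (by simp) fun x y => .inl (mul_comm x y)

variable {K : Type*} [NormedAddCommGroup K] [InnerProductSpace ℂ K] [CompleteSpace K]
  {G : Type*} [Group G]

theorem exists_mean (h : Am G) (K : Type*) [NormedAddCommGroup K] [InnerProductSpace ℂ K]
    [CompleteSpace K] : Nonempty (Mean G K) := by
  classical
  choose ι fin ne a ha using fun j : Finset G × ℕ => h j.1 (1 / (j.2 + 1)) (by positivity)
  let U : Ultrafilter (Finset G × ℕ) := Ultrafilter.of atTop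
  have hU : (U : Filter (Finset G × ℕ)) ≤ atTop := Ultrafilter.of_le _
  obtain ⟨m, hm⟩ : ∃ m : (G → K →L[ℂ] K) → K →L[ℂ] K, ∀ {T : G → K →L[ℂ] K} {r : ℝ},
      (∀ g, ‖T g‖ ≤ r) → WT U (fun j => av fun i => T (a j i)) (m T) := by
    refine ⟨fun T => if hT : ∃ y, WT U (fun j => av fun i => T (a j i)) y then hT.choose else 0,
      fun {T r} hT => ?_⟩
    have h1 := exists_WT U (x := fun j => av fun i => T (a j i)) (r := r)
      (Eventually.of_forall fun j => norm_av_le fun _ => hT _)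
    simp only [dif_pos h1]
    exact h1.choose_spec
  have e1 : ∀ (T : G → K →L[ℂ] K) (ξ η : K) j,
      ⟪η, (av fun i => T (a j i)) ξ⟫_ℂ = av fun i => ⟪η, T (a j i) ξ⟫_ℂ := fun T ξ η j => by
    rw [av_apply]
    exact map_av (innerSL ℂ η) _
  refine ⟨⟨m, fun hT hT' => ?_, fun {T r} hT b c => ?_, fun hT => ?_, fun {T r} hT s => ?_,
    fun {T r} hT ξ η c ε hc => ?_⟩⟩
  · exact (hm fun g => (norm_add_le _ _).trans (add_le_add (hT g) (hT' g))).eq_of
      ((hm hT).add (hm hT')) (Eventually.of_forall fun j => av_add _ _)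
  · refine (hm (r := ‖b‖ * r * ‖c‖) fun g => (norm_mul_le _ _).trans ?_).eq_of
      (((hm hT).mul_left b).mul_right c) (Eventually.of_forall fun j => ?_)
    · exact mul_le_mul_of_nonneg_right ((norm_mul_le _ _).trans
        (mul_le_mul_of_nonneg_left (hT g) (norm_nonneg _))) (norm_nonneg _)
    · simp only [mul_av, av_mul]
  · refine (hm fun g => (norm_star _).trans_le (hT g)).eq_of (P082.Rep.T_star (hm hT))
      (Eventually.of_forall fun j => ?_)
    simp [av, star_sum]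
  · refine (hm fun g => hT (s * g)).unique (WT_iff.2 fun ξ η => ?_)
    have hr : 0 ≤ r := (norm_nonneg _).trans (hT 1)
    obtain ⟨c, hc, hb⟩ : ∃ c : ℝ, 0 < c ∧ ∀ g, ‖⟪η, T g ξ⟫_ℂ‖ ≤ c :=
      ⟨‖η‖ * (r * ‖ξ‖) + 1, by positivity, fun g => ((norm_inner_le_norm _ _).trans
        (mul_le_mul_of_nonneg_left ((T g).le_of_opNorm_le (hT g) ξ) (norm_nonneg _))).trans
        (lt_add_one _).le⟩
    refine (WT_iff.1 (hm hT) ξ η).congr_dist (squeeze_zero' (g := fun j => c * (1 / (j.2 + 1)))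
      (Eventually.of_forall fun _ => dist_nonneg) ?_ ?_)
    · filter_upwards [hU (eventually_ge_atTop ({s}, 0))] with j hj
      have h1 := ha j s (hj.1 (Finset.mem_singleton_self s))
        (fun g => (c : ℂ)⁻¹ • ⟪η, T g ξ⟫_ℂ) fun g => by
          rw [norm_smul, norm_inv, Complex.norm_real, Real.norm_of_nonneg hc.le,
            inv_mul_le_iff₀ hc, mul_one]
          exact hb g
      simp only [smul_eq_mul, ← mul_av, ← mul_sub, norm_mul, norm_inv, Complex.norm_real,
        Real.norm_of_nonneg hc.le, inv_mul_le_iff₀ hc] at h1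
      rw [dist_comm, dist_eq_norm, e1 (fun g => T (s * g)), e1]
      exact h1
    · have h1 : Tendsto (fun j : Finset G × ℕ => j.2) U atTop :=
        (tendsto_atTop.2 fun n => (eventually_ge_atTop ((∅ : Finset G), n)).mono
          fun j hj => (Prod.le_def.1 hj).2).mono_left hU
      simpa using (tendsto_one_div_add_atTop_nhds_zero_nat.comp h1).const_mul c
  · refine le_of_tendsto ((WT_iff.1 (hm hT) ξ η).sub_const c).norm (Eventually.of_forall fun j => ?_)
    rw [e1, ← av_const (ι := ι j) c, ← av_sub]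
    exact norm_av_le fun i => hc _

lemma Mean.const (M : Mean G K) (c : K →L[ℂ] K) : M.m (fun _ => c) = c :=
  ContinuousLinearMap.ext fun ξ => ext_inner_left ℂ fun η => sub_eq_zero.1 (norm_le_zero_iff.1
    (M.est (fun _ => le_rfl) ξ η _ 0 fun _ => by simp))

lemma Mean.norm_sub_le (M : Mean G K) {T : G → K →L[ℂ] K} {c : K →L[ℂ] K} {ε : ℝ}
    (h : ∀ g, ‖T g - c‖ ≤ ε) : ‖M.m T - c‖ ≤ ε := by
  have hε : 0 ≤ ε := (norm_nonneg _).trans (h 1)
  refine ContinuousLinearMap.opNorm_le_bound _ hε fun ξ => ?_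
  have h1 := M.est (T := T) (r := ‖c‖ + ε) (fun g => by linarith [norm_le_insert' (T g) c, h g]) ξ
    ((M.m T - c) ξ) ⟪(M.m T - c) ξ, c ξ⟫_ℂ (‖(M.m T - c) ξ‖ * (ε * ‖ξ‖)) fun g => by
      rw [← inner_sub_right]
      exact (norm_inner_le_norm _ _).trans (mul_le_mul_of_nonneg_left
        ((T g - c).le_of_opNorm_le (h g) ξ) (norm_nonneg _))
  rw [← inner_sub_right] at h1
  change ‖⟪(M.m T - c) ξ, (M.m T - c) ξ⟫_ℂ‖ ≤ _ at h1
  rw [inner_self_eq_norm_sq_to_K, norm_pow, RCLike.norm_ofReal, abs_norm] at h1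
  by_contra! h0
  nlinarith [mul_nonneg hε (norm_nonneg ξ)]

lemma Mean.comm (M : Mean G K) {T : G → K →L[ℂ] K} {r : ℝ} (hT : ∀ g, ‖T g‖ ≤ r) {S : K →L[ℂ] K}
    (h : ∀ g, T g * S = S * T g) : M.m T * S = S * M.m T := by
  have h1 := M.mul hT 1 S
  have h2 := M.mul hT S 1
  simp only [one_mul, mul_one, h] at h1 h2
  rw [← h1, h2]

lemma Mean.smul (M : Mean G K) {T : G → K →L[ℂ] K} {r : ℝ} (hT : ∀ g, ‖T g‖ ≤ r) (c : ℂ) :
    M.m (fun g => c • T g) = c • M.m T := by
  simpa using M.mul hT (c • 1) 1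

lemma Mean.sub (M : Mean G K) {T T' : G → K →L[ℂ] K} {r r' : ℝ} (hT : ∀ g, ‖T g‖ ≤ r)
    (hT' : ∀ g, ‖T' g‖ ≤ r') : M.m (fun g => T g - T' g) = M.m T - M.m T' := by
  have h1 := M.smul hT' (-1)
  simp only [neg_smul, one_smul] at h1
  simp only [sub_eq_add_neg]
  rw [M.add hT fun g => (norm_neg _).trans_le (hT' g), h1]

lemma am_conj_le {u v : K →L[ℂ] K} (hu : u ∈ unitary (K →L[ℂ] K)) (hv : v ∈ unitary (K →L[ℂ] K))
    (S : K →L[ℂ] K) : ‖u * S * star v‖ ≤ ‖S‖ :=
  (norm_mul_le _ _).trans ((mul_le_of_le_one_right (norm_nonneg _)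
    (norm_unit_le (Unitary.star_mem hv))).trans ((norm_mul_le _ _).trans
    (mul_le_of_le_one_left (norm_nonneg _) (norm_unit_le hu))))

lemma Mean.intw (M : Mean G K) {p θ : G →* (K →L[ℂ] K)} (hp : ∀ g, p g ∈ unitary (K →L[ℂ] K))
    (hθ : ∀ g, θ g ∈ unitary (K →L[ℂ] K)) (S : K →L[ℂ] K) (g : G) :
    M.m (fun x => p x * S * star (θ x)) * θ g = p g * M.m fun x => p x * S * star (θ x) := by
  have hb := fun x => am_conj_le (hp x) (hθ x) S
  have h1 := M.inv hb g
  have h2 := M.mul hb (p g) (star (θ g))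
  simp only [map_mul, star_mul, ← mul_assoc] at h1 h2
  nth_rw 1 [← h1]
  rw [h2, mul_assoc, (hθ g).1, mul_one]

/-- The mean of the conjugates commutes with the group. -/
lemma Mean.conj_comm (M : Mean G K) {p : G →* (K →L[ℂ] K)} (hp : ∀ g, p g ∈ unitary (K →L[ℂ] K))
    (S : K →L[ℂ] K) (g : G) :
    M.m (fun x => p x * S * star (p x)) * p g = p g * M.m fun x => p x * S * star (p x) :=
  M.intw hp hp S g

theorem near_fix (h : Am G) {p : G →* (K →L[ℂ] K)} (hp : ∀ g, p g ∈ unitary (K →L[ℂ] K))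
    {Y : Set (K →L[ℂ] K)} (hY : ∀ g, ∀ y ∈ Y, star (p g) * y * p g ∈ Y) {X S : K →L[ℂ] K}
    (hX : ∀ g, X * p g = p g * X) (hS : ∀ y ∈ Y, S * y = y * S) :
    ∃ S', (∀ y ∈ Y, S' * y = y * S') ∧ (∀ g, S' * p g = p g * S') ∧ ‖X - S'‖ ≤ ‖X - S‖ := by
  obtain ⟨M⟩ := exists_mean h K
  refine ⟨_, fun y hy => M.comm (fun x => am_conj_le (hp x) (hp x) S) fun g => ?_,
    M.conj_comm hp S, ?_⟩
  · calc p g * S * star (p g) * y = p g * (S * (star (p g) * y * p g)) * star (p g) := by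
          simp only [mul_assoc, (hp g).2, mul_one]
      _ = _ := by
          rw [hS _ (hY g y hy)]
          simp only [← mul_assoc, (hp g).2, one_mul]
  · rw [norm_sub_rev]
    refine M.norm_sub_le fun g => ?_
    have : p g * S * star (p g) - X = p g * (S - X) * star (p g) := by
      rw [mul_sub, sub_mul, ← hX, mul_assoc X, (hp g).2, mul_one]
    rw [this, norm_sub_rev]
    exact am_conj_le (hp g) (hp g) _

theorem intertw (h : Am G) {p θ : G →* (K →L[ℂ] K)} (hp : ∀ g, p g ∈ unitary (K →L[ℂ] K))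
    (hθ : ∀ g, θ g ∈ unitary (K →L[ℂ] K)) {η : ℝ} (h1 : ∀ g, ‖p g - θ g‖ ≤ η) (h2 : 4 * η ≤ 1) :
    ∃ w ∈ unitary (K →L[ℂ] K), ‖w - 1‖ ≤ 10 * η ∧ (∀ g, p g * w = w * θ g) ∧
      ∀ T, (∀ g, T * p g = p g * T) → (∀ g, T * θ g = θ g * T) → T * w = w * T := by
  obtain ⟨M⟩ := exists_mean h K
  have hb := fun x => am_conj_le (hp x) (hθ x) 1
  have e1 := M.intw hp hθ 1
  have e2 := M.str hb
  have e3 : ‖M.m (fun x => p x * 1 * star (θ x)) - 1‖ ≤ η := M.norm_sub_le fun g => by
    have : p g * 1 * star (θ g) - 1 = 1 * (p g - θ g) * star (θ g) := by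
      rw [one_mul, sub_mul, mul_one, (hθ g).2]
    rw [this]
    exact (am_conj_le (one_mem _) (hθ g) _).trans (h1 g)
  have e4 : ∀ T, (∀ g, T * p g = p g * T) → (∀ g, T * θ g = θ g * T) →
      Commute (M.m fun x => p x * 1 * star (θ x)) T ∧
      Commute (star (M.m fun x => p x * 1 * star (θ x))) T := fun T t1 t2 => by
    refine ⟨M.comm hb fun g => ?_, e2 ▸ M.comm (fun g => (norm_star _).trans_le (hb g)) fun g => ?_⟩
    · rw [mul_one, star_hom hθ, mul_assoc, ← t2, ← mul_assoc, ← t1, mul_assoc]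
    · rw [mul_one, star_mul, star_star, star_hom hp, mul_assoc, ← t1, ← mul_assoc, ← t2, mul_assoc]
  generalize M.m (fun x => p x * 1 * star (θ x)) = S at e1 e3 e4
  obtain ⟨r, r1, r2, r3⟩ := polar_near e3 h2
  refine ⟨S * r, r1, r2, fun g => ?_, fun T t1 t2 => ?_⟩
  · have e5 := congrArg star (e1 g⁻¹)
    rw [star_mul, star_mul, star_hom hp, star_hom hθ, inv_inv] at e5
    rw [← mul_assoc, ← e1, mul_assoc, mul_assoc, r3]
    rw [← mul_assoc, e5, mul_assoc, ← e1, mul_assoc]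
  · obtain ⟨c1, c2⟩ := e4 T t1 t2
    rw [← mul_assoc, ← c1.eq, mul_assoc, r3 T (c2.mul_left c1).symm.eq, mul_assoc]

end Vale.Agent.P096
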