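import Vale.Agent.P096.G.SiteC

/-! One block of controlled unitaries. -/

namespace Vale.Agent.P096

open scoped InnerProductSpace Topology ComplexConjugate
open Filter
open Vale.Agent.P132 (FC BC ex pp qq rr EE chi Std PM MD)

universe u

lemma Blk.mul {E : Type*} [Ring E] {P U V : E} (hP : P * P = P) (h : U * P = P * U) :
    (P + (1 - P) * U) * (P + (1 - P) * V) = P + (1 - P) * (U * V) := by
  have e1 : U * (1 - P) = (1 - P) * U := by rw [mul_sub, sub_mul, h, mul_one, one_mul]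
  have e2 : (1 - P) * P = 0 := by rw [sub_mul, hP, one_mul, sub_self]
  have e3 : P * (1 - P) = 0 := by rw [mul_sub, hP, mul_one, sub_self]
  have e4 : (1 - P) * (1 - P) = 1 - P := by rw [mul_sub (1 - P), e2, mul_one, sub_zero]
  rw [add_mul, mul_add, mul_add, hP, ← mul_assoc P, e3, mul_assoc _ U P, h, ← mul_assoc _ P, e2,
    mul_assoc _ U, ← mul_assoc U, e1, mul_assoc _ U, ← mul_assoc (1 - P), e4]
  simp

lemma Blk.star {E : Type*} [Ring E] [StarRing E] {P U : E} (hP : star P = P)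
    (h : star U * P = P * star U) : star (P + (1 - P) * U) = P + (1 - P) * star U := by
  rw [star_add, star_mul, star_sub, star_one, hP, mul_sub, sub_mul, h, mul_one, one_mul]

lemma Blk.unit {E : Type*} [Ring E] [StarRing E] {P U : E} (hP : IsStarProjection P)
    (hU : U ∈ unitary E) (h : U * P = P * U) : P + (1 - P) * U ∈ unitary E := by
  have h' : Star.star U * P = P * Star.star U := by
    simpa only [star_mul, hP.isSelfAdjoint.star_eq] using congrArg Star.star h.symm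
  rw [Unitary.mem_iff, Blk.star hP.isSelfAdjoint h', Blk.mul hP.isIdempotentElem h,
    Blk.mul hP.isIdempotentElem h', hU.1, hU.2]
  simp

namespace Sites

variable {K K' : Type u} [NormedAddCommGroup K] [InnerProductSpace ℂ K]
  [CompleteSpace K] [NormedAddCommGroup K'] [InnerProductSpace ℂ K'] [CompleteSpace K']
  (S : Sites (fun _ => 1 / 2) K K') {A R : SA K} {Ω : K}

/-- Pairs of unitaries that do not touch the first sites. -/
structure Pr (R : SA K) (n : ℕ) (C C' : K' →L[ℂ] K') : Prop where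
  mem : C ∈ S.up R
  mem' : C' ∈ S.up' R
  un : C ∈ unitary (K' →L[ℂ] K')
  un' : C' ∈ unitary (K' →L[ℂ] K')
  cm : S.Cmn n C
  cm' : S.Cmn n C'

lemma blk_step (h : SP A R Ω) (n : ℕ) {u u' : K →L[ℂ] K} (hu : u ∈ A) (hu' : u' ∈ R)
    (h1 : u ∈ unitary (K →L[ℂ] K)) (h1' : u' ∈ unitary (K →L[ℂ] K)) : ∃ C C', S.Pr R n C C' ∧
      ‖C (C' (S.ι Ω)) - S.ι Ω‖ ≤ ‖u (u' Ω) - Ω‖ ∧ ∀ θ v, ‖S.QQ (n + 1) (star (C * C') θ) -
        S.ι ((2 : ℂ)⁻¹ • (v + u (u' v)))‖ ≤ ‖S.QQ n θ - S.ι v‖ := by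
  have he : IsStarProjection (eu 0 0) := ⟨by simp [IsIdempotentElem], SiteB.star_eu 0 0⟩
  have hP := he.map (S.L n)
  have hP' := he.map (S.R n)
  set P := S.L n (eu 0 0) with hPe
  set P' := S.R n (eu 0 0) with hPe'
  have e0 (v) : P' (S.ι v) = P (S.ι v) := by
    refine smul_right_injective _ (show ((√(wt (1 / 2) 0) : ℝ) : ℂ) ≠ 0 by simp [wt]) ?_
    exact (S.vac n 0 0 v).symm
  have e1 (x x' : K →L[ℂ] K) (v) : (P + (1 - P) * S.amp x) ((P' + (1 - P') * S.amp x') (S.ι v)) =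
      P (S.ι v) + (1 - P) (S.ι (x (x' v))) := by
    have : (P' + (1 - P') * S.amp x') (S.ι v) = (P + (1 - P) * S.amp x') (S.ι v) := by
      simp [S.amp_ι, e0]
    rw [this, ← ContinuousLinearMap.mul_apply, Blk.mul hP.isIdempotentElem (S.aL _ _ _)]
    simp [S.amp_ι]
  have e2 (v) : S.Q n (P (S.ι v)) = (2 : ℂ)⁻¹ • S.ι v := by
    have := congr($(S.Q_LR n (eu 0 0) 1) (S.ι v))
    simp only [map_one, mul_one, ContinuousLinearMap.mul_apply, S.Q_ι,
      ContinuousLinearMap.smul_apply] at this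
    rw [this, ← SiteB.sq (p := 1 / 2) (by norm_num) 0 |>.trans (by simp [wt] : _ = (2 : ℂ)⁻¹)]
    simp [Fin.sum_univ_two]
  have pr (x x' : K →L[ℂ] K) (hx : x ∈ A) (hx' : x' ∈ R) (h2 : x ∈ unitary (K →L[ℂ] K))
      (h2' : x' ∈ unitary (K →L[ℂ] K)) :
      S.Pr R n (P + (1 - P) * S.amp x) (P' + (1 - P') * S.amp x') := by
    have f : 1 - P = S.L n (1 - eu 0 0) := by rw [map_sub, map_one]
    have f' : 1 - P' = S.R n (1 - eu 0 0) := by rw [map_sub, map_one]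
    exact ⟨add_mem (S.L_mem _ _ _) (mul_mem (f ▸ S.L_mem _ _ _) (S.amp_mem h.toCP hx)),
      add_mem (S.R_mem _ _ _) (mul_mem (f' ▸ S.R_mem _ _ _) (S.amp_mem' hx')),
      Blk.unit hP (Unitary.map_mem S.amp h2) (S.aL _ _ _),
      Blk.unit hP' (Unitary.map_mem S.amp h2') (S.aR _ _ _),
      (S.cmn_L le_rfl _).add ((f ▸ S.cmn_L le_rfl _ : S.Cmn n (1 - P)).mul (S.cmn_amp _ _)),
      (S.cmn_R le_rfl _).add ((f' ▸ S.cmn_R le_rfl _ : S.Cmn n (1 - P')).mul (S.cmn_amp _ _))⟩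
  have p1 := pr _ _ hu hu' h1 h1'
  refine ⟨_, _, pr _ _ (star_mem hu) (star_mem hu') (Unitary.star_mem h1) (Unitary.star_mem h1'),
    ?_, fun θ v => ?_⟩
  · have e3 : P (S.ι Ω) + (1 - P) (S.ι (star u (star u' Ω))) - S.ι Ω =
        (1 - P) (S.ι (star u (star u' (Ω - u (u' Ω))))) := by
      rw [h.app hu hu', map_sub (star u'), ← ContinuousLinearMap.mul_apply (star u') u', h1'.1,
        map_sub (star u), ContinuousLinearMap.one_apply, ← ContinuousLinearMap.mul_apply (star u) u,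
        h1.1]
      simp
      abel
    rw [e1, e3]
    refine ((1 - P).le_of_opNorm_le (IsStarProjection.norm_le _ hP.one_sub) _).trans_eq ?_
    rw [one_mul, S.norm_ι, norm_unit_apply (Unitary.star_mem h1),
      norm_unit_apply (Unitary.star_mem h1'), norm_sub_rev]
  · rw [← (S.cp_up R).cm _ (add_mem (S.L_mem _ _ _) (mul_mem (sub_mem (one_mem _) (S.L_mem _ _ _))
      (S.amp_mem h.toCP (star_mem hu)))) _ (add_mem (S.R_mem _ _ _) (mul_mem (sub_mem (one_mem _)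
      (S.R_mem _ _ _)) (S.amp_mem' (star_mem hu')))) |>.symm, star_mul,
      Blk.star hP.isSelfAdjoint (by rw [← map_star]; exact S.aL _ _ _),
      Blk.star hP'.isSelfAdjoint (by rw [← map_star]; exact S.aR _ _ _), ← map_star, ← map_star,
      star_star, star_star]
    set C := (P + (1 - P) * S.amp u) * (P' + (1 - P') * S.amp u') with hC
    have e4 : S.ι ((2 : ℂ)⁻¹ • (v + u (u' v))) = S.Q n (C (S.ι v)) := by
      rw [hC, ContinuousLinearMap.mul_apply, e1]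
      simp only [map_add, map_smul, ContinuousLinearMap.sub_apply, map_sub, e2, S.Q_ι,
        ContinuousLinearMap.one_apply]
      module
    have e5 : S.QQ (n + 1) (C θ) = S.Q n (C (S.QQ n θ)) := by
      have e6 := ((S.cmn_Q (le_refl n)).mul (p1.cm.mul p1.cm')).QQ
      exact congr($e6 θ).symm
    rw [e4, e5, ← map_sub, ← map_sub]
    refine ((S.Q n).le_of_opNorm_le (IsStarProjection.norm_le _ (S.Q_proj n)) _).trans_eq ?_
    rw [one_mul, norm_unit_apply (mul_mem p1.un p1.un')]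

lemma Pr.mul {S : Sites (fun _ => 1 / 2) K K'} {n : ℕ} {C C' D D' : K' →L[ℂ] K'}
    (h : S.Pr R n C C') (h' : S.Pr R n D D') : S.Pr R n (C * D) (C' * D') :=
  ⟨mul_mem h.mem h'.mem, mul_mem h.mem' h'.mem', mul_mem h.un h'.un, mul_mem h.un' h'.un',
    h.cm.mul h'.cm, h.cm'.mul h'.cm'⟩

lemma swap {C' D : K' →L[ℂ] K'} (C D' : K' →L[ℂ] K') (h : C' ∈ S.up' R) (h' : D ∈ S.up R) :
    C * D * (C' * D') = C * C' * (D * D') := by
  rw [mul_assoc, ← mul_assoc D, (S.cp_up R).cm _ h' _ h, mul_assoc, mul_assoc]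

lemma blk_ind (h : SP A R Ω) (hc : Ctr A R Ω) (n : ℕ) (θ : K') (v : K) {r : ℝ} (hr : 0 < r)
    (hv : ‖v‖ ≤ r) (k : ℕ) : ∀ η > 0, ∃ C C', S.Pr R n C C' ∧ ‖C (C' (S.ι Ω)) - S.ι Ω‖ ≤ η ∧
      ∃ v', ∃ z ∈ A, z ∈ R ∧ ‖v' - z Ω‖ ≤ (9 / 10) ^ k * r ∧
        ‖S.QQ (n + k) (star (C * C') θ) - S.ι v'‖ ≤ ‖S.QQ n θ - S.ι v‖ := by
  induction k with
  | zero =>
    exact fun η hη => ⟨1, 1, ⟨one_mem _, one_mem _, one_mem _, one_mem _, fun _ _ _ => by simp,
      fun _ _ _ => by simp⟩, by simpa using hη.le, v, 0, zero_mem _, zero_mem _, by simpa using hv,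
      by simp⟩
  | succ k ih =>
    intro η hη
    obtain ⟨C, C', p1, n1, v', z, hz, hz', n2, n3⟩ := ih _ (half_pos hη)
    obtain ⟨u, hu, u', hu', z', g1, g2, g3, g4, g5, g6⟩ :=
      hc v' z _ _ hz hz' (by positivity) (half_pos hη) n2
    obtain ⟨D, D', p2, n4, n5⟩ := S.blk_step h (n + k) hu hu' g3 g4
    refine ⟨C * D, C' * D', p1.mul ⟨p2.mem, p2.mem', p2.un, p2.un', p2.cm.mono le_self_add,
      p2.cm'.mono le_self_add⟩, ?_, _, z', g1, g2, g6.trans_eq (by ring), ?_⟩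
    · have e : (C * D) ((C' * D') (S.ι Ω)) - S.ι Ω =
          (C * C') (D (D' (S.ι Ω)) - S.ι Ω) + (C (C' (S.ι Ω)) - S.ι Ω) := by
        rw [← ContinuousLinearMap.mul_apply, S.swap C D' p1.mem' p2.mem]
        simp
      rw [e]
      refine (norm_add_le _ _).trans ?_
      rw [norm_unit_apply (mul_mem p1.un p1.un')]
      linarith
    · rw [S.swap C D' p1.mem' p2.mem, star_mul]
      exact (n5 _ _).trans n3

theorem blk (h : SP A R Ω) (hc : Ctr A R Ω) (n : ℕ) (ζ : K') {r η : ℝ} (hr : 0 < r) (hη : 0 < η) :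
    ∃ n' > n, ∃ C ∈ S.up R, ∃ C' ∈ S.up' R, ∃ z ∈ A, z ∈ R ∧ C ∈ unitary (K' →L[ℂ] K') ∧
      C' ∈ unitary (K' →L[ℂ] K') ∧ S.Cmn n C ∧ S.Cmn n C' ∧ ‖C (C' (S.ι Ω)) - S.ι Ω‖ ≤ η ∧
      ‖S.QQ n' (star (C * C') ζ) - S.ι (z Ω)‖ ≤ r := by
  obtain ⟨n₀, v, h0⟩ := S.lim ζ (half_pos hr)
  have h1 : 0 < ‖v‖ + 1 := by positivity
  obtain ⟨k, hk⟩ := exists_pow_lt_of_lt_one (div_pos (half_pos hr) h1)
    (by norm_num : (9 / 10 : ℝ) < 1)
  obtain ⟨C, C', p1, n1, v', z, hz, hz', n2, n3⟩ :=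
    S.blk_ind h hc (n₀ + n + 1) ζ v h1 (by linarith) k η hη
  refine ⟨n₀ + n + 1 + k, by omega, C, p1.mem, C', p1.mem', z, hz, hz', p1.un, p1.un',
    p1.cm.mono (by omega), p1.cm'.mono (by omega), n1, ?_⟩
  have e := norm_add_le (S.QQ (n₀ + n + 1 + k) (star (C * C') ζ) - S.ι v') (S.ι (v' - z Ω))
  rw [map_sub, sub_add_sub_cancel, ← map_sub, S.norm_ι] at e
  rw [lt_div_iff₀ h1] at hk
  linarith [h0 (n₀ + n + 1) (by omega)]

end Sites

end Vale.Agent.P096
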