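import Vale.Agent.P096.G.L2
import Mathlib.Analysis.SpecialFunctions.ContinuousFunctionalCalculus.ExpLog.Basic
import Mathlib.Analysis.CStarAlgebra.ContinuousFunctionalCalculus.Commute

/-! A finite algebra built from the modular group. -/

namespace Vale.Agent.P096

open scoped InnerProductSpace Topology ComplexConjugate
open Filter NormedSpace
open Vale.Agent.P132 (FC BC ex pp qq rr EE chi Std PM MD)

universe u

namespace Ca

variable {E : Type*} [CStarAlgebra E] {a b x y : E}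

lemma spec_le {z : ℂ} (h : z ∈ spectrum ℂ a) : ‖z‖ ≤ ‖a‖ := by
  rcases subsingleton_or_nontrivial E with _ | _
  · simp at h
  · exact spectrum.norm_le_norm_of_mem h

lemma exp_add (h : Commute x y) : exp (x + y) = exp x * exp y :=
  let _ : NormedAlgebra ℚ E := .restrictScalars ℚ ℂ E
  exp_add_of_commute h

lemma semi {T : E} (h : T * a = b * T) (c : ℂ) : T * exp (c • a) = exp (c • b) * T :=
  let _ : NormedAlgebra ℚ E := .restrictScalars ℚ ℂ E
  SemiconjBy.exp_right (x := T) (a := c • a) (b := c • b)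
    (by rw [SemiconjBy, mul_smul_comm, h, smul_mul_assoc])

lemma exp_add' (a : E) (c d : ℂ) : exp ((c + d) • a) = exp (c • a) * exp (d • a) := by
  rw [add_smul, exp_add (((Commute.refl a).smul_left c).smul_right d)]

lemma cfc_exp (ha : IsSelfAdjoint a) (c : ℂ) {F : ℂ → ℂ}
    (h : ∀ x : ℝ, F x = Complex.exp (c * x)) : cfc F a = exp (c • a) := by
  have := ha.isStarNormal
  rw [← CFC.complex_exp_eq_normedSpace_exp (p := IsStarNormal), ← cfc_comp_const_mul c _ a]
  exact cfc_congr fun z hz => by rw [ha.mem_spectrum_eq_re hz, h]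

/-- The calculus for functions on the line. -/
noncomputable def cf (F : ℝ → ℂ) (a : E) : E := cfc (fun z : ℂ => F z.re) a

section

variable {F G : ℝ → ℂ} (ha : IsSelfAdjoint a)
include ha

lemma cf_add (hF : Continuous F) (hG : Continuous G) :
    cf (fun s => F s + G s) a = cf F a + cf G a := cfc_add a _ _ (by fun_prop) (by fun_prop)

lemma cf_mul (hF : Continuous F) (hG : Continuous G) :
    cf (fun s => F s * G s) a = cf F a * cf G a := cfc_mul _ _ a (by fun_prop) (by fun_prop)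

lemma cf_const (c : ℂ) : cf (fun _ => c) a = c • 1 := by
  have := ha.isStarNormal
  rw [cf, cfc_const c a, Algebra.algebraMap_eq_smul_one]

lemma cf_comm (h : x * a = a * x) (F : ℝ → ℂ) : x * cf F a = cf F a * x :=
  (ha.commute_cfc (show Commute a x from h.symm) _).eq.symm

lemma cf_exp (c : ℂ) (h : ∀ x : ℝ, F x = Complex.exp (c * x)) : cf F a = exp (c • a) :=
  cfc_exp ha c fun x => by simpa using h x

omit ha in
lemma cf_near (hF : Continuous F) (hG : Continuous G) {δ : ℝ} (hδ : 0 ≤ δ)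
    (h : ∀ s, |s| ≤ ‖a‖ → ‖F s - G s‖ ≤ δ) : ‖cf F a - cf G a‖ ≤ δ := by
  rw [cf, cf, ← cfc_sub _ _ a (by fun_prop) (by fun_prop)]
  exact norm_cfc_le hδ fun z hz => h _ ((Complex.abs_re_le_norm z).trans (spec_le hz))

end

/-- The two halves of the polar form. -/
lemma exp_arccos (ha : IsSelfAdjoint a) (h : ∀ x ∈ spectrum ℂ a, ‖x‖ ≤ 1) (c : ℝ) (hc : c ^ 2 = 1) :
    exp ((Complex.I * c) • cfc (fun z : ℂ => (Real.arccos z.re : ℂ)) a) =
      a + (Complex.I * c) • cfc (fun z : ℂ => (√(1 - z.re ^ 2) : ℂ)) a := by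
  have := ha.isStarNormal
  rw [← cfc_smul (Complex.I * c) _ a, ← cfc_smul (Complex.I * c) _ a,
    ← CFC.complex_exp_eq_normedSpace_exp (p := IsStarNormal), ← cfc_comp' _ _ a]
  conv_rhs => enter [1]; rw [← cfc_id' ℂ a]
  rw [← cfc_add a _ _]
  refine cfc_congr fun z hz => ?_
  have h1 := abs_le.1 ((Complex.abs_re_le_norm z).trans (h z hz))
  have h2 := Real.cos_arccos h1.1 h1.2
  have h3 := Real.sin_arccos z.re
  rw [smul_eq_mul, smul_eq_mul, mul_assoc, mul_comm Complex.I, Complex.exp_mul_I, ← h3]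
  conv_rhs => enter [1]; rw [ha.mem_spectrum_eq_re hz, ← h2]
  rcases sq_eq_one_iff.1 hc with rfl | rfl <;> simp [mul_comm]

end Ca

open Ca

variable {K : Type*} [NormedAddCommGroup K] [InnerProductSpace ℂ K] [CompleteSpace K]

/-- The bilateral shift. -/
noncomputable def shf (K : Type*) [NormedAddCommGroup K] [InnerProductSpace ℂ K] :
    L2 ℤ K →L[ℂ] L2 ℤ K := prm (Equiv.subRight 1)

/-- A logarithm of a unitary in its bicommutant. -/
structure Lg (s a : K →L[ℂ] K) : Prop where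
  sa : IsSelfAdjoint a
  exp : NormedSpace.exp (Complex.I • a) = s
  comm : ∀ T, T * s = s * T → T * star s = star s * T → T * a = a * T

theorem exists_log {s : K →L[ℂ] K} (hs : s ∈ unitary (K →L[ℂ] K)) : ∃ a, Lg s a := by
  set c := (2⁻¹ : ℂ) • (s + star s) with hc
  set d := (2⁻¹ * Complex.I : ℂ) • (star s - s) with hd
  have c1 : IsSelfAdjoint c := by simp [hc, IsSelfAdjoint, add_comm]
  have d1 : star d = d := by
    rw [hd, star_smul, star_sub, star_star, ← neg_sub, smul_neg, ← neg_smul]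
    simp
  have := c1.isStarNormal
  have c2 : ∀ x ∈ spectrum ℂ c, ‖x‖ ≤ 1 := fun x hx => by
    refine (spec_le hx).trans ?_
    rw [hc, norm_smul, norm_inv, Complex.norm_two, inv_mul_le_iff₀ two_pos]
    linarith [norm_add_le s (star s), norm_unit_le hs, norm_star s]
  set θ := cfc (fun z : ℂ => (Real.arccos z.re : ℂ)) c with hθ
  set m := cfc (fun z : ℂ => (√(1 - z.re ^ 2) : ℂ)) c with hm
  have sa : ∀ f : ℂ → ℝ, star (cfc (fun z => (f z : ℂ)) c) = cfc (fun z => (f z : ℂ)) c :=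
    fun f => by rw [← cfc_star]; simp
  have m2 : m * m = d * d := by
    have : d * d = 1 - c * c := by
      simp only [hc, hd, smul_mul_smul_comm, mul_add, add_mul, mul_sub, sub_mul, hs.1, hs.2]
      match_scalars <;> ring_nf <;> simp <;> norm_num
    rw [this, hm, ← cfc_mul _ _ c, ← cfc_one ℂ c]
    conv_rhs => enter [2]; rw [← cfc_id' ℂ c, ← cfc_mul _ _ c]
    rw [← cfc_sub _ _ c]
    refine cfc_congr fun z hz => ?_
    have h1 := (Complex.abs_re_le_norm z).trans (c2 z hz)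
    rw [← Complex.ofReal_mul, Real.mul_self_sqrt (by nlinarith [abs_le.1 h1])]
    conv_rhs => rw [c1.mem_spectrum_eq_re hz]
    simp [sq]
  have k : ∀ T, T * s = s * T → T * star s = star s * T →
      T * d = d * T ∧ T * m = m * T ∧ T * θ = θ * T := fun T h1 h2 => by
    have : Commute c T := by simp only [Commute, SemiconjBy, hc, smul_mul_assoc, mul_smul_comm,
      add_mul, mul_add, h1, h2]
    exact ⟨by simp only [hd, smul_mul_assoc, mul_smul_comm, sub_mul, mul_sub, h1, h2],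
      (c1.commute_cfc this _).eq.symm, (c1.commute_cfc this _).eq.symm⟩
  have kd := k d (by simp only [hd, smul_mul_assoc, mul_smul_comm, sub_mul, mul_sub, hs.1, hs.2])
    (by simp only [hd, smul_mul_assoc, mul_smul_comm, sub_mul, mul_sub, hs.1, hs.2])
  haveI : CompleteSpace (m - d).ker := (m - d).isClosed_ker.completeSpace_coe
  set e := (m - d).ker.starProjection with he
  have e1 : IsStarProjection e := isStarProjection_starProjection
  have k2 : ∀ T, T * s = s * T → T * star s = star s * T → e * T = T * e := fun T h1 h2 => by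
    have k3 : ∀ T, T * s = s * T → T * star s = star s * T → ∀ v ∈ (m - d).ker,
        T v ∈ (m - d).ker := fun T h1 h2 v hv => by
      change ((m - d) * T) v = 0
      rw [sub_mul, ← (k T h1 h2).1, ← (k T h1 h2).2.1, ← mul_sub]
      exact (congrArg T hv).trans (map_zero T)
    exact Fn.proj_comm (k3 T h1 h2) (k3 _ (by simpa using (congrArg star h2).symm)
      (by simpa using (congrArg star h1).symm))
  have e2 : m * e = d * e := sub_eq_zero.1 (by
    rw [← sub_mul]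
    exact ContinuousLinearMap.ext fun v => (m - d).ker.starProjection_apply_mem v)
  have e3 : e * (m + d) = m + d := ContinuousLinearMap.ext fun v =>
    Submodule.starProjection_eq_self_iff.2 (show ((m - d) * (m + d)) v = 0 by
      rw [sub_mul, mul_add, mul_add, m2, kd.2.1, add_comm, sub_self]; rfl)
  have e4 : (m + d) * e = m + d := by
    simpa only [star_mul, star_add, d1, hm, sa, e1.2.star_eq] using congrArg star e3
  have e5 : e * θ = θ * e := (k e (k2 s rfl (hs.2.trans hs.1.symm))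
    (k2 _ (hs.1.trans hs.2.symm) rfl)).2.2
  have e6 := e1.1.eq
  refine ⟨(e + e - 1) * θ, ?_, ?_, fun T h1 h2 => ?_⟩
  · rw [IsSelfAdjoint, star_mul, hθ, sa, ← hθ]
    simp only [star_sub, star_add, star_one, e1.2.star_eq, mul_sub, sub_mul, mul_add, add_mul, e5,
      mul_one, one_mul]
  · have a1 := semi (T := e) (a := (e + e - 1) * θ) (b := θ) (by
      rw [← mul_assoc, mul_sub, mul_add, e6, mul_one, add_sub_cancel_right, e5]) Complex.I
    have a2 := semi (T := 1 - e) (a := (e + e - 1) * θ) (b := -θ) (by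
      rw [← mul_assoc, mul_sub, mul_add, sub_mul 1 e e, e6, one_mul, sub_self, mul_one, add_zero,
        zero_sub, neg_mul, neg_mul, sub_mul, mul_sub, e5, one_mul, mul_one]) Complex.I
    have a3 := exp_arccos c1 c2 1 (by norm_num)
    have a4 := exp_arccos c1 c2 (-1) (by norm_num)
    simp only [Complex.ofReal_neg, Complex.ofReal_one, mul_neg, mul_one, neg_smul, ← hθ,
      ← hm] at a3 a4
    rw [smul_neg, a4] at a2
    rw [a3] at a1
    have a5 : m = d * e + d * e - d := by rw [eq_sub_iff_add_eq, ← e4, add_mul, e2]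
    rw [sub_mul, one_mul, a1, sub_eq_iff_eq_add] at a2
    rw [a2]
    simp only [add_mul, mul_sub, mul_one, smul_mul_assoc, neg_mul, e2]
    rw [a5]
    calc _ = c + Complex.I • d := by module
      _ = s := by
        rw [hc, hd, smul_smul]
        match_scalars <;> ring_nf <;> simp <;> norm_num
  · rw [← mul_assoc, mul_sub, mul_add, ← k2 T h1 h2, mul_assoc, ← (k T h1 h2).2.2]
    simp only [sub_mul, add_mul, mul_assoc, one_mul, mul_one]

/-- The perturbed modular group. -/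
noncomputable def Ut (M : FC K) (a : L2 ℤ K →L[ℂ] L2 ℤ K) (τ t : ℝ) : L2 ℤ K →L[ℂ] L2 ℤ K :=
  ampL ℤ K (M.U t) * NormedSpace.exp ((((t / τ : ℝ) : ℂ) * Complex.I) • a)

/-- The fixed points in the amplified commutant of `Y`. -/
noncomputable def fxa (M : FC K) (a : L2 ℤ K →L[ℂ] L2 ℤ K) (τ : ℝ) (Y : SA K) : SA (L2 ℤ K) :=
  cz (ampL ℤ K '' (Y : Set (K →L[ℂ] K)) ∪ Set.range (Ut M a τ))

variable {M : FC K} {a : L2 ℤ K →L[ℂ] L2 ℤ K} {τ : ℝ}

lemma Ca.amp_prm {I : Type*} (T : K →L[ℂ] K) (σ : I ≃ I) :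
    ampL I K T * prm σ = prm σ * ampL I K T := L2.ext fun ξ i => by
  simp only [ContinuousLinearMap.mul_apply, ampL_apply, prm_apply]

lemma Lg.amp (ha : Lg (shf K) a) (T : K →L[ℂ] K) : ampL ℤ K T * a = a * ampL ℤ K T :=
  ha.comm _ (amp_prm _ _) (by rw [shf, star_prm, amp_prm])

lemma Lg.Ut_add (ha : Lg (shf K) a) (t t' : ℝ) :
    Ut M a τ (t + t') = Ut M a τ t * Ut M a τ t' := by
  rw [Ut, Ut, Ut, M.U_add, map_mul, add_div, Complex.ofReal_add, add_mul, exp_add', mul_assoc,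
    mul_assoc, ← mul_assoc (ampL ℤ K (M.U t')), semi (ha.amp _), mul_assoc]

lemma Ut_zero : Ut M a τ 0 = 1 := by simp [Ut, M.U_zero]

lemma Lg.star_Ut (ha : Lg (shf K) a) (t : ℝ) : star (Ut M a τ t) = Ut M a τ (-t) := by
  rw [Ut, Ut, star_mul, star_exp, ← map_star, M.star_U, semi (ha.amp _), star_smul, ha.sa.star_eq]
  simp [neg_div]

lemma Lg.Ut_τ (ha : Lg (shf K) a) (hτ : τ ≠ 0) : Ut M a τ τ = ampL ℤ K (M.U τ) * shf K := by
  rw [Ut, div_self hτ, Complex.ofReal_one, one_mul, ha.exp]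

lemma Lg.mem_fxa (ha : Lg (shf K) a) {Y : SA K} {X : L2 ℤ K →L[ℂ] L2 ℤ K} : X ∈ fxa M a τ Y ↔
    (∀ y ∈ Y, X * ampL ℤ K y = ampL ℤ K y * X) ∧ ∀ t, X * Ut M a τ t = Ut M a τ t * X := by
  refine mem_cz.trans ⟨fun h => ⟨fun y hy => (h _ (.inl ⟨y, hy, rfl⟩)).1,
    fun t => (h _ (.inr ⟨t, rfl⟩)).1⟩, ?_⟩
  rintro ⟨h1, h2⟩ _ (⟨y, hy, rfl⟩ | ⟨t, rfl⟩)
  · exact ⟨h1 y hy, map_star (ampL ℤ K) y ▸ h1 _ (star_mem hy)⟩
  · exact ⟨h2 t, by rw [ha.star_Ut]; exact h2 _⟩

lemma Ca.cov_mul {I : Type*} {M : FC K} {h : L2 I K →L[ℂ] L2 I K} {β : L2 I K}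
    (hβ : ∀ t : ℝ, ampL I K (M.U t) β = exp (((t : ℂ) * Complex.I) • h) β)
    {T : L2 I K →L[ℂ] L2 I K} (h1 : ∀ t, ampL I K (M.U t) * T = T * ampL I K (M.U t))
    (h2 : T * h = h * T) (t : ℝ) :
    ampL I K (M.U t) (T β) = exp (((t : ℂ) * Complex.I) • h) (T β) := by
  rw [← ContinuousLinearMap.mul_apply, h1, ContinuousLinearMap.mul_apply, hβ,
    ← ContinuousLinearMap.mul_apply, semi h2]
  rfl

lemma Ca.cov_trig {I : Type*} (M : FC K) {h : L2 I K →L[ℂ] L2 I K} (hh : IsSelfAdjoint h)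
    (hc : ∀ t, ampL I K (M.U t) * h = h * ampL I K (M.U t)) (j : I) {G : ℝ → ℂ}
    (hG : P132.Trig G) : ∀ β : L2 I K,
      (∀ t : ℝ, ampL I K (M.U t) β = exp (((t : ℂ) * Complex.I) • h) β) →
      M.fb G (β j) = cf G h β j := by
  induction hG with
  | ex t =>
    intro β hβ
    rw [cf_exp hh (t * Complex.I) fun x => by simp [ex, mul_right_comm], ← hβ, ampL_apply]
    rfl
  | const c => intro β _; rw [M.const, cf_const hh]; rfl
  | add a b h1 h2 =>
    intro β hβ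
    rw [M.add a.bc b.bc, cf_add hh a.bc.1 b.bc.1, ContinuousLinearMap.add_apply, h1 β hβ, h2 β hβ]
    rfl
  | mul a b h1 h2 =>
    intro β hβ
    rw [← M.mul_apply a.bc b.bc, cf_mul hh a.bc.1 b.bc.1, h2 β hβ,
      h1 _ (cov_mul hβ (fun t => cf_comm hh (hc t) _) (cf_comm hh rfl _).symm)]
    rfl

/-- Covariance passes to the functional calculus. -/
lemma cov {I : Type*} (M : FC K) {h : L2 I K →L[ℂ] L2 I K} (hh : IsSelfAdjoint h) {β : L2 I K}
    (hβ : ∀ t : ℝ, ampL I K (M.U t) β = NormedSpace.exp (((t : ℂ) * Complex.I) • h) β)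
    (hc : ∀ t, ampL I K (M.U t) * h = h * ampL I K (M.U t)) {F : ℝ → ℂ} (hF : BC F) (j : I) :
    M.fb F (β j) = cfc (fun z : ℂ => F z.re) h β j := by
  change _ = cf F h β j
  obtain ⟨C, hC⟩ := hF.2
  have C0 := (norm_nonneg _).trans (hC 0)
  refine eq_of_norm_sub_le_zero (le_of_forall_pos_le_add fun ε hε => ?_)
  have hp : 0 < 2 * C + 1 + 2 * ‖β‖ := by positivity
  set δ := min 1 (ε / (2 * C + 1 + 2 * ‖β‖))
  have hδ : 0 < δ := lt_min one_pos (by positivity)
  have d1 : δ ≤ 1 := min_le_left _ _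
  have d2 : δ * (2 * C + 1 + 2 * ‖β‖) ≤ ε := (le_div_iff₀ hp).1 (min_le_right _ _)
  obtain ⟨L₀, hL⟩ := M.chi_near (β j) hδ
  set L := max L₀ ‖h‖
  have L1 : ‖h‖ ≤ L := le_max_right _ _
  obtain ⟨G, hG, g1, g2⟩ := P132.exists_trig hF.1 hC
    (show 0 < L + 1 by linarith [norm_nonneg h]) hδ
  have a1 := M.norm_le ((hF.sub hG.bc).mul (P132.bc_chi L)) (C := δ) (fun s => by
    rcases lt_or_ge (L + 1) |s| with hs | hs
    · rw [P132.chi_supp hs, mul_zero, norm_zero]; exact hδ.le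
    · exact (norm_mul_le_of_le (g2 s hs) (P132.norm_chi L s)).trans_eq (mul_one _)) (β j)
  have a2 := M.norm_le (hF.sub hG.bc) (fun s => norm_sub_le_of_le (hC s) (g1 s))
    (β j - M.fb (chi L) (β j))
  rw [← M.mul_apply (hF.sub hG.bc) (P132.bc_chi L)] at a1
  have a3 := norm_add_le_of_le a1 (a2.trans (mul_le_mul_of_nonneg_left (hL L (le_max_left _ _))
    (by positivity)))
  rw [← map_add, add_sub_cancel, M.sub hF hG.bc, ContinuousLinearMap.sub_apply, cov_trig M hh hc j hG β hβ] at a3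
  have a4 := cf_near (a := h) hF.1 hG.bc.1 hδ.le fun s hs => g2 s (by linarith)
  have a5 := (lp.norm_apply_le_norm two_ne_zero _ j).trans (It.ap a4 (le_refl ‖β‖))
  rw [ContinuousLinearMap.sub_apply, lp.coeFn_sub, Pi.sub_apply] at a5
  have a6 := norm_sub_le_of_le a3 a5
  have a7 := mul_le_mul_of_nonneg_left (lp.norm_apply_le_norm two_ne_zero β j) hδ.le
  rw [sub_sub_sub_cancel_right] at a6
  nlinarith

namespace Ca

/-- Powers of the shift. -/
lemma comm_prm {X : L2 ℤ K →L[ℂ] L2 ℤ K} (h1 : X * shf K = shf K * X)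
    (h2 : X * star (shf K) = star (shf K) * X) (k : ℤ) :
    X * prm (Equiv.subRight k) = prm (Equiv.subRight k) * X := by
  induction k with
  | zero =>
    rw [show prm (Equiv.subRight (0 : ℤ)) = (1 : L2 ℤ K →L[ℂ] L2 ℤ K) from
      L2.ext fun ξ i => congrArg ξ (sub_zero i), mul_one, one_mul]
  | succ k ih =>
    rw [show prm (Equiv.subRight ((k : ℤ) + 1)) = prm (Equiv.subRight (k : ℤ)) * shf K from
      L2.ext fun ξ i => congrArg ξ (sub_add_eq_sub_sub i k 1), ← mul_assoc, ih, mul_assoc, h1,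
      mul_assoc]
  | pred k ih =>
    rw [show prm (Equiv.subRight (-(k : ℤ) - 1)) = prm (Equiv.subRight (-k : ℤ)) * star (shf K) by
      rw [shf, star_prm]
      exact L2.ext fun ξ i => congrArg ξ (show i - (-k - 1) = i - -k + 1 by ring), ← mul_assoc, ih,
      mul_assoc, h2, mul_assoc]

/-- The diagonal unitary. -/
noncomputable def TT (M : FC K) (τ : ℝ) : L2 ℤ K →L[ℂ] L2 ℤ K := dgL fun k : ℤ => M.U (k * τ)

lemma nU (M : FC K) (t : ℝ) : ‖M.U t‖ ≤ 1 :=
  ContinuousLinearMap.opNorm_le_bound _ zero_le_one fun v => by rw [M.norm_U, one_mul]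

lemma TT_apply (ξ : L2 ℤ K) (k : ℤ) : TT M τ ξ k = M.U (k * τ) (ξ k) :=
  dgL_apply (fun _ => nU M _) ξ k

lemma star_TT : star (TT M τ) = TT M (-τ) := by
  simp only [TT, star_dgL fun _ => nU M _, M.star_U, mul_neg]

lemma TT_neg : TT M (-τ) * TT M τ = 1 := L2.ext fun ξ i => by
  rw [ContinuousLinearMap.mul_apply, TT_apply, TT_apply, mul_neg, M.U_neg_U]
  rfl

lemma TT_neg' : TT M τ * TT M (-τ) = 1 := by simpa using TT_neg (M := M) (τ := -τ)

lemma TT_amp (t : ℝ) : ampL ℤ K (M.U t) * TT M τ = TT M τ * ampL ℤ K (M.U t) :=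
  L2.ext fun ξ i => by
    simp only [ContinuousLinearMap.mul_apply, TT_apply, ampL_apply]
    exact congr($(M.comm (P132.bc_ex _) (P132.bc_ex _)) _)

lemma TT_shf : TT M τ * shf K = ampL ℤ K (M.U τ) * shf K * TT M τ := L2.ext fun ξ i => by
  simp only [ContinuousLinearMap.mul_apply, TT_apply, ampL_apply, shf, prm_apply]
  rw [← ContinuousLinearMap.mul_apply, ← M.U_add]
  simp [sub_mul]

/-- Conjugating an operator that commutes with the twisted shift. -/
lemma toep {X : L2 ℤ K →L[ℂ] L2 ℤ K}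
    (h : X * (ampL ℤ K (M.U τ) * shf K) = ampL ℤ K (M.U τ) * shf K * X) :
    TT M (-τ) * X * TT M τ * shf K = shf K * (TT M (-τ) * X * TT M τ) := by
  have a1 : TT M (-τ) * (ampL ℤ K (M.U τ) * shf K) = shf K * TT M (-τ) := by
    rw [← mul_one (TT M (-τ) * _), ← TT_neg' (M := M) (τ := τ), mul_assoc, ← mul_assoc _ (TT M τ),
      ← TT_shf, ← mul_assoc, ← mul_assoc, TT_neg, one_mul]
  rw [mul_assoc, TT_shf, mul_assoc, ← mul_assoc X, h, ← mul_assoc, ← mul_assoc, a1]
  simp only [mul_assoc]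

variable {R : SA K} {X : L2 ℤ K →L[ℂ] L2 ℤ K}

lemma toep₂ (ha : Lg (shf K) a) (hτ : τ ≠ 0) (hX : X ∈ fxa M a τ R) :
    TT M (-τ) * X * TT M τ * shf K = shf K * (TT M (-τ) * X * TT M τ) ∧
    TT M (-τ) * X * TT M τ * star (shf K) = star (shf K) * (TT M (-τ) * X * TT M τ) := by
  have k : ∀ X ∈ fxa M a τ R, _ := fun X hX => toep (ha.Ut_τ hτ ▸ (ha.mem_fxa.1 hX).2 τ)
  refine ⟨k X hX, ?_⟩
  simpa only [star_mul, star_TT, neg_neg, star_star, mul_assoc] using
    (congrArg star (k _ (star_mem hX))).symm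

lemma ent_shift (ha : Lg (shf K) a) (hτ : τ ≠ 0) (hX : X ∈ fxa M a τ R) (j : ℤ) (v : K) :
    X (lp.single 2 j (M.U (j * τ) v)) 0 = M.U (j * τ) (X (lp.single 2 0 v) (-j)) := by
  have := congr($(comm_prm (toep₂ ha hτ hX).1 (toep₂ ha hτ hX).2 j) (lp.single 2 0 v) 0)
  simpa [prm_single, prm_apply, TT_apply, TT, dgL_single fun _ => nU M _, M.U_zero,
    dgL_apply fun _ => nU M _] using this

lemma a_mem (ha : Lg (shf K) a) : a ∈ fxa M a τ R := ha.mem_fxa.2 ⟨fun y _ => (ha.amp y).symm,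
  fun t => by rw [Ut, ← mul_assoc, ← ha.amp, mul_assoc, semi rfl, mul_assoc]⟩

lemma exp_mem (ha : Lg (shf K) a) (c : ℂ) : exp (c • a) ∈ fxa M a τ R :=
  mem_cz.2 fun _ hx => ⟨(semi (mem_cz.1 (a_mem ha) _ hx).1.symm c).symm,
    (semi (mem_cz.1 (a_mem ha) _ hx).2.symm c).symm⟩

/-- The conjugated generator. -/
noncomputable def bb (M : FC K) (a : L2 ℤ K →L[ℂ] L2 ℤ K) (τ : ℝ) := TT M τ * a * TT M (-τ)

lemma bb_comm (ha : Lg (shf K) a) (hτ : τ ≠ 0) (hX : X ∈ fxa M a τ R) :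
    X * bb M a τ = bb M a τ * X := by
  have := congrArg (fun Y => TT M τ * Y * TT M (-τ)) (ha.comm _ (toep₂ ha hτ hX).1 (toep₂ ha hτ hX).2)
  simp only [← mul_assoc, TT_neg', one_mul] at this
  rw [bb, ← mul_assoc, ← mul_assoc, this, mul_assoc _ (TT M τ), TT_neg', mul_one]

lemma bb_sa (ha : Lg (shf K) a) : star (bb M a τ) = bb M a τ := by
  simp only [bb, star_mul, star_TT, neg_neg, ha.sa.star_eq, mul_assoc]

lemma bb_amp (ha : Lg (shf K) a) (t : ℝ) :
    ampL ℤ K (M.U t) * bb M a τ = bb M a τ * ampL ℤ K (M.U t) := by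
  rw [bb, ← mul_assoc, ← mul_assoc, TT_amp, mul_assoc (TT M τ), ha.amp, mul_assoc, mul_assoc, TT_amp]
  simp only [mul_assoc]

variable {Ω : K}

lemma amp_exp (ha : Lg (shf K) a) (hΩ : ∀ t, M.U t Ω = Ω) (c : ℂ) (t : ℝ) :
    ampL ℤ K (M.U t) (exp (c • a) (lp.single 2 0 Ω)) = exp (c • a) (lp.single 2 0 Ω) := by
  rw [← ContinuousLinearMap.mul_apply, semi (ha.amp _), ContinuousLinearMap.mul_apply, ampL_single,
    hΩ]

lemma bb_exp (ha : Lg (shf K) a) (hΩ : ∀ t, M.U t Ω = Ω) (c : ℂ) :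
    exp (c • bb M a τ) (lp.single 2 0 Ω) = exp (c • a) (lp.single 2 0 Ω) := by
  have a1 := congr($(semi (T := TT M τ) (a := a) (b := bb M a τ)
    (by rw [bb, mul_assoc, TT_neg, mul_one]) c) (lp.single 2 0 Ω))
  rw [ContinuousLinearMap.mul_apply, ContinuousLinearMap.mul_apply, TT,
    dgL_single fun _ => nU M _, hΩ] at a1
  rw [← a1]
  refine lp.ext (funext fun j => ?_)
  rw [dgL_apply fun _ => nU M _, ← ampL_apply, amp_exp ha hΩ]

lemma exp_sub (ha : Lg (shf K) a) (hτ : τ ≠ 0) (c : ℂ) :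
    exp (c • (bb M a τ - a)) * exp (c • a) = exp (c • bb M a τ) := by
  have : Commute (bb M a τ - a) a :=
    Commute.sub_left (bb_comm (R := ⊥) ha hτ (a_mem ha)).symm (Commute.refl a)
  rw [← exp_add ((this.smul_left c).smul_right c), ← smul_add, sub_add_cancel]

lemma flow (ha : Lg (shf K) a) (hτ : τ ≠ 0) (hΩ : ∀ t, M.U t Ω = Ω) (hX : X ∈ fxa M a τ R) (t : ℝ) :
    ampL ℤ K (M.U t) (X (lp.single 2 0 Ω)) = exp (((t : ℂ) * Complex.I) •
      ((τ⁻¹ : ℝ) : ℂ) • (bb M a τ - a)) (X (lp.single 2 0 Ω)) := by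
  set c : ℂ := (t / τ : ℝ) * Complex.I with hc
  have a1 := congr($((ha.mem_fxa.1 hX).2 t) (lp.single 2 0 Ω))
  simp only [Ut, ContinuousLinearMap.mul_apply, ← hc, amp_exp ha hΩ] at a1
  rw [← bb_exp (τ := τ) ha hΩ, ← ContinuousLinearMap.mul_apply, semi (bb_comm ha hτ hX),
    ← ContinuousLinearMap.mul_apply (ampL ℤ K _), semi (ha.amp _), ← exp_sub ha hτ] at a1
  have a2 : exp (c • (bb M a τ - a)) * exp (c • a) = exp (c • a) * exp (c • (bb M a τ - a)) :=
    semi (semi (show a * (bb M a τ - a) = (bb M a τ - a) * a by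
      rw [mul_sub, sub_mul, bb_comm (R := ⊥) ha hτ (a_mem ha)]) c).symm c
  have a3 : exp (-c • a) * exp (c • a) = 1 := by rw [← exp_add']; simp
  have a4 := congrArg (fun v => exp (-c • a) v) a1
  simp only [a2, ← ContinuousLinearMap.mul_apply, ← mul_assoc, a3, one_mul] at a4
  rw [smul_smul, show t * Complex.I * (τ⁻¹ : ℝ) = c by rw [hc]; push_cast; ring]
  exact a4.symm

lemma key {A : SA K} (h : SP A R Ω) (M : Mod A R Ω) (ha : Lg (shf K) a) (hτ : τ ≠ 0)
    (hX : X ∈ fxa M.toFC a τ R) : ‖star X (lp.single 2 0 Ω)‖ =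
      ‖exp ((2⁻¹ : ℂ) • ((τ⁻¹ : ℝ) : ℂ) • (bb M.toFC a τ - a)) (X (lp.single 2 0 Ω))‖ := by
  set g := ((τ⁻¹ : ℝ) : ℂ) • (bb M.toFC a τ - a) with hg
  have g1 : IsSelfAdjoint g := by
    rw [IsSelfAdjoint, hg, star_smul, star_sub, bb_sa ha, ha.sa.star_eq, Complex.star_def,
      Complex.conj_ofReal]
  have g2 : ∀ t, ampL ℤ K (M.U t) * g = g * ampL ℤ K (M.U t) := fun t => by
    rw [hg, mul_smul_comm, smul_mul_assoc, mul_sub, sub_mul, bb_amp ha, ha.amp]
  have g3 := flow ha hτ M.U_Ω hX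
  have g4 : cf rr g = cf qq g * exp ((2⁻¹ : ℂ) • g) := by
    rw [← cf_exp g1 (F := EE) _ fun x => by simp [EE, div_eq_inv_mul],
      ← cf_mul g1 P132.bc_qq.1 P132.continuous_EE, ← funext P132.rr_eq]
  have k : ∀ v w : L2 ℤ K, (∀ j, ‖v j‖ = ‖w j‖) → ‖v‖ = ‖w‖ := fun v w e => by
    rw [lp.norm_eq_tsum_rpow (by norm_num), lp.norm_eq_tsum_rpow (by norm_num) w]
    simp only [e]
  rw [← norm_prm (Equiv.neg ℤ)]
  refine k _ _ fun j => ?_
  obtain ⟨γ, a1, a2⟩ := M.tr (entL X j 0) (h.cX _ fun y hy => entL_comm ((ha.mem_fxa.1 hX).1 y hy) _ _)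
  have a3 := cov M.toFC g1 (cov_mul g3 (fun t => semi (g2 t) (2⁻¹ : ℂ))
    (semi rfl _).symm) g2 P132.bc_qq j
  change _ = cf qq g _ j at a3
  rw [entL_apply, cov M.toFC g1 g3 g2 P132.bc_rr j] at a2
  change _ = cf rr g _ j at a2
  rw [g4, ContinuousLinearMap.mul_apply, ← a3, ← sub_eq_zero, ← map_sub] at a2
  rw [← sub_eq_zero.1 (M.inj P132.bc_qq P132.qq_ne a2), a1, star_entL, entL_apply, prm_apply]
  conv_rhs => rw [← M.U_Ω (j * τ), ent_shift ha hτ (star_mem hX), M.norm_U]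
  rfl

end Ca

theorem fxa_tr {A R : SA K} {Ω : K} (h : SP A R Ω) (M : Mod A R Ω) (ha : Lg (shf K) a)
    (hτ : 0 < τ) : ∃ ξ : L2 ℤ K, (∀ X ∈ fxa M.toFC a τ R, ‖star X ξ‖ = ‖X ξ‖) ∧
      ∀ X ∈ fxa M.toFC a τ R, X ξ = 0 → X = 0 := by
  set c : ℂ := 2⁻¹ * (τ⁻¹ : ℝ) with hc
  refine ⟨exp (c • a) (lp.single 2 0 Ω), fun X hX => ?_, fun X hX h0 => ?_⟩
  · have a1 := key h M ha hτ.ne' (mul_mem (exp_mem ha c) hX)
    have a2 : star (c • a) = c • a := by simp [hc, ha.sa.star_eq]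
    rw [star_mul, star_exp, a2, smul_smul, ← hc, ContinuousLinearMap.mul_apply,
      ContinuousLinearMap.mul_apply, ← ContinuousLinearMap.mul_apply (exp _), exp_sub ha hτ.ne',
      ← ContinuousLinearMap.mul_apply (exp _), ← semi (bb_comm ha hτ.ne' hX),
      ContinuousLinearMap.mul_apply, bb_exp ha M.U_Ω] at a1
    exact a1
  · have a1 := mul_mem hX (exp_mem ha c)
    set Y := X * exp (c • a) with hY
    have a2 : ∀ v, Y (lp.single 2 0 v) = 0 := fun v => std_ind h.dY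
      (p := fun v => Y (lp.single 2 0 v) = 0) (isClosed_eq (Y.continuous.comp
        (lp.singleContinuousLinearMap ℂ (fun _ : ℤ => K) 2 0).continuous) continuous_const)
      (fun y hy => by
        rw [← ampL_single, ← ContinuousLinearMap.mul_apply, (ha.mem_fxa.1 a1).1 y hy]
        exact (congrArg (ampL ℤ K y) h0).trans (map_zero _)) v
    have a3 : TT M.toFC (-τ) * Y * TT M.toFC τ = 0 := ContinuousLinearMap.ext fun ξ =>
      L2.mem_of_single (TT M.toFC (-τ) * Y * TT M.toFC τ).isClosed_ker (fun j v => by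
        have := congr($(comm_prm (toep₂ ha hτ.ne' a1).1 (toep₂ ha hτ.ne' a1).2 j) (lp.single 2 0 v))
        simpa [prm_single, TT, dgL_single fun _ => nU M.toFC _, a2] using this) ξ
    have a4 := congrArg (fun Z => TT M.toFC τ * Z * TT M.toFC (-τ) * exp (-c • a)) a3
    simp only [← mul_assoc, TT_neg', one_mul, mul_zero, zero_mul] at a4
    rw [mul_assoc _ (TT M.toFC τ), TT_neg', mul_one, hY, mul_assoc, ← exp_add'] at a4
    simpa using a4

end Vale.Agent.P096
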