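import Vale.Agent.P096.G.Defs

/-! Near inclusions after amplification. -/

namespace Vale.Agent.P096

open scoped InnerProductSpace Topology ComplexConjugate
open Filter
open Vale.Agent.P132 (FC BC ex pp qq rr EE chi Std PM MD)

universe u

variable {K : Type*} [NormedAddCommGroup K] [InnerProductSpace ℂ K] [CompleteSpace K]

theorem near_hom {K' : Type*} [NormedAddCommGroup K'] [InnerProductSpace ℂ K'] [CompleteSpace K']
    (π : (K →L[ℂ] K) →⋆ₐ[ℂ] (K' →L[ℂ] K')) {B : SA K} {R : Set (K →L[ℂ] K)} {δ : ℝ} (hδ : 0 ≤ δ)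
    (h : Near δ (B : Set (K →L[ℂ] K)) R) {X : K' →L[ℂ] K'} (hX : ∀ a ∈ R, X * π a = π a * X) :
    ∃ S, (∀ c ∈ B, S * π c = π c * S) ∧ ‖X - S‖ ≤ 2 * KD * δ * ‖X‖ := by
  have hc : IsClosed (B.topologicalClosure : Set (K →L[ℂ] K)) := B.isClosed_topologicalClosure
  have hπ : Continuous π := map_continuous π
  have key : ∀ a ∈ B, ‖X * π a - π a * X‖ ≤ 2 * δ * ‖X‖ * ‖a‖ := fun a ha => by
    obtain ⟨y, hy, e⟩ := h a ha
    have e1 : X * π a - π a * X = X * π (a - y) - π (a - y) * X := by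
      rw [map_sub, mul_sub, sub_mul, hX y hy]; abel
    have e0 := (NonUnitalStarAlgHom.norm_apply_le π (a - y)).trans e
    rw [e1]
    refine (norm_sub_le _ _).trans ?_
    have e2 := (norm_mul_le X _).trans (mul_le_mul_of_nonneg_left e0 (norm_nonneg X))
    have e3 := (norm_mul_le _ X).trans (mul_le_mul_of_nonneg_right e0 (norm_nonneg X))
    nlinarith
  obtain ⟨S, h1, h2⟩ := dk (π.comp B.topologicalClosure.subtype) X (ε := 2 * δ * ‖X‖)
    (by positivity) fun a =>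
    closure_minimal (t := {a | ‖X * π a - π a * X‖ ≤ 2 * δ * ‖X‖ * ‖a‖}) key
      (isClosed_le (by fun_prop) (by fun_prop)) a.2
  exact ⟨S, fun a ha => h1 ⟨a, B.le_topologicalClosure ha⟩, h2.trans_eq (by ring)⟩

omit [InnerProductSpace ℂ K] [CompleteSpace K] in
lemma Hom.nm_pw {ι : Type*} [Fintype ι] (v : Pw ι K) :
    nm (fun i => v i) = √(Fintype.card ι : ℝ)⁻¹ * ‖v‖ := nm_eq _

theorem cn_of_near {A R B : SA K} (hA : ∀ x ∈ A, ∀ a ∈ R, x * a = a * x) {δ : ℝ} (hδ : 0 ≤ δ)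
    (h : Near δ (B : Set (K →L[ℂ] K)) R) : CN (2 * KD * δ) A B := by
  intro ι _ _ x r hx hr hc
  classical
  let i0 : ι := Classical.arbitrary ι
  let X : Pw ι K →L[ℂ] Pw ι K := op K ι (Matrix.of fun i j => if j = i0 then x i else 0)
  have hX : ∀ v i, X v i = x i (v i0) := fun v i => by
    simp [X, op_apply, DFunLike.ite_apply]
  have h0 : 0 < √(Fintype.card ι : ℝ)⁻¹ := by
    have := Fintype.card_pos (α := ι)
    positivity
  have hn : √(Fintype.card ι : ℝ)⁻¹ * ‖X‖ ≤ r := by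
    rw [← le_div_iff₀' h0]
    refine X.opNorm_le_bound (by positivity) fun v => ?_
    rw [div_mul_eq_mul_div, le_div_iff₀' h0, ← Hom.nm_pw]
    simp only [hX]
    exact (hc _).trans (mul_le_mul_of_nonneg_left (PiLp.norm_apply_le v i0) hr)
  obtain ⟨S, h1, h2⟩ := near_hom (amp K ι) hδ h (X := X) fun a ha => by
    ext v i
    rw [ContinuousLinearMap.mul_apply, ContinuousLinearMap.mul_apply, hX, amp_apply, amp_apply, hX]
    exact congr($(hA _ (hx i) a ha) (v i0))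
  refine ⟨fun i => ent S i i0, fun i c hc => ContinuousLinearMap.ext fun v => ?_, fun γ => ?_⟩
  · have e : amp K ι c (PiLp.single 2 i0 v) = PiLp.single 2 i0 (c v) := by
      ext k
      rw [amp_apply]
      simp [PiLp.single_apply, apply_ite c]
    have := congr($(h1 c hc) (PiLp.single 2 i0 v) i)
    simpa only [ContinuousLinearMap.mul_apply, e, amp_apply, ent_apply] using this
  · have e : (fun i => (x i - ent S i i0) γ) = fun i => (X - S) (PiLp.single 2 i0 γ) i := by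
      funext i
      simp [hX, ent_apply]
    rw [e, Hom.nm_pw]
    have h3 := (X - S).le_of_opNorm_le h2 (PiLp.single 2 i0 γ)
    rw [PiLp.norm_single] at h3
    have h4 : 0 ≤ 2 * KD * δ := by have := one_le_KD; positivity
    calc _ ≤ √(Fintype.card ι : ℝ)⁻¹ * (2 * KD * δ * ‖X‖ * ‖γ‖) := by gcongr
      _ = 2 * KD * δ * (√(Fintype.card ι : ℝ)⁻¹ * ‖X‖) * ‖γ‖ := by ring
      _ ≤ _ := by gcongr

theorem CP.near {A R D B : SA K} (h : CP A R) (h' : CP D B) {δ : ℝ} (hδ : 0 ≤ δ)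
    (hn : Near δ (B : Set (K →L[ℂ] K)) R) : Near (2 * KD * δ) (A : Set (K →L[ℂ] K)) D := by
  intro x hx
  obtain ⟨y, hy, e⟩ := near_comm B hδ hn x fun a ha => (h.cm x hx a ha).symm
  exact ⟨y, h'.cX y fun c hc => (hy c hc).symm, e⟩

/-- The conjugate `w D w*`. -/
noncomputable def cjs (w : unitary (K →L[ℂ] K)) (D : SA K) : SA K :=
  D.comap (Unitary.conjStarAlgAut ℂ _ (star w) : (K →L[ℂ] K) →⋆ₐ[ℂ] (K →L[ℂ] K))

lemma mem_cjs {w : unitary (K →L[ℂ] K)} {D : SA K} {T : K →L[ℂ] K} :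
    T ∈ cjs w D ↔ star (w : K →L[ℂ] K) * T * w ∈ D := by
  simp [cjs, StarSubalgebra.mem_comap]

lemma Hom.back (w : unitary (K →L[ℂ] K)) (y : K →L[ℂ] K) :
    star (w : K →L[ℂ] K) * (w * y * star (w : K →L[ℂ] K)) * w = y := by
  simp only [mul_assoc, w.2.1, mul_one]
  rw [← mul_assoc, w.2.1, one_mul]

lemma Hom.forth (w : unitary (K →L[ℂ] K)) (y : K →L[ℂ] K) :
    w * (star (w : K →L[ℂ] K) * y * w) * star (w : K →L[ℂ] K) = y := by
  simp only [mul_assoc, w.2.2, mul_one]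
  rw [← mul_assoc, w.2.2, one_mul]

lemma Hom.mul (w : unitary (K →L[ℂ] K)) (x y : K →L[ℂ] K) :
    star (w : K →L[ℂ] K) * (x * y) * w =
      star (w : K →L[ℂ] K) * x * w * (star (w : K →L[ℂ] K) * y * w) := by
  simp only [mul_assoc]
  rw [← mul_assoc (w : K →L[ℂ] K) (star _), w.2.2, one_mul]

lemma Hom.cX {D B : SA K} (h : CP D B) (w : unitary (K →L[ℂ] K)) (T : K →L[ℂ] K)
    (hT : ∀ y ∈ cjs w B, T * y = y * T) : T ∈ cjs w D := mem_cjs.2 <| h.cX _ fun y hy => by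
  have := hT (w * y * star (w : K →L[ℂ] K)) (mem_cjs.2 (by rwa [Hom.back]))
  conv_lhs => rw [← Hom.back w y, ← Hom.mul, this, Hom.mul, Hom.back]

lemma CP.cjs {D B : SA K} (h : CP D B) (w : unitary (K →L[ℂ] K)) : CP (cjs w D) (cjs w B) where
  cm x hx y hy := by
    rw [← Hom.forth w (x * y), Hom.mul, h.cm _ (mem_cjs.1 hx) _ (mem_cjs.1 hy), ← Hom.mul,
      Hom.forth]
  cX := Hom.cX h w
  cY := Hom.cX h.symm w

lemma Hom.conj_le {w : K →L[ℂ] K} (hw : w ∈ unitary _) {η : ℝ} (h : ‖w - 1‖ ≤ η)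
    (y : K →L[ℂ] K) : ‖w * y * star w - y‖ ≤ 2 * η * ‖y‖ := by
  have e : w * y * star w - y = (w - 1) * y * star w + y * star (w - 1) := by
    rw [star_sub, star_one]; noncomm_ring
  have h0 : 0 ≤ η := (norm_nonneg _).trans h
  have h1 : ‖(w - 1) * y * star w‖ ≤ η * ‖y‖ * 1 := (norm_mul_le _ _).trans (mul_le_mul
    ((norm_mul_le _ _).trans (by gcongr)) (norm_unit_le (Unitary.star_mem hw)) (norm_nonneg _)
    (by positivity))
  have h2 : ‖y * star (w - 1)‖ ≤ ‖y‖ * η := (norm_mul_le _ _).trans (by rw [norm_star]; gcongr)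
  rw [e]
  exact (norm_add_le _ _).trans (by linarith)

lemma Hom.near1 {A D : SA K} {δ η : ℝ} (h : Near δ (A : Set (K →L[ℂ] K)) D) (hδ1 : δ ≤ 1)
    {w : unitary (K →L[ℂ] K)} (hw : ‖(w : K →L[ℂ] K) - 1‖ ≤ η) :
    Near (δ + 4 * η) (A : Set (K →L[ℂ] K)) (cjs w D) := fun x hx => by
  obtain ⟨y, hy, e⟩ := h x hx
  refine ⟨w * y * star (w : K →L[ℂ] K), mem_cjs.2 (by rwa [Hom.back]), ?_⟩
  have h0 : 0 ≤ η := (norm_nonneg _).trans hw
  have h1 := Hom.conj_le w.2 hw y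
  have h2 : ‖y‖ ≤ 2 * ‖x‖ := by
    have := norm_sub_le x (x - y)
    rw [sub_sub_cancel] at this
    nlinarith [norm_nonneg x]
  have h3 := norm_sub_le (x - y) (w * y * star (w : K →L[ℂ] K) - y)
  rw [sub_sub_sub_cancel_right] at h3
  nlinarith

lemma Hom.star_le {η : ℝ} {w : unitary (K →L[ℂ] K)} (hw : ‖(w : K →L[ℂ] K) - 1‖ ≤ η)
    (x : K →L[ℂ] K) : ‖star (w : K →L[ℂ] K) * x * w - x‖ ≤ 2 * η * ‖x‖ := by
  have := Hom.conj_le (Unitary.star_mem w.2) (η := η)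
    (by rwa [← star_one, ← star_sub, norm_star]) x
  rwa [star_star] at this

lemma Hom.norm_conj (w : unitary (K →L[ℂ] K)) (x : K →L[ℂ] K) :
    ‖star (w : K →L[ℂ] K) * x * w‖ = ‖x‖ := by
  rw [CStarRing.norm_mul_mem_unitary _ w.2, CStarRing.norm_mem_unitary_mul _ (Unitary.star_mem w.2)]

lemma Hom.near2 {A D : SA K} {δ η : ℝ} (h : Near δ (D : Set (K →L[ℂ] K)) A)
    {w : unitary (K →L[ℂ] K)} (hw : ‖(w : K →L[ℂ] K) - 1‖ ≤ η) :
    Near (δ + 4 * η) (cjs w D : Set (K →L[ℂ] K)) A := fun x hx => by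
  obtain ⟨y, hy, e⟩ := h _ (mem_cjs.1 hx)
  refine ⟨y, hy, ?_⟩
  have h0 : 0 ≤ η := (norm_nonneg _).trans hw
  have h1 := Hom.star_le hw x
  rw [Hom.norm_conj] at e
  have h3 := norm_sub_le (star (w : K →L[ℂ] K) * x * w - y) (star (w : K →L[ℂ] K) * x * w - x)
  rw [sub_sub_sub_cancel_left] at h3
  nlinarith [norm_nonneg x]

lemma N4.cjs {A R D B : SA K} {δ η : ℝ} (h : N4 δ A R D B) (hδ : 0 ≤ δ) (hδ1 : δ ≤ 1)
    {w : unitary (K →L[ℂ] K)} (hw : ‖(w : K →L[ℂ] K) - 1‖ ≤ η) :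
    N4 (δ + 4 * η) A R (cjs w D) (cjs w B) :=
  have _ := hδ
  ⟨Hom.near1 h.ad hδ1 hw, Hom.near2 h.da hw, Hom.near1 h.rb hδ1 hw, Hom.near2 h.br hw⟩

lemma Lift.of_cjs {A D : SA K} {ε η : ℝ} {w : unitary (K →L[ℂ] K)} (h : Lift ε A (cjs w D))
    (hw : ‖(w : K →L[ℂ] K) - 1‖ ≤ η) : Lift (ε + 2 * η) A D := by
  obtain ⟨ψ, hψ⟩ := h
  let c : D →ₗ[ℂ] cjs w D :=
    { toFun := fun n => ⟨w * n * star (w : K →L[ℂ] K), mem_cjs.2 (by rw [Hom.back]; exact n.2)⟩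
      map_add' := fun _ _ => Subtype.ext (by simp [mul_add, add_mul])
      map_smul' := fun _ _ => Subtype.ext (by simp) }
  refine ⟨ψ ∘ₗ c, fun n => ⟨(hψ _).1, ?_⟩⟩
  have h1 := (hψ (c n)).2
  have h2 : ‖c n‖ = ‖n‖ := by
    have := Hom.norm_conj w (c n : K →L[ℂ] K)
    rw [show (c n : K →L[ℂ] K) = w * n * star (w : K →L[ℂ] K) from rfl, Hom.back] at this
    exact this.symm
  have h3 : ‖(c n : K →L[ℂ] K) - n‖ ≤ 2 * η * ‖n‖ := Hom.conj_le w.2 hw n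
  have h4 := norm_add_le (ψ (c n) - c n) ((c n : K →L[ℂ] K) - n)
  rw [sub_add_sub_cancel] at h4
  rw [h2] at h1
  show ‖ψ (c n) - n‖ ≤ _
  linarith

end Vale.Agent.P096
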