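import Vale.Agent.P096.G.Defs
import Mathlib.Analysis.Real.Pi.Bounds

/-! Spectral windows. -/

namespace Vale.Agent.P096

open scoped InnerProductSpace Topology ComplexConjugate
open Filter
open Vale.Agent.P132 (FC BC ex pp qq rr EE chi Std PM MD bc_ex bc_chi bc_pp)

universe u

lemma unif_cpt {ι X : Type*} [PseudoMetricSpace X] {l : Filter ι} {f : ι → X → ℝ} {g : X → ℝ}
    {C : ℝ} (hf : ∀ i x y, f i x ≤ f i y + C * dist x y) (hg : Continuous g) {s : Set X}
    (hs : IsCompact s) (h : ∀ x ∈ s, ∀ ε > 0, ∀ᶠ i in l, f i x ≤ g x + ε) {ε : ℝ} (hε : 0 < ε) :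
    ∀ᶠ i in l, ∀ x ∈ s, f i x ≤ g x + ε := by
  have := hs.mem_prod_nhdsSet_of_forall (l := l) (s := {z | f z.1 z.2 ≤ g z.2 + ε}) fun x hx => by
    have h1 : ∀ᶠ y in 𝓝 x, C * dist y x + g x - g y < ε / 2 :=
      (Continuous.tendsto (by fun_prop) x).eventually_lt_const (by simpa using hε)
    exact ((h x hx _ (half_pos hε)).prod_mk h1).mono fun z hz => by
      have := hf z.1 z.2 x
      change f z.1 z.2 ≤ _
      linarith [hz.1, hz.2]
  exact (Eventually.curry this).mono fun i hi => hi.self_of_nhdsSet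

section

variable {K : Type*} [NormedAddCommGroup K] [InnerProductSpace ℂ K] [CompleteSpace K]
  {D : FC K} {s r : ℝ} {ξ : K} {F : ℝ → ℂ}

lemma win_fb (hF : BC F) (h : ∀ x, F x ≠ 0 → |x - s| ≤ r) (η : K) : Win D s r (D.fb F η) :=
  fun G hG h' => by
    rw [D.mul_apply hG hF, show (fun x => G x * F x) = fun _ => 0 from funext fun x => by
      by_cases h0 : F x = 0
      · rw [h0, mul_zero]
      · rw [h' x (h x h0), zero_mul], D.zero, zero_apply]

lemma Win.fb (h : Win D s r ξ) (hF : BC F) {s' r' : ℝ}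
    (h' : ∀ x, F x ≠ 0 → |x - s| ≤ r → |x - s'| ≤ r') : Win D s' r' (D.fb F ξ) :=
  fun G hG h1 => by
    rw [D.mul_apply hG hF]
    refine h _ (hG.mul hF) fun x hx => ?_
    by_cases h0 : F x = 0
    · rw [h0, mul_zero]
    · rw [h1 x (h' x h0 hx), zero_mul]

lemma Win.congr (h : Win D s r ξ) (hF : BC F) {G : ℝ → ℂ} (hG : BC G)
    (h1 : ∀ x, |x - s| ≤ r → F x = G x) : D.fb F ξ = D.fb G ξ := by
  have := h _ (hF.sub hG) fun x hx => by rw [h1 x hx, sub_self]
  rwa [D.sub hF hG, sub_apply, sub_eq_zero] at this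

lemma Win.eq (h : Win D s r ξ) (hF : BC F) (h1 : ∀ x, |x - s| ≤ r → F x = 1) : D.fb F ξ = ξ := by
  rw [h.congr hF (.const 1) h1, D.one, one_apply_eq_self]

lemma Win.mono (h : Win D s r ξ) {r' : ℝ} (hr : r ≤ r') : Win D s r' ξ :=
  fun F hF h' => h F hF fun x hx => h' x (hx.trans hr)

lemma Win.map (h : Win D s r ξ) {T : K →L[ℂ] K} (hT : ∀ t, D.U t * T = T * D.U t) :
    Win D s r (T ξ) := fun F hF h' => by
  rw [show D.fb F (T ξ) = T (D.fb F ξ) from congr($(D.commute hT hF) ξ), h F hF h', map_zero]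

lemma ex_sub (t x y : ℝ) : ‖ex t x - ex t y‖ = ‖ex t (x - y) - 1‖ := by
  have : ex t x = ex t (x - y) * ex t y := by
    rw [ex, ex, ex, ← Complex.exp_add]
    congr 1
    push_cast
    ring
  rw [this, ← sub_one_mul, norm_mul, P132.norm_ex, mul_one]

lemma Win.lip (h : Win D s r ξ) (hr : 0 ≤ r) (t : ℝ) :
    ‖D.U t ξ - ex t s • ξ‖ ≤ |t| * r * ‖ξ‖ := by
  have hG : BC fun x => ex t (max (s - r) (min x (s + r))) :=
    ⟨(bc_ex t).1.comp (by fun_prop), 1, fun x => (P132.norm_ex _ _).le⟩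
  have := D.norm_le (hG.sub (.const (ex t s))) (C := |t| * r) (fun x => by
    rw [ex_sub, ex, mul_comm _ Complex.I]
    refine Real.norm_exp_I_mul_ofReal_sub_one_le.trans ?_
    rw [Real.norm_eq_abs, abs_mul]
    gcongr
    exact abs_le.2 ⟨by linarith [le_max_left (s - r) (min x (s + r))], sub_le_iff_le_add'.2
      (max_le (by linarith) (min_le_right _ _))⟩) ξ
  rwa [D.sub hG (.const _), D.const, sub_apply, ← h.congr (bc_ex t) hG fun x hx => by
    rw [min_eq_left (by linarith [abs_le.1 hx]), max_eq_right (by linarith [abs_le.1 hx])]] at this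

lemma geo {u : ℝ} {M : ℕ} (h1 : 7 ≤ M * |u|) (h2 : |u| ≤ Real.pi) :
    (M : ℝ) ≤ ∑ k ∈ Finset.range M, ‖ex k u - 1‖ ^ 2 := by
  have e : ∀ k : ℕ, ex k u = Complex.exp (Complex.I * u) ^ k := fun k => by
    rw [ex, ← Complex.exp_nat_mul]
    congr 1
    push_cast
    ring
  have a1 := congrArg norm (geom_sum_mul (Complex.exp (Complex.I * u)) M)
  have a2 : ‖Complex.exp (Complex.I * u) ^ M - 1‖ ≤ 2 := (norm_sub_le _ _).trans_eq (by
    rw [← e, P132.norm_ex]; norm_num)
  have a3 := Real.mul_abs_le_abs_sin (x := u / 2) (by rw [abs_div, abs_two]; linarith)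
  rw [norm_mul, Complex.norm_exp_I_mul_ofReal_sub_one, norm_mul, Real.norm_two,
    Real.norm_eq_abs] at a1
  rw [abs_div, abs_two, div_mul_div_comm, div_le_iff₀ (by positivity)] at a3
  have a4 : ∀ k : ℕ, ‖ex k u - 1‖ ^ 2 = 2 - 2 * (ex k u).re := fun k => by
    rw [@norm_sub_sq ℂ, P132.norm_ex]
    simp
    ring
  simp only [a4]
  simp only [Finset.sum_sub_distrib, Finset.sum_const, Finset.card_range, nsmul_eq_mul,
    ← Finset.mul_sum, ← Complex.re_sum, e]
  have a5 := Complex.re_le_norm (∑ k ∈ Finset.range M, Complex.exp (Complex.I * u) ^ k)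
  set N := ‖∑ k ∈ Finset.range M, Complex.exp (Complex.I * u) ^ k‖
  have a6 : 0 ≤ N := norm_nonneg _
  have a7 := Real.pi_lt_d2
  have a8 : N * |u| ≤ Real.pi := by nlinarith [Real.pi_pos]
  have a9 : N * 7 ≤ M * Real.pi := by nlinarith [(M.cast_nonneg : (0 : ℝ) ≤ M)]
  nlinarith [(M.cast_nonneg : (0 : ℝ) ≤ M)]

/-- A modulus of continuity gives concentration. -/
theorem ut (D : FC K) {ι : Type*} [Fintype ι] (θ : ι → K) {m T ω : ℝ} (hT : 0 < T)
    (h : ∀ t ∈ Set.Icc 0 T, nm (fun i => D.U t (θ i) - ex t m • θ i) ≤ ω) (hF : BC F)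
    (h1 : ∀ x, ‖F x‖ ≤ 1) (h0 : ∀ x, |x - m| ≤ 7 / T → F x = 0) :
    nm (fun i => D.fb F (θ i)) ≤ ω := by
  have hω : 0 ≤ ω := (nm_nonneg _).trans (h 0 ⟨le_rfl, hT.le⟩)
  rcases isEmpty_or_nonempty ι with _ | _
  · simpa [nm] using hω
  refine le_of_forall_pos_le_add fun ε hε => ?_
  choose L hL using fun i => D.chi_near (D.fb F (θ i)) hε
  obtain ⟨L', hL'⟩ := (Set.finite_range L).bddAbove
  obtain ⟨M, hM⟩ := exists_nat_gt (T * (|L'| + 1 + |m|))
  have M0 : (0 : ℝ) < M := lt_of_le_of_lt (by positivity) hM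
  refine (nm_le_add fun i => hL i L' (hL' ⟨i, rfl⟩)).trans (add_le_add_left ?_ _)
  have a1 : ∀ i, M * ‖D.fb (chi L') (D.fb F (θ i))‖ ^ 2 ≤
      ∑ k ∈ Finset.range M, ‖D.U (k * (T / M)) (θ i) - ex (k * (T / M)) m • θ i‖ ^ 2 := fun i => by
    have := D.sum_sq_le (Finset.range M) (Finset.range M) (F := fun _ x => chi L' x * F x)
      (G := fun k x => ex (k * (T / M)) x - ex (k * (T / M)) m) (fun _ _ => (bc_chi _).mul hF)
      (fun _ _ => (bc_ex _).sub (.const _)) (fun x => by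
        rcases lt_or_ge (L' + 1) |x| with hs | hs
        · simpa [P132.chi_supp hs] using Finset.sum_nonneg fun _ _ => sq_nonneg _
        rcases le_or_gt |x - m| (7 / T) with hx | hx
        · simpa [h0 x hx] using Finset.sum_nonneg fun _ _ => sq_nonneg _
        have := geo (u := T / M * (x - m)) (M := M) (by
          rw [abs_mul, abs_of_pos (div_pos hT M0), ← mul_assoc, mul_div_cancel₀ _ M0.ne']
          exact ((div_lt_iff₀' hT).1 hx).le) (by
          rw [abs_mul, abs_of_pos (div_pos hT M0), div_mul_eq_mul_div, div_le_iff₀ M0]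
          have := abs_sub x m
          have := le_abs_self L'
          nlinarith [Real.pi_gt_three])
        simp only [ex_sub, Finset.sum_const, Finset.card_range, nsmul_eq_mul]
        refine le_trans (mul_le_of_le_one_right M0.le (pow_le_one₀ (norm_nonneg _)
          ((norm_mul_le_of_le (P132.norm_chi _ _) (h1 x)).trans_eq (one_mul _)))) ?_
        simpa only [ex, mul_assoc] using this) (θ i)
    simp only [D.sub (bc_ex _) (.const _), D.const] at this
    rwa [Finset.sum_const, Finset.card_range, nsmul_eq_mul, ← D.mul_apply (bc_chi _) hF] at this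
  refine (abs_le_of_sq_le_sq' (le_of_mul_le_mul_left ?_ M0) hω).2
  rw [nm_sq, mul_left_comm, Finset.mul_sum]
  refine (mul_le_mul_of_nonneg_left (Finset.sum_le_sum fun i _ => a1 i) (by positivity)).trans ?_
  rw [Finset.sum_comm, Finset.mul_sum]
  refine (Finset.sum_le_card_nsmul _ _ (ω ^ 2) fun k hk => ?_).trans_eq (by simp)
  rw [← nm_sq]
  refine pow_le_pow_left₀ (nm_nonneg _) (h _ ⟨by positivity, ?_⟩) 2
  rw [← mul_div_assoc, div_le_iff₀ M0, mul_comm]
  gcongr
  exact (Finset.mem_range.1 hk).le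

end

lemma bc_sh {F : ℝ → ℂ} (hF : BC F) (s : ℝ) : BC fun x => F (x + s) :=
  ⟨hF.1.comp (by fun_prop), hF.2.imp fun _ h _ => h _⟩

lemma bc_poly (P : Polynomial ℝ) : BC fun x => (P.eval (1 + Real.exp x)⁻¹ : ℝ) := by
  induction P using Polynomial.induction_on with
  | C a => simpa using BC.const (a : ℂ)
  | add p q hp hq => simpa using hp.add hq
  | monomial n a hp => simpa [pow_succ, mul_assoc, pp] using hp.mul bc_pp

lemma poly_close (P : Polynomial ℝ) : ∃ C, 0 ≤ C ∧ ∀ {K : Type u} [NormedAddCommGroup K]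
    [InnerProductSpace ℂ K] [CompleteSpace K] (D D' : FC K) (s : ℝ),
      ‖D.fb (fun x => (P.eval (1 + Real.exp (x + s))⁻¹ : ℝ)) -
        D'.fb fun x => (P.eval (1 + Real.exp (x + s))⁻¹ : ℝ)‖ ≤
        C * ‖D.fb (fun x => pp (x + s)) - D'.fb fun x => pp (x + s)‖ := by
  induction P using Polynomial.induction_on with
  | C a => exact ⟨0, le_rfl, fun D D' s => by simp [D.const, D'.const]⟩
  | add p q hp hq =>
    obtain ⟨C, h0, hp⟩ := hp
    obtain ⟨C', h0', hq⟩ := hq
    refine ⟨C + C', by positivity, fun D D' s => ?_⟩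
    simp only [Polynomial.eval_add, Complex.ofReal_add]
    rw [D.add (bc_sh (bc_poly p) s) (bc_sh (bc_poly q) s),
      D'.add (bc_sh (bc_poly p) s) (bc_sh (bc_poly q) s), add_sub_add_comm, add_mul]
    exact norm_add_le_of_le (hp D D' s) (hq D D' s)
  | monomial n a hp =>
    obtain ⟨C, h0, hp⟩ := hp
    obtain ⟨C', hC⟩ := (bc_poly (Polynomial.C a * Polynomial.X ^ n)).2
    have h0' := (norm_nonneg _).trans (hC 0)
    refine ⟨C + C', by positivity, fun D D' s => ?_⟩
    have b1 := bc_sh (bc_poly (Polynomial.C a * Polynomial.X ^ n)) s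
    have b2 := bc_sh bc_pp s
    have e : (fun x => (((Polynomial.C a * Polynomial.X ^ (n + 1)).eval (1 + Real.exp (x + s))⁻¹ :
        ℝ) : ℂ)) = fun x => ((Polynomial.C a * Polynomial.X ^ n).eval (1 + Real.exp (x + s))⁻¹ :
          ℝ) * pp (x + s) := funext fun x => by simp [pow_succ, mul_assoc, pp]
    have n1 := ContinuousLinearMap.opNorm_le_bound _ h0' (D'.norm_le b1 fun x => hC _)
    have n2 := ContinuousLinearMap.opNorm_le_bound _ zero_le_one (D.norm_le b2 fun x => by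
      rw [pp, Complex.norm_real, Real.norm_of_nonneg (by positivity)]
      exact inv_le_one_of_one_le₀ (by linarith [Real.exp_pos (x + s)]))
    rw [e, D.mul b1 b2, D'.mul b1 b2, add_mul]
    have a1 := (norm_mul_le_of_le (hp D D' s) n2).trans_eq (mul_one _)
    have a2 := norm_mul_le_of_le n1
      (le_refl ‖D.fb (fun x => pp (x + s)) - D'.fb fun x => pp (x + s)‖)
    rw [sub_mul] at a1
    rw [mul_sub] at a2
    exact (norm_sub_le_norm_sub_add_norm_sub _ _ _).trans (add_le_add a1 a2)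

theorem stepclose {F : ℝ → ℝ} (hF : Continuous F) (h0 : ∀ x ≤ 0, F x = F 0)
    (h1 : ∀ x ≥ 1, F x = F 1) {ε : ℝ} (hε : 0 < ε) : ∃ η > 0, ∀ {K : Type u} [NormedAddCommGroup K] [InnerProductSpace ℂ K]
    [CompleteSpace K] (D D' : FC K), PC D D' η →
      ∀ s : ℝ, ‖D.fb (fun x => F (x - s)) - D'.fb fun x => F (x - s)‖ ≤ ε := by
  let c : ℝ → ℝ := fun u => max (1 + Real.exp 1)⁻¹ (min u 2⁻¹)
  have c0 : ∀ u, 0 < c u := fun u => lt_max_of_lt_left (by positivity)
  have c1 : ∀ u, c u < 1 := fun u => max_lt (inv_lt_one_of_one_lt₀ (by linarith [Real.exp_pos 1]))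
    (min_lt_of_right_lt (by norm_num))
  have hG : Continuous fun u => F (Real.log ((c u)⁻¹ - 1)) := hF.comp (Continuous.log
    ((Continuous.inv₀ (by fun_prop) fun u => (c0 u).ne').sub continuous_const)
    fun u => (sub_pos.2 ((one_lt_inv₀ (c0 u)).2 (c1 u))).ne')
  have an : ∀ {x y}, x ≤ y → (1 + Real.exp y)⁻¹ ≤ (1 + Real.exp x)⁻¹ := fun h => by gcongr
  have e0 : (2 : ℝ)⁻¹ = (1 + Real.exp 0)⁻¹ := by norm_num
  have hG' : ∀ x, F (Real.log ((c (1 + Real.exp x)⁻¹)⁻¹ - 1)) = F x := fun x => by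
    simp only [c, e0]
    rcases le_total x 0 with h | h
    · rw [min_eq_right (an h), max_eq_right (an zero_le_one), h0 x h]; simp
    · rw [min_eq_left (an h)]
      rcases le_total x 1 with h' | h'
      · rw [max_eq_right (an h')]; simp
      · rw [max_eq_left (an h'), h1 x h']; simp
  obtain ⟨P, hP⟩ := exists_polynomial_near_of_continuousOn 0 1 _ hG.continuousOn (ε / 3)
    (by positivity)
  have hP' : ∀ x, |P.eval (1 + Real.exp x)⁻¹ - F x| < ε / 3 := fun x => by
    rw [← hG']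
    exact hP _ ⟨by positivity, inv_le_one_of_one_le₀ (by linarith [Real.exp_pos x])⟩
  obtain ⟨C, hC, h⟩ := poly_close.{u} P
  refine ⟨ε / 3 / (C + 1), by positivity, fun {K} _ _ _ D D' hD s => ?_⟩
  have b1 := bc_sh (bc_poly P) (-s)
  have b2 : BC fun x => (F (x - s) : ℂ) := by
    obtain ⟨C, hC⟩ := b1.2
    refine ⟨by fun_prop, C + ε / 3, fun x => (norm_le_norm_add_norm_sub _ _).trans
      (add_le_add (hC x) ?_)⟩
    rw [← Complex.ofReal_sub, Complex.norm_real, sub_eq_add_neg x]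
    exact (hP' _).le
  have a1 : ∀ D : FC K, ‖D.fb (fun x => (P.eval (1 + Real.exp (x + -s))⁻¹ : ℝ)) -
      D.fb fun x => F (x - s)‖ ≤ ε / 3 := fun D => by
    rw [← D.sub b1 b2]
    refine ContinuousLinearMap.opNorm_le_bound _ (by positivity) (D.norm_le (b1.sub b2) fun x => ?_)
    rw [← Complex.ofReal_sub, Complex.norm_real, sub_eq_add_neg x]
    exact (hP' _).le
  have a2 := (h D D' (-s)).trans (mul_le_mul_of_nonneg_left (hD (-s)) hC)
  have a3 : C * (ε / 3 / (C + 1)) ≤ ε / 3 := by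
    rw [← mul_div_assoc, div_le_iff₀ (by positivity)]
    nlinarith
  have a4 := a1 D
  rw [norm_sub_rev] at a4
  refine (norm_sub_le_norm_sub_add_norm_sub _ _ _).trans ((add_le_add a4
    ((norm_sub_le_norm_sub_add_norm_sub _ _ _).trans (add_le_add a2 (a1 D')))).trans (by linarith))

end Vale.Agent.P096
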