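import Vale.Agent.P096.G.CoreA
import Vale.Agent.P096.G.Am
import Vale.Agent.P096.G.Hom
import Vale.Agent.P096.G.Win

/-! The lift when the modular group normalises both algebras. -/

namespace Vale.Agent.P096

open scoped InnerProductSpace Topology ComplexConjugate
open Filter
open Vale.Agent.P132 (FC BC ex pp qq rr EE chi Std PM MD)

universe u

section

variable {K : Type*} [NormedAddCommGroup K] [InnerProductSpace ℂ K] [CompleteSpace K]
  {M : FC K} {a : L2 ℤ K →L[ℂ] L2 ℤ K} {τ : ℝ}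

namespace CoreB

/-- The perturbed group as a homomorphism. -/
noncomputable def uh (M : FC K) (ha : Lg (shf K) a) (τ : ℝ) :
    Multiplicative ℝ →* (L2 ℤ K →L[ℂ] L2 ℤ K) where
  toFun t := Ut M a τ t.toAdd
  map_one' := Ut_zero
  map_mul' _ _ := ha.Ut_add _ _

lemma Ut_un (ha : Lg (shf K) a) (t : ℝ) : Ut M a τ t ∈ unitary (L2 ℤ K →L[ℂ] L2 ℤ K) := by
  rw [Unitary.mem_iff, ha.star_Ut, ← ha.Ut_add, ← ha.Ut_add, neg_add_cancel, add_neg_cancel,
    Ut_zero]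
  exact ⟨rfl, rfl⟩

lemma E_amp (ha : Lg (shf K) a) (c : ℂ) (y : K →L[ℂ] K) :
    NormedSpace.exp (c • a) * ampL ℤ K y = ampL ℤ K y * NormedSpace.exp (c • a) :=
  ((Commute.smul_right (ha.amp y) c).exp_right).symm

lemma Ut_conj (ha : Lg (shf K) a) (t : ℝ) (y : K →L[ℂ] K) :
    star (Ut M a τ t) * ampL ℤ K y * Ut M a τ t = ampL ℤ K (M.U (-t) * y * M.U (- -t)) := by
  have h1 : ampL ℤ K y * Ut M a τ t = Ut M a τ t * ampL ℤ K (M.U (-t) * y * M.U (- -t)) := by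
    rw [Ut, mul_assoc (ampL ℤ K _), E_amp ha, ← mul_assoc, ← mul_assoc, ← map_mul, ← map_mul,
      ← mul_assoc, ← mul_assoc, ← M.U_add, add_neg_cancel, M.U_zero, one_mul, neg_neg]
  rw [mul_assoc, h1, ← mul_assoc, (Ut_un ha t).1, one_mul]

/-- Diagonal modular operators. -/
noncomputable def dU (M : FC K) (z : ℝ × ℝ) : L2 ℤ K →L[ℂ] L2 ℤ K :=
  dgL fun k : ℤ => M.U (k * z.1 + z.2)

lemma nU (M : FC K) (t : ℝ) : ‖M.U t‖ ≤ 1 :=
  ContinuousLinearMap.opNorm_le_bound _ zero_le_one fun v => by rw [M.norm_U, one_mul]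

lemma dU_apply (z : ℝ × ℝ) (ξ : L2 ℤ K) (k : ℤ) : dU M z ξ k = M.U (k * z.1 + z.2) (ξ k) :=
  dgL_apply (fun _ => nU M _) ξ k

lemma norm_dU (z : ℝ × ℝ) : ‖dU M z‖ ≤ 1 := norm_dgL_le zero_le_one fun _ => nU M _

lemma star_dU (z : ℝ × ℝ) : star (dU M z) = dU M (-z) := by
  rw [dU, star_dgL fun _ => nU M _, dU]
  congr 1
  funext k
  rw [M.star_U, Prod.fst_neg, Prod.snd_neg, mul_neg, neg_add]

lemma U_U (s t : ℝ) (v : K) : M.U s (M.U t v) = M.U (s + t) v := by rw [M.U_add]; rfl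

lemma cont_dU : Continuous fun x : L2 ℤ K × ℝ × ℝ => dU M x.2 x.1 := by
  let N : Submodule ℂ (L2 ℤ K) :=
    { carrier := {v | Continuous fun z => dU M z v}
      add_mem' := fun h1 h2 => (Continuous.add h1 h2).congr fun _ => (map_add _ _ _).symm
      zero_mem' := by simpa only [Set.mem_setOf_eq, map_zero] using continuous_const
      smul_mem' := fun c _ h => (Continuous.const_smul h c).congr fun z =>
        (map_smul (dU M z) c _).symm }
  refine continuous_prod_of_dense_continuous_lipschitzWith _ 1 (s := N) (fun v => ?_)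
    (fun v hv => hv) fun z => ?_
  · refine L2.mem_of_single N.isClosed_topologicalClosure (fun i w => subset_closure ?_) v
    change Continuous fun z => dU M z _
    simp only [dU, dgL_single fun _ => nU M _]
    exact (lp.singleContinuousLinearMap ℂ (fun _ : ℤ => K) 2 i).continuous.comp
      ((M.continuous_U w).comp (by fun_prop))
  · exact (dU M z).lipschitz.weaken (norm_dU z)

/-- The twisted amplification. -/
noncomputable def tw (M : FC K) (τ : ℝ) (y : K →L[ℂ] K) : L2 ℤ K →L[ℂ] L2 ℤ K :=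
  dU M (τ, 0) * ampL ℤ K y * star (dU M (τ, 0))

lemma tw_apply (y : K →L[ℂ] K) (ξ : L2 ℤ K) (k : ℤ) :
    tw M τ y ξ k = M.U (k * τ) (y (M.U (-(k * τ)) (ξ k))) := by
  simp only [tw, star_dU, ContinuousLinearMap.mul_apply, dU_apply, ampL_apply, Prod.neg_mk,
    neg_zero, add_zero, mul_neg]

lemma norm_tw (y : K →L[ℂ] K) : ‖tw M τ y‖ ≤ ‖y‖ := by
  have h1 : ‖ampL ℤ K y‖ ≤ ‖y‖ := norm_dgL_le (norm_nonneg y) fun _ => le_rfl
  simpa [tw] using norm_mul_le_of_le (norm_mul_le_of_le (norm_dU (M := M) (τ, 0)) h1)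
    ((norm_star _).trans_le (norm_dU (M := M) (τ, 0)))

lemma tw_Ut (ha : Lg (shf K) a) (hτ : τ ≠ 0) (y : K →L[ℂ] K) (k : ℤ) :
    tw M τ y * Ut M a τ (k * τ) = Ut M a τ (k * τ) * tw M τ y := by
  let S : AddSubgroup ℝ :=
    { carrier := {t | Commute (tw M τ y) (Ut M a τ t)}
      add_mem' := fun h1 h2 => by
        rw [Set.mem_setOf_eq, ha.Ut_add]
        exact h1.mul_right h2
      zero_mem' := by
        rw [Set.mem_setOf_eq, Ut_zero]
        exact Commute.one_right _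
      neg_mem' := fun {t} h => by
        have h1 := Ut_un (M := M) (τ := τ) ha t
        change tw M τ y * _ = _ * tw M τ y
        rw [← ha.star_Ut, ← one_mul (tw M τ y * _), ← h1.1, mul_assoc, ← mul_assoc (Ut M a τ t),
          ← Commute.eq h, mul_assoc, h1.2, mul_one] }
  have h1 : τ ∈ S := by
    change tw M τ y * _ = _ * tw M τ y
    rw [ha.Ut_τ hτ]
    refine L2.ext fun ξ i => ?_
    simp only [ContinuousLinearMap.mul_apply, tw_apply, ampL_apply, shf, prm_apply, U_U,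
      Equiv.subRight_apply]
    rw [show τ + ((i - 1 : ℤ) : ℝ) * τ = i * τ by push_cast; ring,
      show -((i : ℝ) * τ) + τ = -(((i - 1 : ℤ) : ℝ) * τ) by push_cast; ring]
  have h2 := S.zsmul_mem h1 k
  rwa [zsmul_eq_mul] at h2

lemma est (ha : Lg (shf K) a) (y : K →L[ℂ] K) (ξ η : K) {ε : ℝ} (hε : 0 < ε) :
    ∃ κ > 0, ∀ τ, 0 < τ → τ < κ → ∀ t, ‖⟪lp.single 2 0 η, (Ut M a τ t * tw M τ y *
      star (Ut M a τ t)) (lp.single 2 0 ξ)⟫_ℂ - ⟪η, y ξ⟫_ℂ‖ ≤ ε := by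
  let _ : NormedAlgebra ℚ (L2 ℤ K →L[ℂ] L2 ℤ K) := .restrictScalars ℚ ℂ _
  let E : ℝ → L2 ℤ K →L[ℂ] L2 ℤ K := fun ρ => NormedSpace.exp (((ρ : ℂ) * Complex.I) • a)
  have cE : Continuous E := NormedSpace.exp_continuous.comp (by fun_prop)
  have uE : ∀ ρ, E ρ ∈ unitary (L2 ℤ K →L[ℂ] L2 ℤ K) := fun ρ =>
    NormedSpace.exp_mem_unitary_of_mem_skewAdjoint
      (ha.sa.smul_mem_skewAdjoint (by simp [skewAdjoint.mem_iff]))
  let Φ : (ℝ × ℝ) × ℝ → ℂ := fun x =>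
    ⟪dU M x.1 (E x.2 (lp.single 2 0 η)), ampL ℤ K y (dU M x.1 (E x.2 (lp.single 2 0 ξ)))⟫_ℂ
  have c1 : ∀ v, Continuous fun x : (ℝ × ℝ) × ℝ => dU M x.1 (E x.2 v) := fun v =>
    cont_dU.comp (f := fun x : (ℝ × ℝ) × ℝ => (E x.2 v, x.1)) (by fun_prop)
  have cΦ : Continuous Φ := (c1 _).inner ((ampL ℤ K y).continuous.comp (c1 _))
  have d0 : dU M 0 = 1 := L2.ext fun ξ i => by simp [dU_apply, M.U_zero]
  have Φ0 : ∀ ρ, Φ (0, ρ) = ⟪η, y ξ⟫_ℂ := fun ρ => by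
    simp only [Φ, d0, ContinuousLinearMap.one_apply]
    rw [← ContinuousLinearMap.mul_apply, ← E_amp ha, ContinuousLinearMap.mul_apply,
      ContinuousLinearMap.inner_map_map_of_mem_unitary (uE ρ), ampL_single, lp.inner_single_left,
      lp.single_apply_self]
  have h1 := (isCompact_Icc (a := (-1 : ℝ)) (b := 0)).eventually_forall_of_forall_eventually
    (x₀ := (0 : ℝ × ℝ)) (P := fun z ρ => ‖Φ (z, ρ) - ⟪η, y ξ⟫_ℂ‖ ≤ ε) fun ρ _ => by
      refine ((cΦ.sub continuous_const).norm.tendsto _).eventually (ge_mem_nhds ?_)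
      rwa [Pi.sub_apply, Φ0, sub_self, norm_zero]
  obtain ⟨κ, hκ, h2⟩ := Metric.eventually_nhds_iff.1 h1
  refine ⟨κ, hκ, fun τ h3 h4 t => ?_⟩
  obtain ⟨ρ, k, r0, r1, rfl⟩ : ∃ (ρ : ℝ) (k : ℤ), 0 ≤ ρ ∧ ρ ≤ 1 ∧ t = ρ * τ + k * τ :=
    ⟨Int.fract (t / τ), ⌊t / τ⌋, Int.fract_nonneg _, (Int.fract_lt_one _).le, by
      rw [← add_mul, Int.fract_add_floor, div_mul_cancel₀ _ h3.ne']⟩
  have h5 := h2 (y := (-τ, -(ρ * τ))) (by
    rw [Prod.dist_eq, max_lt_iff]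
    simp only [Prod.fst_zero, Prod.snd_zero, dist_zero_right, norm_neg, Real.norm_eq_abs]
    rw [abs_of_pos h3, abs_of_nonneg (by positivity)]
    exact ⟨h4, by nlinarith⟩) (-ρ) ⟨by linarith, by linarith⟩
  have h6 : ∀ v, star (dU M (τ, 0)) (star (Ut M a τ (ρ * τ)) v) =
      dU M (-τ, -(ρ * τ)) (E (-ρ) v) := fun v => lp.ext (funext fun i => by
    rw [star_dU, ha.star_Ut, Ut, neg_div, mul_div_cancel_right₀ _ h3.ne']
    simp only [ContinuousLinearMap.mul_apply, dU_apply, ampL_apply, U_U, Prod.neg_mk, neg_zero,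
      add_zero, E])
  have h7 : Ut M a τ (ρ * τ + k * τ) * tw M τ y * star (Ut M a τ (ρ * τ + k * τ)) =
      Ut M a τ (ρ * τ) * tw M τ y * star (Ut M a τ (ρ * τ)) := by
    rw [ha.Ut_add, star_mul, mul_assoc (Ut M a τ (ρ * τ)), ← tw_Ut ha h3.ne']
    simp only [mul_assoc]
    rw [← mul_assoc (Ut M a τ (k * τ)), (Ut_un ha _).2, one_mul]
  rw [h7]
  simp only [tw, ContinuousLinearMap.mul_apply]
  rw [← ContinuousLinearMap.adjoint_inner_left, ← ContinuousLinearMap.adjoint_inner_left,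
    ← ContinuousLinearMap.star_eq_adjoint, ← ContinuousLinearMap.star_eq_adjoint, h6, h6]
  exact h5

/-- The corner entry. -/
noncomputable def en : (L2 ℤ K →L[ℂ] L2 ℤ K) →ₗ[ℂ] (K →L[ℂ] K) where
  toFun T := entL T 0 0
  map_add' _ _ := rfl
  map_smul' _ _ := rfl

end CoreB

open CoreB

theorem fxa_near (ha : Lg (shf K) a) {R B : SA K} (hB : ∀ t, ∀ y ∈ B, M.U t * y * M.U (-t) ∈ B)
    {δ : ℝ} (hδ : 0 ≤ δ) (h : Near δ (B : Set (K →L[ℂ] K)) R) :
    Near (2 * KD * δ) (fxa M a τ R : Set (L2 ℤ K →L[ℂ] L2 ℤ K)) (fxa M a τ B) := fun X hX => by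
  obtain ⟨h1, h2⟩ := ha.mem_fxa.1 hX
  obtain ⟨S, s1, s2⟩ := near_hom (ampL ℤ K) hδ h h1
  obtain ⟨S', t1, t2, t3⟩ := near_fix (am_comm _) (p := uh M ha τ) (fun _ => Ut_un ha _)
    (Y := ampL ℤ K '' (B : Set (K →L[ℂ] K))) (X := X) (S := S)
    (by rintro g _ ⟨y, hy, rfl⟩; exact ⟨_, hB _ y hy, (Ut_conj ha _ y).symm⟩) (fun g => h2 _)
    (by rintro _ ⟨y, hy, rfl⟩; exact s1 y hy)
  exact ⟨S', ha.mem_fxa.2 ⟨fun y hy => t1 _ ⟨y, hy, rfl⟩, fun t => t2 (.ofAdd t)⟩, t3.trans s2⟩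

theorem fxa_emb (ha : Lg (shf K) a) {D B : SA K} (h : CP D B)
    (hB : ∀ t, ∀ y ∈ B, M.U t * y * M.U (-t) ∈ B) :
    ∃ j : ℕ → (K →L[ℂ] K) →ₗ[ℂ] (L2 ℤ K →L[ℂ] L2 ℤ K), (∀ n y, ‖j n y‖ ≤ ‖y‖) ∧
      (∀ n : ℕ, ∀ y ∈ D, j n y ∈ fxa M a (1 / ((n : ℝ) + 1)) B) ∧
      ∀ y, WT atTop (fun n => entL (j n y) 0 0) y := by
  obtain ⟨m⟩ := exists_mean (am_comm (Multiplicative ℝ)) (L2 ℤ K)
  have hu : ∀ τ g, uh M ha τ g ∈ unitary (L2 ℤ K →L[ℂ] L2 ℤ K) := fun _ _ => Ut_un ha _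
  have hb : ∀ τ y g, ‖uh M ha τ g * tw M τ y * star (uh M ha τ g)‖ ≤ ‖y‖ := fun τ y g =>
    (am_conj_le (hu τ g) (hu τ g) _).trans (norm_tw y)
  let j : ℝ → (K →L[ℂ] K) →ₗ[ℂ] (L2 ℤ K →L[ℂ] L2 ℤ K) := fun τ =>
    { toFun := fun y => m.m fun g => uh M ha τ g * tw M τ y * star (uh M ha τ g)
      map_add' := fun y y' => by
        rw [← m.add (hb τ y) (hb τ y')]
        simp only [tw, map_add, mul_add, add_mul]
      map_smul' := fun c y => by
        rw [RingHom.id_apply, ← m.smul (hb τ y)]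
        simp only [tw, map_smul, mul_smul_comm, smul_mul_assoc] }
  refine ⟨fun n => j (1 / ((n : ℝ) + 1)), fun n y => ?_, fun n y hy => ha.mem_fxa.2
    ⟨fun c hc => m.comm (hb _ y) fun g => ?_, fun t => m.conj_comm (hu _) _ (.ofAdd t)⟩,
    fun y => WT_iff.2 fun ξ η => Metric.tendsto_nhds.2 fun ε hε => ?_⟩
  · exact (congrArg norm (sub_zero _)).ge.trans (m.norm_sub_le (c := 0) fun g =>
      (congrArg norm (sub_zero _)).trans_le (hb _ y g))
  · generalize 1 / ((n : ℝ) + 1) = τ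
    have h1 : ∀ c ∈ B, tw M τ y * ampL ℤ K c = ampL ℤ K c * tw M τ y := fun c hc =>
      L2.ext fun ξ k => by
        have h2 := h.app hy (hB (-(k * τ)) c hc) (M.U (-(k * τ)) (ξ k))
        simp only [ContinuousLinearMap.mul_apply, M.U_neg_U] at h2
        simp only [ContinuousLinearMap.mul_apply, tw_apply, ampL_apply, h2, M.U_U_neg, neg_neg]
    have h2 := h1 _ (hB (-g.toAdd) c hc)
    rw [← Ut_conj (τ := τ) ha] at h2
    change _ * (star (uh M ha τ g) * _ * uh M ha τ g) = star (uh M ha τ g) * _ * uh M ha τ g * _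
      at h2
    calc _ = uh M ha τ g * (tw M τ y * (star (uh M ha τ g) * ampL ℤ K c * uh M ha τ g)) *
          star (uh M ha τ g) := by simp only [mul_assoc, (hu τ g).2, mul_one]
      _ = _ := by
        rw [h2]
        simp only [← mul_assoc, (hu τ g).2, one_mul]
  · obtain ⟨κ, hκ, h1⟩ := est (M := M) ha y ξ η (half_pos hε)
    filter_upwards [tendsto_one_div_add_atTop_nhds_zero_nat.eventually (gt_mem_nhds hκ)] with n hn
    have h2 := m.est (hb _ y) _ _ _ _ fun g => h1 _ Nat.one_div_pos_of_nat hn g.toAdd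
    rw [lp.inner_single_left] at h2
    rw [dist_eq_norm]
    exact h2.trans_lt (half_lt_self hε)

end

theorem coreLift : ∃ C : ℝ, 1 ≤ C ∧ ∀ {K : Type u} [NormedAddCommGroup K] [InnerProductSpace ℂ K]
    [CompleteSpace K] (A R D B : SA K) (Ω : K) (δ : ℝ) (M : Mod A R Ω),
    0 < δ → C * δ ≤ 1 → SP A R Ω → CP D B → N4 δ A R D B →
    (∀ t, ∀ y ∈ B, M.U t * y * M.U (-t) ∈ B) → Lift (C * δ) A D := by
  obtain ⟨C, hC, H⟩ := finLift.{u}
  have hK := one_le_KD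
  refine ⟨C * (2 * KD), by nlinarith, fun {K} _ _ _ A R D B Ω δ M hδ hδ1 hs hD hn hB => ?_⟩
  obtain ⟨a, ha⟩ := exists_log (prm_unitary (K := K) (Equiv.subRight (1 : ℤ)))
  obtain ⟨j, j1, j2, j3⟩ := fxa_emb (M := M.toFC) ha hD hB
  have key : ∀ n : ℕ, ∃ ψ : D →ₗ[ℂ] (K →L[ℂ] K), ∀ y, ψ y ∈ A ∧
      ‖ψ y - entL (j n y) 0 0‖ ≤ C * (2 * KD) * δ * ‖y‖ := fun n => by
    obtain ⟨ξ, x1, x2⟩ := fxa_tr hs M ha (Nat.one_div_pos_of_nat (n := n))
    obtain ⟨φ, hφ⟩ := H (fxa M.toFC a (1 / ((n : ℝ) + 1)) R) (fxa M.toFC a (1 / ((n : ℝ) + 1)) B)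
      (fun _ : Unit => ξ) (2 * KD * δ)
      (fun T hT => (cp_cz _).cX T fun y hy => (hT y fun x hx => ((cp_cz _).cm x hx y hy).symm).symm)
      (fun x hx => by simp only [x1 x hx]) (fun x hx h0 => x2 x hx (h0 ())) (by positivity)
      (by linarith) (fxa_near ha hB hδ.le hn.br) (fxa_near ha M.invY hδ.le hn.rb)
    let i : D →ₗ[ℂ] fxa M.toFC a (1 / ((n : ℝ) + 1)) B :=
      { toFun := fun y => ⟨j n y, j2 n y y.2⟩
        map_add' := fun a b => Subtype.ext (map_add _ _ _)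
        map_smul' := fun a b => Subtype.ext (map_smul (j n) _ _) }
    refine ⟨CoreB.en ∘ₗ φ ∘ₗ i, fun y => ⟨hs.cX _ fun c hc =>
      entL_comm ((Lg.mem_fxa ha).1 (hφ (i y)).1 |>.1 c hc) 0 0, ?_⟩⟩
    refine ((congrArg norm (map_sub CoreB.en (φ (i y)) (j n y))).ge.trans
      (norm_entL_le _ 0 0)).trans ((hφ (i y)).2.trans ?_)
    rw [← mul_assoc]
    exact mul_le_mul_of_nonneg_left (j1 n y) (by positivity)
  choose ψ hψ using key
  have hw : ∀ y, WT (hyperfilter ℕ) (fun n => entL (j n y) 0 0) y := fun y =>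
    WT_iff.2 fun ξ η => (WT_iff.1 (j3 y) ξ η).mono_left Nat.hyperfilter_le_atTop
  choose z hz using fun y : D => exists_WT (hyperfilter ℕ) (x := fun n => ψ n y)
    (r := C * (2 * KD) * δ * ‖y‖ + ‖(y : K →L[ℂ] K)‖) (Eventually.of_forall fun n => by
      linarith [norm_le_norm_add_norm_sub' (ψ n y) (entL (j n y) 0 0), (hψ n y).2,
        norm_entL_le (j n y) 0 0, j1 n y])
  exact ⟨{ toFun := z
           map_add' := fun a b => (hz (a + b)).eq_of ((hz a).add (hz b))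
             (Eventually.of_forall fun i => map_add _ _ _)
           map_smul' := fun c a => (hz (c • a)).eq_of ((hz a).smul c)
             (Eventually.of_forall fun i => map_smul _ _ _) }, fun y =>
    ⟨hs.mem_lim (hz y) (.of_forall fun n => (hψ n y).1),
      ((hz y).sub (hw y)).norm_le (.of_forall fun n => (hψ n y).2)⟩⟩

end Vale.Agent.P096
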