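import Vale.Agent.P096.G.Vcen

/-! Contraction towards the centre. -/

namespace Vale.Agent.P096

open scoped InnerProductSpace Topology ComplexConjugate
open Filter
open Vale.Agent.P132 (FC BC ex pp qq rr EE chi Std PM MD)

universe u

section abs

variable {A : Type*} [CStarAlgebra A] [PartialOrder A] [StarOrderedRing A] {H : Type*}
  [NormedAddCommGroup H] [InnerProductSpace ℂ H] [CompleteSpace H] {S : Std A H}

theorem contr {D : MD S} (h : FarA D) {ζ : H} (hζ : ∀ z, D.ρ z = S.π z → ⟪S.π z S.ξ, ζ⟫_ℂ = 0)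
    {η : ℝ} (hη : 0 < η) : ∃ u ∈ unitary A, ‖S.π u S.ξ - D.ρ u S.ξ‖ ≤ η ∧
      (⟪ζ, D.Wu u ζ⟫_ℂ).re ≤ ‖ζ‖ ^ 2 / 2 := by
  by_contra! h0
  let C : ℝ → Set H := fun e =>
    convexHull ℝ {β | ∃ u ∈ unitary A, ‖D.Wu u S.ξ - S.ξ‖ ≤ e ∧ D.Wu u ζ = β}
  have sub : ∀ {e} {T : Set H}, Convex ℝ T → IsClosed T → (∀ u ∈ unitary A,
      ‖D.Wu u S.ξ - S.ξ‖ ≤ e → D.Wu u ζ ∈ T) → closure (C e) ⊆ T := fun h1 h2 h3 =>
    closure_minimal (convexHull_min (by rintro _ ⟨u, hu, h4, rfl⟩; exact h3 u hu h4) h1) h2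
  have mem : ∀ {e u}, u ∈ unitary A → ‖D.Wu u S.ξ - S.ξ‖ ≤ e → D.Wu u ζ ∈ closure (C e) :=
    fun hu h1 => subset_closure (subset_convexHull _ _ ⟨_, hu, h1, rfl⟩)
  have cv : ∀ e, Convex ℝ (closure (C e)) := fun e => (convex_convexHull _ _).closure
  have w1 : D.Wu 1 = 1 := by rw [MD.Wu, star_one, map_one, D.ρ_one, one_mul]
  let e : ℕ → ℝ := fun n => η / (n + 1)
  have e0 : ∀ n, 0 < e n := fun n => by positivity
  have e1 : StrictAnti e := fun m n hmn => by simp only [e]; gcongr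
  have mono : ∀ m n, m ≤ n → closure (C (e n)) ⊆ closure (C (e m)) := fun m n hmn =>
    sub (cv _) isClosed_closure fun u hu h1 => mem hu (h1.trans (e1.antitone hmn))
  have := fun n => P132.exists_near (K := C (e n))
    ⟨_, subset_convexHull _ _ ⟨1, one_mem _, by simp [w1, (e0 n).le], rfl⟩⟩
    (convex_convexHull _ _) 0
  choose p hp h1 h2 using this
  replace h1 := fun n q hq => sq_le_of_near (h1 n q hq)
  simp only [zero_sub, norm_neg] at h1
  have m1 : Monotone fun n => ‖p n‖ ^ 2 := fun m n hmn =>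
    le_trans (le_add_of_nonneg_right (sq_nonneg _)) (h1 m _ (mono m n hmn (hp n)))
  have bd : BddAbove (Set.range fun n => ‖p n‖ ^ 2) := ⟨‖ζ‖ ^ 2, by
    rintro _ ⟨n, rfl⟩
    refine pow_le_pow_left₀ (norm_nonneg _) (mem_closedBall_zero_iff.1 (sub (convex_closedBall _ _)
      Metric.isClosed_closedBall (fun u hu _ => ?_) (hp n))) 2
    exact mem_closedBall_zero_iff.2 (MD.norm_Wu hu _).le⟩
  have t1 := tendsto_atTop_ciSup m1 bd
  set s := ⨆ n, ‖p n‖ ^ 2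
  have t2 : Tendsto (fun n => √(s - ‖p n‖ ^ 2)) atTop (𝓝 0) := by
    simpa using (t1.const_sub s).sqrt
  have d1 : ∀ n, ∀ q ∈ closure (C (e n)), ‖q‖ ^ 2 ≤ s → ‖q - p n‖ ≤ √(s - ‖p n‖ ^ 2) :=
    fun n q hq h3 => Real.le_sqrt_of_sq_le (by linarith [h1 n q hq])
  obtain ⟨q, hq⟩ := cauchySeq_tendsto_of_complete (cauchySeq_of_le_tendsto_0' (s := p) _
    (fun m n hmn => by
      rw [dist_comm, dist_eq_norm]; exact d1 m _ (mono m n hmn (hp n)) (le_ciSup bd n)) t2)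
  have q1 : ∀ n, q ∈ closure (C (e n)) := fun n => isClosed_closure.mem_of_tendsto hq
    ((eventually_ge_atTop n).mono fun m hm => mono n m hm (hp m))
  have q2 : ‖q‖ ^ 2 ≤ s := le_of_tendsto' (hq.norm.pow 2) (le_ciSup bd)
  have q3 : q ∈ D.V := fun ε hε => by
    obtain ⟨n, hn⟩ := (t2.eventually_le_const (half_pos hε)).exists
    refine ⟨e n - e (n + 1), sub_pos.2 (e1 n.lt_succ_self), fun u hu h3 => ?_⟩
    rw [← MD.norm_Wu_sub hu] at h3 ⊢
    have a1 : D.Wu u q ∈ closure (C (e n)) := sub (T := D.Wu u ⁻¹' closure (C (e n)))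
      ((cv _).linear_preimage ((D.Wu u).restrictScalars ℝ).toLinearMap)
      (isClosed_closure.preimage (D.Wu u).continuous) (fun v hv h4 => by
        have := mem (e := e n) (mul_mem hu hv) (by
          refine (norm_sub_le_norm_sub_add_norm_sub _ (D.Wu u S.ξ) _).trans ?_
          rw [D.Wu_mul, mul_apply_eq_comp, ← map_sub, MD.norm_Wu hu]
          linarith)
        rwa [D.Wu_mul] at this) (q1 (n + 1))
    have a2 := d1 n _ a1 (by rwa [MD.norm_Wu hu])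
    have a3 := d1 n _ (q1 n) q2
    rw [norm_sub_rev] at a3
    exact (norm_sub_le_norm_sub_add_norm_sub _ _ _).trans ((add_le_add a2 a3).trans (by linarith))
  have q4 : ∀ z, D.ρ z = S.π z → ⟪S.π z S.ξ, q⟫_ℂ = 0 := fun z hz => by
    have a1 : ∀ n, ‖⟪S.π z S.ξ, q⟫_ℂ‖ ≤ ‖z‖ * ‖ζ‖ * e n := fun n => by
      have := sub (T := innerSL ℂ (S.π z S.ξ) ⁻¹' Metric.closedBall 0 (‖z‖ * ‖ζ‖ * e n))
        ((convex_closedBall _ _).linear_preimage
          ((innerSL ℂ (S.π z S.ξ)).restrictScalars ℝ).toLinearMap)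
        (Metric.isClosed_closedBall.preimage (innerSL ℂ _).continuous) (fun u hu h3 => ?_) (q1 n)
      · simpa using this
      · have a2 : D.Wu (star u) (S.π z S.ξ) = S.π z (D.Wu (star u) S.ξ) := by
          simp only [MD.Wu, mul_apply_eq_comp]
          rw [← D.π_ρ, ← hz, D.π_ρ]
        rw [Set.mem_preimage, mem_closedBall_zero_iff, innerSL_apply_apply,
          ← ContinuousLinearMap.adjoint_inner_left, ← ContinuousLinearMap.star_eq_adjoint,
          ← D.Wu_star, a2, ← sub_zero (inner _ _ _), ← hζ z hz, ← inner_sub_left, ← map_sub]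
        refine (norm_inner_le_norm _ _).trans ?_
        rw [mul_right_comm]
        gcongr
        refine (S.norm_apply_le _ _).trans ?_
        rw [MD.norm_Wu_sub (Unitary.star_mem hu), MD.norm_ad_star, ← MD.norm_Wu_sub hu]
        gcongr
    refine norm_le_zero_iff.1 (ge_of_tendsto' (x := atTop) ?_ a1)
    simpa [e, div_eq_mul_inv] using ((tendsto_one_div_add_atTop_nhds_zero_nat (𝕜 := ℝ)).const_mul η).const_mul
      (‖z‖ * ‖ζ‖)
  have q5 : q = 0 := norm_le_zero_iff.1 (le_of_forall_pos_le_add fun ε hε => by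
    obtain ⟨z, hz, h3⟩ := vcen h q3 hε
    have a1 := norm_inner_le_norm (𝕜 := ℂ) (q - S.π z S.ξ) q
    rw [inner_sub_left, q4 z hz, sub_zero, inner_self_eq_norm_sq_to_K] at a1
    simp only [norm_pow, RCLike.norm_ofReal, abs_norm] at a1
    nlinarith [norm_nonneg q, norm_nonneg (q - S.π z S.ξ)])
  have q6 := sub (T := {β | ‖ζ‖ ^ 2 / 2 ≤ (⟪ζ, β⟫_ℂ).re})
    ((convex_halfSpace_re_ge _).linear_preimage ((innerSL ℂ ζ).restrictScalars ℝ).toLinearMap)
    (isClosed_le continuous_const (by fun_prop))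
    (fun u hu h3 => (h0 u hu (by simpa [e, MD.norm_Wu_sub hu] using h3)).le) (q1 0)
  have q7 := h0 1 (one_mem _) (by simp [D.ρ_one, hη.le])
  rw [q5, Set.mem_ofPred_eq, inner_zero_right, Complex.zero_re] at q6
  rw [w1, one_apply_eq_self, ← RCLike.re_to_complex, inner_self_eq_norm_sq] at q7
  linarith

end abs

variable {K : Type*} [NormedAddCommGroup K] [InnerProductSpace ℂ K] [CompleteSpace K]
  {X Y : SA K} {Ω : K}

theorem ctr_of_far (h : SP X Y Ω) (hF : Far X Y Ω) : Ctr X Y Ω := by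
  have := h.toCP.closed
  let := CStarAlgebra.spectralOrder X
  have := CStarAlgebra.spectralOrderedRing X
  obtain ⟨S, hπ, rfl⟩ := exists_std h
  obtain ⟨D⟩ := P132.exists_MD S
  have hρ : ∀ a, D.ρ a ∈ Y := fun a => h.cY _ fun x hx => by
    simpa only [hπ] using (D.π_mul_ρ ⟨x, hx⟩ a).symm
  have hρ' : ∀ y ∈ Y, ∃ b, D.ρ b = y := fun y hy =>
    exists_ρ D fun a => by rw [hπ, h.cm a a.2 y hy]
  have hA : FarA D := fun c₀ κ h1 h2 => by
    obtain ⟨c, h3, h4, h5⟩ := hF c₀ κ h1 h2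
    refine ⟨c, h3, h4, fun F ε hε => ?_⟩
    obtain ⟨v, hv, r, hr, f, hf, a1, a2, a3, a4, a5, a6⟩ := h5 F ε hε
    obtain ⟨b, rfl⟩ := hρ' r hr
    obtain ⟨g, rfl⟩ := hρ' f hf
    obtain rfl := lemE D (v := ⟨v, hv⟩) (b := b) h3 (by rwa [hπ]) (by rwa [hπ, D.ρ_star])
    obtain rfl := lemE D (v := ⟨v, hv⟩ * star ⟨v, hv⟩) (b := g) one_pos (by simpa [hπ] using a5)
      (by simpa [hπ, D.ρ_star, a2] using a5.symm)
    exact ⟨⟨v, hv⟩, a1, by rwa [hπ], by rw [hπ]; exact a5.symm, fun α hα β hβ => by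
      rw [hπ]; exact a6 α hα β hβ⟩
  intro ζ z r η hz hz' hr hη h1
  let N := ((X ⊓ Y).toSubalgebra.toSubmodule.map
    (ContinuousLinearMap.apply ℂ K S.ξ).toLinearMap).topologicalClosure
  have hN : ∀ w ∈ X, w ∈ Y → w S.ξ ∈ N := fun w a b =>
    Submodule.le_topologicalClosure _ ⟨w, ⟨a, b⟩, rfl⟩
  obtain ⟨_, ⟨w, ⟨hw, hw'⟩, rfl⟩, h2⟩ := Metric.mem_closure_iff.1
    (N.starProjection_apply_mem ζ) (r / 100) (by positivity)
  rw [dist_eq_norm] at h2
  change ‖N.starProjection ζ - w S.ξ‖ < _ at h2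
  have h3 : ‖ζ - N.starProjection ζ‖ ≤ r := by
    rw [N.starProjection_minimal]
    exact (ciInf_le ⟨0, by rintro _ ⟨x, rfl⟩; positivity⟩ (⟨_, hN z hz hz'⟩ : N)).trans h1
  obtain ⟨u, hu, h4, h5⟩ := contr hA (ζ := ζ - N.starProjection ζ) (fun a ha =>
    (N.mem_orthogonal _).1 (N.sub_starProjection_mem_orthogonal ζ) _ (by
      rw [hπ]; exact hN _ a.2 (hπ a ▸ ha ▸ hρ a))) (η := min η (r / 100 / (‖w‖ + 1)))
    (by positivity)
  rw [← MD.norm_Wu_sub hu] at h4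
  have e : ∀ α, D.Wu u α = (u : K →L[ℂ] K) (D.ρ (star u) α) := fun α => by
    rw [MD.Wu, hπ]; rfl
  refine ⟨u, u.2, D.ρ (star u), hρ _, w, hw, hw', hπ u ▸ Unitary.map_mem S.π hu, ⟨?_, ?_⟩,
    by rw [← e]; exact h4.trans (min_le_left _ _), ?_⟩
  · rw [← D.ρ_star, ← D.ρ_mul, star_star, hu.1, D.ρ_one]
  · rw [← D.ρ_star, ← D.ρ_mul, star_star, hu.2, D.ρ_one]
  · set ζ₀ := ζ - N.starProjection ζ with h6
    have a1 : ‖ζ₀ + D.Wu u ζ₀‖ ≤ 7 / 4 * r := by
      refine (abs_le_of_sq_le_sq' ?_ (by positivity)).2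
      rw [@norm_add_sq ℂ, MD.norm_Wu hu, RCLike.re_to_complex]
      nlinarith [pow_le_pow_left₀ (norm_nonneg _) h3 2]
    have a2 : ‖D.Wu u (w S.ξ) - w S.ξ‖ ≤ r / 100 := by
      rw [e, ← h.app hw (hρ _), h.app u.2 hw', ← e, ← map_sub]
      have := (le_div_iff₀ (by positivity)).1 (h4.trans (min_le_right _ _))
      nlinarith [w.le_opNorm (D.Wu u S.ξ - S.ξ), norm_nonneg (D.Wu u S.ξ - S.ξ)]
    have a3 : (2 : ℂ)⁻¹ • (ζ + D.Wu u ζ) - w S.ξ = (2 : ℂ)⁻¹ • (ζ₀ + D.Wu u ζ₀ +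
        (N.starProjection ζ - w S.ξ) + (D.Wu u (N.starProjection ζ - w S.ξ) +
          (D.Wu u (w S.ξ) - w S.ξ))) := by
      simp only [h6, map_sub]
      module
    rw [← e, a3, norm_smul, norm_inv, Complex.norm_two]
    have a4 := norm_add_le_of_le (norm_add_le_of_le a1 h2.le)
      (norm_add_le_of_le ((MD.norm_Wu (D := D) hu _).trans_le h2.le) a2)
    linarith

end Vale.Agent.P096
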