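import Vale.Agent.P096.G.PW

/-! The doubling property. -/

namespace Vale.Agent.P096

open scoped InnerProductSpace Topology ComplexConjugate
open Filter
open Vale.Agent.P132 (FC BC ex pp qq rr EE chi Std PM MD)

universe u

namespace Db

variable {K : Type*} [NormedAddCommGroup K] [InnerProductSpace ℂ K] [CompleteSpace K]

lemma dn_conj {Z : SA K} {Ω : K} {x e W : K →L[ℂ] K} (hW : ∀ z ∈ Z, star W (z Ω) = z Ω)
    (hu : star W * W = 1) (h : Dn Z Ω (star x * x) e) :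
    Dn Z Ω (star (W * x * star W) * (W * x * star W)) e := by
  refine ⟨h.1, fun z hz => ?_⟩
  have e1 : star (W * x * star W) * (W * x * star W) = W * (star x * x) * star W := by
    simp only [star_mul, star_star, mul_assoc]
    rw [← mul_assoc (star W) W, hu, one_mul]
  have e2 : star W Ω = Ω := hW 1 (one_mem _)
  rw [e1, ← h.2 z hz, ContinuousLinearMap.mul_apply, ContinuousLinearMap.mul_apply, e2,
    ← ContinuousLinearMap.adjoint_inner_left, ← ContinuousLinearMap.star_eq_adjoint, hW z hz]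

omit [CompleteSpace K] in
lemma alg {ι : Type*} [Fintype ι] (P M M' Q Q' : ι → K) {a b : ℂ} {d ε n w₁ w₂ : ℝ}
    (h1 : nm (fun i => Q' i - Q i) ≤ d) (h2 : nm (fun i => M i - M' i) ≤ d)
    (h3 : ‖(av fun i => ⟪P i, M i - P i⟫_ℂ) - a‖ ≤ ε)
    (h4 : ‖(av fun i => ⟪M' i, Q i - M' i⟫_ℂ) - b‖ ≤ ε) (h5 : nm (fun i => M i - P i) ≤ w₁)
    (h6 : nm (fun i => Q i - M' i) ≤ w₂) (h7 : nm P ≤ n) :
    ‖a + b‖ ≤ ‖av fun i => ⟪P i, Q' i - P i⟫_ℂ‖ + 2 * ε + 2 * n * d + d * w₂ + w₁ * w₂ := by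
  have e : (av fun i => ⟪P i, M i - P i⟫_ℂ) + (av fun i => ⟪M' i, Q i - M' i⟫_ℂ) =
      (av fun i => ⟪P i, Q' i - P i⟫_ℂ) - (av fun i => ⟪P i, Q' i - Q i⟫_ℂ) +
        (av fun i => ⟪P i, M i - M' i⟫_ℂ) - (av fun i => ⟪M i - M' i, Q i - M' i⟫_ℂ) +
        av fun i => ⟪M i - P i, Q i - M' i⟫_ℂ := by
    simp only [← av_add, ← av_sub, inner_sub_left, inner_sub_right]
    congr 1
    ext i
    ring
  have k : ∀ {f g : ι → K} {s t : ℝ}, nm f ≤ s → nm g ≤ t →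
      ‖av fun i => ⟪f i, g i⟫_ℂ‖ ≤ s * t := fun hf hg => (norm_av_inner_le _ _).trans
    (mul_le_mul hf hg (nm_nonneg _) ((nm_nonneg _).trans hf))
  have h8 := norm_add_le_of_le (norm_sub_le_of_le (norm_add_le_of_le (norm_sub_le_of_le
    (le_refl ‖av fun i => ⟪P i, Q' i - P i⟫_ℂ‖) (k h7 h1)) (k h7 h2)) (k h2 h6)) (k h5 h6)
  have h9 := norm_sub_le_of_le (norm_sub_le_of_le (e ▸ h8) h3) h4
  rw [show ∀ x y : ℂ, x + y - (x - a) - (y - b) = a + b from fun x y => by ring] at h9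
  linarith

lemma win {ι : Type*} [Fintype ι] {D : FC K} {Y : K →L[ℂ] K} (hY : ‖Y‖ ≤ 2) {Λ n s κ : ℝ}
    (hn : 0 ≤ n) (h : NB D Y (Λ + 1) n) (ζ : ι → K)
    (h1 : nm (fun i => D.fb (fun x => 1 - chi Λ (x - s)) (ζ i)) ≤ κ) :
    ‖av fun i => ⟪ζ i, Y (ζ i)⟫_ℂ‖ ≤ n * nm ζ ^ 2 + 4 * κ * nm ζ := by
  have bG : BC fun x => chi Λ (x - s) :=
    ⟨(P132.continuous_chi Λ).comp (by fun_prop), 1, fun x => P132.norm_chi _ _⟩
  set G := D.fb fun x => chi Λ (x - s) with hG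
  have e1 : ∀ v, D.fb (fun x => 1 - chi Λ (x - s)) v = v - G v := fun v => by
    rw [D.sub (.const 1) bG, D.one]; rfl
  have n1 : ∀ v, ‖G v‖ ≤ 1 * ‖v‖ := D.norm_le bG fun x => P132.norm_chi _ _
  simp only [e1] at h1
  have e2 : (av fun i => ⟪ζ i, Y (ζ i)⟫_ℂ) = (av fun i => ⟪G (ζ i), Y (G (ζ i))⟫_ℂ) +
      (av fun i => ⟪G (ζ i), Y (ζ i - G (ζ i))⟫_ℂ) + av fun i => ⟪ζ i - G (ζ i), Y (ζ i)⟫_ℂ := by
    simp only [← av_add, inner_sub_left, inner_sub_right, map_sub]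
    congr 1
    ext i
    ring
  have a1 : ‖av fun i => ⟪G (ζ i), Y (G (ζ i))⟫_ℂ‖ ≤ n * nm ζ ^ 2 := by
    rw [av, norm_smul, norm_inv, Complex.norm_natCast, nm_sq, mul_left_comm, Finset.mul_sum]
    refine mul_le_mul_of_nonneg_left ((norm_sum_le _ _).trans (Finset.sum_le_sum fun i _ =>
      (h s _ (win_fb bG (fun x hx => not_lt.1 fun h0 => hx (P132.chi_supp h0)) _)).trans ?_))
      (by positivity)
    gcongr
    simpa using n1 _
  have a2 := (norm_av_inner_le (fun i => G (ζ i)) fun i => Y (ζ i - G (ζ i))).trans (mul_le_mul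
    (nm_mono zero_le_one fun i => n1 _) (nm_mono zero_le_two fun i => Y.le_of_opNorm_le hY _)
    (nm_nonneg _) (by positivity [nm_nonneg ζ]))
  have a3 := (norm_av_inner_le (fun i => ζ i - G (ζ i)) fun i => Y (ζ i)).trans (mul_le_mul h1
    (nm_mono zero_le_two fun i => Y.le_of_opNorm_le hY _) (nm_nonneg _) ((nm_nonneg _).trans h1))
  rw [e2]
  refine (norm_add_le_of_le (norm_add_le_of_le a1 a2) a3).trans ?_
  nlinarith [nm_nonneg ζ]

lemma sqrt_le {e : K →L[ℂ] K} (h : e ≤ 1) (v : K) : √(⟪v, e v⟫_ℂ).re ≤ ‖v‖ := by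
  have := ((ContinuousLinearMap.nonneg_iff_isPositive _).1 (sub_nonneg.2 h)).re_inner_nonneg_right v
  rw [ContinuousLinearMap.sub_apply, inner_sub_right, map_sub, ContinuousLinearMap.one_apply,
    inner_self_eq_norm_sq] at this
  exact Real.sqrt_le_iff.2 ⟨norm_nonneg _, by simpa using this⟩

lemma ev_le {ι : Type*} {l : Filter ι} {f : ι → ℝ} {a b ε : ℝ} (h : Tendsto f l (𝓝 a))
    (h' : a ≤ b) (hε : 0 < ε) : ∀ᶠ i in l, f i ≤ b + ε :=
  (h.eventually (gt_mem_nhds (show a < b + ε by linarith))).mono fun _ => le_of_lt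

lemma ev_near {ι : Type*} {l : Filter ι} {f : ι → ℂ} {a : ℂ} {ε : ℝ} (h : Tendsto f l (𝓝 a))
    (hε : 0 < ε) : ∀ᶠ i in l, ‖f i - a‖ ≤ ε :=
  (Metric.tendsto_nhds.1 h ε hε).mono fun _ hi => by rw [← dist_eq_norm]; exact hi.le

end Db

open Db

section

variable {K : Type u} [NormedAddCommGroup K] [InnerProductSpace ℂ K] [CompleteSpace K]
  {G : Type u} [Group G] {δ : ℝ} {A R D B Z : SA K} {Ω : K} {p q : G →* (K →L[ℂ] K)}

lemma Db.dn_norm (h : Al δ A R D B Z Ω p q) {y g z : K →L[ℂ] K} (hy : y ∈ A)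
    (hg : Dn Z Ω (star y * y) g) (hz : z ∈ Z) : ‖y (z Ω)‖ ^ 2 = (⟪z Ω, g (z Ω)⟫_ℂ).re := by
  have a1 := hg.2 _ (mul_mem (star_mem hz) hz)
  have hR := ((h.zi _).1 hz).2.1
  simp only [ContinuousLinearMap.mul_apply, ContinuousLinearMap.star_eq_adjoint z,
    ContinuousLinearMap.adjoint_inner_left] at a1
  rw [← h.sA.app (star_mem hy) hR, ← h.sA.app hy hR, ← h.sA.app ((h.zi _).1 hg.1).1 hR,
    ContinuousLinearMap.star_eq_adjoint, ContinuousLinearMap.adjoint_inner_right] at a1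
  rw [← a1, ← inner_self_eq_norm_sq (𝕜 := ℂ)]
  rfl

lemma Db.re_mono {a b : K →L[ℂ] K} (h : a ≤ b) (v : K) : (⟪v, a v⟫_ℂ).re ≤ (⟪v, b v⟫_ℂ).re := by
  have := ((ContinuousLinearMap.nonneg_iff_isPositive _).1 (sub_nonneg.2 h)).re_inner_nonneg_right v
  rw [ContinuousLinearMap.sub_apply, inner_sub_right, map_sub] at this
  exact sub_nonneg.1 this

lemma Db.re_sq {s : K →L[ℂ] K} (h : IsSelfAdjoint s) (v : K) :
    (⟪v, (s * s) v⟫_ℂ).re = ‖s v‖ ^ 2 := by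
  rw [ContinuousLinearMap.mul_apply, ← h.isSymmetric.apply_clm, ← inner_self_eq_norm_sq (𝕜 := ℂ)]
  rfl

/-- Normalised approximants. -/
lemma Db.approx (h : Quad δ A R D B Z Ω p q) {ξ₀ : K} (h0 : ‖ξ₀‖ = 1) {ε ε' : ℝ} (hε : 0 < ε)
    (hε1 : ε ≤ 1) (hε' : 0 < ε') : ∃ x ∈ A, ∃ c ∈ B, ∃ m ∈ Z, ∃ r ∈ Z, ∃ e f,
      Dn Z Ω (star x * x) e ∧ Dn Z Ω (star c * c) f ∧ 0 ≤ e ∧ 0 ≤ f ∧ e + f ≤ 1 ∧ ‖m Ω‖ ≤ 3 ∧
      ‖x (m Ω) - ξ₀‖ ≤ ε ∧ ‖c (m Ω) - ξ₀‖ ≤ ε ∧ ‖x Ω - r ξ₀‖ ≤ ε' ∧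
      ‖(e + f) ξ₀ - ξ₀‖ ≤ 2 * ε := by
  obtain ⟨x, hx, x1⟩ := h.sA.dX ξ₀ (min ε (ε * ε')) (by positivity)
  obtain ⟨c, hc, c1⟩ := h.sD.dY ξ₀ ε hε
  have h' := h.sw.op
  obtain ⟨e, e1, -, e2, -⟩ := h.exists_dn (mul_mem (star_mem hx) hx) (.star_mul_self x)
  obtain ⟨f, f1, -, f2, -⟩ := h'.exists_dn (mul_mem (star_mem hc) hc) (.star_mul_self c)
  replace e2 := e2 (star_mul_self_nonneg x)
  replace f2 := f2 (star_mul_self_nonneg c)
  obtain ⟨s, hs, r, hr, s1, r1, sr, rs, ss, r2⟩ :=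
    h.exists_nrm (add_mem e1.1 f1.1) (add_nonneg e2 f2) (κ := ε ^ 2) (by positivity)
  have x2 := x1.trans (min_le_left _ _)
  have zc : ∀ {a b}, a ∈ Z → b ∈ Z → a * b = b * a := fun ha hb =>
    h.sA.cm _ ((h.zi _).1 ha).1 _ ((h.zi _).1 hb).2.1
  have r3 : ‖r‖ ≤ ε⁻¹ := by
    rw [← inv_pow] at r2
    exact (pow_le_pow_iff_left₀ (norm_nonneg _) (by positivity) two_ne_zero).1 r2
  have hk : (0 : K →L[ℂ] K) ≤ ((ε ^ 2 : ℝ) : ℂ) • 1 := by
    rw [Complex.coe_smul]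
    exact smul_nonneg (by positivity) zero_le_one
  have E : star r * e * r + star r * f * r = 1 - ((ε ^ 2 : ℝ) : ℂ) • (r * r) := by
    rw [← add_mul, ← mul_add, eq_sub_of_add_eq ss.symm, r1.star_eq, mul_sub, sub_mul, ← mul_assoc,
      rs, one_mul, sr, mul_smul_comm, smul_mul_assoc, mul_one]
  have xs : ∀ y : K →L[ℂ] K, (y * r) (s Ω) = y Ω := fun y => by
    rw [← ContinuousLinearMap.mul_apply, mul_assoc, rs, mul_one]
  have as : ∀ y : K →L[ℂ] K, star (y * r) * (y * r) = star r * (star y * y) * r := fun y => by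
    simp only [star_mul, mul_assoc]
  have n1 : ‖x Ω‖ ≤ 2 := by linarith [norm_le_norm_add_norm_sub' (x Ω) ξ₀]
  have n2 : ‖c Ω‖ ≤ 2 := by linarith [norm_le_norm_add_norm_sub' (c Ω) ξ₀]
  refine ⟨_, mul_mem hx ((h.zi _).1 hr).1, _, mul_mem hc ((h.zi _).1 hr).2.2.2, s, hs, r, hr, _, _,
    as x ▸ h.dn_conj (mul_mem (star_mem hx) hx) e1 hr,
    as c ▸ h'.dn_conj (mul_mem (star_mem hc) hc) f1 hr, star_left_conjugate_nonneg e2 r,
    star_left_conjugate_nonneg f2 r, ?_, ?_, xs x ▸ x2, xs c ▸ c1, ?_, ?_⟩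
  · rw [E, sub_le_self_iff, Complex.coe_smul]
    exact smul_nonneg (by positivity) (by simpa [r1.star_eq] using star_mul_self_nonneg r)
  · have a1 := dn_norm h.toAl hx e1 (one_mem _)
    have a2 := dn_norm h'.toAl hc f1 (one_mem _)
    have a3 := re_sq s1 Ω
    simp only [ss, ContinuousLinearMap.add_apply, ContinuousLinearMap.one_apply, inner_add_right,
      Complex.add_re, ContinuousLinearMap.smul_apply, P132.re_inner_rsmul, h.sA.nΩ] at a1 a2 a3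
    refine (pow_le_pow_iff_left₀ (norm_nonneg _) (by positivity) two_ne_zero).1 ?_
    nlinarith [norm_nonneg (x Ω), norm_nonneg (c Ω)]
  · rw [h.sA.cm _ hx _ ((h.zi _).1 hr).2.1, ContinuousLinearMap.mul_apply, ← map_sub]
    refine (It.ap r3 (x1.trans (min_le_right _ _))).trans_eq ?_
    field_simp
  · set k := ((ε ^ 2 : ℝ) : ℂ) • (r * r) with hk'
    have k1 : k ∈ Z := Z.smul_mem (mul_mem hr hr) _
    have k2 : ‖k‖ ≤ 1 := by
      rw [hk', norm_smul, Complex.norm_real, Real.norm_of_nonneg (by positivity),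
        ← le_div_iff₀' (by positivity), one_div, ← inv_pow, pow_two]
      exact norm_mul_le_of_le r3 r3
    have k3 : ‖s (k Ω)‖ ≤ ε := by
      rw [← ContinuousLinearMap.mul_apply, hk', mul_smul_comm, ← mul_assoc, sr, one_mul,
        ContinuousLinearMap.smul_apply, norm_smul, Complex.norm_real,
        Real.norm_of_nonneg (by positivity)]
      refine (mul_le_mul_of_nonneg_left (It.ap r3 h.sA.nΩ.le) (by positivity)).trans_eq ?_
      field_simp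
    have k4 : ‖x (k Ω)‖ ≤ ε := by
      refine (pow_le_pow_iff_left₀ (norm_nonneg _) hε.le two_ne_zero).1 ?_
      rw [dn_norm h.toAl hx e1 k1]
      refine (re_mono (b := s * s) ?_ _).trans ?_
      · rw [ss, add_assoc]
        exact le_add_of_nonneg_right (add_nonneg f2 hk)
      · rw [re_sq s1]
        gcongr
    have k5 := It.ap k2 x2
    rw [h.sA.app hx ((h.zi _).1 k1).2.1] at k4
    rw [map_sub] at k5
    rw [E, ContinuousLinearMap.sub_apply, ContinuousLinearMap.one_apply, sub_sub_cancel_left,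
      norm_neg]
    linarith [norm_le_norm_add_norm_sub' (k ξ₀) (k (x Ω)), norm_sub_rev (k ξ₀) (k (x Ω))]

lemma Db.pz (h : Al δ A R D B Z Ω p q) {z : K →L[ℂ] K} (hz : z ∈ Z) (g : G) :
    p g (z Ω) = q g⁻¹ (z Ω) := by
  have a1 : q g (p g (z Ω)) = z Ω := by
    rw [h.sA.app (h.pA g) ((h.zi _).1 hz).2.1, ← h.sA.app ((h.zi _).1 hz).1 (h.qR g), ← h.pq, h.fix]
  conv_rhs => rw [← a1, ← ContinuousLinearMap.mul_apply, ← map_mul, inv_mul_cancel, map_one]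
  rfl

lemma Db.io (h : Quad δ A R D B Z Ω p q) {l : Filter (Avg G)} (hl : Good Z Ω p q l)
    {x c e f m : K →L[ℂ] K} (hx : x ∈ A) (hc : c ∈ B) (he : Dn Z Ω (star x * x) e) (e1 : e ≤ 1)
    (hf : Dn Z Ω (star c * c) f) (f1 : f ≤ 1) (hm : m ∈ Z) {d ε : ℝ} (hε : 0 < ε)
    (h0 : ∀ᶠ a : Avg G in l,
      (nm fun i => x (p (a.h i) (c (m Ω))) - c (x (p (a.h i) (m Ω)))) ≤ d) {ξ η : K}
    (h1 : ‖x (m Ω) - ξ‖ ≤ ε) (h2 : ‖c (m Ω) - η‖ ≤ ε) :
    ∀ᶠ a : Avg G in l, (nm fun i => x (p (a.h i) η) - c (q (a.h i)⁻¹ ξ)) ≤ d + 4 * ε := by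
  filter_upwards [h0, ev_le (h.limN hl hx he (c (m Ω) - η)).1 ((sqrt_le e1 _).trans h2) hε,
    ev_le (h.sw.op.limN (h.good_op hl) hc hf (x (m Ω) - ξ)).2 ((sqrt_le f1 _).trans h1) hε]
    with a a1 a2 a3
  have a4 := nm_add_le (fun i => x (p (a.h i) (c (m Ω))) - c (x (p (a.h i) (m Ω))) -
    x (p (a.h i) (c (m Ω) - η))) fun i => c (q (a.h i)⁻¹ (x (m Ω) - ξ))
  have a5 := nm_sub_le (fun i => x (p (a.h i) (c (m Ω))) - c (x (p (a.h i) (m Ω))))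
    fun i => x (p (a.h i) (c (m Ω) - η))
  refine le_trans (le_of_eq ?_) (a4.trans (by linarith))
  congr 1
  ext i
  rw [pz h.toAl hm, h.sA.app hx (h.qR _)]
  simp only [map_sub]
  abel

lemma Db.ab {e f : K →L[ℂ] K} (e0 : 0 ≤ e) (f0 : 0 ≤ f) (h : e + f ≤ 1) {v : K} (hv : ‖v‖ = 1) :
    √(⟪v, e v⟫_ℂ).re * √(⟪v, f v⟫_ℂ).re ≤ 1 / 2 := by
  have a1 := re_mono e0 v
  have a2 := re_mono f0 v
  have a3 := re_mono h v
  rw [ContinuousLinearMap.zero_apply, inner_zero_right, Complex.zero_re] at a1 a2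
  rw [ContinuousLinearMap.add_apply, inner_add_right, Complex.add_re,
    ContinuousLinearMap.one_apply, inner_self_eq_norm_sq_to_K, hv] at a3
  norm_num at a3
  nlinarith [Real.sq_sqrt a1, Real.sq_sqrt a2, sq_nonneg (√(⟪v, e v⟫_ℂ).re - √(⟪v, f v⟫_ℂ).re)]

lemma Db.num {C δ ε n y μ z a b o θ w I J L N : ℝ} (hC : 1 ≤ C) (hδ : 0 ≤ δ) (hε : 0 < ε)
    (hε1 : ε ≤ 1) (hn : 0 ≤ n) (hn2 : n ≤ 2) (hy : 0 ≤ y) (hμ : 0 ≤ μ) (m3 : μ ≤ 3) (hz : 0 ≤ z)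
    (hb : 0 ≤ b) (b2 : b ≤ o) (h1 : o = 1) (b3 : a * b ≤ 1 / 2) (b4 : z ≤ 2) (a7 : z ≤ a + ε)
    (b5 : z ≤ b + ε + (C * δ * μ + ε + 4 * ε)) (θ0 : 0 ≤ θ) (θ2 : θ ≤ 2) (θw : θ ≤ w)
    (b7 : J ≤ n * z ^ 2 + 4 * (14 * y + ε) * z)
    (b8 : L ≤ J + 2 * ε + 2 * 2 * (C * δ * μ + ε + 4 * ε) + (C * δ * μ + ε + 4 * ε) * (θ + ε) +
      (θ + ε) * (θ + ε)) (b9 : N ≤ 2 * ε * 2) (b10 : I ≤ L + N) :
    I ≤ n / 2 + w ^ 2 + 112 * C * δ + 112 * C * y + 100 * ε := by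
  set d := C * δ * μ + ε + 4 * ε with hd
  have c2 : C * δ * μ ≤ C * δ * 3 := by gcongr
  have c3 : 0 ≤ C * δ * μ := by positivity
  have c4 : z ^ 2 ≤ 1 / 2 + 3 * ε + 2 * d := by
    calc z ^ 2 ≤ z * (b + (ε + d)) := by rw [sq]; gcongr; linarith
      _ ≤ (a + ε) * b + 2 * (ε + d) := by rw [mul_add]; gcongr
      _ ≤ _ := by linarith [mul_le_mul_of_nonneg_left b2 hε.le, h1 ▸ mul_one ε]
  have c5 : n * z ^ 2 ≤ n / 2 + 2 * (3 * ε + 2 * d) := by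
    linarith [mul_le_mul_of_nonneg_left c4 hn,
      mul_le_mul_of_nonneg_right hn2 (show 0 ≤ 3 * ε + 2 * d by positivity)]
  have c6 : 4 * (14 * y + ε) * z ≤ 4 * (14 * y + ε) * 2 := by gcongr
  have c7 : d * (θ + ε) ≤ d * 3 := by gcongr; linarith
  have c8 : (θ + ε) * (θ + ε) ≤ w ^ 2 + 5 * ε := by
    linarith [pow_le_pow_left₀ θ0 θw 2, mul_le_mul_of_nonneg_left θ2 hε.le,
      mul_le_mul_of_nonneg_left hε1 hε.le]
  have c9 : y ≤ C * y := le_mul_of_one_le_left hy hC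
  have : 0 ≤ C * δ := by positivity
  linarith

end

theorem dbl : ∃ C : ℝ, 1 ≤ C ∧ ∀ {K : Type u} [NormedAddCommGroup K] [InnerProductSpace ℂ K]
    [CompleteSpace K] {G : Type u} [Group G] {A R D B Z : SA K} {Ω : K}
    {p q : G →* (K →L[ℂ] K)} {δ : ℝ}, 0 ≤ δ → δ ≤ 1 →
    Quad δ A R D B Z Ω p q → ∀ (M : Mod A R Ω) (M' : Mod D B Ω),
      Dbl M.toFC M'.toFC C (C * δ) := by
  obtain ⟨C, hC, hι⟩ := iota.{u}
  refine ⟨112 * C, by linarith, ?_⟩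
  intro K _ _ _ G _ A R D B Z Ω p q δ hδ _ h M M' t r Λ n w hr hΛ hn hn2 hN hW
  set U := M.U t with hU
  set V := M'.U t with hV
  set Y := M.U (-t) * V - 1 with hY
  have nU : ∀ v, ‖U v‖ = ‖v‖ := M.norm_U t
  have nV : ∀ v, ‖V v‖ = ‖v‖ := M'.norm_U t
  have eY : ∀ v, U (Y v) = V v - U v := fun v => by
    rw [hY, ContinuousLinearMap.sub_apply, map_sub, ContinuousLinearMap.mul_apply, M.U_U_neg]
    rfl
  have iY : ∀ v, ⟪v, Y v⟫_ℂ = ⟪U v, V v - U v⟫_ℂ := fun v => by rw [← eY, M.inner_U]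
  have nY' : ∀ v, ‖V v - U v‖ ≤ 2 * ‖v‖ := fun v => by
    linarith [norm_sub_le (V v) (U v), nU v, nV v]
  have nY : ‖Y‖ ≤ 2 := Y.opNorm_le_bound zero_le_two fun v => by rw [← nU, eY]; exact nY' v
  suffices H : ∀ s ξ, Win M.toFC s r ξ → ‖ξ‖ = 1 → ∀ ε : ℝ, 0 < ε → ε ≤ 1 → ‖⟪ξ, Y ξ⟫_ℂ‖ ≤
      n / 2 + w ^ 2 + 112 * C * δ + 112 * C * (r / Λ) + 100 * ε by
    intro s ξ hξ
    rcases eq_or_ne ξ 0 with rfl | h0
    · simp
    have hp : 0 < ‖ξ‖ := norm_pos_iff.2 h0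
    have a1 := H s (((‖ξ‖⁻¹ : ℝ) : ℂ) • (1 : K →L[ℂ] K) <| ξ) (hξ.map fun t => by simp)
      (by simp [norm_smul, h0])
    have a2 : ‖⟪ξ, Y ξ⟫_ℂ‖ * (‖ξ‖ ^ 2)⁻¹ ≤ n / 2 + w ^ 2 + 112 * C * δ + 112 * C * (r / Λ) := by
      refine le_of_forall_pos_le_add fun ε hε => ?_
      have a3 := a1 (min 1 (ε / 100)) (by positivity) (min_le_left _ _)
      rw [ContinuousLinearMap.smul_apply, ContinuousLinearMap.one_apply, map_smul, inner_smul_left,
        inner_smul_right, norm_mul, norm_mul, Complex.conj_ofReal, Complex.norm_real,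
        Real.norm_of_nonneg (by positivity)] at a3
      have a4 := min_le_right 1 (ε / 100)
      calc _ = ‖ξ‖⁻¹ * (‖ξ‖⁻¹ * ‖⟪ξ, Y ξ⟫_ℂ‖) := by field_simp
        _ ≤ _ := by linarith
    rwa [mul_inv_le_iff₀ (by positivity)] at a2
  intro s ξ hξ h1 ε hε hε1
  obtain ⟨l, hl0, hl⟩ := h.exists_good
  have hl2 := h.good_sq hl
  have h' := h.sw.op
  have hl3 := h.good_op hl2
  obtain ⟨ε', hε', hpw⟩ := h.pw hl2 M (T := 7 / Λ) hr.le hε hξ
  obtain ⟨x, hx, c, hc, m, hm, ρ, hρ, e, f, he, hf, e0, f0, ef, m3, x1, c1, x2, ef1⟩ :=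
    approx h h1 hε hε1 hε'
  have e1 : e ≤ 1 := (le_add_of_nonneg_right f0).trans ef
  have f1 : f ≤ 1 := (le_add_of_nonneg_left e0).trans ef
  have sU : star U = M.U (-t) := M.star_U t
  have sV : star V = M'.U (-t) := M'.star_U t
  have uU : star U * U = 1 := by rw [sU, hU, ← M.U_add, neg_add_cancel, M.U_zero]
  have uV : star V * V = 1 := by rw [sV, hV, ← M'.U_add, neg_add_cancel, M'.U_zero]
  have zU : ∀ z ∈ Z, star U (z Ω) = z Ω := fun z hz => by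
    rw [sU, ← ContinuousLinearMap.mul_apply, h.U_z M _ hz, ContinuousLinearMap.mul_apply, M.U_Ω]
  have zV : ∀ z ∈ Z, star V (z Ω) = z Ω := fun z hz => by
    rw [sV, ← ContinuousLinearMap.mul_apply, h.sw.U_z M' _ hz, ContinuousLinearMap.mul_apply,
      M'.U_Ω]
  have hx' : U * x * star U ∈ A := sU ▸ M.invX t x hx
  have hc' : V * c * star V ∈ B := sV ▸ M'.invY t c hc
  have he' := dn_conj zU uU he
  have hf' := dn_conj zV uV hf
  have io1 := io h hl2 hx hc he e1 hf f1 hm hε (hι hδ h hl hx hc he e1 hf f1 hm ε hε) x1 c1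
  have io2 := io h hl2 hx' hc' he' e1 hf' f1 hm hε (hι hδ h hl hx' hc' he' e1 hf' f1 hm ε hε)
    (ξ := U ξ) (η := V ξ) (by simpa only [ContinuousLinearMap.mul_apply, zU m hm, ← map_sub, nU])
    (by simpa only [ContinuousLinearMap.mul_apply, zV m hm, ← map_sub, nV])
  set θ := V ξ - U ξ with hθ
  have θ2 : ‖θ‖ ≤ 2 := by simpa [h1] using nY' ξ
  have θw : ‖θ‖ ≤ w := by simpa only [hθ, ← eY, nU, h1, mul_one] using hW s ξ hξ
  obtain ⟨a, a1, a2, a3, a4, a5, a6, a7, a8, a9⟩ := (io1.and <| io2.and <|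
    (ev_near (h.limI hl2 hx' he' (U ξ) θ).1 hε).and <|
    (ev_near (h'.limI hl3 hc' hf' (U ξ) θ).2 hε).and <|
    (ev_le (h.limN hl2 hx' he' θ).1 (sqrt_le e1 _) hε).and <|
    (ev_le (h'.limN hl3 hc' hf' θ).2 (sqrt_le f1 _) hε).and <|
    (ev_le (h.limN hl2 hx he ξ).1 le_rfl hε).and <|
    (ev_le (h'.limN hl3 hc hf ξ).2 le_rfl hε).and
    (hpw x hx _ e (hξ.map fun t => h.U_z M t hρ) x2 he e1)).exists
  have eP : ∀ g, (U * x * star U) (p g (U ξ)) = U (x (p g ξ)) := fun g => by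
    rw [← ContinuousLinearMap.mul_apply (p g), ← (h.U_p M t g).1]
    simp only [ContinuousLinearMap.mul_apply, hU, M.star_U, M.U_neg_U]
  have eQ : ∀ g, (V * c * star V) (q g (V ξ)) = V (c (q g ξ)) := fun g => by
    rw [← ContinuousLinearMap.mul_apply (q g), ← (h.sw.U_p M' t g).2]
    simp only [ContinuousLinearMap.mul_apply, hV, M'.star_U, M'.U_neg_U]
  set ζ := fun i => x (p (a.h i) ξ) with hζ
  set d := C * δ * ‖m Ω‖ + ε + 4 * ε with hd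
  have b1 := sqrt_le e1 ξ
  have b2 := sqrt_le f1 ξ
  have b3 := ab e0 f0 ef h1
  have b4 : nm ζ ≤ 2 := by linarith
  have b5 := nm_add_le (fun i => c (q (a.h i)⁻¹ ξ)) fun i => ζ i - c (q (a.h i)⁻¹ ξ)
  simp only [add_sub_cancel] at b5
  have b6 := ut M.toFC ζ (m := 2 * s) (T := 7 / Λ) (ω := 14 * (r / Λ) + ε) (by positivity)
    (fun t ht => (a9 t ht).trans (by
      rw [h1]
      have : 2 * t * r ≤ 2 * (7 / Λ) * r := by gcongr; exact ht.2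
      have : 2 * (7 / Λ) * r = 14 * (r / Λ) := by ring
      linarith)) (F := fun x => 1 - chi Λ (x - 2 * s))
    ⟨continuous_const.sub ((P132.continuous_chi Λ).comp (by fun_prop)), 1,
      fun x => P132.norm_one_sub_chi _ _⟩ (fun x => P132.norm_one_sub_chi _ _) fun x hx => by
      rw [P132.chi_one (hx.trans_eq (by field_simp)), sub_self]
  have b7 := win nY hn hN ζ b6
  have b8 := alg (fun i => U (ζ i)) (fun i => (U * x * star U) (p (a.h i) (V ξ)))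
    (fun i => (V * c * star V) (q (a.h i)⁻¹ (U ξ))) (fun i => V (c (q (a.h i)⁻¹ ξ)))
    (fun i => V (ζ i)) (a := ⟪U ξ, e θ⟫_ℂ) (b := ⟪U ξ, f θ⟫_ℂ) (d := d) (n := 2)
    (by simpa only [← map_sub, nm_congr fun i => nV _] using a1)
    a2 (by simpa only [hθ, map_sub, eP] using a3) (by simpa only [hθ, map_sub, eQ] using a4)
    (by simpa only [hθ, map_sub, eP] using a5) (by simpa only [hθ, map_sub, eQ] using a6)
    ((nm_congr fun i => nU _).trans_le b4)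
  simp only [← iY] at b8
  have b9 : ‖⟪ξ, Y ξ⟫_ℂ - (⟪U ξ, e θ⟫_ℂ + ⟪U ξ, f θ⟫_ℂ)‖ ≤ 2 * ε * 2 := by
    have s1 : IsSelfAdjoint (e + f) := (add_nonneg e0 f0).isSelfAdjoint
    rw [iY, ← inner_add_right, ← ContinuousLinearMap.add_apply, ← s1.isSymmetric.apply_clm,
      ← ContinuousLinearMap.mul_apply, ← h.U_z M t (add_mem he.1 hf.1), ← inner_sub_left,
      ContinuousLinearMap.mul_apply, ← map_sub]
    exact (norm_inner_le_norm _ _).trans (mul_le_mul (by rwa [nU, norm_sub_rev]) θ2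
      (norm_nonneg _) (by positivity))
  exact num hC hδ hε hε1 hn hn2 (by positivity) (norm_nonneg _) m3 (nm_nonneg _) (Real.sqrt_nonneg _)
    b2 h1 b3 b4 a7 (b5.trans (add_le_add a8 a1)) (norm_nonneg θ) θ2 θw b7 b8 b9
    (norm_le_norm_add_norm_sub' _ _)

end Vale.Agent.P096
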