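import Vale.Agent.P096.Semi
import Vale.Agent.P132.Api

/-! Definitions for the general case. -/

namespace Vale.Agent.P096

open scoped InnerProductSpace Topology ComplexConjugate
open Filter
open Vale.Agent.P132 (FC BC ex pp qq rr)

universe u

abbrev SA (K : Type*) [NormedAddCommGroup K] [InnerProductSpace ℂ K] [CompleteSpace K] :=
  StarSubalgebra ℂ (K →L[ℂ] K)

/-- Amenability through finite averages. -/
def Am (G : Type*) [Group G] : Prop :=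
  ∀ (S : Finset G) (ε : ℝ), 0 < ε → ∃ (ι : Type) (_ : Fintype ι) (_ : Nonempty ι) (h : ι → G),
    ∀ g ∈ S, ∀ F : G → ℂ, (∀ x, ‖F x‖ ≤ 1) → ‖(av fun i => F (g * h i)) - av fun i => F (h i)‖ ≤ ε

section nm

variable {E : Type*} [NormedAddCommGroup E] {ι : Type*} [Fintype ι]

/-- Root mean square of the norms. -/
noncomputable def nm (f : ι → E) : ℝ := √((Fintype.card ι : ℝ)⁻¹ * ∑ i, ‖f i‖ ^ 2)

lemma nm_nonneg (f : ι → E) : 0 ≤ nm f := Real.sqrt_nonneg _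

lemma nm_sq (f : ι → E) : nm f ^ 2 = (Fintype.card ι : ℝ)⁻¹ * ∑ i, ‖f i‖ ^ 2 :=
  Real.sq_sqrt (by positivity)

lemma nm_eq (f : ι → E) :
    nm f = √(Fintype.card ι : ℝ)⁻¹ * ‖(WithLp.toLp 2 f : PiLp 2 fun _ : ι => E)‖ := by
  rw [nm, PiLp.norm_eq_of_L2, Real.sqrt_mul (by positivity)]

lemma nm_add_le (f g : ι → E) : nm (fun i => f i + g i) ≤ nm f + nm g := by
  simp only [nm_eq, ← mul_add]
  exact mul_le_mul_of_nonneg_left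
    (norm_add_le (WithLp.toLp 2 f : PiLp 2 fun _ : ι => E) (WithLp.toLp 2 g)) (by positivity)

lemma nm_mono {F : Type*} [NormedAddCommGroup F] {f : ι → E} {g : ι → F} {C : ℝ} (hC : 0 ≤ C)
    (h : ∀ i, ‖f i‖ ≤ C * ‖g i‖) : nm f ≤ C * nm g := by
  refine (pow_le_pow_iff_left₀ (nm_nonneg _) (mul_nonneg hC (nm_nonneg _)) two_ne_zero).1 ?_
  rw [mul_pow, nm_sq, nm_sq, mul_left_comm, Finset.mul_sum _ _ (C ^ 2)]
  gcongr with i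
  rw [← mul_pow]
  gcongr
  exact h i

lemma nm_congr {F : Type*} [NormedAddCommGroup F] {f : ι → E} {g : ι → F}
    (h : ∀ i, ‖f i‖ = ‖g i‖) : nm f = nm g := by simp only [nm, h]

lemma nm_sub_le (f g : ι → E) : nm (fun i => f i - g i) ≤ nm f + nm g := by
  simpa only [sub_eq_add_neg, nm_congr (g := g) fun i => norm_neg (g i)] using
    nm_add_le f fun i => -g i

lemma nm_const [Nonempty ι] (v : E) : nm (fun _ : ι => v) = ‖v‖ := by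
  rw [nm, Finset.sum_const, Finset.card_univ, nsmul_eq_mul, inv_mul_cancel_left₀ (by simp),
    Real.sqrt_sq (norm_nonneg _)]

lemma nm_le [Nonempty ι] {f : ι → E} {r : ℝ} (h : ∀ i, ‖f i‖ ≤ r) : nm f ≤ r := by
  have h0 : 0 ≤ r := (norm_nonneg _).trans (h (Classical.arbitrary ι))
  have := nm_mono (f := f) (g := fun _ => (1 : ℝ)) h0 (by simpa using h)
  rwa [nm_const, norm_one, mul_one] at this

lemma nm_le_add [Nonempty ι] {f g : ι → E} {r : ℝ} (h : ∀ i, ‖f i - g i‖ ≤ r) :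
    nm f ≤ nm g + r := by
  have := nm_add_le g fun i => f i - g i
  simp only [add_sub_cancel] at this
  linarith [nm_le h]

lemma nm_prod {κ : Type*} [Fintype κ] (f : ι × κ → E) :
    nm f = nm fun i => nm fun j => f (i, j) := by
  rw [nm, nm]
  simp only [Real.norm_eq_abs, sq_abs, nm_sq, Fintype.sum_prod_type, ← Finset.mul_sum,
    Fintype.card_prod, Nat.cast_mul, mul_inv, mul_assoc]

lemma nm_comm {κ : Type*} [Fintype κ] (f : ι → κ → E) :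
    (nm fun i => nm fun j => f i j) = nm fun j => nm fun i => f i j := by
  rw [nm, nm]
  simp only [Real.norm_eq_abs, sq_abs, nm_sq, ← Finset.mul_sum]
  rw [Finset.sum_comm, mul_left_comm]

variable [InnerProductSpace ℂ E]

lemma norm_av_inner_le (f g : ι → E) : ‖av fun i => ⟪f i, g i⟫_ℂ‖ ≤ nm f * nm g := by
  have := norm_inner_le_norm (𝕜 := ℂ) (WithLp.toLp 2 f : PiLp 2 fun _ : ι => E) (WithLp.toLp 2 g)
  rw [PiLp.inner_apply] at this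
  rw [av, norm_smul, nm_eq, nm_eq, mul_mul_mul_comm, Real.mul_self_sqrt (by positivity), norm_inv,
    Complex.norm_natCast]
  gcongr

lemma nm_sq_eq (f : ι → E) : nm f ^ 2 = (av fun i => ⟪f i, f i⟫_ℂ).re := by
  simp only [nm_sq, av, inner_self_eq_norm_sq_to_K, smul_eq_mul]
  rw [← Complex.ofReal_re (_ * _)]
  push_cast
  rfl

end nm

/-- Finite averaging families in a group. -/
structure Avg (G : Type u) : Type (max 1 u) where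
  ι : Type
  [fin : Fintype ι]
  [ne : Nonempty ι]
  h : ι → G

attribute [instance] Avg.fin Avg.ne

/-- The family of quotients. -/
def Avg.sq {G : Type u} [Group G] (a : Avg G) : Avg G :=
  ⟨a.ι × a.ι, fun i => a.h i.1 * (a.h i.2)⁻¹⟩

variable {K : Type*} [NormedAddCommGroup K] [InnerProductSpace ℂ K] [CompleteSpace K]

lemma star_hom {G : Type*} [Group G] {p : G →* (K →L[ℂ] K)}
    (hp : ∀ g, p g ∈ unitary (K →L[ℂ] K)) (g : G) : star (p g) = p g⁻¹ := by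
  rw [← mul_one (star _), ← p.map_one, ← mul_inv_cancel g, map_mul, ← mul_assoc, (hp g).1, one_mul]

/-- An invariant mean for bounded operator valued functions. -/
structure Mean (G : Type*) [Group G] (K : Type*) [NormedAddCommGroup K] [InnerProductSpace ℂ K]
    [CompleteSpace K] where
  m : (G → K →L[ℂ] K) → K →L[ℂ] K
  add : ∀ {T T' : G → K →L[ℂ] K} {r r' : ℝ}, (∀ g, ‖T g‖ ≤ r) → (∀ g, ‖T' g‖ ≤ r') →
    m (fun g => T g + T' g) = m T + m T'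
  mul : ∀ {T : G → K →L[ℂ] K} {r : ℝ}, (∀ g, ‖T g‖ ≤ r) → ∀ a b,
    m (fun g => a * T g * b) = a * m T * b
  str : ∀ {T : G → K →L[ℂ] K} {r : ℝ}, (∀ g, ‖T g‖ ≤ r) → m (fun g => star (T g)) = star (m T)
  inv : ∀ {T : G → K →L[ℂ] K} {r : ℝ}, (∀ g, ‖T g‖ ≤ r) → ∀ s, m (fun g => T (s * g)) = m T
  est : ∀ {T : G → K →L[ℂ] K} {r : ℝ}, (∀ g, ‖T g‖ ≤ r) → ∀ (ξ η : K) (c : ℂ) (ε : ℝ),
    (∀ g, ‖⟪η, T g ξ⟫_ℂ - c‖ ≤ ε) → ‖⟪η, m T ξ⟫_ℂ - c‖ ≤ ε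

/-- The commutant. -/
noncomputable abbrev cz (X : Set (K →L[ℂ] K)) : SA K := StarSubalgebra.centralizer ℂ X

lemma mem_cz {X : Set (K →L[ℂ] K)} {T : K →L[ℂ] K} :
    T ∈ cz X ↔ ∀ x ∈ X, T * x = x * T ∧ T * star x = star x * T := by
  simp only [StarSubalgebra.mem_centralizer_iff, eq_comm]

/-- Each algebra is the commutant of the other. -/
structure CP (X Y : SA K) : Prop where
  cm : ∀ x ∈ X, ∀ y ∈ Y, x * y = y * x
  cX : ∀ T, (∀ y ∈ Y, T * y = y * T) → T ∈ X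
  cY : ∀ T, (∀ x ∈ X, T * x = x * T) → T ∈ Y

lemma CP.symm {X Y : SA K} (h : CP X Y) : CP Y X :=
  ⟨fun y hy x hx => (h.cm x hx y hy).symm, h.cY, h.cX⟩

lemma CP.closed {X Y : SA K} (h : CP X Y) : IsClosed (X : Set (K →L[ℂ] K)) := by
  have : (X : Set (K →L[ℂ] K)) = Set.centralizer (Y : Set (K →L[ℂ] K)) :=
    Set.ext fun T => ⟨fun hT a ha => (h.cm T hT a ha).symm, fun hT => h.cX T fun a ha =>
      (hT a ha).symm⟩
  rw [this]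
  exact Set.isClosed_centralizer _

lemma CP.app {X Y : SA K} (h : CP X Y) {x y : K →L[ℂ] K} (hx : x ∈ X) (hy : y ∈ Y) (v : K) :
    x (y v) = y (x v) := congr($(h.cm x hx y hy) v)

lemma CP.mem_lim {X Y : SA K} (h : CP X Y) {ι : Type*} {l : Filter ι} [l.NeBot]
    {x : ι → K →L[ℂ] K} {y : K →L[ℂ] K} (hl : WT l x y) (hx : ∀ᶠ i in l, x i ∈ X) : y ∈ X :=
  h.cX y fun a ha => hl.comm (hx.mono fun _ hi => h.cm _ hi a ha)

lemma cp_cz (X : Set (K →L[ℂ] K)) : CP (cz X) (cz (cz X : Set (K →L[ℂ] K))) where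
  cm x hx y hy := (std_mem.1 hy x hx).symm
  cX T hT := mem_cz.2 fun x hx => ⟨hT x (std_mem.2 fun y hy => ((mem_cz.1 hy x hx).1).symm),
    hT _ (std_mem.2 fun y hy => ((mem_cz.1 hy x hx).2).symm)⟩
  cY _ hT := std_mem.2 hT

/-- Cyclic vectors. -/
def Cyc (X : SA K) (Ω : K) : Prop := ∀ v : K, ∀ η > 0, ∃ x ∈ X, ‖x Ω - v‖ ≤ η

/-- A commutant pair with a common cyclic unit vector. -/
structure SP (X Y : SA K) (Ω : K) : Prop extends CP X Y where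
  dX : Cyc X Ω
  dY : Cyc Y Ω
  nΩ : ‖Ω‖ = 1

lemma SP.symm {X Y : SA K} {Ω : K} (h : SP X Y Ω) : SP Y X Ω := ⟨h.toCP.symm, h.dY, h.dX, h.nΩ⟩

lemma SP.sep {X Y : SA K} {Ω : K} (h : SP X Y Ω) {x : K →L[ℂ] K} (hx : x ∈ X) (h0 : x Ω = 0) :
    x = 0 := ContinuousLinearMap.ext fun v =>
  std_ind h.dY (p := fun v => x v = 0) (isClosed_eq x.continuous continuous_const)
    (fun y hy => by rw [h.app hx hy, h0, map_zero]) v

/-- The four near inclusions. -/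
structure N4 (δ : ℝ) (A R D B : SA K) : Prop where
  ad : Near δ (A : Set (K →L[ℂ] K)) D
  da : Near δ (D : Set (K →L[ℂ] K)) A
  rb : Near δ (R : Set (K →L[ℂ] K)) B
  br : Near δ (B : Set (K →L[ℂ] K)) R

lemma N4.mono {δ δ' : ℝ} {A R D B : SA K} (h : N4 δ A R D B) (h' : δ ≤ δ') : N4 δ' A R D B :=
  ⟨h.ad.mono h', h.da.mono h', h.rb.mono h', h.br.mono h'⟩

/-- A linear map from `D` to `A` close to the inclusion. -/
def Lift (ε : ℝ) (A D : SA K) : Prop :=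
  ∃ ψ : D →ₗ[ℂ] (K →L[ℂ] K), ∀ n, ψ n ∈ A ∧ ‖ψ n - n‖ ≤ ε * ‖n‖

/-- Normalised column bound. -/
def Col {ι : Type*} [Fintype ι] (x : ι → K →L[ℂ] K) (r : ℝ) : Prop :=
  ∀ γ, nm (fun i => x i γ) ≤ r * ‖γ‖

/-- Columns of `X` are near columns of the commutant of `Y`. -/
def CN (δ : ℝ) (X Y : SA K) : Prop :=
  ∀ (ι : Type) [Fintype ι] [Nonempty ι] (x : ι → K →L[ℂ] K) (r : ℝ), (∀ i, x i ∈ X) → 0 ≤ r →
    Col x r → ∃ y : ι → K →L[ℂ] K, (∀ i, ∀ c ∈ Y, y i * c = c * y i) ∧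
      Col (fun i => x i - y i) (δ * r)

/-- The output of modular theory. -/
structure Mod (X Y : SA K) (Ω : K) extends FC K where
  U_Ω : ∀ t, toFC.U t Ω = Ω
  invX : ∀ t, ∀ x ∈ X, toFC.U t * x * toFC.U (-t) ∈ X
  invY : ∀ t, ∀ y ∈ Y, toFC.U t * y * toFC.U (-t) ∈ Y
  fixE : ∀ x ∈ X, ∀ y ∈ Y, x Ω = y Ω → star x Ω = star y Ω →
    ∀ t, toFC.U t * x = x * toFC.U t ∧ toFC.U t * y = y * toFC.U t
  gr : ∀ (s : ℝ) (ξ : K), ∃ v : K,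
    ‖fb (fun x => pp (x + s)) ξ‖ ^ 2 + Real.exp s * ‖v‖ ^ 2 ≤ ‖ξ‖ ^ 2 ∧
    ‖ξ - fb (fun x => pp (x + s)) ξ‖ ^ 2 + Real.exp s * ‖v‖ ^ 2 ≤ ‖ξ‖ ^ 2 ∧
    ∀ ε > 0, ∃ x ∈ X, ∃ c ∈ Y, ‖x Ω - fb (fun x => pp (x + s)) ξ‖ ≤ ε ∧ ‖star x Ω - v‖ ≤ ε ∧
      ‖star c Ω - (ξ - fb (fun x => pp (x + s)) ξ)‖ ≤ ε ∧ ‖c Ω - (Real.exp s : ℂ) • v‖ ≤ ε
  tr : ∀ x ∈ X, ∃ γ, ‖γ‖ = ‖star x Ω‖ ∧ fb qq γ = fb rr (x Ω)

/-- Eigenoperators that are independent from any given finite set of vectors. -/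
def Far (X Y : SA K) (Ω : K) : Prop :=
  ∀ c₀ κ : ℝ, 0 < c₀ → 0 < κ → ∃ c : ℝ, 0 < c ∧ |c - c₀| ≤ κ ∧ ∀ (F : Finset K) (ε : ℝ), 0 < ε →
    ∃ v ∈ X, ∃ r ∈ Y, ∃ f ∈ Y, ‖v‖ ≤ 1 ∧ star f = f ∧ v Ω = (c : ℂ) • r Ω ∧
      star r Ω = (c : ℂ) • star v Ω ∧ v (star v Ω) = f Ω ∧ ∀ ξ ∈ F, ∀ ξ' ∈ F,
        ‖⟪ξ', f ξ⟫_ℂ - ((1 + c ^ 2)⁻¹ : ℝ) * ⟪ξ', ξ⟫_ℂ‖ ≤ ε ∧
        ‖⟪ξ', star v (r ξ)⟫_ℂ - (c * (1 + c ^ 2)⁻¹ : ℝ) * ⟪ξ', ξ⟫_ℂ‖ ≤ ε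

/-- Contraction towards the centre by pairs of unitaries that almost fix the vector. -/
def Ctr (X Y : SA K) (Ω : K) : Prop :=
  ∀ (ζ : K) (z : K →L[ℂ] K) (r η : ℝ), z ∈ X → z ∈ Y → 0 < r → 0 < η → ‖ζ - z Ω‖ ≤ r →
    ∃ u ∈ X, ∃ u' ∈ Y, ∃ z' ∈ X, z' ∈ Y ∧ u ∈ unitary (K →L[ℂ] K) ∧ u' ∈ unitary (K →L[ℂ] K) ∧
      ‖u (u' Ω) - Ω‖ ≤ η ∧ ‖(2 : ℂ)⁻¹ • (ζ + u (u' ζ)) - z' Ω‖ ≤ 9 / 10 * r

variable {G : Type*} [Group G]

/-- An amenable group of pairs of unitaries fixing the vector, ergodic over `Z`. -/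
structure Erg (A R Z : SA K) (Ω : K) (p q : G →* (K →L[ℂ] K)) : Prop where
  am : Am G
  pu : ∀ g, p g ∈ unitary (K →L[ℂ] K)
  qu : ∀ g, q g ∈ unitary (K →L[ℂ] K)
  pA : ∀ g, p g ∈ A
  qR : ∀ g, q g ∈ R
  fix : ∀ g, p g (q g Ω) = Ω
  cl : IsClosed (Z : Set (K →L[ℂ] K))
  cen : ∀ z ∈ Z, z ∈ unitary (K →L[ℂ] K) → ∃ g, p g = z ∧ q g = star z
  erg : ∀ (ζ : K) (ε : ℝ), 0 < ε → ∃ (ι : Type) (_ : Fintype ι) (_ : Nonempty ι) (h : ι → G),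
    ∃ z ∈ Z, ‖(av fun i => p (h i) (q (h i) ζ)) - z Ω‖ ≤ ε

/-- Two close pairs with a common ergodic group. -/
structure Al (δ : ℝ) (A R D B Z : SA K) (Ω : K) (p q : G →* (K →L[ℂ] K)) : Prop where
  sA : SP A R Ω
  cD : CP D B
  n4 : N4 δ A R D B
  pu : ∀ g, p g ∈ unitary (K →L[ℂ] K)
  qu : ∀ g, q g ∈ unitary (K →L[ℂ] K)
  pA : ∀ g, p g ∈ A
  pD : ∀ g, p g ∈ D
  qR : ∀ g, q g ∈ R
  qB : ∀ g, q g ∈ B
  fix : ∀ g, p g (q g Ω) = Ω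
  zi : ∀ z, z ∈ Z ↔ z ∈ A ∧ z ∈ R ∧ z ∈ D ∧ z ∈ B
  erg : ∀ (ζ : K) (ε : ℝ), 0 < ε → ∃ (ι : Type) (_ : Fintype ι) (_ : Nonempty ι) (h : ι → G),
    ∃ z ∈ Z, ‖(av fun i => p (h i) (q (h i) ζ)) - z Ω‖ ≤ ε

/-- The symmetric form: the vector is cyclic for the four algebras. -/
structure Quad (δ : ℝ) (A R D B Z : SA K) (Ω : K) (p q : G →* (K →L[ℂ] K)) : Prop
    extends Al δ A R D B Z Ω p q where
  sD : SP D B Ω

section quad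

variable {δ : ℝ} {A R D B Z : SA K} {Ω : K} {p q : G →* (K →L[ℂ] K)}

lemma Al.pq (h : Al δ A R D B Z Ω p q) (g g' : G) (v : K) : p g (q g' v) = q g' (p g v) :=
  h.sA.app (h.pA g) (h.qR g') v

lemma Al.op (h : Al δ A R D B Z Ω p q) : Al δ R A B D Z Ω q p :=
  ⟨h.sA.symm, h.cD.symm, ⟨h.n4.rb, h.n4.br, h.n4.ad, h.n4.da⟩, h.qu, h.pu, h.qR, h.qB, h.pA, h.pD,
    fun g => by rw [← h.pq, h.fix], fun z => by rw [h.zi]; tauto,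
    fun ζ ε hε => by simpa only [← h.pq] using h.erg ζ ε hε⟩

/-- Exchange of the two pairs. -/
lemma Quad.sw (h : Quad δ A R D B Z Ω p q) : Quad δ D B A R Z Ω p q :=
  ⟨⟨h.sD, h.sA.toCP, ⟨h.n4.da, h.n4.ad, h.n4.br, h.n4.rb⟩, h.pu, h.qu, h.pD, h.pA, h.qB, h.qR,
    h.fix, fun z => by rw [h.zi]; tauto, h.erg⟩, h.sA⟩

/-- Exchange of the algebras and their commutants. -/
lemma Quad.op (h : Quad δ A R D B Z Ω p q) : Quad δ R A B D Z Ω q p :=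
  ⟨h.toAl.op, h.sD.symm⟩

end quad

/-- Filters of averaging families along which the averages converge. -/
def Good {G : Type u} [Group G] (Z : SA K) (Ω : K) (p q : G →* (K →L[ℂ] K)) (l : Filter (Avg G)) :
    Prop :=
  ∀ ζ : K, (∀ z ∈ Z, ⟪z Ω, ζ⟫_ℂ = 0) →
    Tendsto (fun a : Avg G => av fun i => p (a.h i) (q (a.h i) ζ)) l (𝓝 0) ∧
    Tendsto (fun a : Avg G => av fun i => p (a.h i)⁻¹ (q (a.h i)⁻¹ ζ)) l (𝓝 0)

/-- `e` is the central density of `b`. -/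
def Dn (Z : SA K) (Ω : K) (b e : K →L[ℂ] K) : Prop :=
  e ∈ Z ∧ ∀ z ∈ Z, ⟪z Ω, b Ω⟫_ℂ = ⟪z Ω, e Ω⟫_ℂ

/-- Vectors with spectrum in the interval of centre `s` and radius `r`. -/
def Win (D : FC K) (s r : ℝ) (ξ : K) : Prop :=
  ∀ F, BC F → (∀ x, |x - s| ≤ r → F x = 0) → D.fb F ξ = 0

/-- Bound for the quadratic form on windows. -/
def NB (D : FC K) (Y : K →L[ℂ] K) (r n : ℝ) : Prop :=
  ∀ s ξ, Win D s r ξ → ‖⟪ξ, Y ξ⟫_ℂ‖ ≤ n * ‖ξ‖ ^ 2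

/-- Bound for the norm on windows. -/
def WB (D : FC K) (Y : K →L[ℂ] K) (r w : ℝ) : Prop := ∀ s ξ, Win D s r ξ → ‖Y ξ‖ ≤ w * ‖ξ‖

/-- The doubling property. -/
def Dbl (D D' : FC K) (C η : ℝ) : Prop :=
  ∀ t r Λ n w : ℝ, 0 < r → 0 < Λ → 0 ≤ n → n ≤ 2 → NB D (D.U (-t) * D'.U t - 1) (Λ + 1) n →
    WB D (D.U (-t) * D'.U t - 1) r w →
    NB D (D.U (-t) * D'.U t - 1) r (n / 2 + w ^ 2 + η + C * (r / Λ))

/-- The resolvents are uniformly close. -/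
def PC (D D' : FC K) (η : ℝ) : Prop :=
  ∀ s : ℝ, ‖D.fb (fun x => pp (x + s)) - D'.fb fun x => pp (x + s)‖ ≤ η

end Vale.Agent.P096
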