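import Vale.Agent.P096.G.Hom

/-! Central densities. -/

namespace Vale.Agent.P096

open scoped InnerProductSpace Topology ComplexConjugate ComplexStarModule
open Filter
open Vale.Agent.P132 (FC BC ex pp qq rr EE chi Std PM MD)

universe u

variable {K : Type*} [NormedAddCommGroup K] [InnerProductSpace ℂ K] [CompleteSpace K]
  {G : Type u} [Group G] {δ : ℝ} {A R D B Z : SA K} {Ω : K} {p q : G →* (K →L[ℂ] K)}
  {l : Filter (Avg G)} {b e x z : K →L[ℂ] K}

namespace DensA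

lemma inner_star_r (a : K →L[ℂ] K) (ξ η : K) : ⟪ξ, star a η⟫_ℂ = ⟪a ξ, η⟫_ℂ :=
  (idRep K).inner_star_right a ξ η

lemma inner_star_l (a : K →L[ℂ] K) (ξ η : K) : ⟪star a ξ, η⟫_ℂ = ⟪ξ, a η⟫_ℂ :=
  (idRep K).inner_star_left a ξ η

lemma nsq (a : K →L[ℂ] K) (ξ : K) : ‖a ξ‖ ^ 2 = (⟪ξ, (star a * a) ξ⟫_ℂ).re :=
  (idRep K).norm_sq a ξ

lemma re_nonneg {a : K →L[ℂ] K} (ha : 0 ≤ a) (ξ : K) : 0 ≤ (⟪ξ, a ξ⟫_ℂ).re :=
  ((P082.Rep.nonneg_iff (R := idRep K)).1 ha).2 ξ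

lemma exists_pr (M : SA K) (Ω : K) : ∃ P : K →L[ℂ] K, IsStarProjection P ∧
    (∀ x ∈ M, P * x = x * P) ∧ (∀ x ∈ M, P (x Ω) = x Ω) ∧
    (∀ v, ∀ η > 0, ∃ x ∈ M, ‖x Ω - P v‖ ≤ η) ∧
    ∀ s : Set K, IsClosed s → (∀ x ∈ M, x Ω ∈ s) → ∀ v, P v ∈ s := by
  obtain ⟨S, _, h1, h2, h3⟩ := Fn.exists_cyc (StarAlgHom.id ℂ (K →L[ℂ] K)) M Ω
  have h4 : ∀ v, ∀ η > 0, ∃ x ∈ M, ‖x Ω - S.starProjection v‖ ≤ η := fun v =>
    h3 _ (S.starProjection_apply_mem v)
  refine ⟨S.starProjection, isStarProjection_starProjection, fun x hx => h2 ⟨x, hx⟩,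
    fun x hx => ?_, h4, fun s hs hM v => ?_⟩
  · have := congr($(h2 ⟨x, hx⟩) Ω)
    rw [mul_apply_eq_comp, mul_apply_eq_comp, Submodule.starProjection_eq_self_iff.2 h1] at this
    exact this
  · refine hs.closure_subset (Metric.mem_closure_iff.2 fun η hη => ?_)
    obtain ⟨x, hx, h5⟩ := h4 v (η / 2) (half_pos hη)
    exact ⟨x Ω, hM x hx, by rw [dist_comm, dist_eq_norm]; linarith⟩

lemma exists_sqrt (hZ : IsClosed (Z : Set (K →L[ℂ] K))) (he : e ∈ Z) (h0 : 0 ≤ e) :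
    ∃ m ∈ Z, IsSelfAdjoint m ∧ m * m = e := by
  refine ⟨cfc Real.sqrt e, cfc_mem (𝕜' := ℂ) _ he, cfc_predicate _ _, ?_⟩
  rw [← cfc_mul ..]
  conv_rhs => rw [← cfc_id' ℝ e]
  exact cfc_congr fun t ht => Real.mul_self_sqrt (spectrum_nonneg_of_nonneg h0 ht)

lemma tendsto_of_cyc {ι : Type*} {l : Filter ι} {X : ι → K →L[ℂ] K} {Y : K →L[ℂ] K} {r : ℝ}
    (hc : Cyc R Ω) (hr : ∀ i, ‖X i‖ ≤ r)
    (h : ∀ a ∈ R, Tendsto (fun i => X i (a Ω)) l (𝓝 (Y (a Ω)))) (η : K) :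
    Tendsto (fun i => X i η) l (𝓝 (Y η)) := by
  refine Metric.tendsto_nhds.2 fun ε hε => ?_
  obtain ⟨a, ha, h1⟩ := hc η (ε / 2 / (|r| + ‖Y‖ + 1)) (by positivity)
  filter_upwards [Metric.tendsto_nhds.1 (h a ha) _ (half_pos hε)] with i hi
  rw [dist_eq_norm] at hi ⊢
  have e1 : X i η - Y η = (X i (a Ω) - Y (a Ω)) - X i (a Ω - η) + Y (a Ω - η) := by
    simp only [map_sub]; abel
  have e2 := (X i).le_of_opNorm_le ((hr i).trans (le_abs_self r)) (a Ω - η)
  have e3 := Y.le_opNorm (a Ω - η)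
  rw [le_div_iff₀ (by positivity)] at h1
  have e4 := norm_add_le (X i (a Ω) - Y (a Ω) - X i (a Ω - η)) (Y (a Ω - η))
  have e5 := norm_sub_le (X i (a Ω) - Y (a Ω)) (X i (a Ω - η))
  rw [e1]
  nlinarith [norm_nonneg (a Ω - η)]

lemma clip (hb : IsSelfAdjoint b) (hz : IsSelfAdjoint z) (hc : Commute z b) (v : K) :
    ‖b v - cfc (fun t : ℝ => max (-‖b‖) (min t ‖b‖)) z v‖ ≤ ‖b v - z v‖ := by
  set r := ‖b‖
  have hr : 0 ≤ r := norm_nonneg _
  set y := cfc (fun t : ℝ => max (-r) (min t r)) z with hy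
  set P := cfc (fun t : ℝ => max (t - r) 0) z with hP
  set Q := cfc (fun t : ℝ => max (-r - t) 0) z with hQ
  have hys : IsSelfAdjoint y := cfc_predicate _ _
  have e1 : z - y = P - Q := by
    conv_lhs => rw [← cfc_id' ℝ z]
    rw [← cfc_sub .., ← cfc_sub ..]
    exact cfc_congr fun t _ => by grind
  have e2 : y * P = r • P := by
    rw [← cfc_mul .., ← cfc_const_mul ..]
    exact cfc_congr fun t _ => by
      rcases le_total t r with h | h
      · simp [h]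
      · simp [h, hr]
  have e3 : y * Q = (-r) • Q := by
    rw [← cfc_mul .., ← cfc_const_mul ..]
    exact cfc_congr fun t _ => by
      rcases le_total t (-r) with h | h
      · simp [h]
      · simp [h]
  have c1 : Commute (algebraMap ℝ _ r - b) P :=
    (Algebra.commute_algebraMap_left _ _).sub_left (hz.commute_cfc hc _).symm
  have c2 : Commute (b - -algebraMap ℝ _ r) Q :=
    (hz.commute_cfc hc _).symm.sub_left (Algebra.commute_algebraMap_left _ _).neg_left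
  have f1 := re_nonneg (c1.mul_nonneg (sub_nonneg.mpr hb.le_algebraMap_norm_self)
    (cfc_nonneg fun t _ => le_max_right _ _)) v
  have f2 := re_nonneg (c2.mul_nonneg (sub_nonneg.mpr hb.neg_algebraMap_norm_le_self)
    (cfc_nonneg fun t _ => le_max_right _ _)) v
  have e4 : star (b - y) * (z - y) = -((algebraMap ℝ _ r - b) * P) -
      (b - -algebraMap ℝ _ r) * Q := by
    rw [star_sub, hb.star_eq, hys.star_eq, e1, sub_mul, mul_sub y, e2, e3,
      Algebra.algebraMap_eq_smul_one]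
    simp only [sub_mul, mul_sub, neg_mul, smul_mul_assoc, one_mul]
    module
  have e5 := @norm_sub_sq ℂ _ _ _ _ ((b - y) v) ((z - y) v)
  rw [← inner_star_r, ← mul_apply_eq_comp, e4, _root_.sub_apply (-_), _root_.neg_apply,
    inner_sub_right, inner_neg_right, ← _root_.sub_apply, sub_sub_sub_cancel_right,
    RCLike.re_to_complex, Complex.sub_re, Complex.neg_re] at e5
  refine (abs_le_of_sq_le_sq' ?_ (norm_nonneg _)).2
  rw [← _root_.sub_apply, ← _root_.sub_apply]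
  nlinarith [sq_nonneg ‖(z - y) v‖]

end DensA

open DensA

namespace Al

variable (h : Al δ A R D B Z Ω p q)
include h

lemma zA (hz : z ∈ Z) : z ∈ A := ((h.zi z).1 hz).1

lemma zR (hz : z ∈ Z) : z ∈ R := ((h.zi z).1 hz).2.1

lemma zD (hz : z ∈ Z) : z ∈ D := ((h.zi z).1 hz).2.2.1

lemma zB (hz : z ∈ Z) : z ∈ B := ((h.zi z).1 hz).2.2.2

lemma p_inv (g : G) : p g⁻¹ Ω = q g Ω := by
  conv_lhs => rw [← h.fix g, ← mul_apply_eq_comp, ← map_mul, inv_mul_cancel, map_one]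
  rfl

lemma W_fix (hz : z ∈ Z) (g : G) : p g (q g (z Ω)) = z Ω := by
  rw [← h.sA.app (h.zA hz) (h.qR g), h.sA.app (h.pA g) (h.zR hz), h.fix]

lemma W_norm (g : G) (v : K) : ‖p g (q g v)‖ = ‖v‖ := by
  rw [norm_unit_apply (h.pu g), norm_unit_apply (h.qu g)]

lemma T_le {ι : Type*} [Fintype ι] [Nonempty ι] (s : ι → G) (v : K) :
    ‖av fun i => p (s i) (q (s i) v)‖ ≤ ‖v‖ := norm_av_le fun _ => (h.W_norm _ v).le

lemma T_mul {ι κ : Type*} [Fintype ι] [Fintype κ] (s : ι → G) (t : κ → G) (v : K) :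
    (av fun i : ι × κ => p (s i.1 * t i.2) (q (s i.1 * t i.2) v)) =
      av fun i => p (s i) (q (s i) (av fun j => p (t j) (q (t j) v))) := by
  simp only [av_prod, map_av, map_mul, mul_apply_eq_comp, h.pq]

lemma T_mul_le {ι κ : Type*} [Fintype ι] [Nonempty ι] [Fintype κ] (s : ι → G) (t : κ → G) (v : K) :
    ‖av fun i : ι × κ => p (s i.1 * t i.2) (q (s i.1 * t i.2) v)‖ ≤
      ‖av fun j => p (t j) (q (t j) v)‖ := by
  rw [h.T_mul]
  exact h.T_le _ _

lemma T_mul_le' {ι κ : Type*} [Fintype ι] [Nonempty ι] [Fintype κ] (s : ι → G) (t : κ → G) (v : K) :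
    ‖av fun i : κ × ι => p (s i.2 * t i.1) (q (s i.2 * t i.1) v)‖ ≤
      ‖av fun j => p (t j) (q (t j) v)‖ := by
  have := h.T_mul_le s t v
  rwa [av_prod, av_comm, ← av_prod fun i : κ × ι => p (s i.2 * t i.1) (q (s i.2 * t i.1) v)] at this

lemma T_orth {ι : Type*} [Fintype ι] (s : ι → G) {v : K} (hv : ∀ z ∈ Z, ⟪z Ω, v⟫_ℂ = 0) :
    ∀ z ∈ Z, ⟪z Ω, av fun i => p (s i) (q (s i) v)⟫_ℂ = 0 := fun z hz => by
  have : ∀ g, ⟪z Ω, p g (q g v)⟫_ℂ = 0 := fun g => by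
    rw [← inner_star_l, ← inner_star_l, star_hom h.pu, star_hom h.qu, ← h.pq, h.W_fix hz, hv z hz]
  rw [← innerSL_apply_apply ℂ, map_av]
  simp [this, av]

lemma small (F : Finset {v : K // ∀ z ∈ Z, ⟪z Ω, v⟫_ℂ = 0}) {ε : ℝ} (hε : 0 < ε) :
    ∃ a : Avg G, ∀ v ∈ F, ‖av fun i => p (a.h i) (q (a.h i) v.1)‖ ≤ ε := by
  classical
  induction F using Finset.induction_on with
  | empty => exact ⟨⟨Unit, fun _ => 1⟩, by simp⟩
  | insert v F _ ih =>
    obtain ⟨a, ha⟩ := ih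
    obtain ⟨ι, _, _, s, z, hz, h1⟩ := h.erg (av fun i => p (a.h i) (q (a.h i) v.1)) ε hε
    refine ⟨⟨ι × a.ι, fun i => s i.1 * a.h i.2⟩, fun w hw => ?_⟩
    rw [h.T_mul]
    rcases Finset.mem_insert.1 hw with rfl | hw
    · refine (abs_le_of_sq_le_sq' ?_ (norm_nonneg _)).2.trans h1
      rw [norm_sub_rev, @norm_sub_sq ℂ, h.T_orth s (h.T_orth a.h w.2) z hz, map_zero]
      nlinarith [sq_nonneg ‖z Ω‖]
    · exact (h.T_le _ _).trans (ha w hw)

theorem exists_good : ∃ l : Filter (Avg G), l.NeBot ∧ Good Z Ω p q l := by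
  classical
  choose a ha using fun i : Finset {v : K // ∀ z ∈ Z, ⟪z Ω, v⟫_ℂ = 0} × ℕ =>
    h.small i.1 (Nat.one_div_pos_of_nat (n := i.2))
  let a' : Finset {v : K // ∀ z ∈ Z, ⟪z Ω, v⟫_ℂ = 0} × ℕ → Avg G := fun i =>
    ⟨(a i).ι × (a i).ι, fun j => ((a i).h j.1)⁻¹ * (a i).h j.2⟩
  refine ⟨atTop.map a', inferInstance, fun ζ hζ => ?_⟩
  have key : Tendsto (fun i => ‖av fun j => p ((a i).h j) (q ((a i).h j) ζ)‖) atTop (𝓝 0) := by
    have h0 : Tendsto (fun i : Finset {v : K // ∀ z ∈ Z, ⟪z Ω, v⟫_ℂ = 0} × ℕ =>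
        (1 / (i.2 + 1) : ℝ)) atTop (𝓝 0) :=
      tendsto_one_div_add_atTop_nhds_zero_nat.comp (by rw [← prod_atTop_atTop_eq]; exact tendsto_snd)
    refine squeeze_zero' (Eventually.of_forall fun _ => norm_nonneg _) ?_ h0
    filter_upwards [eventually_ge_atTop ({⟨ζ, hζ⟩}, 0)] with i hi
    exact ha i ⟨ζ, hζ⟩ (hi.1 (Finset.mem_singleton_self _))
  constructor <;> refine tendsto_map'_iff.2 (squeeze_zero_norm (fun i => ?_) key)
  · exact h.T_mul_le (fun j => ((a i).h j)⁻¹) (a i).h ζ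
  · simp only [Function.comp_apply, a', mul_inv_rev, inv_inv]
    exact h.T_mul_le' (fun j => ((a i).h j)⁻¹) (a i).h ζ

lemma good_op (hl : Good Z Ω p q l) : Good Z Ω q p l := fun ζ hζ => by
  simpa only [← h.pq] using hl ζ hζ

lemma good_sq (hl : Good Z Ω p q l) : Good Z Ω p q (l.map Avg.sq) := fun ζ hζ => by
  constructor <;> refine tendsto_map'_iff.2 (squeeze_zero_norm (fun a => ?_)
    (tendsto_zero_iff_norm_tendsto_zero.1 (hl ζ hζ).2))
  · exact h.T_mul_le a.h (fun j => (a.h j)⁻¹) ζ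
  · simp only [Function.comp_apply, Avg.sq, mul_inv_rev, inv_inv]
    exact h.T_mul_le' a.h (fun j => (a.h j)⁻¹) ζ

lemma closed : IsClosed (Z : Set (K →L[ℂ] K)) := by
  have : (Z : Set (K →L[ℂ] K)) = (A : Set _) ∩ ((R : Set _) ∩ ((D : Set _) ∩ (B : Set _))) :=
    Set.ext fun z => h.zi z
  rw [this]
  exact h.sA.closed.inter (h.sA.symm.closed.inter (h.cD.closed.inter h.cD.symm.closed))

/-- A self-adjoint element whose vector is a limit of central vectors is central. -/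
theorem cen (hb : b ∈ A) (hs : IsSelfAdjoint b)
    (h0 : ∀ ε > 0, ∃ z ∈ Z, ‖b Ω - z Ω‖ ≤ ε) : b ∈ Z := by
  have key : ∀ n : ℕ, ∃ y ∈ Z, ‖y‖ ≤ ‖b‖ ∧ ‖y Ω - b Ω‖ ≤ 1 / (n + 1) := fun n => by
    obtain ⟨z, hz, h1⟩ := h0 _ (Nat.one_div_pos_of_nat (n := n))
    have hz' : (ℜ z : K →L[ℂ] K) ∈ Z := by
      rw [realPart_apply_coe, ← Complex.coe_smul]
      exact Z.smul_mem (add_mem hz (star_mem hz)) _
    have h2 : ‖star (b - z) Ω‖ = ‖(b - z) Ω‖ := by
      rw [← sq_eq_sq₀ (norm_nonneg _) (norm_nonneg _), nsq, nsq, star_star, star_sub, hs.star_eq]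
      have c1 := h.sA.cm b hb z (h.zR hz)
      have c2 := h.sA.cm b hb _ (h.zR (star_mem hz))
      have c3 := h.sA.cm z (h.zA hz) _ (h.zR (star_mem hz))
      simp only [mul_sub, sub_mul, c1, c2, c3]
      congr 3
      abel
    have h3 : b Ω - (ℜ z : K →L[ℂ] K) Ω = (2⁻¹ : ℂ) • ((b - z) Ω + star (b - z) Ω) := by
      rw [realPart_apply_coe, star_sub, hs.star_eq, ← Complex.coe_smul]
      simp only [_root_.smul_apply, _root_.add_apply, _root_.sub_apply]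
      push_cast
      module
    have h4 : ‖b Ω - (ℜ z : K →L[ℂ] K) Ω‖ ≤ 1 / (n + 1) := by
      have := norm_add_le ((b - z) Ω) (star (b - z) Ω)
      rw [h3, norm_smul, norm_inv, Complex.norm_ofNat]
      rw [h2, _root_.sub_apply b] at this
      rw [_root_.sub_apply b]
      linarith
    have := h.closed
    refine ⟨_, cfc_mem (𝕜' := ℂ) _ hz', norm_cfc_le (norm_nonneg _) fun t _ => ?_,
      (norm_sub_rev _ _).trans_le
        ((clip hs (ℜ z).2 (h.sA.cm b hb _ (h.zR hz')).symm Ω).trans h4)⟩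
    rw [Real.norm_eq_abs, abs_le]
    exact ⟨le_max_left _ _, max_le (by linarith [norm_nonneg b]) (min_le_right _ _)⟩
  choose y hy h1 h2 using key
  obtain ⟨w, hw⟩ := exists_WT (Ultrafilter.of (atTop : Filter ℕ)) (Eventually.of_forall h1)
  have hA := h.sA.mem_lim hw (Eventually.of_forall fun n => h.zA (hy n))
  have h3 : w Ω = b Ω := hw.apply_eq ((tendsto_iff_norm_sub_tendsto_zero.2 (squeeze_zero
    (fun _ => norm_nonneg _) h2 tendsto_one_div_add_atTop_nhds_zero_nat)).mono_left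
      (Ultrafilter.of_le _))
  have h4 : w = b := sub_eq_zero.1 (h.sA.sep (sub_mem hA hb) (by
    rw [_root_.sub_apply, h3, sub_self]))
  rw [← h4]
  exact (h.zi w).2 ⟨hA, h.sA.symm.mem_lim hw (Eventually.of_forall fun n => h.zR (hy n)),
    h.cD.mem_lim hw (Eventually.of_forall fun n => h.zD (hy n)),
    h.cD.symm.mem_lim hw (Eventually.of_forall fun n => h.zB (hy n))⟩

lemma cj_le (b : K →L[ℂ] K) (g : G) : ‖p g * b * p g⁻¹‖ ≤ ‖b‖ := by
  rw [CStarRing.norm_mul_mem_unitary _ (h.pu _), CStarRing.norm_mem_unitary_mul _ (h.pu _)]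

lemma cj_Ω (hb : b ∈ A) (g : G) : p g (b (p g⁻¹ Ω)) = p g (q g (b Ω)) := by
  rw [h.p_inv, h.sA.app hb (h.qR g)]

theorem exists_dn (hb : b ∈ A) (hs : IsSelfAdjoint b) :
    ∃ e, Dn Z Ω b e ∧ IsSelfAdjoint e ∧ (0 ≤ b → 0 ≤ e) ∧
      ∀ T, (∀ g, T * p g = p g * T) → ‖T - e‖ ≤ ‖T - b‖ := by
  obtain ⟨l, _, hl⟩ := h.exists_good
  obtain ⟨P, hP, -, h1, h2, h3⟩ := exists_pr Z Ω
  have h4 : ∀ z ∈ Z, ⟪z Ω, b Ω - P (b Ω)⟫_ℂ = 0 := fun z hz => by
    rw [inner_sub_right, ← hP.isSelfAdjoint.star_eq, inner_star_r, h1 z hz, sub_self]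
  have h5 : ∀ g, p g (q g (P (b Ω))) = P (b Ω) := fun g =>
    h3 {v | p g (q g v) = v} (isClosed_eq (by fun_prop) continuous_id)
      (fun z hz => h.W_fix hz g) _
  set X : Avg G → K →L[ℂ] K := fun a => av fun i => p (a.h i) * b * p (a.h i)⁻¹ with hX
  obtain ⟨e, he⟩ := exists_WT (x := X) (Ultrafilter.of l)
    (Eventually.of_forall fun a => norm_av_le fun i => h.cj_le b _)
  have hA : e ∈ A := h.sA.mem_lim he (Eventually.of_forall fun a =>
    av_mem fun i => mul_mem (mul_mem (h.pA _) hb) (h.pA _))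
  have hes : IsSelfAdjoint e := (P082.Rep.T_star he).eq_of he (Eventually.of_forall fun a => by
    simp only [hX, av, star_smul, star_sum, star_mul, star_hom h.pu, inv_inv, hs.star_eq,
      mul_assoc, star_inv₀, star_natCast])
  have h6 : e Ω = P (b Ω) := by
    refine he.apply_eq (Tendsto.mono_left ?_ (Ultrafilter.of_le _))
    have := (hl _ h4).1.add_const (P (b Ω))
    rw [zero_add] at this
    refine this.congr fun a => ?_
    simp only [hX, av_apply, mul_apply_eq_comp, h.cj_Ω hb, map_sub, h5, av_sub, av_const,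
      sub_add_cancel]
  refine ⟨e, ⟨h.cen hA hes fun ε hε => ?_, fun z hz => ?_⟩, hes, fun h0 => ?_, fun T hT => ?_⟩
  · obtain ⟨z, hz, h7⟩ := h2 (b Ω) ε hε
    exact ⟨z, hz, by rwa [h6, norm_sub_rev]⟩
  · rw [h6, ← sub_eq_zero, ← inner_sub_right, h4 z hz]
  · refine P082.Rep.T_nonneg he (Eventually.of_forall fun a => ?_)
    have h7 : ((Fintype.card a.ι : ℂ))⁻¹ = ((Fintype.card a.ι : ℝ)⁻¹ : ℝ) := by push_cast; rfl
    rw [hX]
    simp only [av]
    rw [h7, Complex.coe_smul]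
    refine smul_nonneg (by positivity) (Finset.sum_nonneg fun i _ => ?_)
    rw [← star_hom h.pu]
    exact star_right_conjugate_nonneg h0 _
  · refine ((P082.WL.T.const T).sub he).norm_le (Eventually.of_forall fun a => ?_)
    nth_rewrite 1 [← av_const (ι := a.ι) T]
    rw [hX, ← av_sub]
    refine norm_av_le fun i => le_of_eq_of_le (congrArg norm ?_) (h.cj_le (T - b) (a.h i))
    rw [mul_sub, sub_mul, ← hT, mul_assoc T, ← map_mul, mul_inv_cancel, map_one, mul_one]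

lemma cycD (hδ : 0 ≤ δ) (hδ' : 4 * δ ≤ 1) : Cyc D Ω := by
  obtain ⟨e, he, h0, h1, h2, h3⟩ := exists_pr D Ω
  have hB : e ∈ B := h.cD.cY e h0
  have hq : ∀ g, e * q g = q g * e := by
    have k : ∀ g, e * q g * e = q g * e := fun g => ContinuousLinearMap.ext fun v =>
      h3 {v | e (q g v) = q g v} (isClosed_eq (by fun_prop) (by fun_prop)) (fun d hd => by
        have := h1 _ (mul_mem hd (h.pD g⁻¹))
        rwa [mul_apply_eq_comp, h.p_inv, h.cD.app hd (h.qB g)] at this) v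
    intro g
    have k1 := congrArg star (k g⁻¹)
    simp only [star_mul, he.2.star_eq, star_hom h.qu, inv_inv] at k1
    rw [← k1, ← mul_assoc, k g]
  obtain ⟨a, ha, h4⟩ := h.n4.br e hB
  have ha' : (ℜ a : K →L[ℂ] K) ∈ R := by
    rw [realPart_apply_coe, ← Complex.coe_smul]
    exact R.smul_mem (add_mem ha (star_mem ha)) _
  have h5 : ‖e - ℜ a‖ ≤ δ := by
    have e1 : e - ℜ a = ℜ (e - a) := by
      rw [map_sub, AddSubgroupClass.coe_sub, he.2.coe_realPart]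
    rw [e1]
    exact ((realPart.norm_le (e - a)).trans h4).trans (mul_le_of_le_one_right hδ he.norm_le)
  obtain ⟨z, ⟨hz, -⟩, -, -, h6⟩ := h.op.exists_dn ha' (ℜ a).2
  have h7 := (h6 e hq).trans h5
  have h8 : ‖1 - z‖ ≤ δ := by
    refine ContinuousLinearMap.opNorm_le_bound _ hδ (std_ind h.sA.dX
      (p := fun v => ‖(1 - z) v‖ ≤ δ * ‖v‖) (isClosed_le (by fun_prop) (by fun_prop)) fun x hx => ?_)
    obtain ⟨f, hf, -, hf0, -⟩ := h.exists_dn (mul_mem (star_mem hx) hx) (.star_mul_self x)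
    obtain ⟨m, hm, hms, rfl⟩ := exists_sqrt h.closed hf.1 (hf0 (star_mul_self_nonneg x))
    have k : ∀ w ∈ Z, ‖w (x Ω)‖ = ‖w (m Ω)‖ := fun w hw => by
      have k1 : ∀ y ∈ A, ‖w (y Ω)‖ ^ 2 = (⟪(star w * w) Ω, (star y * y) Ω⟫_ℂ).re := fun y hy => by
        rw [nsq, mul_apply_eq_comp (star y), inner_star_r,
          h.sA.app hy (h.zR (mul_mem (star_mem hw) hw)), ← inner_star_l,
          (IsSelfAdjoint.star_mul_self w).star_eq]
      rw [← sq_eq_sq₀ (norm_nonneg _) (norm_nonneg _), k1 x hx, k1 m (h.zA hm), hms.star_eq,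
        hf.2 _ (mul_mem (star_mem hw) hw)]
    have k2 := k 1 (one_mem _)
    rw [one_apply_eq_self, one_apply_eq_self] at k2
    rw [k _ (sub_mem (one_mem _) hz), k2, _root_.sub_apply, one_apply_eq_self]
    nth_rewrite 1 [← h1 m (h.zD hm)]
    exact (e - z).le_of_opNorm_le h7 _
  have h9 : ‖1 - e‖ < 1 := by
    have := norm_sub_le_norm_sub_add_norm_sub 1 z e
    rw [norm_sub_rev z] at this
    linarith
  have h10 : 1 - e = 0 := by
    have k1 := norm_mul_le (1 - e) (1 - e)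
    rw [he.one_sub.isIdempotentElem.eq] at k1
    exact norm_le_zero_iff.1 (by nlinarith [norm_nonneg (1 - e)])
  intro v η hη
  simpa only [← sub_eq_zero.1 h10, one_apply_eq_self] using h2 v η hη

theorem quad (hδ : 0 ≤ δ) (hδ' : 4 * δ ≤ 1) : Quad δ A R D B Z Ω p q :=
  ⟨h, h.cD, h.cycD hδ hδ', h.op.cycD hδ hδ', h.sA.nΩ⟩

lemma lim_aux (hb : b ∈ A) (he : Dn Z Ω b e) (s : G → G)
    (hs : Tendsto (fun a : Avg G => av fun i => p (s (a.h i)) (q (s (a.h i)) (b Ω - e Ω))) l (𝓝 0))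
    (η : K) :
    Tendsto (fun a : Avg G => av fun i => p (s (a.h i)) (b (p (s (a.h i))⁻¹ η))) l (𝓝 (e η)) := by
  have := tendsto_of_cyc (l := l) (X := fun a : Avg G => av fun i =>
    p (s (a.h i)) * b * p (s (a.h i))⁻¹) (Y := e) h.sA.dY
    (fun a => norm_av_le fun i => h.cj_le b _) (fun c hc => ?_) η
  · simpa only [av_apply, mul_apply_eq_comp] using this
  · have h1 := (c.continuous.tendsto _).comp (hs.add_const (e Ω))
    rw [zero_add, ← h.sA.app (h.zA he.1) hc] at h1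
    refine h1.congr fun a => ?_
    simp only [Function.comp_apply, av_apply, mul_apply_eq_comp, map_sub, h.W_fix he.1, av_sub,
      av_const, sub_add_cancel, map_av, h.sA.app (h.pA _) hc, h.sA.app hb hc, h.cj_Ω hb]

/-- Strong convergence of the averages. -/
theorem lim (hl : Good Z Ω p q l) (hb : b ∈ A) (he : Dn Z Ω b e)
    (η : K) :
    Tendsto (fun a : Avg G => av fun i => p (a.h i)⁻¹ (b (p (a.h i) η))) l (𝓝 (e η)) ∧
    Tendsto (fun a : Avg G => av fun i => p (a.h i) (b (p (a.h i)⁻¹ η))) l (𝓝 (e η)) := by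
  have h1 := hl (b Ω - e Ω) fun z hz => by rw [inner_sub_right, he.2 z hz, sub_self]
  exact ⟨by simpa only [inv_inv] using h.lim_aux hb he (·⁻¹) h1.2 η, h.lim_aux hb he id h1.1 η⟩

theorem limI (hl : Good Z Ω p q l) (hx : x ∈ A)
    (he : Dn Z Ω (star x * x) e) (η η' : K) :
    Tendsto (fun a : Avg G => av fun i => ⟪x (p (a.h i) η), x (p (a.h i) η')⟫_ℂ) l
      (𝓝 ⟪η, e η'⟫_ℂ) ∧
    Tendsto (fun a : Avg G => av fun i => ⟪x (p (a.h i)⁻¹ η), x (p (a.h i)⁻¹ η')⟫_ℂ) l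
      (𝓝 ⟪η, e η'⟫_ℂ) := by
  have h1 := h.lim hl (mul_mem (star_mem hx) hx) he η'
  have k : ∀ g, ⟪η, p g⁻¹ ((star x * x) (p g η'))⟫_ℂ = ⟪x (p g η), x (p g η')⟫_ℂ := fun g => by
    rw [← star_hom h.pu, inner_star_r, mul_apply_eq_comp, inner_star_r]
  constructor
  · refine (((innerSL ℂ η).continuous.tendsto _).comp h1.1).congr fun a => ?_
    simp only [Function.comp_apply, map_av, innerSL_apply_apply, k]
  · refine (((innerSL ℂ η).continuous.tendsto _).comp h1.2).congr fun a => ?_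
    simp only [Function.comp_apply, map_av, innerSL_apply_apply, ← k, inv_inv]

theorem limN (hl : Good Z Ω p q l) (hx : x ∈ A)
    (he : Dn Z Ω (star x * x) e) (η : K) :
    Tendsto (fun a : Avg G => nm fun i => x (p (a.h i) η)) l (𝓝 √(⟪η, e η⟫_ℂ).re) ∧
    Tendsto (fun a : Avg G => nm fun i => x (p (a.h i)⁻¹ η)) l (𝓝 √(⟪η, e η⟫_ℂ).re) := by
  have h1 := h.limI hl hx he η η
  constructor
  · refine ((Complex.continuous_re.tendsto _).comp h1.1).sqrt.congr fun a => ?_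
    rw [Function.comp_apply, ← nm_sq_eq, Real.sqrt_sq (nm_nonneg _)]
  · refine ((Complex.continuous_re.tendsto _).comp h1.2).sqrt.congr fun a => ?_
    rw [Function.comp_apply, ← nm_sq_eq, Real.sqrt_sq (nm_nonneg _)]

end Al

end Vale.Agent.P096
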