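import Vale.Agent.P096.G.DensA
import Vale.Agent.P132.Fam

/-! Cutting averages and almost commutation on average. -/

namespace Vale.Agent.P096

open scoped InnerProductSpace Topology ComplexConjugate
open Filter DensA
open Vale.Agent.P132 (FC BC ex pp qq rr EE chi Std PM MD)

universe u

section

variable {K : Type*} [NormedAddCommGroup K] [InnerProductSpace ℂ K] [CompleteSpace K]
  {G : Type u} [Group G] {δ : ℝ} {A R D B Z : SA K} {Ω : K} {p q : G →* (K →L[ℂ] K)}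
  {l : Filter (Avg G)} {b e x : K →L[ℂ] K}

lemma DensB.re_mono {a b : K →L[ℂ] K} (h : a ≤ b) (ξ : K) :
    (⟪ξ, a ξ⟫_ℂ).re ≤ (⟪ξ, b ξ⟫_ℂ).re := by
  have := re_nonneg (sub_nonneg.2 h) ξ
  rw [_root_.sub_apply, inner_sub_right, Complex.sub_re] at this
  linarith

lemma Al.dn_conj (h : Al δ A R D B Z Ω p q) (hb : b ∈ A) (he : Dn Z Ω b e) {r : K →L[ℂ] K}
    (hr : r ∈ Z) : Dn Z Ω (star r * b * r) (star r * e * r) := by
  refine ⟨mul_mem (mul_mem (star_mem hr) he.1) hr, fun z hz => ?_⟩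
  have k : ∀ y ∈ A, ⟪z Ω, (star r * y * r) Ω⟫_ℂ = ⟪(star r * r * z) Ω, y Ω⟫_ℂ := fun y hy => by
    simp only [mul_apply_eq_comp]
    rw [h.sA.app hy (h.zR hr), inner_star_r, inner_star_l]
  rw [k b hb, k e (h.zA he.1), he.2 _ (mul_mem (mul_mem (star_mem hr) hr) hz)]

lemma Al.mem_of_comm (h : Al δ A R D B Z Ω p q) (hb : b ∈ Z) {r : K →L[ℂ] K}
    (hr : ∀ y, y * b = b * y → y * r = r * y) : r ∈ Z :=
  (h.zi r).2 ⟨h.sA.cX r fun y hy => (hr y (h.sA.cm b (h.zA hb) y hy).symm).symm,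
    h.sA.cY r fun y hy => (hr y (h.sA.cm y hy b (h.zR hb))).symm,
    h.cD.cX r fun y hy => (hr y (h.cD.cm b (h.zD hb) y hy).symm).symm,
    h.cD.cY r fun y hy => (hr y (h.cD.cm y hy b (h.zB hb))).symm⟩

lemma Al.exists_nrm (h : Al δ A R D B Z Ω p q) (he : e ∈ Z) (h0 : 0 ≤ e) {κ : ℝ} (hκ : 0 < κ) :
    ∃ s ∈ Z, ∃ r ∈ Z, IsSelfAdjoint s ∧ IsSelfAdjoint r ∧ s * r = 1 ∧ r * s = 1 ∧
      s * s = e + (κ : ℂ) • 1 ∧ ‖r‖ ^ 2 ≤ κ⁻¹ := by
  have hb : e + (κ : ℂ) • 1 ∈ Z := add_mem he (Z.smul_mem (one_mem _) _)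
  have hbs : IsSelfAdjoint (e + (κ : ℂ) • (1 : K →L[ℂ] K)) := by
    rw [IsSelfAdjoint, star_add, h0.isSelfAdjoint.star_eq]
    simp
  obtain ⟨r, r0, r1, r2, r3, r4⟩ := exists_inv (b := e + (κ : ℂ) • 1) hκ (by
    rw [Algebra.algebraMap_eq_smul_one, Complex.coe_smul]
    exact le_add_of_nonneg_left h0)
  have hr := h.mem_of_comm hb r4
  refine ⟨r * (e + (κ : ℂ) • 1), mul_mem hr hb, r, hr, ?_, r0.isSelfAdjoint, r1,
    by rw [← mul_assoc, r2], by rw [← mul_assoc, r1, one_mul], ?_⟩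
  · rw [IsSelfAdjoint, star_mul, hbs.star_eq, r0.isSelfAdjoint.star_eq, r4 _ rfl]
  · rwa [sq, ← CStarRing.norm_star_mul_self, r0.isSelfAdjoint.star_eq]

theorem Al.cut (h : Al δ A R D B Z Ω p q) (hl : Good Z Ω p q l) (hx : x ∈ A)
    (he : Dn Z Ω (star x * x) e) (h1 : e ≤ 1) {ε : ℝ} (hε : 0 < ε) :
    ∀ᶠ a : Avg G in l, ∃ k ∈ A, ‖k‖ ≤ 1 ∧ IsSelfAdjoint k ∧ ‖k Ω - Ω‖ ≤ ε ∧
      Col (fun i => x * p (a.h i) * k) 1 := by
  have hxx := mul_mem (star_mem hx) hx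
  have hes : IsSelfAdjoint e := by
    simpa using (IsSelfAdjoint.one _).sub (IsSelfAdjoint.of_nonneg (sub_nonneg.2 h1))
  filter_upwards [Metric.tendsto_nhds.1 (h.lim hl hxx he Ω).1 ε hε] with a ha
  set b := av fun i => p (a.h i)⁻¹ * (star x * x) * p (a.h i) with hb
  have hbA : b ∈ A := av_mem fun i => mul_mem (mul_mem (h.pA _) hxx) (h.pA _)
  have hbs : IsSelfAdjoint b := by
    simp only [IsSelfAdjoint, hb, av, star_smul, star_sum, star_mul, star_hom h.pu, inv_inv,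
      star_star, mul_assoc, star_inv₀, star_natCast]
  obtain ⟨k, k0, k1, k2, k3, k4, -⟩ := P132.Fm.exists_g (b := b + (1 - e))
    (hbs.add ((IsSelfAdjoint.one _).sub hes)) one_pos
  have hks := k0.isSelfAdjoint
  refine ⟨k, h.sA.cX k fun y hy => k2 y
    (h.sA.cm _ (add_mem hbA (sub_mem (one_mem _) (h.zA he.1))) y hy),
    (CStarAlgebra.norm_le_one_iff_of_nonneg k k0).2 k1, hks, ?_, fun γ => ?_⟩
  · have e1 : b + (1 - e) - (1 : ℝ) • 1 = b - e := by rw [one_smul]; abel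
    rw [e1, one_pow, inv_one, one_smul] at k4
    have e2 := DensB.re_mono k4 Ω
    have e3 := nsq (1 - k) Ω
    have e4 := nsq (b - e) Ω
    rw [((IsSelfAdjoint.one _).sub hks).star_eq] at e3
    rw [(hbs.sub hes).star_eq] at e4
    rw [← e3, ← e4, _root_.sub_apply, _root_.sub_apply, one_apply_eq_self] at e2
    rw [norm_sub_rev]
    refine (abs_le_of_sq_le_sq' e2 (norm_nonneg _)).2.trans ?_
    rw [← dist_eq_norm, hb, av_apply]
    exact ha.le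
  · refine (abs_le_of_sq_le_sq' ?_ (by positivity)).2
    have e1 : k * b * k ≤ 1 := by
      rw [one_smul, mul_add, add_mul] at k3
      exact (le_add_of_nonneg_right (hks.conjugate_nonneg (sub_nonneg.2 h1))).trans k3
    have e2 := DensB.re_mono e1 γ
    rw [one_apply_eq_self, inner_self_eq_norm_sq_to_K] at e2
    rw [nm_sq_eq, one_mul]
    refine le_of_eq_of_le ?_ (e2.trans_eq (by norm_cast))
    rw [mul_apply_eq_comp, mul_apply_eq_comp, ← inner_star_l, hks.star_eq, hb, av_apply,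
      ← innerSL_apply_apply ℂ, map_av]
    simp only [innerSL_apply_apply, mul_apply_eq_comp, ← star_hom h.pu, inner_star_r]

theorem Al.cut_small (h : Al δ A R D B Z Ω p q) (η : K) {ε : ℝ} (hε : 0 < ε) :
    ∃ ε' > 0, ∀ k ∈ A, ‖k‖ ≤ 1 → ‖k Ω - Ω‖ ≤ ε' → ∀ g,
      ‖k (p g η) - p g η‖ ≤ ε ∧ ‖k (q g η) - q g η‖ ≤ ε := by
  obtain ⟨a, ha, h1⟩ := h.sA.dY η (ε / 4) (by positivity)
  refine ⟨ε / 2 / (‖a‖ + 1), by positivity, fun k hk k1 k2 => ?_⟩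
  have key : ∀ g, ‖k (p g η) - p g η‖ ≤ ε := fun g => by
    have e1 : p g (a Ω) = a (q g⁻¹ Ω) := by rw [h.sA.app (h.pA g) ha, ← h.p_inv, inv_inv]
    have e2 : k (p g η) - p g η = a (q g⁻¹ (k Ω - Ω)) - k (p g (a Ω - η)) + p g (a Ω - η) := by
      simp only [map_sub, e1, h.sA.app hk ha, h.sA.app hk (h.qR _)]
      abel
    have e3 := a.le_opNorm (q g⁻¹ (k Ω - Ω))
    have e4 := k.le_of_opNorm_le k1 (p g (a Ω - η))
    have e5 := norm_add_le (a (q g⁻¹ (k Ω - Ω)) - k (p g (a Ω - η))) (p g (a Ω - η))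
    have e6 := norm_sub_le (a (q g⁻¹ (k Ω - Ω))) (k (p g (a Ω - η)))
    rw [norm_unit_apply (h.qu _)] at e3
    rw [norm_unit_apply (h.pu _)] at e4 e5
    rw [le_div_iff₀ (by positivity)] at k2
    rw [e2]
    nlinarith [norm_nonneg (k Ω - Ω)]
  refine fun g => ⟨key g, ?_⟩
  rw [h.sA.app hk (h.qR g), ← map_sub, norm_unit_apply (h.qu g)]
  simpa only [map_one, one_apply_eq_self] using key 1

omit [CompleteSpace K] in
lemma DensB.nm_comm_le {ι κ : Type*} [Fintype ι] [Fintype κ] {W : ι → K →L[ℂ] K}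
    {C : κ → K →L[ℂ] K} {ρ : ℝ} (hρ : 0 ≤ ρ) (hW : Col W ρ) (hC : Col C 1) (v : K) :
    (nm fun i : ι × κ => W i.1 (C i.2 v) - C i.2 (W i.1 v)) ≤ 2 * ρ * ‖v‖ := by
  have h1 : (nm fun i : ι × κ => W i.1 (C i.2 v)) ≤ ρ * ‖v‖ := by
    rw [nm_prod, nm_comm]
    refine (nm_mono (g := fun j => C j v) hρ fun j => ?_).trans
      (mul_le_mul_of_nonneg_left ((hC v).trans_eq (one_mul _)) hρ)
    rw [Real.norm_of_nonneg (nm_nonneg _)]
    exact hW (C j v)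
  have h2 : (nm fun i : ι × κ => C i.2 (W i.1 v)) ≤ ρ * ‖v‖ := by
    rw [nm_prod]
    refine (nm_mono (g := fun i => W i v) zero_le_one fun i => ?_).trans
      ((one_mul _).trans_le (hW v))
    rw [Real.norm_of_nonneg (nm_nonneg _)]
    exact hC (W i v)
  linarith [nm_sub_le (fun i : ι × κ => W i.1 (C i.2 v)) fun i => C i.2 (W i.1 v)]

omit [CompleteSpace K] in
lemma DensB.remove {X k C l : K →L[ℂ] K} {v : K} {a c ε : ℝ} (hX : ‖X‖ ≤ a) (hC : ‖C‖ ≤ c)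
    (hk : ‖k‖ ≤ 1) (h1 : ‖l v - v‖ ≤ ε) (h2 : ‖k (C v) - C v‖ ≤ ε) :
    ‖X (C v) - (X * k) ((C * l) v)‖ ≤ a * (c + 1) * ε := by
  have e1 : X (C v) - (X * k) ((C * l) v) = -X (k (C (l v - v)) + (k (C v) - C v)) := by
    simp only [mul_apply_eq_comp, map_sub, map_add]
    abel
  have ha := (norm_nonneg _).trans hX
  have hc := (norm_nonneg _).trans hC
  have e2 := k.le_of_opNorm_le hk (C (l v - v))
  have e3 := (C.le_of_opNorm_le hC (l v - v)).trans (mul_le_mul_of_nonneg_left h1 hc)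
  have e4 := norm_add_le (k (C (l v - v))) (k (C v) - C v)
  rw [e1, norm_neg, mul_assoc]
  exact (X.le_of_opNorm_le hX _).trans (mul_le_mul_of_nonneg_left (by linarith) ha)

end

theorem iota : ∃ C : ℝ, 1 ≤ C ∧ ∀ {K : Type u} [NormedAddCommGroup K] [InnerProductSpace ℂ K]
    [CompleteSpace K] {G : Type u} [Group G] {δ : ℝ} {A R D B Z : SA K} {Ω : K}
    {p q : G →* (K →L[ℂ] K)} {l : Filter (Avg G)} {x c e f m : K →L[ℂ] K}, 0 ≤ δ →
    Quad δ A R D B Z Ω p q → Good Z Ω p q l → x ∈ A → c ∈ B → Dn Z Ω (star x * x) e → e ≤ 1 →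
    Dn Z Ω (star c * c) f → f ≤ 1 → m ∈ Z → ∀ ε > 0, ∀ᶠ a : Avg G in l.map Avg.sq,
      (nm fun i => x (p (a.h i) (c (m Ω))) - c (x (p (a.h i) (m Ω)))) ≤ C * δ * ‖m Ω‖ + ε := by
  have hK := one_le_KD
  refine ⟨4 * KD, by linarith, ?_⟩
  intro K _ _ _ G _ δ A R D B Z Ω p q l x c e f m hδ h hl hx hc he he1 hf hf1 hm ε hε
  have h' := h.sw.op.toAl
  set N := ‖x‖ * (‖c‖ + 1) + ‖c‖ * (‖x‖ + 1) + 1 with hN
  have hN0 : 0 < N := by positivity
  have h0 : 0 < ε / N := by positivity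
  obtain ⟨ε₁, p1, s1⟩ := h.cut_small (c (m Ω)) h0
  obtain ⟨ε₂, p2, s2⟩ := h.cut_small (m Ω) h0
  obtain ⟨ε₃, p3, s3⟩ := h'.cut_small (x (m Ω)) h0
  obtain ⟨ε₄, p4, s4⟩ := h'.cut_small (m Ω) h0
  rw [eventually_map]
  filter_upwards [h.cut hl hx he he1 (lt_min p1 p2), h'.cut (h.good_op hl) hc hf hf1 (lt_min p3 p4)]
  rintro a ⟨k, hk, k1, -, k2, k3⟩ ⟨n, hn, n1, -, n2, n3⟩
  obtain ⟨y, y1, y2⟩ := cn_of_near h.sA.cm hδ h.n4.br a.ι (fun i => x * p (a.h i) * k) 1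
    (fun i => mul_mem (mul_mem hx (h.pA _)) hk) zero_le_one k3
  have h1 := DensB.nm_comm_le (by positivity) y2 n3 (m Ω)
  have pm : ∀ g, p g⁻¹ (m Ω) = q g (m Ω) := fun g => by
    rw [h.sA.app (h.pA _) (h.zR hm), h.p_inv, h.sA.app (h.zA hm) (h.qR g)]
  have ux : ∀ g, ‖x * p g‖ ≤ ‖x‖ := fun g => (CStarRing.norm_mul_mem_unitary _ (h.pu g)).le
  have uc : ∀ g, ‖c * q g‖ ≤ ‖c‖ := fun g => (CStarRing.norm_mul_mem_unitary _ (h.qu g)).le
  refine (nm_le_add (r := ε) fun i => ?_).trans (add_le_add (h1.trans_eq (by ring)) le_rfl)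
  obtain ⟨i, j⟩ := i
  have e1 : (c * q (a.h j)) (m Ω) = p (a.h j)⁻¹ (c (m Ω)) := by
    rw [mul_apply_eq_comp, h.cD.app (h.pD _) hc, pm]
  have e2 : (x * p (a.h i)) (m Ω) = q (a.h i)⁻¹ (x (m Ω)) := by
    rw [mul_apply_eq_comp, ← h.sA.app hx (h.qR _), ← pm, inv_inv]
  have r1 := DensB.remove (ux (a.h i)) (uc (a.h j)) k1 (l := n) (v := m Ω)
    (by simpa only [map_one, one_apply_eq_self] using
      (s4 n hn n1 (n2.trans (min_le_right _ _)) 1).1)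
    (by rw [e1]; exact (s1 k hk k1 (k2.trans (min_le_left _ _)) _).1)
  have r2 := DensB.remove (uc (a.h j)) (ux (a.h i)) n1 (l := k) (v := m Ω)
    (by simpa only [map_one, one_apply_eq_self] using
      (s2 k hk k1 (k2.trans (min_le_right _ _)) 1).1)
    (by rw [e2]; exact (s3 n hn n1 (n2.trans (min_le_left _ _)) _).1)
  have e3 : y i ((c * q (a.h j) * n) (m Ω)) = (c * q (a.h j) * n) (y i (m Ω)) :=
    congr($(y1 i _ (mul_mem (mul_mem hc (h.qB _)) hn)) (m Ω))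
  have e4 : x (p (a.h i * (a.h j)⁻¹) (c (m Ω))) = (x * p (a.h i)) ((c * q (a.h j)) (m Ω)) := by
    rw [e1, map_mul]; rfl
  have e5 : c (x (p (a.h i * (a.h j)⁻¹) (m Ω))) = (c * q (a.h j)) ((x * p (a.h i)) (m Ω)) := by
    rw [map_mul, mul_apply_eq_comp, pm, h.pq, h.sA.app hx (h.qR _)]; rfl
  have e6 := norm_sub_le ((x * p (a.h i)) ((c * q (a.h j)) (m Ω)) -
    (x * p (a.h i) * k) ((c * q (a.h j) * n) (m Ω))) ((c * q (a.h j)) ((x * p (a.h i)) (m Ω)) -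
    (c * q (a.h j) * n) ((x * p (a.h i) * k) (m Ω)))
  have e7 : N * (ε / N) = ε := mul_div_cancel₀ _ hN0.ne'
  refine le_of_eq_of_le (congrArg norm ?_) (e6.trans (by nlinarith))
  change x (p (a.h i * (a.h j)⁻¹) (c (m Ω))) - c (x (p (a.h i * (a.h j)⁻¹) (m Ω))) - _ = _
  rw [e4, e5, _root_.sub_apply, _root_.sub_apply, map_sub, e3]
  abel

end Vale.Agent.P096
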