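import Vale.Agent.P096.G.Win

/-! From local to global closeness of two unitary groups. -/

namespace Vale.Agent.P096

open scoped InnerProductSpace Topology ComplexConjugate
open Filter
open Vale.Agent.P132 (FC BC ex pp qq rr EE chi Std PM MD)

universe u

namespace Fc

/-- The clamp. -/
noncomputable def cl (x : ℝ) : ℝ := max 0 (min 1 x)

lemma cl_cont : Continuous cl := by unfold cl; fun_prop
lemma cl_mem (x : ℝ) : 0 ≤ cl x ∧ cl x ≤ 1 := ⟨le_max_left _ _, max_le zero_le_one (min_le_left _ _)⟩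
lemma cl_zero {x : ℝ} (h : x ≤ 0) : cl x = 0 := max_eq_left ((min_le_right _ _).trans h)
lemma cl_one {x : ℝ} (h : 1 ≤ x) : cl x = 1 := by rw [cl, min_eq_left h, max_eq_right zero_le_one]

variable {K : Type*} [NormedAddCommGroup K] [InnerProductSpace ℂ K] [CompleteSpace K]
  {D D' : FC K} {e r n s t : ℝ} {Y : K →L[ℂ] K}

/-- Closeness for one function. -/
def Cf (D D' : FC K) (F : ℝ → ℝ) (e : ℝ) : Prop :=
  ∀ s : ℝ, ‖D.fb (fun x => F (x - s)) - D'.fb fun x => F (x - s)‖ ≤ e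

/-- The defect. -/
noncomputable abbrev YY (D D' : FC K) (t : ℝ) : K →L[ℂ] K := D.U (-t) * D'.U t - 1

lemma norm_YY (v : K) : ‖YY D D' t v‖ = ‖D'.U t v - D.U t v‖ := by
  rw [← D.norm_U t, ContinuousLinearMap.sub_apply, map_sub, ContinuousLinearMap.mul_apply, D.U_U_neg]
  rfl

lemma comm_le {F : ℝ → ℂ} (hF : BC F) (h : ‖D.fb F - D'.fb F‖ ≤ e) (v : K) :
    ‖D.fb F (YY D D' t v) - YY D D' t (D.fb F v)‖ ≤ 2 * e * ‖v‖ := by
  have a1 : ∀ v, D.fb F (D.U (-t) v) = D.U (-t) (D.fb F v) := fun v =>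
    congr($(D.comm hF (P132.bc_ex _)) v)
  have a2 : ∀ v, D'.fb F (D'.U t v) = D'.U t (D'.fb F v) := fun v =>
    congr($(D'.comm hF (P132.bc_ex _)) v)
  have a3 := norm_sub_le_of_le (It.ap h (D'.norm_U t v).le)
    ((D'.norm_U t _).trans_le (It.ap h (le_refl ‖v‖)))
  simp only [ContinuousLinearMap.sub_apply, map_sub, a2, sub_sub_sub_cancel_right] at a3
  simp only [ContinuousLinearMap.sub_apply, map_sub, ContinuousLinearMap.mul_apply,
    ContinuousLinearMap.one_apply, a1, sub_sub_sub_cancel_right]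
  rw [← map_sub, D.norm_U]
  linarith

lemma bcs {F : ℝ → ℝ} (hF : Continuous F) (h : ∀ x, 0 ≤ F x ∧ F x ≤ 1) (s : ℝ) :
    BC fun x => (F (x - s) : ℂ) := P132.bc_real (hF.comp (by fun_prop)) fun _ => h _

lemma sq1 (x : ℝ) : 0 ≤ √(cl x) ∧ √(cl x) ≤ 1 :=
  ⟨Real.sqrt_nonneg _, Real.sqrt_le_one.2 (cl_mem x).2⟩
lemma sq2 (x : ℝ) : 0 ≤ √(1 - cl x) ∧ √(1 - cl x) ≤ 1 :=
  ⟨Real.sqrt_nonneg _, Real.sqrt_le_one.2 (by linarith [cl_mem x])⟩

/-- Doubling of the radius. -/
lemma ims (h1 : Cf D D' (fun x => √(cl x)) e) (h2 : Cf D D' (fun x => √(1 - cl x)) e)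
    (h : NB D (YY D D' t) r n) : NB D (YY D D' t) (2 * r - 1 / 2) (n + 4 * e) := fun s ξ hξ => by
  have b1 := bcs cl_cont.sqrt sq1 (s - 1 / 2)
  have b2 := bcs (continuous_const.fun_sub cl_cont).sqrt sq2 (s - 1 / 2)
  have e0 : 0 ≤ e := (norm_nonneg _).trans (h1 0)
  have c1 := comm_le (t := t) b1 (h1 _) ξ
  have c2 := comm_le (t := t) b2 (h2 _) ξ
  have w1 := h (s + r - 1 / 2) _ (hξ.fb b1 fun x hx hx' => by
    have : 0 < x - (s - 1 / 2) := not_le.1 fun h0 => hx (by rw [cl_zero h0]; simp)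
    rw [abs_le] at hx' ⊢
    constructor <;> linarith)
  have w2 := h (s - r + 1 / 2) _ (hξ.fb b2 fun x hx hx' => by
    have : x - (s - 1 / 2) < 1 := not_le.1 fun h0 => hx (by rw [cl_one h0]; simp)
    rw [abs_le] at hx' ⊢
    constructor <;> linarith)
  have k : ∀ v w, ⟪D.fb (fun x => √(cl (x - (s - 1 / 2)))) v,
      D.fb (fun x => √(cl (x - (s - 1 / 2)))) w⟫_ℂ + ⟪D.fb (fun x => √(1 - cl (x - (s - 1 / 2)))) v,
      D.fb (fun x => √(1 - cl (x - (s - 1 / 2)))) w⟫_ℂ = ⟪v, w⟫_ℂ := fun v w => by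
    rw [D.inner_left b1, D.inner_left b2, D.mul_apply b1.cj b1, D.mul_apply b2.cj b2,
      ← inner_add_right, ← ContinuousLinearMap.add_apply, ← D.add (b1.cj.mul b1) (b2.cj.mul b2)]
    simp only [Complex.conj_ofReal, ← Complex.ofReal_mul, Real.mul_self_sqrt (cl_mem _).1,
      Real.mul_self_sqrt (sub_nonneg.2 (cl_mem _).2), ← Complex.ofReal_add, add_sub_cancel,
      Complex.ofReal_one, D.one, ContinuousLinearMap.one_apply]
  have n1 := D.norm_le b1 (C := 1) (fun x => by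
    rw [Complex.norm_real, Real.norm_of_nonneg (sq1 _).1]; exact (sq1 _).2) ξ
  have n2 := D.norm_le b2 (C := 1) (fun x => by
    rw [Complex.norm_real, Real.norm_of_nonneg (sq2 _).1]; exact (sq2 _).2) ξ
  have k1 := k ξ ξ
  simp only [inner_self_eq_norm_sq_to_K] at k1
  norm_cast at k1
  have d1 := norm_add_le_of_le w1 ((norm_inner_le_norm (𝕜 := ℂ) _ _).trans
    (mul_le_mul n1 c1 (norm_nonneg _) (by positivity)))
  have d2 := norm_add_le_of_le w2 ((norm_inner_le_norm (𝕜 := ℂ) _ _).trans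
    (mul_le_mul n2 c2 (norm_nonneg _) (by positivity)))
  rw [← inner_add_right, add_sub_cancel] at d1 d2
  rw [← k]
  refine (norm_add_le_of_le d1 d2).trans_eq ?_
  linear_combination n * k1

lemma ims_pow (h1 : Cf D D' (fun x => √(cl x)) e) (h2 : Cf D D' (fun x => √(1 - cl x)) e)
    (h : NB D (YY D D' t) r n) (M : ℕ) :
    NB D (YY D D' t) (2 ^ M * (r - 1 / 2) + 1 / 2) (n + 4 * M * e) := by
  induction M with
  | zero => simpa using h
  | succ M ih =>
    convert ims h1 h2 ih using 1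
    · ring
    · push_cast; ring

lemma polar (h : NB D Y r n) {ξ η : K} (hξ : Win D s r ξ) (hη : Win D s r η) :
    ‖⟪η, Y ξ⟫_ℂ‖ ≤ n * (‖η‖ ^ 2 + ‖ξ‖ ^ 2) := by
  have k : ∀ c : ℂ, ‖⟪Y (η + c • ξ), η + c • ξ⟫_ℂ‖ ≤ n * ‖η + c • ξ‖ ^ 2 := fun c => by
    rw [norm_inner_symm]
    exact h s _ fun F hF h0 => by rw [map_add, map_smul, hξ F hF h0, hη F hF h0, smul_zero, add_zero]
  have k1 := k 1
  have k2 := k (-1)
  have k3 := k Complex.I
  have k4 := k (-Complex.I)
  simp only [one_smul, neg_smul, ← sub_eq_add_neg] at k1 k2 k4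
  have p1 := parallelogram_law_with_norm ℂ η ξ
  have p2 := parallelogram_law_with_norm ℂ η (Complex.I • ξ)
  rw [norm_smul, Complex.norm_I, one_mul] at p2
  have e1 := inner_map_polarization Y.toLinearMap η ξ
  simp only [ContinuousLinearMap.coe_coe] at e1
  have i1 : ∀ z : ℂ, ‖Complex.I * z‖ = ‖z‖ := fun z => by rw [norm_mul, Complex.norm_I, one_mul]
  rw [norm_inner_symm, e1, norm_div, Complex.norm_ofNat, div_le_iff₀ (by norm_num)]
  refine (norm_sub_le_of_le (norm_add_le_of_le (norm_sub_le_of_le k1 k2) ((i1 _).trans_le k3))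
    ((i1 _).trans_le k4)).trans_eq ?_
  linear_combination n * p1 + n * p2

/-- The bump around a window. -/
lemma bump (h : Cf D D' cl e) (hr : 0 ≤ r) (s : ℝ) : ∃ G, BC G ∧ (∀ x, ‖G x‖ ≤ 1) ∧
    (∀ x, |x - s| ≤ r → G x = 1) ∧ (∀ x, G x ≠ 0 → |x - s| ≤ r + 1) ∧
      ‖D.fb G - D'.fb G‖ ≤ 2 * e := by
  have b := bcs cl_cont cl_mem
  refine ⟨_, (b (s - r - 1)).sub (b (s + r)), fun x => ?_, fun x hx => ?_, fun x hx => ?_, ?_⟩
  · rw [← Complex.ofReal_sub, Complex.norm_real, Real.norm_eq_abs, abs_le]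
    constructor <;> linarith [cl_mem (x - (s - r - 1)), cl_mem (x - (s + r))]
  · rw [abs_le] at hx
    rw [cl_one (by linarith), cl_zero (by linarith)]
    simp
  · by_contra h0
    rcases lt_abs.1 (not_le.1 h0) with h1 | h1
    · exact hx (by rw [cl_one (by linarith), cl_one (by linarith), sub_self])
    · exact hx (by rw [cl_zero (by linarith), cl_zero (by linarith), sub_self])
  · rw [D.sub (b _) (b _), D'.sub (b _) (b _), sub_sub_sub_comm, two_mul]
    exact norm_sub_le_of_le (h _) (h _)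

lemma wb (h0 : Cf D D' cl e) (hr : 0 ≤ r) (hn : 0 ≤ n) (h : NB D (YY D D' t) (r + 1) n) :
    WB D (YY D D' t) r (2 * n + 4 * e) := fun s ξ hξ => by
  obtain ⟨G, b, g1, g2, g3, g4⟩ := bump h0 hr s
  set Y := YY D D' t
  have e0 : 0 ≤ e := (norm_nonneg _).trans (h0 0)
  rcases (norm_nonneg (Y ξ)).eq_or_lt with h1 | h1
  · rw [← h1]; positivity
  have hp : 0 < ‖ξ‖ := norm_pos_iff.2 fun h2 => by simp [h2] at h1
  have a1 := comm_le (t := t) b g4 ξ
  rw [hξ.eq b g2] at a1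
  have a2 := polar h (hξ.mono (le_add_of_nonneg_right zero_le_one))
    (win_fb b g3 (((‖ξ‖ / ‖Y ξ‖ : ℝ) : ℂ) • Y ξ))
  have a3 := D.norm_le b g1 (((‖ξ‖ / ‖Y ξ‖ : ℝ) : ℂ) • Y ξ)
  rw [norm_smul, Complex.norm_real, Real.norm_of_nonneg (by positivity), one_mul,
    div_mul_cancel₀ _ h1.ne'] at a3
  replace a2 := a2.trans (mul_le_mul_of_nonneg_left (add_le_add
    (pow_le_pow_left₀ (norm_nonneg _) a3 2) le_rfl) hn)
  rw [map_smul, inner_smul_left, norm_mul, Complex.conj_ofReal, Complex.norm_real,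
    Real.norm_of_nonneg (by positivity), ← le_div_iff₀' (by positivity)] at a2
  have a4 := norm_sub_le_of_le a2 ((norm_inner_le_norm (𝕜 := ℂ) _ (Y ξ)).trans
    (mul_le_mul_of_nonneg_right a1 (norm_nonneg _)))
  rw [← inner_sub_left, sub_sub_cancel, inner_self_eq_norm_sq_to_K, norm_pow, norm_algebraMap',
    norm_norm, sq] at a4
  refine le_of_mul_le_mul_right (a4.trans_eq ?_) h1
  field_simp
  ring

lemma NB.mono {r' n' : ℝ} (h : NB D Y r n) (hr : r' ≤ r) (hn : n ≤ n') : NB D Y r' n' :=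
  fun s ξ hξ => (h s ξ (hξ.mono hr)).trans (by gcongr)

lemma nb_of_wb {w : ℝ} (h : WB D Y r w) : NB D Y r w := fun s ξ hξ =>
  (norm_inner_le_norm _ _).trans ((mul_le_mul_of_nonneg_left (h s ξ hξ) (norm_nonneg _)).trans_eq
    (by ring))

lemma wb_add {t' w w' : ℝ} (h : WB D (YY D D' t) r w) (h' : WB D (YY D D' t') r w') :
    WB D (YY D D' (t + t')) r (w + w') := fun s ξ hξ => by
  have a1 := h s _ (hξ.map (T := D.U t') fun u => D.comm (P132.bc_ex _) (P132.bc_ex _))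
  have a2 := h' s ξ hξ
  rw [norm_YY] at a1 a2 ⊢
  rw [← D'.norm_U t, map_sub] at a2
  rw [D.norm_U] at a1
  rw [D.U_add, D'.U_add, add_mul]
  exact (norm_sub_le_norm_sub_add_norm_sub _ _ _).trans ((add_le_add a2 a1).trans_eq (add_comm _ _))

lemma wb_small (h0 : Cf D D' cl e) (hr : 0 ≤ r) :
    WB D (YY D D' t) r (|t| * (2 * r + 1) + 4 * e) := fun s ξ hξ => by
  obtain ⟨G, b, g1, g2, g3, g4⟩ := bump h0 hr s
  have a1 := It.ap g4 (le_refl ‖ξ‖)
  rw [ContinuousLinearMap.sub_apply, hξ.eq b g2] at a1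
  have a2 := ((win_fb (D := D') b g3 ξ).lip (by linarith) t).trans
    (mul_le_mul_of_nonneg_left (D'.norm_le b g1 ξ) (by positivity))
  have a3 := norm_sub_le_of_le (norm_sub_le_of_le (norm_add_le_of_le ((D'.norm_U t _).trans_le a1)
    a2) ((norm_smul (ex t s) _).trans_le (mul_le_mul (P132.norm_ex t s).le a1 (norm_nonneg _)
    zero_le_one))) (hξ.lip hr t)
  rw [norm_YY]
  refine le_of_eq_of_le ?_ (a3.trans_eq (by ring))
  rw [map_sub, smul_sub]
  congr 1
  abel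

lemma boost {C η E : ℝ} {M k : ℕ} (hC : 0 ≤ C) (hE : E ≤ 1 / 20000) (hη : η ≤ E)
    (he : (M + 1) * e ≤ E) (hM : 2 * C ≤ E * (2 ^ M - 1)) (hM1 : 1 ≤ M)
    (hk : (3 / 5 : ℝ) ^ k ≤ E) (h0 : Cf D D' cl e) (h1 : Cf D D' (fun x => √(cl x)) e)
    (h2 : Cf D D' (fun x => √(1 - cl x)) e) (hD : Dbl D D' C η) (hr : 2 ≤ r)
    (h : NB D (YY D D' t) r (1 / 100)) : WB D (YY D D' t) r (94 * E) := by
  have e0 : 0 ≤ e := (norm_nonneg _).trans (h0 0)
  have e1 : M * e ≤ E := by linarith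
  have e3 : 0 ≤ M * e := by positivity
  have e2 : e ≤ E := by linarith
  have p2 : (2 : ℝ) ≤ 2 ^ M := by simpa using pow_le_pow_right₀ (one_le_two (α := ℝ)) hM1
  have k1 : ∀ n, 0 ≤ n → NB D (YY D D' t) r n → WB D (YY D D' t) r (2 * (n + 4 * e) + 4 * e) :=
    fun n hn h => wb h0 (by linarith) (by positivity) (NB.mono (ims h1 h2 h) (by linarith) le_rfl)
  have k2 : ∀ j : ℕ, NB D (YY D D' t) r ((3 / 5) ^ j / 100 + 40 * E) := fun j => by
    induction j with
    | zero => exact NB.mono h le_rfl (by linarith [pow_zero (3 / 5 : ℝ)])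
    | succ j ih =>
      have a1 : (3 / 5 : ℝ) ^ j ≤ 1 := pow_le_one₀ (by norm_num) (by norm_num)
      have a2 : (0 : ℝ) ≤ (3 / 5) ^ j := by positivity
      have a3 : r * (2 ^ M - 1) / 2 ≤ 2 ^ M * (r - 1 / 2) - 1 / 2 := by nlinarith
      have a4 : 0 < r * (2 ^ M - 1) / 2 := by nlinarith
      have a5 := hD t r (2 ^ M * (r - 1 / 2) - 1 / 2) _ _ (by linarith) (by linarith)
        (by linarith) (by linarith) (NB.mono (ims_pow h1 h2 ih M) (by linarith) le_rfl)
        (k1 _ (by linarith) ih)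
      refine NB.mono a5 le_rfl ?_
      have a6 : C * (r / (2 ^ M * (r - 1 / 2) - 1 / 2)) ≤ E := by
        rw [← mul_div_assoc, div_le_iff₀ (by linarith)]
        nlinarith [mul_le_mul_of_nonneg_left a3 (e0.trans e2),
          mul_le_mul_of_nonneg_left hM (show 0 ≤ r by linarith)]
      set w := 2 * ((3 / 5) ^ j / 100 + 40 * E + 4 * e) + 4 * e with hw
      have a7 : w ^ 2 ≤ 1 / 20 * w := by
        rw [sq]
        exact mul_le_mul_of_nonneg_right (by linarith) (by linarith)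
      rw [pow_succ (3 / 5 : ℝ)]
      linarith
  exact fun s ξ hξ => (k1 _ (by positivity [e0.trans e2]) (k2 k) s ξ hξ).trans
    (by gcongr; linarith)

end Fc

open Fc in
theorem fc_close {C ε : ℝ} (hC : 0 ≤ C) (hε : 0 < ε) : ∃ η > 0, ∀ {K : Type u} [NormedAddCommGroup K] [InnerProductSpace ℂ K]
    [CompleteSpace K] (D D' : FC K),
    PC D D' η → Dbl D D' C η → ∀ t, ‖D.U t - D'.U t‖ ≤ ε := by
  set E := min ε 1 / 20000 with hE
  have E0 : 0 < E := by positivity
  have E1 : E ≤ 1 / 20000 := by rw [hE]; gcongr; exact min_le_right _ _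
  have E2 : 94 * E ≤ ε := by linarith [min_le_left ε 1]
  obtain ⟨M, hM⟩ := exists_nat_ge (2 * C / E)
  obtain ⟨k, hk⟩ := exists_pow_lt_of_lt_one E0 (show (3 / 5 : ℝ) < 1 by norm_num)
  have hM' : 2 * C ≤ E * (2 ^ (M + 1) - 1) := by
    rw [← div_le_iff₀' E0]
    have : (M : ℝ) + 1 < 2 ^ (M + 1) := by exact_mod_cast Nat.lt_two_pow_self
    linarith
  set e := E / (M + 2) with he
  have e0 : 0 < e := by positivity
  have e1 : (((M + 1 : ℕ) : ℝ) + 1) * e ≤ E := by
    rw [he]; push_cast; exact le_of_eq (by field_simp; ring)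
  have e2 : e ≤ E := by nlinarith [show 0 ≤ ((M + 1 : ℕ) : ℝ) * e by positivity]
  obtain ⟨η₀, p0, q0⟩ := stepclose.{u} cl_cont (fun x hx => by rw [cl_zero hx, cl_zero le_rfl])
    (fun x hx => by rw [cl_one hx, cl_one le_rfl]) e0
  obtain ⟨η₁, p1, q1⟩ := stepclose.{u} cl_cont.sqrt (fun x hx => by rw [cl_zero hx, cl_zero le_rfl])
    (fun x hx => by rw [cl_one hx, cl_one le_rfl]) e0
  obtain ⟨η₂, p2, q2⟩ := stepclose.{u} (continuous_const (y := (1 : ℝ)).sub cl_cont).sqrt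
    (fun x hx => by simp only [Pi.sub_apply, cl_zero hx, cl_zero le_rfl])
    (fun x hx => by simp only [Pi.sub_apply, cl_one hx, cl_one le_rfl]) e0
  refine ⟨min (min E η₀) (min η₁ η₂), by positivity, fun D D' hP hD t => ?_⟩
  have h0 : Cf D D' cl e := q0 D D' fun s =>
    (hP s).trans ((min_le_left _ _).trans (min_le_right _ _))
  have h1 : Cf D D' (fun x => √(cl x)) e := q1 D D' fun s =>
    (hP s).trans ((min_le_right _ _).trans (min_le_left _ _))
  have h2 : Cf D D' (fun x => √(1 - cl x)) e := q2 D D' fun s =>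
    (hP s).trans ((min_le_right _ _).trans (min_le_right _ _))
  have k1 : ∀ r, 2 ≤ r → WB D (YY D D' t) r (94 * E) := fun r hr => by
    obtain ⟨N, hN⟩ := exists_nat_gt (400 * (|t| * (2 * r + 1)))
    have N0 : (0 : ℝ) < N := lt_of_le_of_lt (by positivity) hN
    have a1 : |t / N| * (2 * r + 1) ≤ 1 / 400 := by
      rw [abs_div, Nat.abs_cast, div_mul_eq_mul_div, div_le_iff₀ N0]
      linarith
    have a2 : ∀ j : ℕ, WB D (YY D D' (j * (t / N))) r (94 * E) := fun j => by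
      refine boost hC E1 ((min_le_left _ _).trans (min_le_left _ _)) e1 hM' le_add_self hk.le h0 h1
        h2 hD hr ?_
      induction j with
      | zero => exact NB.mono (nb_of_wb (wb_small h0 (by linarith))) le_rfl (by simp; linarith)
      | succ j ih =>
        rw [Nat.cast_succ, add_one_mul]
        exact NB.mono (nb_of_wb (wb_add (boost hC E1 ((min_le_left _ _).trans (min_le_left _ _)) e1
          hM' le_add_self hk.le h0 h1 h2 hD hr ih) (wb_small h0 (by linarith)))) le_rfl (by linarith)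
    simpa only [mul_div_cancel₀ _ N0.ne'] using a2 N
  refine ContinuousLinearMap.opNorm_le_bound _ hε.le fun ξ =>
    le_of_forall_pos_le_add fun ε' hε' => ?_
  obtain ⟨L, hL⟩ := D.chi_near ξ (half_pos hε')
  have a1 := hL _ (le_max_left L 1)
  have a2 := k1 (max L 1 + 1) (by linarith [le_max_right L 1]) 0 _ (win_fb (P132.bc_chi (max L 1))
    (fun x hx => by simpa only [sub_zero] using not_lt.1 fun h => hx (P132.chi_supp h)) ξ)
  rw [norm_YY] at a2
  have a3 := norm_add_le_of_le (a2.trans (mul_le_mul E2 (D.norm_le (P132.bc_chi _)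
    (P132.norm_chi _) ξ) (norm_nonneg _) hε.le))
    (norm_sub_le_of_le ((D'.norm_U t _).trans_le a1) ((D.norm_U t _).trans_le a1))
  rw [ContinuousLinearMap.sub_apply, norm_sub_rev]
  refine le_of_eq_of_le ?_ (a3.trans_eq (by ring))
  rw [map_sub, map_sub]
  congr 1
  abel

end Vale.Agent.P096
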