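import Vale.Agent.P096.G.Defs
import Mathlib.Analysis.SpecialFunctions.Complex.CircleAddChar

/-! A weighted Grothendieck type estimate. -/

namespace Vale.Agent.P096

open scoped InnerProductSpace Topology ComplexConjugate
open Filter
open Vale.Agent.P132 (FC BC ex pp qq rr EE chi Std PM MD)

universe u

namespace GT

lemma av_sum {T α E : Type*} [Fintype T] [AddCommGroup E] [Module ℂ E] (s : Finset α)
    (f : α → T → E) : (av fun t => ∑ a ∈ s, f a t) = ∑ a ∈ s, av (f a) := by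
  simp only [av, ← Finset.smul_sum]
  rw [Finset.sum_comm]

lemma av_conj {T : Type*} [Fintype T] (f : T → ℂ) : (av fun t => conj (f t)) = conj (av f) := by
  simp [av]

lemma orth_nm {α T E : Type*} [Fintype T] [DecidableEq α] [NormedAddCommGroup E]
    [InnerProductSpace ℂ E] (s : Finset α) (φ : α → T → ℂ)
    (h : ∀ a ∈ s, ∀ b ∈ s, (av fun t => conj (φ a t) * φ b t) = if a = b then 1 else 0)
    (w : α → E) : nm (fun t => ∑ a ∈ s, φ a t • w a) ^ 2 = ∑ a ∈ s, ‖w a‖ ^ 2 := by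
  rw [nm_sq_eq]
  have h1 : (fun t => ⟪∑ a ∈ s, φ a t • w a, ∑ a ∈ s, φ a t • w a⟫_ℂ) =
      fun t => ∑ a ∈ s, ∑ b ∈ s, conj (φ a t) * φ b t * ⟪w a, w b⟫_ℂ := by
    funext t
    rw [sum_inner]
    refine Finset.sum_congr rfl fun a _ => ?_
    rw [inner_sum]
    refine Finset.sum_congr rfl fun b _ => ?_
    rw [inner_smul_left, inner_smul_right, mul_assoc]
  rw [h1, av_sum, Complex.re_sum]
  refine Finset.sum_congr rfl fun a ha => ?_
  rw [av_sum, Finset.sum_eq_single_of_mem a ha, ← av_mul, h a ha a ha, if_pos rfl, one_mul,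
    inner_self_eq_norm_sq_to_K]
  · norm_cast
  · intro b hb hba
    rw [← av_mul, h a ha b hb, if_neg hba.symm, zero_mul]

/-- Characters of a power of the group of order three. -/
noncomputable def ch {κ : Type} [Fintype κ] (m : κ → ZMod 3) : AddChar (κ → ZMod 3) ℂ where
  toFun t := ZMod.stdAddChar (∑ a, m a * t a)
  map_zero_eq_one' := by simp
  map_add_eq_mul' s t := by
    simp only [Pi.add_apply, mul_add, Finset.sum_add_distrib, AddChar.map_add_eq_mul]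

lemma ch_apply {κ : Type} [Fintype κ] (m t : κ → ZMod 3) :
    ch m t = ZMod.stdAddChar (∑ a, m a * t a) := rfl

lemma ch_mul {κ : Type} [Fintype κ] (m m' t : κ → ZMod 3) :
    conj (ch m t) * ch m' t = ch (m' - m) t := by
  rw [ch_apply, ch_apply, ch_apply, ← AddChar.map_neg_eq_conj, ← AddChar.map_add_eq_mul]
  congr 1
  simp only [Pi.sub_apply, sub_mul, Finset.sum_sub_distrib]
  ring

lemma ch_orth {κ : Type} [Fintype κ] [DecidableEq κ] (m m' : κ → ZMod 3) :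
    (av fun t => conj (ch m t) * ch m' t) = if m = m' then 1 else 0 := by
  classical
  simp only [ch_mul]
  rw [av, AddChar.sum_eq_ite]
  split_ifs with h1 h2 h2
  · rw [smul_eq_mul, inv_mul_cancel₀ (by simp)]
  · exfalso
    apply h2
    funext a
    have := congrArg (fun ψ : AddChar (κ → ZMod 3) ℂ => ψ (Pi.single a 1)) h1
    simp only [ch_apply, AddChar.zero_apply] at this
    rw [Finset.sum_eq_single a (fun b _ hb => by simp [hb]) (by simp),
      ← (ZMod.stdAddChar (N := 3)).map_zero_eq_one, ZMod.injective_stdAddChar.eq_iff] at this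
    simp only [Pi.sub_apply, Pi.single_eq_same, mul_one] at this
    exact (sub_eq_zero.mp this).symm
  · exfalso
    apply h1
    subst h2
    ext t
    simp [ch_apply]
  · simp

lemma sing_eq {κ : Type} [DecidableEq κ] {a b a' b' : κ} (h : a ≠ b)
    (e : (Pi.single b 1 - Pi.single a 1 : κ → ZMod 3) = Pi.single b' 1 - Pi.single a' 1) :
    a = a' ∧ b = b' := by
  have h1 := congrFun e b
  have h2 := congrFun e a
  simp only [Pi.sub_apply, Pi.single_apply, if_pos, if_neg h, if_neg h.symm] at h1 h2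
  constructor
  · by_contra h3
    rw [if_neg h3] at h2
    split_ifs at h2 <;> revert h2 <;> decide
  · by_contra h3
    rw [if_neg h3] at h1
    split_ifs at h1 <;> revert h1 <;> decide

end GT

theorem sidon (κ : Type) [Fintype κ] [DecidableEq κ] : ∃ (T : Type) (_ : Fintype T) (_ : Nonempty T)
    (χ : κ → T → ℂ), (∀ a b, (av fun t => conj (χ a t) * χ b t) = if a = b then 1 else 0) ∧
      ∀ {K : Type u} [NormedAddCommGroup K] [InnerProductSpace ℂ K] (v : κ → κ → K),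
        nm (fun t => ∑ a, ∑ b, (conj (χ a t) * χ b t) • v a b) ^ 2 =
          ‖∑ a, v a a‖ ^ 2 + ∑ a, ∑ b, if a = b then 0 else ‖v a b‖ ^ 2 := by
  refine ⟨κ → ZMod 3, inferInstance, inferInstance, fun a t => GT.ch (Pi.single a 1) t,
    fun a b => ?_, fun {K} _ _ v => ?_⟩
  · rw [GT.ch_orth]
    congr 1
    refine propext ⟨fun h => ?_, fun h => h ▸ rfl⟩
    by_contra h1
    have := congrFun h a
    rw [Pi.single_eq_same, Pi.single_eq_of_ne h1] at this
    exact absurd this (by decide)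
  · let m : Option (κ × κ) → κ → ZMod 3 := fun o =>
      o.elim 0 fun p => Pi.single p.2 1 - Pi.single p.1 1
    let w : Option (κ × κ) → K := fun o => o.elim (∑ a, v a a) fun p => v p.1 p.2
    let s := (Finset.univ.filter fun p : κ × κ => ¬ p.1 = p.2).insertNone
    have hne : ∀ p : κ × κ, ¬ p.1 = p.2 → (Pi.single p.2 1 - Pi.single p.1 1 : κ → ZMod 3) ≠ 0 := by
      intro p hp h0
      have := congrFun h0 p.2
      rw [Pi.sub_apply, Pi.single_eq_same, Pi.single_eq_of_ne (Ne.symm hp), Pi.zero_apply] at this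
      exact absurd this (by decide)
    have h := GT.orth_nm s (fun o t => GT.ch (m o) t) (fun a ha b hb => by
      rw [GT.ch_orth]
      congr 1
      refine propext ⟨fun h => ?_, fun h => h ▸ rfl⟩
      cases a with
      | none =>
        cases b with
        | none => rfl
        | some q => exact absurd h.symm (hne q (by simpa [s] using hb))
      | some p =>
        cases b with
        | none => exact absurd h (hne p (by simpa [s] using ha))
        | some q =>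
          obtain ⟨h1, h2⟩ := GT.sing_eq (a := p.1) (b := p.2) (by simpa [s] using ha) h
          rw [Prod.ext h1 h2]) w
    simp only [s, Finset.sum_insertNone] at h
    have e1 : ∀ t, ∑ a, ∑ b, (conj (GT.ch (Pi.single a 1) t) * GT.ch (Pi.single b 1) t) • v a b =
        GT.ch (m none) t • w none + ∑ p ∈ Finset.univ.filter (fun p : κ × κ => ¬ p.1 = p.2),
          GT.ch (m (some p)) t • w (some p) := by
      intro t
      simp only [GT.ch_mul]
      rw [← Fintype.sum_prod_type', ← Finset.sum_filter_add_sum_filter_not _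
        (fun p : κ × κ => p.1 = p.2)]
      congr 1
      rw [Finset.sum_filter, Fintype.sum_prod_type]
      simp [m, w, GT.ch_apply]
    simp only [e1]
    rw [h, Finset.sum_filter, Fintype.sum_prod_type]
    simp only [ite_not]
    rfl

namespace GT

variable {K : Type u} [NormedAddCommGroup K] [InnerProductSpace ℂ K] [CompleteSpace K]

/-- Unnormalised column bound. -/
def SB {ι : Type} [Fintype ι] (x : ι → K →L[ℂ] K) (r : ℝ) : Prop :=
  ∀ γ, ∑ i, ‖x i γ‖ ^ 2 ≤ r * ‖γ‖ ^ 2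

lemma inner_star (a : K →L[ℂ] K) (v w : K) : ⟪v, star a w⟫_ℂ = ⟪a v, w⟫_ℂ := by
  rw [ContinuousLinearMap.star_eq_adjoint, ContinuousLinearMap.adjoint_inner_right]

lemma inner_star' (a : K →L[ℂ] K) (v w : K) : ⟪v, a w⟫_ℂ = ⟪star a v, w⟫_ℂ := by
  rw [← inner_star, star_star]

omit [CompleteSpace K] in
lemma re_le {a b : K →L[ℂ] K} (h : a ≤ b) (v : K) : (⟪v, a v⟫_ℂ).re ≤ (⟪v, b v⟫_ℂ).re := by
  have := ((ContinuousLinearMap.le_def a b).mp h).re_inner_nonneg_right v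
  rw [_root_.sub_apply, inner_sub_right, map_sub, sub_nonneg] at this
  exact this

omit [CompleteSpace K] in
lemma re_self (v : K) : (⟪v, v⟫_ℂ).re = ‖v‖ ^ 2 := by
  rw [inner_self_eq_norm_sq_to_K]
  norm_cast

lemma SB.norm_le {ι : Type} [Fintype ι] {x : ι → K →L[ℂ] K} {r : ℝ} (h : SB x r) (hr : 0 ≤ r)
    (γ : K) : ‖∑ i, star (x i) (x i γ)‖ ^ 2 ≤ r ^ 2 * ‖γ‖ ^ 2 := by
  set S := ∑ i, star (x i) (x i γ) with hS
  have h1 : ‖S‖ ^ 2 ≤ ∑ i, ‖x i S‖ * ‖x i γ‖ := by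
    rw [← re_self]
    conv_lhs => rw [hS, inner_sum, Complex.re_sum, ← hS]
    refine Finset.sum_le_sum fun i _ => ?_
    rw [inner_star]
    exact (Complex.re_le_norm _).trans (norm_inner_le_norm _ _)
  have h2 := Finset.sum_mul_sq_le_sq_mul_sq Finset.univ (fun i => ‖x i S‖) fun i => ‖x i γ‖
  have h3 : (‖S‖ ^ 2) ^ 2 ≤ (r * ‖S‖ ^ 2) * (r * ‖γ‖ ^ 2) :=
    (pow_le_pow_left₀ (sq_nonneg _) h1 2).trans (h2.trans (mul_le_mul (h S) (h γ)
      (Finset.sum_nonneg fun _ _ => sq_nonneg _) (by positivity)))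
  rcases eq_or_lt_of_le (sq_nonneg ‖S‖) with h0 | h0
  · rw [← h0]
    positivity
  · refine le_of_mul_le_mul_left ?_ h0
    nlinarith

lemma cut {X : SA K} (hX : IsClosed (X : Set (K →L[ℂ] K))) {J : Type} [Fintype J]
    (Z : J → K →L[ℂ] K) (hZ : ∀ j, Z j ∈ X) {L : ℝ} (hL : 0 < L) : ∃ g ∈ X,
      SB (fun j => star (g * Z j)) L ∧
      (∀ γ, ∑ j, ‖star ((1 - g) * Z j) γ‖ ^ 2 ≤ L⁻¹ * ‖∑ j, Z j (star (Z j) γ)‖ ^ 2) ∧
      ∀ γ, ‖(1 - g) γ‖ ^ 2 ≤ L⁻¹ * ∑ j, ‖star (Z j) γ‖ ^ 2 := by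
  set b : K →L[ℂ] K := ∑ j, Z j * star (Z j) with hb
  have b0 : 0 ≤ b := Finset.sum_nonneg fun j _ => mul_star_self_nonneg _
  have bs : IsSelfAdjoint b := b0.isSelfAdjoint
  have bX : b ∈ X := sum_mem fun j _ => mul_mem (hZ j) (star_mem (hZ j))
  have hq : ∀ γ, (⟪γ, b γ⟫_ℂ).re = ∑ j, ‖star (Z j) γ‖ ^ 2 := fun γ => by
    rw [hb, _root_.sum_apply, inner_sum, Complex.re_sum]
    refine Finset.sum_congr rfl fun j _ => ?_
    rw [mul_apply_eq_comp, inner_star', re_self]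
  have hq' : ∀ h : K →L[ℂ] K, IsSelfAdjoint h → ∀ γ,
      ∑ j, ‖star (h * Z j) γ‖ ^ 2 = (⟪γ, (h * b * h) γ⟫_ℂ).re := fun h hh γ => by
    rw [mul_apply_eq_comp, mul_apply_eq_comp, inner_star' h, hh.star_eq, hq]
    simp only [star_mul, hh.star_eq, mul_apply_eq_comp]
  obtain ⟨G, hG⟩ : ∃ G : ℝ → ℝ, G = fun s => √(L / max s L) := ⟨_, rfl⟩
  have hc : Continuous G := by
    rw [hG]
    exact (continuous_const.div (by fun_prop) fun s => (hL.trans_le (le_max_right _ _)).ne').sqrt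
  have hr : ∀ s, 0 ≤ s → G s * s * G s ≤ L ∧ (1 - G s) * (1 - G s) ≤ L⁻¹ * s := by
    intro s hs
    rw [hG]
    rcases le_total s L with h | h
    · simp only [max_eq_right h, div_self hL.ne', Real.sqrt_one]
      exact ⟨by linarith, by simp only [sub_self, mul_zero]; positivity⟩
    · simp only [max_eq_left h]
      have hs' : 0 < s := hL.trans_le h
      have h2 : √(L / s) ≤ 1 := Real.sqrt_le_one.2 ((div_le_one hs').2 h)
      have h3 : √(L / s) * √(L / s) = L / s := Real.mul_self_sqrt (by positivity)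
      have h4 := Real.sqrt_nonneg (L / s)
      have h5 : L / s * s = L := div_mul_cancel₀ _ hs'.ne'
      have h6 : 1 ≤ L⁻¹ * s := by rwa [le_inv_mul_iff₀ hL, mul_one]
      exact ⟨by nlinarith, by nlinarith⟩
  have hsp : ∀ s ∈ spectrum ℝ b, 0 ≤ s := fun s hs => spectrum_nonneg_of_nonneg b0 hs
  have e1 : cfc (fun s => 1 - G s) b = 1 - cfc G b := by rw [cfc_sub .., cfc_const_one ℝ b]
  have gs : IsSelfAdjoint (cfc G b) := cfc_predicate G b
  have gs' : IsSelfAdjoint (1 - cfc G b) := e1 ▸ cfc_predicate _ b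
  refine ⟨cfc G b, cfc_mem G bX, fun γ => ?_, fun γ => ?_, fun γ => ?_⟩
  · have := cfc_mono (a := b) (f := fun s => G s * s * G s) (g := fun _ => L)
      fun s hs => (hr s (hsp s hs)).1
    rw [cfc_mul .., cfc_mul .., cfc_id' ℝ b, cfc_const L b, Algebra.algebraMap_eq_smul_one] at this
    rw [hq' _ gs]
    refine (re_le this γ).trans_eq ?_
    rw [_root_.smul_apply, ← Complex.coe_smul, inner_smul_right, Complex.re_ofReal_mul, ← re_self]
    rfl
  · have := cfc_mono (a := b) (f := fun s => (1 - G s) * s * (1 - G s))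
      (g := fun s => L⁻¹ * (s * s)) fun s hs => by
        have := mul_le_mul_of_nonneg_right (hr s (hsp s hs)).2 (hsp s hs)
        linarith
    rw [cfc_mul .., cfc_mul .., cfc_const_mul .., cfc_mul .., cfc_id' ℝ b, e1] at this
    rw [hq' _ gs']
    refine (re_le this γ).trans_eq ?_
    rw [_root_.smul_apply, ← Complex.coe_smul, inner_smul_right, Complex.re_ofReal_mul,
      mul_apply_eq_comp, inner_star' b, bs.star_eq, re_self, hb, _root_.sum_apply]
    rfl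
  · have := cfc_mono (a := b) (f := fun s => (1 - G s) * (1 - G s))
      (g := fun s => L⁻¹ * s) fun s hs => (hr s (hsp s hs)).2
    rw [cfc_mul .., cfc_const_mul .., cfc_id' ℝ b, e1] at this
    have h2 := re_le this γ
    rwa [_root_.smul_apply, ← Complex.coe_smul, inner_smul_right, Complex.re_ofReal_mul,
      mul_apply_eq_comp, inner_star' (1 - cfc G b), gs'.star_eq, re_self, hq] at h2

variable (K) in
/-- The two properties of the family of characters. -/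
def Sid {κ T : Type} [Fintype κ] [DecidableEq κ] [Fintype T] (χ : κ → T → ℂ) : Prop :=
  (∀ a b, (av fun t => conj (χ a t) * χ b t) = if a = b then 1 else 0) ∧
    ∀ v : κ → κ → K, nm (fun t => ∑ a, ∑ b, (conj (χ a t) * χ b t) • v a b) ^ 2 ≤
      ‖∑ a, v a a‖ ^ 2 + ∑ a, ∑ b, ‖v a b‖ ^ 2

omit [CompleteSpace K] in
lemma Sid.cj {κ T : Type} [Fintype κ] [DecidableEq κ] [Fintype T] {χ : κ → T → ℂ}
    (h : Sid K χ) : Sid K fun a t => conj (χ a t) := by
  refine ⟨fun a b => ?_, fun v => ?_⟩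
  · simp only [Complex.conj_conj, mul_comm (χ a _), h.1 b a, eq_comm]
  · have := h.2 fun a b => v b a
    rw [Finset.sum_comm (f := fun a b => ‖v b a‖ ^ 2)] at this
    refine le_trans (le_of_eq ?_) this
    congr 2
    funext t
    rw [Finset.sum_comm]
    simp only [Complex.conj_conj, mul_comm]

lemma nm_prod_sq {T J E : Type*} [Fintype T] [Fintype J] [NormedAddCommGroup E] (f : T × J → E) :
    nm f ^ 2 = (Fintype.card T : ℝ)⁻¹ * ∑ t, (Fintype.card J : ℝ)⁻¹ * ∑ j, ‖f (t, j)‖ ^ 2 := by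
  rw [nm_sq, Fintype.sum_prod_type, ← Finset.mul_sum, Fintype.card_prod, Nat.cast_mul, mul_inv,
    mul_assoc]

lemma nm_le_of_sq {ι E : Type*} [Fintype ι] [NormedAddCommGroup E] {f : ι → E} {r : ℝ}
    (hr : 0 ≤ r) (h : nm f ^ 2 ≤ r ^ 2) : nm f ≤ r :=
  (pow_le_pow_iff_left₀ (nm_nonneg _) hr two_ne_zero).1 h

section trunc

variable {ι T J : Type} [Fintype ι] [DecidableEq ι] [Fintype T] [Fintype J] [DecidableEq J]

/-- The random combinations. -/
noncomputable def XX (χ : ι × J → T → ℂ) (x : ι → K →L[ℂ] K) (t : T) (j : J) : K →L[ℂ] K :=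
  ∑ i, χ (i, j) t • x i

variable {χ : ι × J → T → ℂ} {x : ι → K →L[ℂ] K}

omit [DecidableEq ι] [Fintype T] [Fintype J] [DecidableEq J] in
lemma star_XX (t : T) (j : J) :
    star (XX χ x t j) = XX (fun a t => conj (χ a t)) (fun i => star (x i)) t j := by
  simp [XX, star_sum]

omit [DecidableEq ι] [Fintype T] [Fintype J] [DecidableEq J] [CompleteSpace K] in
lemma XX_apply (t : T) (j : J) (v : K) : XX χ x t j v = ∑ i, χ (i, j) t • x i v := by
  simp [XX]

omit [CompleteSpace K] in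
lemma nm_XX [Nonempty J] (h : Sid K χ) {r : ℝ} (hx : SB x r) (Ω : K) :
    nm (fun p : T × J => XX χ x p.1 p.2 Ω) ^ 2 ≤ r * ‖Ω‖ ^ 2 := by
  have h1 : ∀ j, nm (fun t => XX χ x t j Ω) ^ 2 = ∑ i, ‖x i Ω‖ ^ 2 := fun j => by
    simp only [XX_apply]
    exact orth_nm Finset.univ (fun i t => χ (i, j) t) (fun a _ b _ => by simp [h.1]) _
  rw [nm_prod, nm_comm, nm_sq]
  simp only [Real.norm_eq_abs, sq_abs, h1, Finset.sum_const, Finset.card_univ, nsmul_eq_mul]
  rw [inv_mul_cancel_left₀ (by simp)]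
  exact hx Ω

lemma momA (h : Sid K χ) {θ : ℝ} (hθ : θ ^ 2 * Fintype.card J = 1) (hx : SB x 1)
    (hx' : SB (fun i => star (x i)) (2 * θ ^ 2)) (Ω : K) :
    nm (fun t => ∑ j, XX χ x t j (star (XX χ x t j) Ω)) ^ 2 ≤ 6 * ‖Ω‖ ^ 2 := by
  have h1 := h.2 fun a b => if a.2 = b.2 then x b.1 (star (x a.1) Ω) else 0
  have e1 : ∀ t, ∑ j, XX χ x t j (star (XX χ x t j) Ω) = ∑ a : ι × J, ∑ b : ι × J,
      (conj (χ a t) * χ b t) • if a.2 = b.2 then x b.1 (star (x a.1) Ω) else 0 := fun t => by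
    rw [Fintype.sum_prod_type_right]
    refine Finset.sum_congr rfl fun j _ => ?_
    rw [star_XX, XX_apply (x := fun i => star (x i)), map_sum]
    refine Finset.sum_congr rfl fun i _ => ?_
    rw [map_smul, XX_apply, Finset.smul_sum, Fintype.sum_prod_type]
    refine Finset.sum_congr rfl fun i' _ => ?_
    simp only [smul_ite, smul_zero, Finset.sum_ite_eq, Finset.mem_univ, if_true, smul_smul]
  simp only [e1]
  refine h1.trans ?_
  have h2 := hx'.norm_le (by positivity) Ω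
  simp only [star_star] at h2
  have h3 : ∑ a : ι × J, (if a.2 = a.2 then x a.1 (star (x a.1) Ω) else 0) =
      (Fintype.card J : ℂ) • ∑ i, x i (star (x i) Ω) := by
    simp [Fintype.sum_prod_type_right, Nat.cast_smul_eq_nsmul]
  have h4 : ∑ a : ι × J, ∑ b : ι × J, ‖if a.2 = b.2 then x b.1 (star (x a.1) Ω) else 0‖ ^ 2 ≤
      Fintype.card J * (2 * θ ^ 2 * ‖Ω‖ ^ 2) := by
    rw [Fintype.sum_prod_type_right, ← nsmul_eq_mul, ← Finset.card_univ, ← Finset.sum_const]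
    refine Finset.sum_le_sum fun j _ => le_trans (Finset.sum_le_sum fun i _ => ?_) (hx' Ω)
    refine le_trans (le_of_eq ?_) ((hx (star (x i) Ω)).trans_eq (one_mul _))
    rw [Fintype.sum_prod_type]
    refine Finset.sum_congr rfl fun i' _ => ?_
    rw [Finset.sum_eq_single j (fun k _ hk => by simp [hk.symm]) (by simp), if_pos rfl]
  rw [h3, norm_smul, mul_pow, Complex.norm_natCast]
  have h5 : (Fintype.card J : ℝ) ^ 2 * ‖∑ i, x i (star (x i) Ω)‖ ^ 2 ≤ 4 * ‖Ω‖ ^ 2 :=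
    (mul_le_mul_of_nonneg_left h2 (sq_nonneg _)).trans_eq (by
      linear_combination 4 * ‖Ω‖ ^ 2 * (θ ^ 2 * Fintype.card J + 1) * hθ)
  have h6 : Fintype.card J * (2 * θ ^ 2 * ‖Ω‖ ^ 2) = 2 * ‖Ω‖ ^ 2 := by
    linear_combination 2 * ‖Ω‖ ^ 2 * hθ
  linarith

lemma momB (h : Sid K χ) {θ : ℝ} (hx : SB x 1)
    (hx' : SB (fun i => star (x i)) (2 * θ ^ 2)) (Ω : K) (j k : J) :
    nm (fun t => star (XX χ x t k) (XX χ x t j Ω)) ^ 2 ≤
      (if k = j then ‖Ω‖ ^ 2 else 0) + 2 * θ ^ 2 * ‖Ω‖ ^ 2 := by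
  have h1 := h.2 fun a b => if a.2 = k then if b.2 = j then star (x a.1) (x b.1 Ω) else 0 else 0
  have e1 : ∀ t, star (XX χ x t k) (XX χ x t j Ω) = ∑ a : ι × J, ∑ b : ι × J,
      (conj (χ a t) * χ b t) •
        if a.2 = k then if b.2 = j then star (x a.1) (x b.1 Ω) else 0 else 0 := fun t => by
    rw [Fintype.sum_prod_type, star_XX, XX_apply (x := fun i => star (x i))]
    refine Finset.sum_congr rfl fun i _ => ?_
    rw [Finset.sum_eq_single k (fun l _ hl => by simp [hl]) (by simp), XX_apply, map_sum,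
      Finset.smul_sum, Fintype.sum_prod_type]
    refine Finset.sum_congr rfl fun i' _ => ?_
    simp only [smul_ite, smul_zero, Finset.sum_ite_eq', Finset.mem_univ, if_true, map_smul,
      smul_smul]
  simp only [e1]
  refine h1.trans (add_le_add ?_ ?_)
  · split_ifs with hk
    · subst hk
      have := hx.norm_le zero_le_one Ω
      rw [one_pow, one_mul] at this
      refine le_trans (le_of_eq ?_) this
      simp [Fintype.sum_prod_type]
    · rw [Finset.sum_eq_zero fun a _ => ?_]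
      · simp
      · split_ifs with h2 h3
        · exact absurd (h2.symm.trans h3) hk
        · rfl
        · rfl
  · have h2 : ∑ a : ι × J, ∑ b : ι × J,
        ‖if a.2 = k then if b.2 = j then star (x a.1) (x b.1 Ω) else 0 else 0‖ ^ 2 =
        ∑ i', ∑ i, ‖star (x i) (x i' Ω)‖ ^ 2 := by
      rw [Fintype.sum_prod_type, Finset.sum_comm (s := Finset.univ (α := ι))
        (f := fun i' i => ‖star (x i) (x i' Ω)‖ ^ 2)]
      refine Finset.sum_congr rfl fun i _ => ?_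
      rw [Finset.sum_eq_single k (fun l _ hl => by simp [hl]) (by simp), Fintype.sum_prod_type]
      refine Finset.sum_congr rfl fun i' _ => ?_
      rw [Finset.sum_eq_single j (fun l _ hl => by simp [hl]) (by simp), if_pos rfl, if_pos rfl]
    rw [h2]
    refine (Finset.sum_le_sum fun i' _ => hx' (x i' Ω)).trans ?_
    rw [← Finset.mul_sum]
    exact mul_le_mul_of_nonneg_left ((hx Ω).trans_eq (one_mul _)) (by positivity)

lemma trunc [Nonempty J] {X : SA K} (hX : IsClosed (X : Set (K →L[ℂ] K))) (h : Sid K χ) {θ τ : ℝ}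
    (θ0 : 0 < θ) (hθ : θ ^ 2 * Fintype.card J = 1) (τ0 : 0 < τ) (hm : ∀ i, x i ∈ X) (hx : SB x 1)
    (hx' : SB (fun i => star (x i)) (2 * θ ^ 2)) (Ω : K) : ∃ g : T → K →L[ℂ] K, (∀ t, g t ∈ X) ∧
      nm (fun p : T × J => XX χ x p.1 p.2 Ω) ≤ ‖Ω‖ ∧
      nm (fun p : T × J => star (XX χ x p.1 p.2) Ω) ≤ 2 * θ * ‖Ω‖ ∧
      nm (fun p : T × J => ((1 - g p.1) * XX χ x p.1 p.2) Ω) ≤ 2 * τ⁻¹ * ‖Ω‖ ∧
      nm (fun p : T × J => star ((1 - g p.1) * XX χ x p.1 p.2) Ω) ≤ 3 * θ * τ⁻¹ * ‖Ω‖ ∧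
      ∀ t, Col (fun j => star (g t * XX χ x t j)) (τ * θ) := by
  have hL : 0 < τ ^ 2 := by positivity
  choose g hg h1 h2 h3 using fun t => cut hX (XX χ x t)
    (fun j => sum_mem fun i _ => X.smul_mem (hm i) _) hL
  have hJ : (Fintype.card J : ℝ)⁻¹ = θ ^ 2 := inv_eq_of_mul_eq_one_left hθ
  have o0 := norm_nonneg Ω
  refine ⟨g, hg, nm_le_of_sq o0 ((nm_XX h hx Ω).trans_eq (one_mul _)),
    nm_le_of_sq (by positivity) ?_, nm_le_of_sq (by positivity) ?_,
    nm_le_of_sq (by positivity) ?_, fun t γ => nm_le_of_sq (by positivity) ?_⟩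
  · simp only [star_XX]
    refine (nm_XX h.cj hx' Ω).trans ?_
    nlinarith [sq_nonneg (θ * ‖Ω‖)]
  · have a1 : nm (fun p : T × J => ((1 - g p.1) * XX χ x p.1 p.2) Ω) ^ 2 ≤
        θ ^ 2 * (τ ^ 2)⁻¹ * ∑ j, ∑ k, nm (fun t => star (XX χ x t k) (XX χ x t j Ω)) ^ 2 := by
      rw [nm_prod_sq, hJ]
      simp only [nm_sq, ← Finset.mul_sum]
      have : ∑ j, ∑ k, ∑ t, ‖star (XX χ x t k) (XX χ x t j Ω)‖ ^ 2 =
          ∑ t, ∑ j, ∑ k, ‖star (XX χ x t k) (XX χ x t j Ω)‖ ^ 2 := by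
        rw [Finset.sum_comm (s := Finset.univ (α := T))]
        exact Finset.sum_congr rfl fun j _ => Finset.sum_comm
      rw [this, mul_left_comm, mul_assoc, mul_left_comm (τ ^ 2)⁻¹, Finset.mul_sum _ _ (τ ^ 2)⁻¹]
      gcongr with t
      rw [Finset.mul_sum]
      exact Finset.sum_le_sum fun j _ => h3 t _
    have a2 : ∑ j, ∑ k, nm (fun t => star (XX χ x t k) (XX χ x t j Ω)) ^ 2 ≤
        Fintype.card J * (3 * ‖Ω‖ ^ 2) := by
      rw [← nsmul_eq_mul, ← Finset.card_univ, ← Finset.sum_const]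
      refine Finset.sum_le_sum fun j _ =>
        (Finset.sum_le_sum fun k _ => momB h hx hx' Ω j k).trans_eq ?_
      rw [Finset.sum_add_distrib, Finset.sum_ite_eq', if_pos (Finset.mem_univ _),
        Finset.sum_const, Finset.card_univ, nsmul_eq_mul]
      linear_combination 2 * ‖Ω‖ ^ 2 * hθ
    refine a1.trans ((mul_le_mul_of_nonneg_left a2 (by positivity)).trans ?_)
    have : θ ^ 2 * (τ ^ 2)⁻¹ * (Fintype.card J * (3 * ‖Ω‖ ^ 2)) = 3 * (τ⁻¹ * ‖Ω‖) ^ 2 := by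
      rw [← inv_pow]
      linear_combination 3 * (τ⁻¹ * ‖Ω‖) ^ 2 * hθ
    nlinarith [sq_nonneg (τ⁻¹ * ‖Ω‖)]
  · have a1 : nm (fun p : T × J => star ((1 - g p.1) * XX χ x p.1 p.2) Ω) ^ 2 ≤
        θ ^ 2 * (τ ^ 2)⁻¹ * nm (fun t => ∑ j, XX χ x t j (star (XX χ x t j) Ω)) ^ 2 := by
      rw [nm_prod_sq, hJ, nm_sq, ← Finset.mul_sum, mul_left_comm, mul_assoc,
        mul_left_comm (τ ^ 2)⁻¹, Finset.mul_sum _ _ (τ ^ 2)⁻¹]
      gcongr with t
      exact h2 t Ω
    refine a1.trans ((mul_le_mul_of_nonneg_left (momA h hθ hx hx' Ω) (by positivity)).trans ?_)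
    rw [← inv_pow]
    nlinarith [sq_nonneg (θ * τ⁻¹ * ‖Ω‖)]
  · rw [nm_sq, hJ]
    exact (mul_le_mul_of_nonneg_left (h1 t γ) (by positivity)).trans_eq (by ring)

omit [CompleteSpace K] in
lemma av_form [Nonempty J] (h : Sid K χ) (c : ι → K →L[ℂ] K) (Ω : K) :
    (av fun p : T × J => ⟪Ω, (XX χ x p.1 p.2 * XX (fun a t => conj (χ a t)) c p.1 p.2 -
      XX (fun a t => conj (χ a t)) c p.1 p.2 * XX χ x p.1 p.2) Ω⟫_ℂ) =
      ∑ i, ⟪Ω, (x i * c i - c i * x i) Ω⟫_ℂ := by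
  have e1 : ∀ t j, ⟪Ω, (XX χ x t j * XX (fun a t => conj (χ a t)) c t j -
      XX (fun a t => conj (χ a t)) c t j * XX χ x t j) Ω⟫_ℂ =
      ∑ i, ∑ i', conj (χ (i', j) t) * χ (i, j) t * ⟪Ω, (x i * c i' - c i' * x i) Ω⟫_ℂ := by
    intro t j
    rw [XX, XX, Finset.sum_mul_sum, Finset.sum_mul_sum, Finset.sum_comm
      (f := fun i i' => (conj (χ (i, j) t) • c i) * (χ (i', j) t • x i')),
      ← Finset.sum_sub_distrib, _root_.sum_apply, inner_sum]
    refine Finset.sum_congr rfl fun i _ => ?_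
    rw [← Finset.sum_sub_distrib, _root_.sum_apply, inner_sum]
    refine Finset.sum_congr rfl fun i' _ => ?_
    rw [smul_mul_smul_comm, smul_mul_smul_comm, mul_comm (χ (i, j) t), ← smul_sub,
      _root_.smul_apply, inner_smul_right]
  rw [av_prod, av_comm]
  simp only [e1, av_sum, ← av_mul, h.1]
  refine Finset.sum_congr rfl fun i _ => ?_
  rw [Finset.sum_eq_single i (fun l _ hl => by simp [hl, av]) (by simp)]
  simp only [if_true, av_const, one_mul]

end trunc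

lemma form_le {P : Type*} [Fintype P] (u v : P → K →L[ℂ] K) (Ω : K) {a b c d : ℝ}
    (ha : nm (fun p => star (u p) Ω) ≤ a) (hb : nm (fun p => v p Ω) ≤ b)
    (hc : nm (fun p => star (v p) Ω) ≤ c) (hd : nm (fun p => u p Ω) ≤ d) :
    ‖av fun p => ⟪Ω, (u p * v p - v p * u p) Ω⟫_ℂ‖ ≤ a * b + c * d := by
  have e : ∀ p, ⟪Ω, (u p * v p - v p * u p) Ω⟫_ℂ =
      ⟪star (u p) Ω, v p Ω⟫_ℂ - ⟪star (v p) Ω, u p Ω⟫_ℂ := fun p => by
    rw [← inner_star', ← inner_star', ← inner_sub_right]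
    rfl
  simp only [e, av_sub]
  refine (norm_sub_le _ _).trans (add_le_add ?_ ?_)
  · exact (norm_av_inner_le _ _).trans (mul_le_mul ha hb (nm_nonneg _) ((nm_nonneg _).trans ha))
  · exact (norm_av_inner_le _ _).trans (mul_le_mul hc hd (nm_nonneg _) ((nm_nonneg _).trans hc))

lemma core {X Y : SA K} (hX : IsClosed (X : Set (K →L[ℂ] K))) (hY : IsClosed (Y : Set (K →L[ℂ] K)))
    {δ τ θ : ℝ} (δ0 : 0 ≤ δ) (hτ : 1 ≤ τ) (θ0 : 0 < θ) (hcn : CN δ X Y) (Ω : K) {n : ℕ}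
    (hθ : θ ^ 2 * n = 1) {ι : Type} [Fintype ι] {x c : ι → K →L[ℂ] K} (hx : ∀ i, x i ∈ X)
    (hc : ∀ i, c i ∈ Y) (x1 : SB x 1) (x2 : SB (fun i => star (x i)) (2 * θ ^ 2)) (c1 : SB c 1)
    (c2 : SB (fun i => star (c i)) (2 * θ ^ 2)) :
    ‖∑ i, ⟪Ω, (x i * c i - c i * x i) Ω⟫_ℂ‖ ≤ θ * (4 * δ * τ ^ 2 + 26 * τ⁻¹) * ‖Ω‖ ^ 2 := by
  classical
  have hn : n ≠ 0 := by
    rintro rfl
    simp at hθ
  have : Nonempty (Fin n) := ⟨⟨0, Nat.pos_of_ne_zero hn⟩⟩
  obtain ⟨T, _, _, χ, s1, s2⟩ := sidon.{u} (ι × Fin n)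
  have h : Sid K χ := ⟨s1, fun v => (s2 v).trans_le (by
    gcongr with a _ b _
    split_ifs
    · positivity
    · rfl)⟩
  have hθ' : θ ^ 2 * Fintype.card (Fin n) = 1 := by rwa [Fintype.card_fin]
  have τ0 : 0 < τ := one_pos.trans_le hτ
  have τ1 : τ⁻¹ ≤ 1 := inv_le_one_of_one_le₀ hτ
  have τ2 : 0 < τ⁻¹ := inv_pos.2 τ0
  have o0 := norm_nonneg Ω
  obtain ⟨g, hg, a1, a2, a3, a4, a5⟩ := trunc hX h θ0 hθ' τ0 hx x1 x2 Ω
  obtain ⟨l, hl, b1, b2, b3, b4, b5⟩ := trunc hY h.cj θ0 hθ' τ0 hc c1 c2 Ω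
  rw [← av_form h c Ω]
  set χ' : ι × Fin n → T → ℂ := fun a t => conj (χ a t)
  have mX : ∀ t j, XX χ x t j ∈ X := fun t j => sum_mem fun i _ => X.smul_mem (hx i) _
  have mY : ∀ t j, XX χ' c t j ∈ Y := fun t j => sum_mem fun i _ => Y.smul_mem (hc i) _
  choose y hy hd using fun t => hcn (Fin n) _ _
    (fun j => star_mem (mul_mem (hg t) (mX t j))) (by positivity) (a5 t)
  set d : T × Fin n → K →L[ℂ] K := fun p => star (g p.1 * XX χ x p.1 p.2) - y p.1 p.2 with hd'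
  have e : ∀ p : T × Fin n, ⟪Ω, (XX χ x p.1 p.2 * XX χ' c p.1 p.2 -
      XX χ' c p.1 p.2 * XX χ x p.1 p.2) Ω⟫_ℂ =
      ⟪Ω, (star (d p) * (l p.1 * XX χ' c p.1 p.2) - (l p.1 * XX χ' c p.1 p.2) * star (d p)) Ω⟫_ℂ +
      ⟪Ω, (((1 - g p.1) * XX χ x p.1 p.2) * XX χ' c p.1 p.2 -
        XX χ' c p.1 p.2 * ((1 - g p.1) * XX χ x p.1 p.2)) Ω⟫_ℂ +
      ⟪Ω, ((g p.1 * XX χ x p.1 p.2) * ((1 - l p.1) * XX χ' c p.1 p.2) -
        ((1 - l p.1) * XX χ' c p.1 p.2) * (g p.1 * XX χ x p.1 p.2)) Ω⟫_ℂ := by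
    intro p
    have h1 := congrArg star (hy p.1 p.2 _ (star_mem (mul_mem (hl p.1) (mY p.1 p.2))))
    rw [star_mul, star_mul _ (y p.1 p.2), star_star] at h1
    rw [← inner_add_right, ← inner_add_right, ← _root_.add_apply, ← _root_.add_apply]
    congr 2
    simp only [hd', star_sub, star_star, sub_mul, mul_sub, one_mul]
    rw [h1]
    abel
  have d1 : nm (fun p => star (star (d p)) Ω) ≤ δ * (τ * θ) * ‖Ω‖ := by
    simp only [star_star]
    rw [nm_prod]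
    exact nm_le fun t => (Real.norm_of_nonneg (nm_nonneg _)).trans_le (hd t Ω)
  have d2 : nm (fun p => star (d p) Ω) ≤ δ * τ * ‖Ω‖ := nm_le fun p => by
    refine (star (d p)).le_of_opNorm_le ?_ Ω
    rw [norm_star]
    refine (d p).opNorm_le_bound (by positivity) fun γ => ?_
    refine (pow_le_pow_iff_left₀ (norm_nonneg _) (by positivity) two_ne_zero).1 ?_
    have h1 := pow_le_pow_left₀ (nm_nonneg _) (hd p.1 γ) 2
    rw [nm_sq, inv_eq_of_mul_eq_one_left hθ'] at h1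
    have h2 : ‖d p γ‖ ^ 2 ≤ ∑ j, ‖d (p.1, j) γ‖ ^ 2 :=
      Finset.single_le_sum (f := fun j => ‖d (p.1, j) γ‖ ^ 2) (fun _ _ => sq_nonneg _)
        (Finset.mem_univ p.2)
    refine h2.trans (le_of_mul_le_mul_left (h1.trans_eq (by ring)) (pow_pos θ0 2))
  have sp : ∀ (k Z : K →L[ℂ] K) (v : K), (k * Z) v = Z v - ((1 - k) * Z) v := fun k Z v => by
    simp [sub_mul]
  have sp' : ∀ (k Z : K →L[ℂ] K) (v : K), star (k * Z) v = star Z v - star ((1 - k) * Z) v :=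
    fun k Z v => by simp [sub_mul]
  have f1 := form_le (fun p => star (d p)) (fun p => l p.1 * XX χ' c p.1 p.2) Ω d1
    (b := 3 * ‖Ω‖) (c := τ * θ * ‖Ω‖) (by
      simp only [sp (l _)]
      exact (nm_sub_le _ _).trans (by nlinarith)) (by
      rw [nm_prod]
      exact nm_le fun t => (Real.norm_of_nonneg (nm_nonneg _)).trans_le (b5 t Ω)) d2
  have f2 := form_le _ _ Ω a4 b1 b2 a3
  have f3 := form_le (fun p => g p.1 * XX χ x p.1 p.2) _ Ω (a := 5 * θ * ‖Ω‖) (d := 3 * ‖Ω‖) (by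
      simp only [sp' (g _)]
      refine (nm_sub_le _ _).trans ?_
      have := mul_le_mul_of_nonneg_left τ1 (show 0 ≤ 3 * θ * ‖Ω‖ by positivity)
      linarith) b3 b4 (by
      simp only [sp (g _)]
      exact (nm_sub_le _ _).trans (by nlinarith))
  simp only [e, av_add]
  refine (norm_add₃_le.trans (add_le_add_three f1 f2 f3)).trans ?_
  have := mul_le_mul_of_nonneg_left hτ (show 0 ≤ 3 * δ * τ * θ * ‖Ω‖ ^ 2 by positivity)
  nlinarith

omit [CompleteSpace K] in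
lemma sb_of_col {ι : Type} [Fintype ι] [Nonempty ι] {x : ι → K →L[ℂ] K} {r s u : ℝ} (h : Col x r)
    (hu : s ^ 2 * r ^ 2 ≤ u) :
    SB (fun i => ((√(Fintype.card ι : ℝ)⁻¹ * s : ℝ) : ℂ) • x i) u := fun γ => by
  have h1 := pow_le_pow_left₀ (nm_nonneg _) (h γ) 2
  rw [nm_sq] at h1
  simp only [_root_.smul_apply, norm_smul, mul_pow, Complex.norm_real, Real.norm_eq_abs, sq_abs,
    ← Finset.mul_sum]
  rw [Real.sq_sqrt (by positivity), mul_comm _ (s ^ 2), mul_assoc]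
  refine (mul_le_mul_of_nonneg_left h1 (sq_nonneg s)).trans ?_
  rw [mul_pow, ← mul_assoc]
  exact mul_le_mul_of_nonneg_right hu (sq_nonneg _)

omit [CompleteSpace K] in
lemma col_smul {ι : Type} [Fintype ι] {x : ι → K →L[ℂ] K} {r s u : ℝ} (h : Col x r) (hs : 0 ≤ s)
    (hu : s * r = u) : Col (fun i => (s : ℂ) • x i) u := fun γ => by
  refine (nm_mono (g := fun i => x i γ) hs fun i => ?_).trans ?_
  · rw [_root_.smul_apply, norm_smul, Complex.norm_real, Real.norm_of_nonneg hs]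
  · rw [← hu, mul_assoc]
    exact mul_le_mul_of_nonneg_left (h γ) hs

lemma big {X Y : SA K} (hX : IsClosed (X : Set (K →L[ℂ] K))) (hY : IsClosed (Y : Set (K →L[ℂ] K)))
    {δ τ : ℝ} (δ0 : 0 ≤ δ) (hτ : 1 ≤ τ) (hcn : CN δ X Y) (Ω : K) {μ : ℝ} (hμ : 1 ≤ μ)
    {ι : Type} [Fintype ι] [Nonempty ι] {x c : ι → K →L[ℂ] K} (hx : ∀ i, x i ∈ X)
    (hc : ∀ i, c i ∈ Y) (x1 : Col x 1) (x2 : Col (fun i => star (x i)) μ⁻¹)
    (c2 : Col (fun i => star (c i)) 1) (c1 : Col c μ) :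
    ‖av fun i => ⟪Ω, (x i * c i - c i * x i) Ω⟫_ℂ‖ ≤ (4 * δ * τ ^ 2 + 26 * τ⁻¹) * ‖Ω‖ ^ 2 := by
  set n := ⌈μ ^ 2⌉₊
  have μ2 : 1 ≤ μ ^ 2 := one_le_pow₀ hμ
  have n1 : μ ^ 2 ≤ n := Nat.le_ceil _
  have n2 : (n : ℝ) ≤ 2 * μ ^ 2 := by linarith [Nat.ceil_lt_add_one (sq_nonneg μ)]
  have n0 : (0 : ℝ) < n := by linarith
  set θ := √(n : ℝ)⁻¹
  have θ0 : 0 < θ := Real.sqrt_pos.2 (inv_pos.2 n0)
  have θ2 : θ ^ 2 = (n : ℝ)⁻¹ := Real.sq_sqrt (inv_pos.2 n0).le
  have hθ : θ ^ 2 * n = 1 := by rw [θ2, inv_mul_cancel₀ n0.ne']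
  have st : ∀ (r : ℝ) (a : K →L[ℂ] K), star ((r : ℂ) • a) = (r : ℂ) • star a := fun r a => by
    rw [star_smul, Complex.star_def, Complex.conj_ofReal]
  have h := core hX hY δ0 hτ θ0 hcn Ω hθ
    (x := fun i => ((√(Fintype.card ι : ℝ)⁻¹ * 1 : ℝ) : ℂ) • x i)
    (c := fun i => ((√(Fintype.card ι : ℝ)⁻¹ * θ : ℝ) : ℂ) • c i)
    (fun i => X.smul_mem (hx i) _) (fun i => Y.smul_mem (hc i) _) (sb_of_col x1 (by norm_num))
    (by
      simp only [st]
      refine sb_of_col x2 ?_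
      rw [one_pow, one_mul, inv_pow, θ2, inv_le_iff_one_le_mul₀ (by positivity), mul_right_comm,
        ← div_eq_mul_inv, one_le_div n0]
      exact n2)
    (sb_of_col c1 (by rw [θ2, inv_mul_le_iff₀ n0, mul_one]; exact n1))
    (by
      simp only [st]
      exact sb_of_col c2 (by nlinarith [sq_nonneg θ]))
  have e : ∑ i, ⟪Ω, ((((√(Fintype.card ι : ℝ)⁻¹ * 1 : ℝ) : ℂ) • x i) *
      (((√(Fintype.card ι : ℝ)⁻¹ * θ : ℝ) : ℂ) • c i) -
      (((√(Fintype.card ι : ℝ)⁻¹ * θ : ℝ) : ℂ) • c i) *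
      (((√(Fintype.card ι : ℝ)⁻¹ * 1 : ℝ) : ℂ) • x i)) Ω⟫_ℂ =
      θ * av fun i => ⟪Ω, (x i * c i - c i * x i) Ω⟫_ℂ := by
    rw [av, smul_eq_mul, ← mul_assoc, Finset.mul_sum]
    refine Finset.sum_congr rfl fun i _ => ?_
    rw [smul_mul_smul_comm, smul_mul_smul_comm, mul_comm (((_ * θ : ℝ) : ℂ)), ← smul_sub,
      _root_.smul_apply, inner_smul_right, ← Complex.ofReal_mul, mul_one, ← mul_assoc,
      Real.mul_self_sqrt (by positivity)]
    push_cast
    ring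
  rw [e, norm_mul, Complex.norm_real, Real.norm_of_nonneg θ0.le, mul_assoc] at h
  exact le_of_mul_le_mul_left h θ0

end GT

theorem gt {ε : ℝ} (hε : 0 < ε) : ∃ δ > 0, ∀ {K : Type u} [NormedAddCommGroup K] [InnerProductSpace ℂ K]
    [CompleteSpace K] (X Y : SA K), IsClosed (X : Set (K →L[ℂ] K)) →
    IsClosed (Y : Set (K →L[ℂ] K)) → CN δ X Y → ∀ (Ω : K) (μ : ℝ), 0 < μ →
    ∀ (ι : Type) [Fintype ι] [Nonempty ι] (x c : ι → K →L[ℂ] K), (∀ i, x i ∈ X) → (∀ i, c i ∈ Y) →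
      Col x 1 → Col (fun i => star (x i)) μ⁻¹ → Col (fun i => star (c i)) 1 → Col c μ →
      ‖av fun i => ⟪Ω, (x i * c i - c i * x i) Ω⟫_ℂ‖ ≤ ε * ‖Ω‖ ^ 2 := by
  set τ := max 1 (52 / ε)
  have hτ : 1 ≤ τ := le_max_left _ _
  have τ0 : 0 < τ := one_pos.trans_le hτ
  have hτ' : 26 * τ⁻¹ ≤ ε / 2 := by
    have : 52 / ε ≤ τ := le_max_right _ _
    rw [div_le_iff₀ hε] at this
    rw [← div_eq_mul_inv, div_le_iff₀ τ0]
    linarith
  have hb : 4 * (ε / (8 * τ ^ 2)) * τ ^ 2 + 26 * τ⁻¹ ≤ ε := by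
    have : 4 * (ε / (8 * τ ^ 2)) * τ ^ 2 = ε / 2 := by field_simp; norm_num
    linarith
  refine ⟨ε / (8 * τ ^ 2), by positivity, ?_⟩
  intro K _ _ _ X Y hX hY hcn Ω μ hμ ι _ _ x c hx hc x1 x2 c2 c1
  refine le_trans ?_ (mul_le_mul_of_nonneg_right hb (sq_nonneg _))
  rcases le_total 1 μ with h | h
  · exact GT.big hX hY (by positivity) hτ hcn Ω h hx hc x1 x2 c2 c1
  · have st : ∀ (r : ℝ) (a : K →L[ℂ] K), star ((r : ℂ) • star a) = (r : ℂ) • a := fun r a => by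
      rw [star_smul, Complex.star_def, Complex.conj_ofReal, star_star]
    have h1 := GT.big hX hY (by positivity) hτ hcn Ω (μ := μ⁻¹) ((one_le_inv₀ hμ).2 h)
      (x := fun i => (μ : ℂ) • star (x i)) (c := fun i => ((μ⁻¹ : ℝ) : ℂ) • star (c i))
      (fun i => X.smul_mem (star_mem (hx i)) _) (fun i => Y.smul_mem (star_mem (hc i)) _)
      (GT.col_smul x2 hμ.le (mul_inv_cancel₀ hμ.ne'))
      (by simp only [st]; exact GT.col_smul x1 hμ.le (by rw [mul_one, inv_inv]))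
      (by simp only [st]; exact GT.col_smul c1 (inv_pos.2 hμ).le (inv_mul_cancel₀ hμ.ne'))
      (GT.col_smul c2 (inv_pos.2 hμ).le (mul_one _))
    have e : ∀ i, ⟪Ω, (((μ : ℂ) • star (x i)) * (((μ⁻¹ : ℝ) : ℂ) • star (c i)) -
        (((μ⁻¹ : ℝ) : ℂ) • star (c i)) * ((μ : ℂ) • star (x i))) Ω⟫_ℂ =
        -conj ⟪Ω, (x i * c i - c i * x i) Ω⟫_ℂ := fun i => by
      rw [smul_mul_smul_comm, smul_mul_smul_comm, ← Complex.ofReal_mul, ← Complex.ofReal_mul,
        mul_inv_cancel₀ hμ.ne', inv_mul_cancel₀ hμ.ne', Complex.ofReal_one, one_smul, one_smul,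
        ← star_mul, ← star_mul, ← star_sub, GT.inner_star, inner_conj_symm, ← inner_neg_left,
        ← _root_.neg_apply, neg_sub]
    simp only [e, av_neg, GT.av_conj, norm_neg, Complex.norm_conj] at h1
    exact h1

end Vale.Agent.P096
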