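import Vale.Agent.P096.G.Defs
import Mathlib.Analysis.InnerProductSpace.l2Space
import Mathlib.Analysis.Normed.Lp.lpHolder

/-! Diagonal and permutation operators on square summable families. -/

namespace Vale.Agent.P096

open scoped InnerProductSpace Topology ENNReal
open Filter

abbrev L2 (I K : Type*) [NormedAddCommGroup K] := lp (fun _ : I => K) 2

variable {I K : Type*} [NormedAddCommGroup K] [InnerProductSpace ℂ K]

lemma L2.ext {S T : L2 I K →L[ℂ] L2 I K} (h : ∀ ξ i, S ξ i = T ξ i) : S = T :=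
  ContinuousLinearMap.ext fun ξ => lp.ext (funext (h ξ))

open Classical in
/-- Diagonal operators. -/
noncomputable def dgL (T : I → K →L[ℂ] K) : L2 I K →L[ℂ] L2 I K :=
  if h : ∃ C, 0 ≤ C ∧ ∀ i, ‖T i‖ ≤ C then lp.mapCLM 2 T h.choose_spec.1 h.choose_spec.2 else 0

lemma dgL_apply {T : I → K →L[ℂ] K} {C : ℝ} (h : ∀ i, ‖T i‖ ≤ C) (ξ : L2 I K) (i : I) :
    dgL T ξ i = T i (ξ i) := by
  rw [dgL, dif_pos ⟨max C 0, le_max_right _ _, fun i => (h i).trans (le_max_left _ _)⟩]
  rfl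

lemma norm_dgL_le {T : I → K →L[ℂ] K} {C : ℝ} (hC : 0 ≤ C) (h : ∀ i, ‖T i‖ ≤ C) : ‖dgL T‖ ≤ C := by
  rw [show dgL T = lp.mapCLM 2 T hC h from L2.ext fun ξ i => dgL_apply h ξ i]
  exact lp.norm_mapCLM_le _ _ _ _

lemma mem_prm (σ : I ≃ I) (ξ : L2 I K) : Memℓp (fun i => ξ (σ i)) 2 :=
  memℓp_gen (σ.summable_iff.2 ((lp.memℓp ξ).summable (by norm_num)))

lemma norm_prm' (σ : I ≃ I) (ξ : L2 I K) : ‖(⟨_, mem_prm σ ξ⟩ : L2 I K)‖ = ‖ξ‖ := by
  rw [lp.norm_eq_tsum_rpow (by norm_num), lp.norm_eq_tsum_rpow (by norm_num) ξ]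
  exact congrArg (· ^ _) (σ.tsum_eq fun i => ‖ξ i‖ ^ (2 : ℝ≥0∞).toReal)

/-- Permutation operators. -/
noncomputable def prm (σ : I ≃ I) : L2 I K →L[ℂ] L2 I K :=
  LinearMap.mkContinuous
    { toFun := fun ξ => ⟨_, mem_prm σ ξ⟩
      map_add' := fun _ _ => rfl
      map_smul' := fun _ _ => rfl } 1 fun ξ => (norm_prm' σ ξ).trans_le (one_mul _).ge

lemma prm_apply (σ : I ≃ I) (ξ : L2 I K) (i : I) : prm σ ξ i = ξ (σ i) := rfl

lemma norm_prm (σ : I ≃ I) (ξ : L2 I K) : ‖prm σ ξ‖ = ‖ξ‖ := norm_prm' σ ξ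

variable [CompleteSpace K]

lemma star_dgL {T : I → K →L[ℂ] K} {C : ℝ} (h : ∀ i, ‖T i‖ ≤ C) :
    star (dgL T) = dgL fun i => star (T i) := by
  symm
  rw [ContinuousLinearMap.star_eq_adjoint, ContinuousLinearMap.eq_adjoint_iff]
  intro v w
  rw [lp.inner_eq_tsum, lp.inner_eq_tsum]
  refine tsum_congr fun i => ?_
  rw [dgL_apply (C := C) (by simpa using h), dgL_apply h, ContinuousLinearMap.star_eq_adjoint,
    ContinuousLinearMap.adjoint_inner_left]

lemma star_prm (σ : I ≃ I) : star (prm σ : L2 I K →L[ℂ] L2 I K) = prm σ.symm := by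
  symm
  rw [ContinuousLinearMap.star_eq_adjoint, ContinuousLinearMap.eq_adjoint_iff]
  intro v w
  rw [lp.inner_eq_tsum, lp.inner_eq_tsum, ← σ.tsum_eq]
  simp only [prm_apply, Equiv.symm_apply_apply]

lemma prm_unitary (σ : I ≃ I) : (prm σ : L2 I K →L[ℂ] L2 I K) ∈ unitary _ := by
  rw [Unitary.mem_iff, star_prm]
  exact ⟨L2.ext fun ξ i => congrArg ξ (σ.apply_symm_apply i),
    L2.ext fun ξ i => congrArg ξ (σ.symm_apply_apply i)⟩

variable (I K) in
/-- Amplification. -/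
noncomputable def ampL : (K →L[ℂ] K) →⋆ₐ[ℂ] (L2 I K →L[ℂ] L2 I K) where
  toFun T := dgL fun _ => T
  map_one' := L2.ext fun ξ i => dgL_apply (fun _ => le_rfl) ξ i
  map_mul' S T := L2.ext fun ξ i => by
    simp only [ContinuousLinearMap.mul_apply, dgL_apply fun _ => le_refl ‖_‖]
  map_zero' := L2.ext fun ξ i => dgL_apply (fun _ => le_rfl) ξ i
  map_add' S T := L2.ext fun ξ i => by
    simp only [ContinuousLinearMap.add_apply, dgL_apply fun _ => le_refl ‖_‖, lp.coeFn_add,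
      Pi.add_apply]
  commutes' c := L2.ext fun ξ i => dgL_apply (fun _ => le_rfl) ξ i
  map_star' T := (star_dgL fun _ => le_rfl).symm

lemma ampL_apply (T : K →L[ℂ] K) (ξ : L2 I K) (i : I) : ampL I K T ξ i = T (ξ i) :=
  dgL_apply (fun _ => le_rfl) ξ i

variable [DecidableEq I]

/-- Operator entries. -/
noncomputable def entL (T : L2 I K →L[ℂ] L2 I K) (i j : I) : K →L[ℂ] K :=
  lp.evalCLM ℂ (fun _ : I => K) 2 i ∘L T ∘L lp.singleContinuousLinearMap ℂ (fun _ : I => K) 2 j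

omit [CompleteSpace K] in
lemma entL_apply (T : L2 I K →L[ℂ] L2 I K) (i j : I) (v : K) :
    entL T i j v = T (lp.single 2 j v) i := rfl

omit [CompleteSpace K] in
lemma norm_entL_le (T : L2 I K →L[ℂ] L2 I K) (i j : I) : ‖entL T i j‖ ≤ ‖T‖ :=
  ContinuousLinearMap.opNorm_le_bound _ T.opNorm_nonneg fun v => by
    rw [entL_apply]
    exact (lp.norm_apply_le_norm two_ne_zero _ i).trans ((T.le_opNorm _).trans
      (by rw [lp.norm_single two_pos]))

omit [CompleteSpace K] in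
lemma dgL_single {T : I → K →L[ℂ] K} {C : ℝ} (h : ∀ i, ‖T i‖ ≤ C) (j : I) (v : K) :
    dgL T (lp.single 2 j v) = lp.single 2 j (T j v) := lp.ext (funext fun i => by
  rw [dgL_apply h]
  rcases eq_or_ne i j with rfl | hij
  · simp
  · rw [lp.single_apply_ne _ _ _ hij, lp.single_apply_ne _ _ _ hij, map_zero])

lemma ampL_single (T : K →L[ℂ] K) (j : I) (v : K) :
    ampL I K T (lp.single 2 j v) = lp.single 2 j (T v) := dgL_single (fun _ => le_rfl) j v

omit [CompleteSpace K] in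
lemma prm_single (σ : I ≃ I) (j : I) (v : K) :
    prm σ (lp.single 2 j v : L2 I K) = lp.single 2 (σ.symm j) v := lp.ext (funext fun i => by
  rw [prm_apply]
  rcases eq_or_ne i (σ.symm j) with rfl | hij
  · simp
  · rw [lp.single_apply_ne _ _ _ hij, lp.single_apply_ne _ _ _ fun h => hij (by simp [← h])])

lemma entL_comm {T : L2 I K →L[ℂ] L2 I K} {a : K →L[ℂ] K} (h : T * ampL I K a = ampL I K a * T)
    (i j : I) : entL T i j * a = a * entL T i j := ContinuousLinearMap.ext fun v => by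
  have := congr($h (lp.single 2 j v) i)
  simpa only [ContinuousLinearMap.mul_apply, ampL_single, ampL_apply, entL_apply] using this

lemma star_entL (T : L2 I K →L[ℂ] L2 I K) (i j : I) : star (entL T i j) = entL (star T) j i := by
  symm
  rw [ContinuousLinearMap.star_eq_adjoint (entL T i j), ContinuousLinearMap.eq_adjoint_iff]
  intro v w
  rw [entL_apply, entL_apply, ← lp.inner_single_right, ContinuousLinearMap.star_eq_adjoint,
    ContinuousLinearMap.adjoint_inner_left, lp.inner_single_left]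

omit [CompleteSpace K] in
/-- A closed subspace containing all the elementary vectors is everything. -/
lemma L2.mem_of_single {N : Submodule ℂ (L2 I K)} (hN : IsClosed (N : Set (L2 I K)))
    (h : ∀ i v, lp.single 2 i v ∈ N) (ξ : L2 I K) : ξ ∈ N :=
  hN.mem_of_tendsto (lp.hasSum_single ENNReal.ofNat_ne_top ξ)
    (.of_forall fun _ => sum_mem fun i _ => h i _)

end Vale.Agent.P096
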