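import Vale.Agent.P096.G.Defs
import Vale.Agent.P132.TT
import Vale.Agent.P132.ApiM

/-! Modular data of a concrete pair. -/

namespace Vale.Agent.P096

open scoped InnerProductSpace Topology ComplexConjugate
open Filter
open Vale.Agent.P132 (FC BC ex pp qq rr EE chi Std PM MD bc_pp bc_qq bc_rr bc_ex bc_chi bc_chi_mul
  continuous_EE continuous_chi chi_supp qq_ne pp_add_rr qq_eq rr_eq)

universe u

section abs

variable {A : Type*} [CStarAlgebra A] [PartialOrder A] [StarOrderedRing A] {H : Type*}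
  [NormedAddCommGroup H] [InnerProductSpace ℂ H] [CompleteSpace H] {S : Std A H}

lemma exists_ρ (D : MD S) {r : H →L[ℂ] H} (h : ∀ a, r * S.π a = S.π a * r) : ∃ b, D.ρ b = r := by
  obtain ⟨b, hb⟩ := P132.tt_one D.toPM h 0
  simp only [neg_zero, D.toFC.U_zero, one_apply_eq_self] at hb
  exact ⟨star b, ContinuousLinearMap.ext fun α => by rw [D.ρ_apply, star_star, hb, D.JJ, D.JJ]⟩

omit [PartialOrder A] [StarOrderedRing A] in
lemma lemE (D : MD S) {v b : A} {c : ℝ} (hc : 0 < c) (h1 : S.π v S.ξ = (c : ℂ) • D.ρ b S.ξ)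
    (h2 : D.ρ (star b) S.ξ = (c : ℂ) • S.π (star v) S.ξ) : b = v := by
  have h3 := congrArg D.J h2
  rw [D.J_ρ, star_star, D.J_ξ, map_smulₛₗ, ← D.ρ_ξ, Complex.conj_ofReal] at h3
  have g := fun a => D.gr1 a
  simp only [← D.ρ_ξ] at g
  refine sub_eq_zero.1 (S.sep _ (D.toFC.inj (bc_qq.add ((BC.const c).mul bc_rr)) (fun s => ?_) ?_))
  · rw [qq, rr, ← Complex.ofReal_mul, ← Complex.ofReal_add]
    exact Complex.ofReal_ne_zero.2 (by positivity)
  · rw [D.add bc_qq ((BC.const c).mul bc_rr), D.toFC.smul bc_rr, map_sub]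
    have e1 := congrArg (D.fb qq) h1
    have e2 := congrArg (D.fb qq) h3
    rw [map_smul, g] at e1 e2
    simp only [add_apply, sub_apply, smul_apply, map_sub, e1, e2]
    abel

lemma EE_sq (s : ℝ) : EE s * EE s = Real.exp s := by
  rw [EE, ← Complex.ofReal_mul, ← Real.exp_add, add_halves]

lemma fix_of (D : FC H) {α : H}
    (h : ∀ L, D.fb (chi L) α = D.fb (fun s => chi L s * (EE s * EE s)) α) : D.Fix α := fun t => by
  refine sub_eq_zero.1 (norm_le_zero_iff.1 (le_of_forall_pos_le_add fun ε hε => ?_))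
  obtain ⟨L, hL⟩ := D.chi_near (D.U t α - α) hε
  have b1 := bc_chi_mul L (continuous_EE.mul continuous_EE)
  have h1 := D.mono ((bc_chi L).mul ((bc_ex t).sub (.const 1))) ((bc_chi L).sub b1)
    (C := |t| * Real.exp (L + 1)) (by positivity) (fun s => by
      rcases lt_or_ge (L + 1) |s| with hs | hs
      · simp [chi_supp hs]
      · rw [Pi.mul_apply, ← mul_one_sub, norm_mul, norm_mul, mul_left_comm, EE_sq]
        gcongr
        rw [ex, mul_comm _ Complex.I, ← Complex.ofReal_one, ← Complex.ofReal_sub, Complex.norm_real]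
        refine Real.norm_exp_I_mul_ofReal_sub_one_le.trans ?_
        rw [Real.norm_eq_abs, abs_mul, mul_assoc, Real.norm_eq_abs]
        gcongr
        have e1 := Real.add_one_le_exp s
        have e2 := Real.add_one_le_exp (-s)
        have e3 := Real.exp_le_exp.2 hs
        have e4 : Real.exp s * Real.exp (-s) = 1 := by rw [← Real.exp_add, add_neg_cancel, Real.exp_zero]
        rcases le_total 0 s with h0 | h0
        · rw [abs_of_nonneg h0] at *
          rw [abs_of_nonpos (by linarith)]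
          nlinarith
        · rw [abs_of_nonpos h0] at *
          have e5 := Real.exp_le_one_iff.2 h0
          rw [abs_of_nonneg (by linarith)]
          nlinarith) α
  rw [D.sub (bc_chi L) b1, sub_apply, ← D.mul_apply (bc_chi L) ((bc_ex t).sub (.const 1)),
    D.sub (bc_ex t) (.const 1), D.one, h L] at h1
  erw [sub_self, norm_zero, mul_zero, norm_le_zero_iff] at h1
  have h2 := hL L le_rfl
  rwa [show D.fb (chi L) (D.U t α - α) = 0 from h1, sub_zero, ← zero_add ε] at h2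

omit [PartialOrder A] [StarOrderedRing A] in
lemma inv_of_ρ (D : MD S) {a : A} (h : D.ρ a S.ξ = S.π a S.ξ) : D.Inv a := by
  refine MD.inv_iff_fix.2 (fix_of _ fun L => ?_)
  have b1 := bc_chi_mul L continuous_EE
  have h1 := D.gr1' (bc_chi L) b1 a
  have h2 := D.gr1' b1
    (by simp only [mul_assoc]; exact bc_chi_mul L (continuous_EE.mul continuous_EE)) a
  rw [h] at h1 h2
  simpa only [mul_assoc] using h1.trans h2

omit [PartialOrder A] [StarOrderedRing A] in
lemma gr3 (D : MD S) {F : ℝ → ℂ} (hF : BC F) (hE : BC fun s => F s * EE s) (α : H) {ε : ℝ}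
    (hε : 0 < ε) : ∃ a, ‖S.π a S.ξ - D.fb F α‖ ≤ ε ∧
      ‖D.ρ a S.ξ - D.fb (fun s => F s * EE s) α‖ ≤ ε := by
  obtain ⟨L₁, h1⟩ := D.toFC.chi_near (D.fb F α) (half_pos hε)
  obtain ⟨L₂, h2⟩ := D.toFC.chi_near (D.fb (fun s => F s * EE s) α) (half_pos hε)
  obtain ⟨a, h3, h4⟩ := D.gr2' (F := fun s => chi (max L₁ L₂) s * F s)
    ((continuous_chi _).mul hF.1) (fun s hs => by rw [chi_supp hs, zero_mul]) α (half_pos hε)
  replace h1 := h1 _ (le_max_left L₁ L₂)
  replace h2 := h2 _ (le_max_right L₁ L₂)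
  rw [D.toFC.mul_apply (bc_chi _) hF, norm_sub_rev] at h1
  rw [D.toFC.mul_apply (bc_chi _) hE, norm_sub_rev] at h2
  simp only [mul_assoc] at h4
  exact ⟨a, (norm_sub_le_norm_sub_add_norm_sub _ _ _).trans ((add_le_add h3 h1).trans_eq (by ring)),
    (norm_sub_le_norm_sub_add_norm_sub _ _ _).trans ((add_le_add h4 h2).trans_eq (by ring))⟩

lemma exists_T (D : MD S) {c : ℂ} (hc : 0 < c.re) (b : A) : ∃ x, D.fb qq (S.π b S.ξ) =
    c • D.fb rr (S.π x S.ξ) + conj c • D.fb pp (S.π x S.ξ) := by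
  have key : ∀ b, IsSelfAdjoint b → ∃ x, D.fb qq (S.π b S.ξ) =
      c • D.fb rr (S.π x S.ξ) + conj c • D.fb pp (S.π x S.ξ) := fun b hb => by
    obtain ⟨x, hx⟩ := P132.opid D.toPM (x' := D.ρ b) (fun a => (D.π_mul_ρ a b).symm)
      (by rw [IsSelfAdjoint, ← D.ρ_star, hb.star_eq]) hc
    have h := hx ((2 : ℂ) • S.ξ)
    have e : ∀ {F}, BC F → F 0 = 2⁻¹ → D.fb F ((2 : ℂ) • S.ξ) = S.ξ := fun hF h0 => by
      rw [map_smul, D.fb_ξ hF, h0, smul_smul, mul_inv_cancel₀ two_ne_zero, one_smul]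
    rw [e bc_qq (by norm_num [qq]), e bc_pp (by norm_num [pp]), e bc_rr (by norm_num [rr]), D.J_ρ,
      D.JJ, hb.star_eq] at h
    exact ⟨x, h⟩
  obtain ⟨x, hx⟩ := key _ (realPart b).2
  obtain ⟨y, hy⟩ := key _ (imaginaryPart b).2
  refine ⟨x + Complex.I • y, ?_⟩
  rw [← realPart_add_I_smul_imaginaryPart b]
  simp only [map_add, map_smul, add_apply, smul_apply, hx, hy]
  module

/-- Vectors that are bounded on both sides are dense. -/
theorem pairs (D : MD S) {γ : H}
    (h : ∀ a a', S.π a' S.ξ = D.ρ a S.ξ → ⟪D.ρ (star a) S.ξ, γ⟫_ℂ = 0) : γ = 0 := by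
  let d : ℝ → ℂ := fun s => (1 + Complex.I) * rr s + conj (1 + Complex.I) * pp s
  have b1 := (BC.const (1 + Complex.I)).mul bc_rr
  have b2 := (BC.const (conj (1 + Complex.I))).mul bc_pp
  have hd : ∀ s, 1 ≤ ‖d s‖ := fun s => le_of_eq_of_le (by
    have := congrArg Complex.re (pp_add_rr s)
    simp only [d, pp, rr] at this ⊢
    simp only [Complex.add_re, Complex.mul_re, Complex.ofReal_re, Complex.ofReal_im, Complex.one_re,
      Complex.conj_re, Complex.I_re] at this ⊢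
    linarith) (Complex.re_le_norm _)
  have hd0 : ∀ s, d s ≠ 0 := fun s h => by simpa [h] using (hd s).trans_lt' zero_lt_one
  have b3 : BC fun s => (d s)⁻¹ := ⟨(b1.add b2).1.inv₀ hd0, 1, fun s => by
    rw [norm_inv]; exact inv_le_one_of_one_le₀ (hd s)⟩
  have b4 := bc_qq.mul (b3.mul bc_qq)
  have e1 : ∀ α, D.fb pp α = α - D.fb rr α := fun α => by rw [P132.RN.rr_apply, sub_sub_cancel]
  have key : ∀ b, ⟪S.π b S.ξ, D.fb (fun s => conj (qq s * ((d s)⁻¹ * qq s))) (D.J γ)⟫_ℂ = 0 := by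
    intro b
    obtain ⟨x, hx⟩ := exists_T D (c := 1 + Complex.I) (by simp) b
    obtain ⟨y, hy⟩ := exists_T D (c := 1) (by simp) b
    obtain ⟨a, ha⟩ := exists_T D (c := 1) (by simp) x
    simp only [map_one, one_smul, e1, add_sub_cancel] at hy ha
    have h1 := h a ((2 * Complex.I)⁻¹ • y + (-(2 * Complex.I)⁻¹ * (1 - Complex.I)) • x) (by
      have : D.ρ a S.ξ = D.fb rr (S.π x S.ξ) := sub_eq_zero.1 (D.toFC.inj bc_qq qq_ne (by
        rw [map_sub, D.ρ_ξ, D.gr1, ← ha, sub_eq_zero]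
        exact congr($(D.toFC.comm bc_rr bc_qq) _)))
      simp only [this, map_add, map_smul, add_apply, smul_apply, ← hy, hx, e1, map_one,
        Complex.conj_I]
      match_scalars <;> field_simp <;> ring)
    have h2 : S.π x S.ξ = D.fb (fun s => (d s)⁻¹) (D.fb qq (S.π b S.ξ)) := by
      rw [hx, ← smul_apply, ← smul_apply, ← add_apply, ← D.toFC.smul bc_rr, ← D.toFC.smul bc_pp,
        ← D.add b1 b2, D.toFC.mul_apply b3 (b1.add b2)]
      simp only [show ∀ s, (d s)⁻¹ * ((1 + Complex.I) * rr s + conj (1 + Complex.I) * pp s) = 1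
        from fun s => inv_mul_cancel₀ (hd0 s), D.toFC.one, one_apply_eq_self]
    rw [D.ρ_ξ, star_star, D.inner_J_left, ← ha, h2, D.toFC.mul_apply b3 bc_qq,
      D.toFC.mul_apply bc_qq (b3.mul bc_qq), D.toFC.inner_right b4, inner_eq_zero_symm] at h1
    exact h1
  have h3 := D.toFC.inj b4.cj (fun s => by simp [qq_ne, hd0]) (inner_self_eq_zero.1
    (S.cyc.induction_on (p := fun β => ⟪β, _⟫_ℂ = 0) _
      (isClosed_eq (by fun_prop) continuous_const) key))
  rw [← D.JJ γ, h3, map_zero]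

end abs

variable {K : Type*} [NormedAddCommGroup K] [InnerProductSpace ℂ K] [CompleteSpace K]
  {X Y : SA K} {Ω : K}

theorem exists_std [IsClosed (X : Set (K →L[ℂ] K))] (h : SP X Y Ω) :
    ∃ S : Std X K, (∀ a, S.π a = a) ∧ S.ξ = Ω :=
  ⟨{ π := X.subtype
     inj := Subtype.val_injective
     bic := fun T hT => ⟨⟨T, h.cX T fun y hy => (hT y fun a => (h.cm a a.2 y hy).symm).symm⟩, rfl⟩
     ξ := Ω
     norm_ξ := h.nΩ
     cyc := Metric.denseRange_iff.2 fun v ε hε => by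
       obtain ⟨x, hx, h1⟩ := h.dX v _ (half_pos hε)
       exact ⟨⟨x, hx⟩, by rw [dist_comm, dist_eq_norm]; exact h1.trans_lt (half_lt_self hε)⟩
     sep := fun a ha => Subtype.ext (h.sep a.2 ha) }, fun _ => rfl, rfl⟩

theorem exists_Mod (h : SP X Y Ω) : Nonempty (Mod X Y Ω) := by
  have := h.toCP.closed
  let := CStarAlgebra.spectralOrder X
  have := CStarAlgebra.spectralOrderedRing X
  obtain ⟨S, hπ, rfl⟩ := exists_std h
  obtain ⟨D⟩ := P132.exists_MD S
  have hX : ∀ t, ∀ x ∈ X, D.U t * x * D.U (-t) ∈ X := fun t x hx => by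
    have := D.π_σ' t ⟨x, hx⟩
    rw [hπ, hπ] at this
    exact this ▸ (D.σ t ⟨x, hx⟩).2
  have hρ : ∀ a, D.ρ a ∈ Y := fun a => h.cY _ fun x hx => by
    simpa only [hπ] using (D.π_mul_ρ ⟨x, hx⟩ a).symm
  refine ⟨⟨D.toFC, D.U_ξ, hX, fun t y hy => h.cY _ fun x hx => ?_, fun x hx y hy h1 h2 t => ?_,
    fun s α => ?_, fun x hx => ⟨D.ρ ⟨x, hx⟩ S.ξ, by rw [D.norm_ρ_ξ, hπ]; rfl, by
      rw [D.ρ_ξ, D.gr1, hπ]⟩⟩⟩
  · have := congrArg (fun z => D.U t * z * D.U (-t)) (h.cm _ (hX (-t) x hx) y hy)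
    simp only [neg_neg, ← mul_assoc, D.U_mul_neg, one_mul] at this
    simp only [mul_assoc, D.U_mul_neg, mul_one] at this ⊢
    exact this.symm
  · obtain ⟨b, rfl⟩ := exists_ρ D (r := y) fun a => by rw [hπ, h.cm a a.2 y hy]
    obtain rfl := lemE D (v := ⟨x, hx⟩) (b := b) one_pos (by simpa [hπ] using h1)
      (by simpa [hπ, D.ρ_star] using h2.symm)
    have := inv_of_ρ D (a := ⟨x, hx⟩) (by rw [hπ, h1])
    exact ⟨by simpa only [hπ] using this t, this.U_ρ t⟩
  · have sh : ∀ {F}, BC F → BC fun x => F (x + s) := fun hF =>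
      ⟨hF.1.comp (by fun_prop), hF.2.imp fun _ h x => h _⟩
    have e1 : ∀ x, pp (x + s) * EE x = EE (-s) * qq (x + s) := fun x => by
      rw [qq_eq, mul_left_comm, EE, EE, EE, ← Complex.ofReal_mul, ← Real.exp_add]
      congr 3
      ring
    have e2 : ∀ x, Real.exp s * (pp (x + s) * EE x) * EE x = 1 - pp (x + s) := fun x => by
      rw [← pp_add_rr (x + s), add_sub_cancel_left, rr_eq, qq_eq, mul_assoc, mul_assoc, mul_assoc,
        EE_sq, EE_sq, Real.exp_add]
      push_cast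
      ring
    have b1 := sh bc_pp
    have b2 : BC fun x => pp (x + s) * EE x := by
      simpa only [e1] using (BC.const _).mul (sh bc_qq)
    have b3 := (BC.const (Real.exp s : ℂ)).mul b2
    have b4 := (BC.const 1).sub b1
    have b5 := (BC.const (EE s)).mul b2
    have n1 : Real.exp s * ‖D.J (D.fb (fun x => pp (x + s) * EE x) α)‖ ^ 2 =
        ‖D.fb (fun x => EE s * (pp (x + s) * EE x)) α‖ ^ 2 := by
      rw [D.toFC.smul b2, smul_apply, norm_smul, mul_pow, D.norm_J, EE, Complex.norm_real,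
        Real.norm_eq_abs, sq_abs, sq (Real.exp _), ← Real.exp_add, add_halves]
    have n2 : α - D.fb (fun x => pp (x + s)) α = D.fb (fun x => 1 - pp (x + s)) α := by
      rw [D.toFC.sub (.const 1) b1, D.toFC.one]; rfl
    have n3 : ∀ x, ∃ p : ℝ, 0 ≤ p ∧ p ≤ 1 ∧ pp (x + s) = p ∧
        ‖EE s * (pp (x + s) * EE x)‖ ^ 2 = p * (1 - p) := fun x => by
      refine ⟨_, by positivity, inv_le_one_of_one_le₀ (by linarith [Real.exp_pos (x + s)]), rfl, ?_⟩
      rw [pp, EE, EE, ← Complex.ofReal_mul, ← Complex.ofReal_mul, Complex.norm_real,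
        Real.norm_eq_abs, sq_abs, mul_pow, mul_pow, sq (Real.exp _), sq (Real.exp _),
        ← Real.exp_add, ← Real.exp_add, add_halves, add_halves, Real.exp_add]
      field_simp
      ring
    have n4 : ∀ {F}, BC F → (∀ x, ‖F x‖ ^ 2 + ‖EE s * (pp (x + s) * EE x)‖ ^ 2 ≤ 1) →
        ‖D.fb F α‖ ^ 2 + ‖D.fb (fun x => EE s * (pp (x + s) * EE x)) α‖ ^ 2 ≤ ‖α‖ ^ 2 := by
      intro F hF h'
      simpa [D.toFC.one] using D.toFC.sum_sq_le' Finset.univ
        (F := ![F, fun x => EE s * (pp (x + s) * EE x)]) (fun i _ => by fin_cases i <;> assumption)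
        (.const 1) (C := 1) (fun x => by rw [Fin.sum_univ_two, norm_one, one_pow, mul_one]; exact h' x) α
    refine ⟨D.J (D.fb (fun x => pp (x + s) * EE x) α), ?_, ?_, fun ε hε => ?_⟩
    · rw [n1]
      refine n4 b1 fun x => ?_
      obtain ⟨p, h0, h1, h2, h3⟩ := n3 x
      rw [h3, h2, Complex.norm_real, Real.norm_eq_abs, sq_abs]
      nlinarith
    · rw [n1, n2]
      refine n4 b4 fun x => ?_
      obtain ⟨p, h0, h1, h2, h3⟩ := n3 x
      rw [h3, h2, ← Complex.ofReal_one, ← Complex.ofReal_sub, Complex.norm_real, Real.norm_eq_abs,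
        sq_abs]
      nlinarith
    · obtain ⟨x, h1, h2⟩ := gr3 D b1 b2 α hε
      obtain ⟨y, h3, h4⟩ := gr3 D b3 (by simpa only [e2] using b4) α hε
      simp only [e2, ← n2] at h4
      refine ⟨x, x.2, D.ρ (star y), hρ _, hπ x ▸ h1, ?_, by rwa [D.ρ_star, star_star], ?_⟩
      · rwa [← D.norm_J, map_sub, D.J_ρ, D.J_ξ, hπ] at h2
      · rwa [← D.norm_J, map_sub, D.J_π, D.J_ξ, D.toFC.smul b2, smul_apply, map_smulₛₗ,
          Complex.conj_ofReal] at h3

end Vale.Agent.P096
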