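import Vale.Agent.P096.G.Am

/-! Moving an amenable group into a close algebra. -/

namespace Vale.Agent.P096

open scoped InnerProductSpace Topology ComplexConjugate
open Filter
open Vale.Agent.P132 (FC BC ex pp qq rr EE chi Std PM MD)

universe u

namespace Move

lemma unit_near {E : Type*} [CStarAlgebra E] {v u : E} (hu : u ∈ unitary E) (h1 : ‖v - u‖ < 1)
    {κ : ℝ} (h2 : ‖star v * v - 1‖ ≤ κ) (hκ : 16 * κ ≤ 9) : ∃ r, v * r ∈ unitary E ∧
      ‖r - 1‖ ≤ 16 / 7 * κ ∧ ∀ y, y * (star v * v) = star v * v * y → y * r = r * y := by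
  obtain ⟨r, hr, h3, h4, h5⟩ := isqrt_near (IsSelfAdjoint.star_mul_self v) h2 hκ
  have h6 : star (v * r) * (v * r) = 1 := by
    rw [star_mul, hr.star_eq, ← h3]
    simp only [mul_assoc]
  have h7 : IsUnit v := by
    have := isUnit_one_sub_of_norm_lt_one (x := star u * (u - v)) ((norm_mul_le _ _).trans_lt
      ((mul_le_of_le_one_left (norm_nonneg _) (norm_unit_le (Unitary.star_mem hu))).trans_lt
      (norm_sub_rev v u ▸ h1)))
    rw [mul_sub, hu.1, sub_sub_cancel] at this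
    have h8 := (Unitary.isUnit_coe (U := ⟨u, hu⟩)).mul this
    rwa [← mul_assoc, hu.2, one_mul] at h8
  have h8 : IsUnit r := ⟨⟨r, star v * v * r, by rw [← mul_assoc, h3], by
    rw [h5 _ rfl, h3]⟩, rfl⟩
  refine ⟨r, ⟨h6, (h7.mul h8).mul_right_cancel ?_⟩, h4, h5⟩
  rw [mul_assoc, h6, mul_one, one_mul]

lemma mul_sub_le {E : Type*} [NormedRing E] {a a' b b' : E} {r : ℝ} (h1 : ‖a - a'‖ ≤ r)
    (h2 : ‖b - b'‖ ≤ r) (h3 : ‖a'‖ ≤ 1) (h4 : ‖b‖ ≤ 1) : ‖a * b - a' * b'‖ ≤ 2 * r := by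
  have e : a * b - a' * b' = (a - a') * b + a' * (b - b') := by noncomm_ring
  rw [e, two_mul]
  exact (norm_add_le _ _).trans (add_le_add ((norm_mul_le _ _).trans
    ((mul_le_of_le_one_right (norm_nonneg _) h4).trans h1)) ((norm_mul_le _ _).trans
    ((mul_le_of_le_one_left (norm_nonneg _) h3).trans h2)))

variable {K : Type*} [NormedAddCommGroup K] [InnerProductSpace ℂ K] [CompleteSpace K]
  {G : Type*} [Group G] {D B : SA K}

/-- Approximate representations by unitaries of `D`. -/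
def Ap (D : SA K) (e : ℝ) (θ : G → K →L[ℂ] K) : Prop :=
  (∀ g, θ g ∈ unitary (K →L[ℂ] K) ∧ θ g ∈ D) ∧ ∀ g k, ‖θ (g * k) - θ g * θ k‖ ≤ e

lemma step (M : Mean G K) (h : CP D B) {e : ℝ} (he : 34 * e ≤ 1) {θ : G → K →L[ℂ] K}
    (hθ : Ap D e θ) : ∃ θ', Ap D (e / 2) θ' ∧ ∀ g, ‖θ' g - θ g‖ ≤ 2 * e := by
  obtain ⟨hu, hd⟩ := hθ
  have e0 : 0 ≤ e := (norm_nonneg _).trans (hd 1 1)
  have n1 : ∀ a b, ‖θ a * star (θ b)‖ ≤ 1 := fun a b =>
    norm_unit_le (mul_mem (hu a).1 (Unitary.star_mem (hu b).1))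
  have n2 : ∀ g x, ‖θ (g * x) * star (θ x) - θ g‖ ≤ e := fun g x => by
    have : θ (g * x) * star (θ x) - θ g = 1 * (θ (g * x) - θ g * θ x) * star (θ x) := by
      rw [one_mul, sub_mul, mul_assoc, (hu x).1.2, mul_one]
    rw [this]
    exact (am_conj_le (one_mem _) (hu x).1 _).trans (hd g x)
  obtain ⟨φ, hφ⟩ : ∃ φ : G → K →L[ℂ] K, ∀ g, φ g = M.m fun x => θ (g * x) * star (θ x) :=
    ⟨_, fun _ => rfl⟩
  have a1 : ∀ g, ‖φ g - θ g‖ ≤ e := fun g => hφ g ▸ M.norm_sub_le (n2 g)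
  have a2 : ∀ g, ‖φ g‖ ≤ 1 := fun g => by
    have := M.norm_sub_le (c := 0) (ε := 1) (T := fun x => θ (g * x) * star (θ x)) fun x => by
      rw [sub_zero]; exact n1 _ _
    rwa [sub_zero, ← hφ] at this
  have a3 : ∀ g, φ g ∈ D := fun g => h.cX _ fun y hy => hφ g ▸ M.comm (fun x => n1 _ _)
    fun x => h.cm _ (mul_mem (hu _).2 (star_mem (hu _).2)) y hy
  have a4 : ∀ g k, ‖φ (g * k) - φ g * φ k‖ ≤ 2 * e ^ 2 := fun g k => by
    have b1 : ∀ x, ‖θ (g * (k * x)) * star (θ (k * x)) * θ k‖ ≤ 1 := fun x =>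
      norm_unit_le (mul_mem (mul_mem (hu _).1 (Unitary.star_mem (hu _).1)) (hu _).1)
    have b2 : ∀ x, ‖θ g * (θ (k * x) * star (θ x))‖ ≤ 1 := fun x =>
      norm_unit_le (mul_mem (hu _).1 (mul_mem (hu _).1 (Unitary.star_mem (hu _).1)))
    have c1 : (M.m fun x => θ (g * (k * x)) * star (θ (k * x)) * θ k) = φ g * θ k := by
      have := M.mul (fun x => n1 (g * (k * x)) (k * x)) 1 (θ k)
      simp only [one_mul] at this
      rw [this, hφ, ← M.inv (fun x => n1 (g * x) x) k]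
    have c2 : (M.m fun x => θ g * (θ (k * x) * star (θ x))) = θ g * φ k := by
      simpa only [mul_one, ← hφ] using M.mul (fun x => n1 (k * x) x) (θ g) 1
    have c3 := M.norm_sub_le (c := -(θ g * θ k)) (ε := e * e)
      (T := fun x => θ (g * k * x) * star (θ x) - θ (g * (k * x)) * star (θ (k * x)) * θ k -
        θ g * (θ (k * x) * star (θ x))) fun x => by
      refine le_of_eq_of_le (congrArg norm ?_) ((norm_mul_le _ _).trans
        (mul_le_mul (n2 g (k * x)) (n2 k x) (norm_nonneg _) e0))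
      have : θ (g * (k * x)) * star (θ (k * x)) * (θ (k * x) * star (θ x)) =
          θ (g * k * x) * star (θ x) := by
        rw [mul_assoc, ← mul_assoc (star _), (hu _).1.1, one_mul, mul_assoc]
      rw [sub_mul, mul_sub, mul_sub, this]
      abel
    rw [M.sub (fun x => (norm_sub_le _ _).trans (add_le_add (n1 _ _) (b1 x))) b2,
      M.sub (fun x => n1 _ _) b1, c1, c2, ← hφ] at c3
    have c4 := (norm_mul_le _ _).trans (mul_le_mul (a1 g) (a1 k) (norm_nonneg _) e0)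
    have c5 : φ (g * k) - φ g * φ k = (φ (g * k) - φ g * θ k - θ g * φ k - -(θ g * θ k)) -
        (φ g - θ g) * (φ k - θ k) := by noncomm_ring
    rw [c5]
    refine (norm_sub_le _ _).trans ?_
    linarith
  have a5 : ∀ g, ‖star (φ g) * φ g - 1‖ ≤ 2 * e ^ 2 := fun g => by
    have c1 : star (φ g) = φ g⁻¹ := by
      rw [hφ, hφ, ← M.str (fun x => n1 _ _), ← M.inv (fun x => n1 (g⁻¹ * x) x) g]
      simp only [star_mul, star_star, inv_mul_cancel_left]
    have c2 : φ 1 = 1 := by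
      rw [hφ, ← M.const 1]
      simp only [one_mul, (hu _).1.2]
    have := a4 g⁻¹ g
    rwa [inv_mul_cancel, c2, ← c1, norm_sub_rev] at this
  choose r r1 r2 r3 using fun g => unit_near (hu g).1 ((a1 g).trans_lt (by linarith)) (a5 g)
    (by nlinarith)
  have a6 : ∀ g, ‖φ g * r g - φ g‖ ≤ 5 * e ^ 2 := fun g => by
    rw [← mul_sub_one]
    refine (norm_mul_le _ _).trans ((mul_le_of_le_one_left (norm_nonneg _) (a2 g)).trans
      ((r2 g).trans ?_))
    nlinarith [sq_nonneg e]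
  refine ⟨fun g => φ g * r g, ⟨fun g => ⟨r1 g, mul_mem (a3 g) (h.cX _ fun y hy => (r3 g y
    (h.cm _ (mul_mem (star_mem (a3 g)) (a3 g)) y hy).symm).symm)⟩, fun g k => ?_⟩, fun g => ?_⟩
  · have c1 := mul_sub_le (a6 g) (a6 k) (a2 g) (norm_unit_le (r1 k))
    have c2 := norm_sub_le_norm_sub_add_norm_sub (φ (g * k) * r (g * k)) (φ (g * k))
      (φ g * r g * (φ k * r k))
    have c3 := norm_sub_le_norm_sub_add_norm_sub (φ (g * k)) (φ g * φ k) (φ g * r g * (φ k * r k))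
    rw [norm_sub_rev] at c1
    nlinarith [a6 (g * k), a4 g k]
  · nlinarith [norm_sub_le_norm_sub_add_norm_sub (φ g * r g) (φ g) (θ g), a6 g, a1 g]

lemma lim (M : Mean G K) (h : CP D B) {e : ℝ} (he : 34 * e ≤ 1) {θ : G → K →L[ℂ] K}
    (hθ : Ap D e θ) : ∃ ρ : G →* (K →L[ℂ] K), (∀ g, ρ g ∈ unitary (K →L[ℂ] K) ∧ ρ g ∈ D) ∧
      ∀ g, ‖θ g - ρ g‖ ≤ 4 * e := by
  have e0 : 0 ≤ e := (norm_nonneg _).trans (hθ.2 1 1)
  have st : ∀ (n : ℕ) (x : {θ : G → K →L[ℂ] K // Ap D (e / 2 ^ n) θ}),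
      ∃ y : {θ : G → K →L[ℂ] K // Ap D (e / 2 ^ (n + 1)) θ},
        ∀ g, ‖y.1 g - x.1 g‖ ≤ 2 * (e / 2 ^ n) := fun n x => by
    obtain ⟨θ', h1, h2⟩ := step M h (le_trans (mul_le_mul_of_nonneg_left
      (div_le_self e0 (one_le_pow₀ one_le_two)) (by norm_num)) he) x.2
    exact ⟨⟨θ', by rwa [pow_succ, ← div_div]⟩, h2⟩
  choose nx hnx using st
  let s : ∀ n : ℕ, {θ : G → K →L[ℂ] K // Ap D (e / 2 ^ n) θ} := fun n =>
    Nat.rec ⟨θ, by simpa using hθ⟩ nx n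
  have hd : ∀ g n, dist ((s n).1 g) ((s (n + 1)).1 g) ≤ 4 * e / 2 / 2 ^ n := fun g n => by
    rw [dist_comm, dist_eq_norm]
    exact (hnx n (s n) g).trans_eq (by ring)
  choose ρ hρ using fun g => cauchySeq_tendsto_of_complete (cauchySeq_of_le_geometric_two (hd g))
  have hu : ∀ g, ρ g ∈ unitary (K →L[ℂ] K) := fun g =>
    ⟨tendsto_nhds_unique ((hρ g).star.mul (hρ g))
      (tendsto_const_nhds.congr fun n => ((s n).2.1 g).1.1.symm),
    tendsto_nhds_unique ((hρ g).mul (hρ g).star)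
      (tendsto_const_nhds.congr fun n => ((s n).2.1 g).1.2.symm)⟩
  have hm : ∀ g k, ρ (g * k) = ρ g * ρ k := fun g k => by
    have t1 : Tendsto (fun n : ℕ => e / 2 ^ n) atTop (𝓝 0) :=
      tendsto_const_nhds.div_atTop (tendsto_pow_atTop_atTop_of_one_lt one_lt_two)
    exact sub_eq_zero.1 (norm_le_zero_iff.1 (le_of_tendsto_of_tendsto'
      ((hρ (g * k)).sub ((hρ g).mul (hρ k))).norm t1 fun n => (s n).2.2 g k))
  refine ⟨⟨⟨ρ, ?_⟩, hm⟩, fun g => ⟨hu g, h.closed.mem_of_tendsto (hρ g)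
    (Eventually.of_forall fun n => ((s n).2.1 g).2)⟩, fun g => ?_⟩
  · have := congrArg (star (ρ 1) * ·) (hm 1 1)
    simp only [one_mul, ← mul_assoc, (hu 1).1] at this
    exact this.symm
  · rw [← dist_eq_norm]
    exact dist_le_of_le_geometric_two_of_tendsto₀ (hd g) (hρ g)

end Move

theorem move : ∃ C : ℝ, 1 ≤ C ∧ ∀ {K : Type u} [NormedAddCommGroup K] [InnerProductSpace ℂ K]
    [CompleteSpace K] {G : Type u} [Group G] (p : G →* (K →L[ℂ] K)) (D B : SA K) (δ : ℝ), Am G →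
    (∀ g, p g ∈ unitary (K →L[ℂ] K)) → CP D B → 0 < δ → C * δ ≤ 1 →
    (∀ g, ∃ y ∈ D, ‖p g - y‖ ≤ δ) → ∃ w ∈ unitary (K →L[ℂ] K), ‖w - 1‖ ≤ C * δ ∧
      (∀ g, star w * p g * w ∈ D) ∧
      ∀ T, (∀ g, T * p g = p g * T) → (∀ y ∈ D, T * y = y * T) → T * w = w * T := by
  refine ⟨1300, by norm_num, fun {K} _ _ _ {G} _ p D B δ hG hp h hδ hC hn => ?_⟩
  obtain ⟨M⟩ := exists_mean hG K
  have h0 : ∀ g, ∃ u, (u ∈ unitary (K →L[ℂ] K) ∧ u ∈ D) ∧ ‖u - p g‖ ≤ 10 * δ := fun g => by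
    obtain ⟨y, hy, e⟩ := hn g
    have e1 : ‖star (p g) * y - 1‖ ≤ δ := by
      rw [← (hp g).1, ← mul_sub]
      exact (norm_mul_le _ _).trans ((mul_le_of_le_one_left (norm_nonneg _)
        (norm_unit_le (Unitary.star_mem (hp g)))).trans (norm_sub_rev y _ ▸ e))
    obtain ⟨r, r1, r2, r3⟩ := polar_near e1 (by linarith)
    have e2 : star (star (p g) * y) * (star (p g) * y) = star y * y := by
      rw [star_mul, star_star, mul_assoc, ← mul_assoc (p g), (hp g).2, one_mul]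
    have e3 : p g * (star (p g) * y * r) = y * r := by
      rw [← mul_assoc, ← mul_assoc, (hp g).2, one_mul]
    rw [e2] at r3
    refine ⟨y * r, ⟨e3 ▸ mul_mem (hp g) r1, mul_mem hy (h.cX _ fun c hc => (r3 c
      (h.cm _ (mul_mem (star_mem hy) hy) c hc).symm).symm)⟩, ?_⟩
    rw [← e3, ← mul_sub_one]
    exact (norm_mul_le _ _).trans ((mul_le_of_le_one_left (norm_nonneg _)
      (norm_unit_le (hp g))).trans r2)
  choose θ h1 h2 using h0
  obtain ⟨ρ, r1, r2⟩ := Move.lim M h (e := 30 * δ) (θ := θ) (by linarith) ⟨h1, fun g k => by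
    have c1 := Move.mul_sub_le (h2 g) (h2 k) (norm_unit_le (hp g)) (norm_unit_le (h1 k).1)
    have c2 := norm_sub_le_norm_sub_add_norm_sub (θ (g * k)) (p (g * k)) (θ g * θ k)
    rw [norm_sub_rev, ← map_mul] at c1
    linarith [h2 (g * k)]⟩
  obtain ⟨w, w1, w2, w3, w4⟩ := intertw hG hp (fun g => (r1 g).1) (η := 130 * δ) (fun g => by
    have c1 := norm_sub_le_norm_sub_add_norm_sub (p g) (θ g) (ρ g)
    rw [norm_sub_rev (p g) (θ g)] at c1
    linarith [h2 g, r2 g]) (by linarith)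
  refine ⟨w, w1, by linarith, fun g => ?_, fun T t1 t2 => w4 T t1 fun g => t2 _ (r1 g).2⟩
  rw [mul_assoc, w3, ← mul_assoc, w1.1, one_mul]
  exact (r1 g).2

end Vale.Agent.P096
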