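import Vale.Agent.P096.G.Win
import Vale.Agent.P096.G.DensB

/-! Products of window vectors. -/

namespace Vale.Agent.P096

open scoped InnerProductSpace Topology ComplexConjugate
open Filter
open Vale.Agent.P132 (FC BC ex pp qq rr EE chi Std PM MD)

universe u

section

variable {K : Type*} [NormedAddCommGroup K] [InnerProductSpace ℂ K] [CompleteSpace K]
  {G : Type u} [Group G] {δ : ℝ} {A R D B Z : SA K} {Ω : K} {p q : G →* (K →L[ℂ] K)}
  {l : Filter (Avg G)}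

namespace PW

lemma p_Ω (h : Al δ A R D B Z Ω p q) (g : G) : p g Ω = q g⁻¹ Ω := by
  conv_rhs => rw [← h.fix g, ← h.pq, ← ContinuousLinearMap.mul_apply (q g⁻¹), ← map_mul,
    inv_mul_cancel, map_one, ContinuousLinearMap.one_apply]

lemma re_le {e : K →L[ℂ] K} (he : e ≤ 1) (v : K) : (⟪v, e v⟫_ℂ).re ≤ ‖v‖ ^ 2 := by
  have := ((ContinuousLinearMap.le_def _ _).1 he).re_inner_nonneg_right v
  rw [ContinuousLinearMap.sub_apply, ContinuousLinearMap.one_apply, inner_sub_right, map_sub,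
    inner_self_eq_norm_sq, sub_nonneg] at this
  exact this

lemma nsq {s : K →L[ℂ] K} (v : K) : ‖s v‖ ^ 2 = (⟪v, (star s * s) v⟫_ℂ).re := by
  rw [ContinuousLinearMap.mul_apply, ContinuousLinearMap.star_eq_adjoint,
    ContinuousLinearMap.adjoint_inner_right, ← inner_self_eq_norm_sq (𝕜 := ℂ)]
  rfl

/-- Uniform bound on a compact family of vectors. -/
lemma unif {x : K →L[ℂ] K} {u : G → K →L[ℂ] K} (hu : ∀ g, u g ∈ unitary (K →L[ℂ] K))
    {g : K → ℝ} (hg : Continuous g)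
    (h : ∀ ζ, ∃ c ≤ g ζ, Tendsto (fun a : Avg G => nm fun i => x (u (a.h i) ζ)) l (𝓝 c))
    {ζ : ℝ → K} (hζ : Continuous ζ) (T : ℝ) {γ : ℝ} (hγ : 0 < γ) :
    ∀ᶠ a : Avg G in l, ∀ t ∈ Set.Icc 0 T, (nm fun i => x (u (a.h i) (ζ t))) ≤ g (ζ t) + γ := by
  refine (unif_cpt (f := fun (a : Avg G) v => nm fun i => x (u (a.h i) v)) (C := ‖x‖)
    (fun a v w => nm_le_add fun i => ?_) hg (isCompact_Icc.image hζ) (fun v _ ε hε => ?_) hγ).mono
    fun a ha t ht => ha _ ⟨t, ht, rfl⟩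
  · rw [← map_sub, ← map_sub, dist_eq_norm, ← norm_unit_apply (hu (a.h i)) (v - w)]
    exact x.le_opNorm _
  · obtain ⟨c, hc, h1⟩ := h v
    exact (h1.eventually (ge_mem_nhds (lt_add_of_pos_right c hε))).mono fun a ha => by linarith

end PW

lemma Al.U_p (h : Al δ A R D B Z Ω p q) (M : Mod A R Ω) (t : ℝ) (g : G) :
    M.U t * p g = p g * M.U t ∧ M.U t * q g = q g * M.U t := by
  have key : ∀ g, M.U t * p g = p g * M.U t ∧ M.U t * q g⁻¹ = q g⁻¹ * M.U t := fun g =>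
    M.fixE _ (h.pA g) _ (h.qR _) (PW.p_Ω h g)
      (by rw [star_hom h.pu, star_hom h.qu, PW.p_Ω h]) t
  exact ⟨(key g).1, by simpa using (key g⁻¹).2⟩

lemma Al.U_z (h : Al δ A R D B Z Ω p q) (M : Mod A R Ω) (t : ℝ) {z : K →L[ℂ] K} (hz : z ∈ Z) :
    M.U t * z = z * M.U t :=
  (M.fixE z ((h.zi z).1 hz).1 z ((h.zi z).1 hz).2.1 rfl rfl t).1

theorem Al.pw (h : Al δ A R D B Z Ω p q) (hl : Good Z Ω p q l) (M : Mod A R Ω) {s r T ε : ℝ}
    (hr : 0 ≤ r) (hε : 0 < ε) {η : K} (hη : Win M.toFC s r η) : ∃ ε' > 0, ∀ x ∈ A, ∀ ξ e,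
      Win M.toFC s r ξ → ‖x Ω - ξ‖ ≤ ε' → Dn Z Ω (star x * x) e → e ≤ 1 → ∀ᶠ a : Avg G in l,
        ∀ t ∈ Set.Icc 0 T, nm (fun i => M.U t (x (p (a.h i) η)) - ex t (2 * s) • x (p (a.h i) η)) ≤
          2 * t * r * ‖η‖ + ε := by
  set c := |T| * r with hc
  have hc0 : 0 ≤ c := by positivity
  set γ := ε / (8 + 3 * c) with hγ
  have hγ0 : 0 < γ := by positivity
  have hγ1 : γ * (8 + 3 * c) = ε := div_mul_cancel₀ _ (by positivity)
  obtain ⟨b, hb, hbη⟩ := h.sA.dY η γ hγ0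
  obtain ⟨f, hf, -, hf0, -⟩ := h.op.exists_dn (mul_mem (star_mem hb) hb)
    (IsSelfAdjoint.star_mul_self b)
  obtain ⟨m, hm, -, -, ms, -, -, -, mm, -⟩ := h.exists_nrm hf.1 (hf0 (star_mul_self_nonneg b))
    (κ := γ ^ 2) (by positivity)
  have mR : m ∈ R := ((h.zi m).1 hm).2.1
  have nm2 : ∀ v, ‖m v‖ ^ 2 = (⟪v, f v⟫_ℂ).re + γ ^ 2 * ‖v‖ ^ 2 := fun v => by
    rw [PW.nsq, ms.star_eq, mm, ContinuousLinearMap.add_apply, inner_add_right, Complex.add_re,
      ContinuousLinearMap.smul_apply, inner_smul_right, Complex.re_ofReal_mul,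
      ContinuousLinearMap.one_apply, ← inner_self_eq_norm_sq (𝕜 := ℂ) v]
    rfl
  have mΩ : ‖m Ω‖ ≤ ‖η‖ + 2 * γ := by
    have h1 := hf.2 1 (one_mem _)
    rw [ContinuousLinearMap.one_apply] at h1
    have h2 := nm2 Ω
    rw [← h1, ← PW.nsq, h.sA.nΩ] at h2
    have h3 : ‖b Ω‖ ≤ ‖η‖ + γ := (norm_le_norm_add_norm_sub' _ _).trans (by gcongr)
    have h4 : ‖m Ω‖ ≤ ‖b Ω‖ + γ := by
      refine (pow_le_pow_iff_left₀ (norm_nonneg _) (by positivity) two_ne_zero).1 ?_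
      nlinarith [norm_nonneg (b Ω)]
    linarith
  refine ⟨γ / (‖m‖ + 1), by positivity, fun x hx ξ e hξ hxξ he he1 => ?_⟩
  have d1 : ‖m (x Ω) - m ξ‖ ≤ γ := by
    rw [← map_sub]
    rw [le_div_iff₀ (by positivity)] at hxξ
    nlinarith [m.le_opNorm (x Ω - ξ), norm_nonneg (x Ω - ξ)]
  have d2 : ‖m (x Ω)‖ ≤ ‖m Ω‖ := by
    refine (pow_le_pow_iff_left₀ (norm_nonneg _) (norm_nonneg _) two_ne_zero).1 ?_
    have h1 : ∀ y, y * m = m * y → ⟪m Ω, y (m Ω)⟫_ℂ = ⟪(m * m) Ω, y Ω⟫_ℂ := fun y hy => by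
      rw [← ContinuousLinearMap.mul_apply y, hy, ContinuousLinearMap.mul_apply,
        ContinuousLinearMap.mul_apply]
      exact (ms.isSymmetric.apply_clm _ _).symm
    rw [← h.sA.app hx mR, PW.nsq, h1 _ (h.sA.cm _ (mul_mem (star_mem hx) hx) _ mR),
      he.2 _ (mul_mem hm hm), ← h1 _ (h.sA.cm _ ((h.zi e).1 he.1).1 _ mR)]
    exact PW.re_le he1 _
  have lim : ∀ ζ, ∃ c ≤ ‖ζ‖, Tendsto (fun a : Avg G => nm fun i => x (p (a.h i) ζ)) l (𝓝 c) :=
    fun ζ => ⟨_, Real.sqrt_le_iff.2 ⟨norm_nonneg _, PW.re_le he1 ζ⟩, (h.limN hl hx he ζ).1⟩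
  have cex : Continuous fun t => ex t s := by unfold ex; fun_prop
  have e1 := PW.unif h.pu continuous_norm lim (ζ := fun t => M.U (-t) (M.U t η - ex t s • η))
    (by
      simp only [map_sub, map_smul, M.U_neg_U]
      exact continuous_const.sub (cex.smul ((M.continuous_U η).comp continuous_neg))) T hγ0
  have e2 := PW.unif h.pu continuous_norm lim (ζ := fun t => M.U (-t) (η - b Ω))
    ((M.continuous_U _).comp continuous_neg) T hγ0
  have e3 := PW.unif (x := b) (u := fun g => q g⁻¹) (l := l) (fun g => h.qu _)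
    (g := fun v => ‖m v‖) (by fun_prop) (fun ζ => ⟨_, Real.sqrt_le_iff.2 ⟨norm_nonneg _, by
      rw [nm2]; exact le_add_of_nonneg_right (by positivity)⟩,
      (h.op.limN (h.good_op hl) hb hf ζ).2⟩) (ζ := fun t => M.U t (x Ω) - ex t s • x Ω)
    ((M.continuous_U _).sub (cex.smul continuous_const)) T hγ0
  filter_upwards [e1, e2, e3] with a a1 a2 a3 t ht
  have t0 := ht.1
  have tc : t * r ≤ c := mul_le_mul_of_nonneg_right (ht.2.trans (le_abs_self T)) hr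
  have b1 := a1 t ht
  have b2 := a2 t ht
  have b3 := a2 0 ⟨le_rfl, t0.trans ht.2⟩
  have b4 := a3 t ht
  have hbη' : ‖η - b Ω‖ ≤ γ := by rwa [norm_sub_rev]
  have l1 := hη.lip hr t
  have l2 := (hξ.map fun t => h.U_z M t hm).lip hr t
  rw [abs_of_nonneg t0] at l1 l2
  rw [M.norm_U] at b1 b2 b3
  simp only [neg_zero, M.U_zero, ContinuousLinearMap.one_apply] at b3
  have cU : ∀ t g v, M.U t (p g v) = p g (M.U t v) := fun t g v => congr($((h.U_p M t g).1) v)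
  have b5 : ‖m (M.U t (x Ω) - ex t s • x Ω)‖ ≤ t * r * ‖η‖ + 3 * c * γ + 2 * γ := by
    have h1 : m (M.U t (x Ω) - ex t s • x Ω) = M.U t (m ξ) - ex t s • m ξ +
        (M.U t (m (x Ω) - m ξ) - ex t s • (m (x Ω) - m ξ)) := by
      have : m (M.U t (x Ω)) = M.U t (m (x Ω)) := congr($((h.U_z M t hm).symm) (x Ω))
      simp only [map_sub, map_smul, smul_sub, this]
      abel
    have h2 : ‖m ξ‖ ≤ ‖η‖ + 3 * γ := by
      linarith [norm_le_norm_add_norm_sub (m (x Ω)) (m ξ)]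
    have h3 := norm_sub_le (M.U t (m (x Ω) - m ξ)) (ex t s • (m (x Ω) - m ξ))
    rw [M.norm_U, norm_smul, P132.norm_ex, one_mul] at h3
    rw [h1]
    refine (norm_add_le_of_le l2 h3).trans ?_
    have h4 : t * r * ‖m ξ‖ ≤ t * r * (‖η‖ + 3 * γ) := by gcongr
    nlinarith
  have key : ∀ g, M.U t (x (p g η)) - ex t (2 * s) • x (p g η) =
      M.U t (x (p g (M.U (-t) (M.U t η - ex t s • η)))) +
      (ex t s • M.U t (x (p g (M.U (-t) (η - b Ω)))) - ex t (2 * s) • x (p g (η - b Ω))) +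
      ex t s • b (q g⁻¹ (M.U t (x Ω) - ex t s • x Ω)) := fun g => by
    have h1 : x (p g (b Ω)) = b (q g⁻¹ (x Ω)) := by
      rw [h.sA.app (h.pA g) hb, h.sA.app hx hb, PW.p_Ω h, h.sA.app hx (h.qR _)]
    have h2 : M.U t (x (p g (M.U (-t) (b Ω)))) = b (q g⁻¹ (M.U t (x Ω))) := by
      have hx' := M.invX t x hx
      have h3 : M.U t (x Ω) = (M.U t * x * M.U (-t)) Ω := by
        simp only [ContinuousLinearMap.mul_apply, M.U_Ω]
      rw [h3, ← h.sA.app hx' (h.qR _), ← PW.p_Ω h, ← h.sA.app hx' hb, ← h.sA.app (h.pA g) hb,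
        ← cU]
      rfl
    have h3 : ex t (2 * s) = ex t s * ex t s := by
      rw [← P132.ex_add, ex, ex]
      congr 3
      ring
    simp only [map_sub, map_smul, M.U_neg_U, h1, h2, h3, smul_sub, mul_smul]
    abel
  simp only [key]
  refine (nm_add_le _ _).trans ?_
  refine (add_le_add ((nm_add_le _ _).trans (add_le_add le_rfl (nm_sub_le _ _))) le_rfl).trans ?_
  have n1 : ∀ (w : ℝ) (y : a.ι → K), (nm fun i => ex t w • y i) = nm y := fun w y =>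
    nm_congr fun i => by rw [norm_smul, P132.norm_ex, one_mul]
  have n2 : ∀ y : a.ι → K, (nm fun i => M.U t (y i)) = nm y := fun y =>
    nm_congr fun i => M.norm_U _ _
  rw [n1, n1, n1, n2, n2]
  nlinarith

end

end Vale.Agent.P096
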