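import Vale.Agent.P096.G.Mod
import Vale.Agent.P132.Key

/-! The identity given by far eigenoperators. -/

namespace Vale.Agent.P096

open scoped InnerProductSpace Topology ComplexConjugate
open Filter
open Vale.Agent.P132 (FC BC ex pp qq rr EE chi Std PM MD)

universe u

variable {A : Type*} [CStarAlgebra A] [PartialOrder A] [StarOrderedRing A] {H : Type*}
  [NormedAddCommGroup H] [InnerProductSpace ℂ H] [CompleteSpace H] {S : Std A H}

/-- Abstract form of `Far`. -/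
def FarA (D : MD S) : Prop :=
  ∀ c₀ κ : ℝ, 0 < c₀ → 0 < κ → ∃ c : ℝ, 0 < c ∧ |c - c₀| ≤ κ ∧ ∀ (F : Finset H) (ε : ℝ), 0 < ε →
    ∃ v : A, ‖v‖ ≤ 1 ∧ S.π v S.ξ = (c : ℂ) • D.ρ v S.ξ ∧
      D.ρ (v * star v) S.ξ = S.π (v * star v) S.ξ ∧ ∀ α ∈ F, ∀ β ∈ F,
        ‖⟪β, D.ρ (v * star v) α⟫_ℂ - ((1 + c ^ 2)⁻¹ : ℝ) * ⟪β, α⟫_ℂ‖ ≤ ε ∧
        ‖⟪β, S.π (star v) (D.ρ v α)⟫_ℂ - (c * (1 + c ^ 2)⁻¹ : ℝ) * ⟪β, α⟫_ℂ‖ ≤ ε

namespace Pr

omit [CStarAlgebra A] [PartialOrder A] [StarOrderedRing A] in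
/-- Weak approximation gives norm approximation by convex combinations. -/
lemma mazur {T : A → H} {P : A → Prop} {m : H}
    (h : ∀ (μ : H) (ε : ℝ), 0 < ε → ∃ v, P v ∧ ‖⟪μ, T v - m⟫_ℂ‖ ≤ ε) {ε : ℝ} (hε : 0 < ε) :
    ∃ (ι : Type) (_ : Fintype ι) (w : ι → ℝ) (v : ι → A), (∀ i, 0 ≤ w i) ∧ ∑ i, w i = 1 ∧
      (∀ i, P (v i)) ∧ ‖∑ i, w i • T (v i) - m‖ ≤ ε := by
  have h1 : m ∈ closure (convexHull ℝ (T '' {v | P v})) := by
    by_contra h0
    obtain ⟨f, u, a1, a2⟩ := RCLike.geometric_hahn_banach_closed_point (𝕜 := ℂ)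
      (convex_convexHull ℝ _).closure isClosed_closure h0
    obtain ⟨v, b1, b2⟩ := h ((InnerProductSpace.toDual ℂ H).symm f) _ (half_pos (sub_pos.2 a2))
    have b3 := a1 _ (subset_closure (subset_convexHull ℝ _ ⟨v, b1, rfl⟩))
    have b4 := (Complex.abs_re_le_norm _).trans b2
    rw [InnerProductSpace.toDual_symm_apply, map_sub, Complex.sub_re] at b4
    simp only [RCLike.re_to_complex] at a2 b3 b4
    linarith [(abs_le.1 b4).1]
  obtain ⟨y, a1, a2⟩ := Metric.mem_closure_iff.1 h1 ε hε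
  obtain ⟨ι, _, w, z, b1, b2, b3, rfl⟩ := mem_convexHull_iff_exists_fintype.1 a1
  choose v c1 c2 using b3
  exact ⟨ι, inferInstance, w, v, b1, b2, c1, by
    simpa only [c2, dist_eq_norm, norm_sub_rev m] using a2.le⟩

/-- Families of commutators approximating a vector. -/
def Fm (D : MD S) (T : H) (a b e : ℝ) : Prop :=
  ∃ (ι : Type) (_ : Fintype ι) (Y : ι → A) (η : ι → H),
    ∑ i, ‖S.π (Y i) S.ξ - D.ρ (Y i) S.ξ‖ ^ 2 ≤ a ∧ ∑ i, ‖η i‖ ^ 2 ≤ b ∧
      ‖∑ i, (S.π (Y i) (η i) - D.ρ (Y i) (η i)) - T‖ ≤ e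

variable {D : MD S}

omit [PartialOrder A] [StarOrderedRing A] in
lemma Fm.sum {J : ℕ} {T : ℕ → H} {a b e : ℕ → ℝ} (h : ∀ k < J, Fm D (T k) (a k) (b k) (e k)) :
    Fm D (∑ k ∈ Finset.range J, T k) (∑ k ∈ Finset.range J, a k) (∑ k ∈ Finset.range J, b k)
      (∑ k ∈ Finset.range J, e k) := by
  choose ι _ Y η h1 h2 h3 using fun k : Fin J => h k k.2
  refine ⟨Σ k, ι k, inferInstance, fun i => Y i.1 i.2, fun i => η i.1 i.2, ?_⟩
  simp only [Fintype.sum_sigma, Finset.sum_range, ← Finset.sum_sub_distrib]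
  exact ⟨Finset.sum_le_sum fun k _ => h1 k, Finset.sum_le_sum fun k _ => h2 k,
    (norm_sum_le _ _).trans (Finset.sum_le_sum fun k _ => h3 k)⟩

omit [PartialOrder A] [StarOrderedRing A] in
lemma Fm.mono {T T' : H} {a b e a' b' e' : ℝ} (h : Fm D T a b e) (ha : a ≤ a') (hb : b ≤ b')
    (he : e + ‖T - T'‖ ≤ e') : Fm D T' a' b' e' := by
  obtain ⟨ι, _, Y, η, h1, h2, h3⟩ := h
  exact ⟨ι, inferInstance, Y, η, h1.trans ha, h2.trans hb,
    (norm_sub_le_norm_sub_add_norm_sub _ T _).trans (by linarith)⟩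

omit [PartialOrder A] [StarOrderedRing A] in
lemma piece {c : ℝ} (h : ∀ (F : Finset H) (ε : ℝ), 0 < ε →
    ∃ v : A, ‖v‖ ≤ 1 ∧ S.π v S.ξ = (c : ℂ) • D.ρ v S.ξ ∧
      D.ρ (v * star v) S.ξ = S.π (v * star v) S.ξ ∧ ∀ α ∈ F, ∀ β ∈ F,
        ‖⟪β, D.ρ (v * star v) α⟫_ℂ - ((1 + c ^ 2)⁻¹ : ℝ) * ⟪β, α⟫_ℂ‖ ≤ ε ∧
        ‖⟪β, S.π (star v) (D.ρ v α)⟫_ℂ - (c * (1 + c ^ 2)⁻¹ : ℝ) * ⟪β, α⟫_ℂ‖ ≤ ε)
    {a a' : A} (ha : S.π a' S.ξ = D.ρ a S.ξ) (y : A) {ε : ℝ} (hε : 0 < ε) :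
    Fm D (D.ρ a (S.π y S.ξ) - (c : ℂ) • S.π a' (D.ρ y S.ξ))
      (‖D.ρ y S.ξ - (c : ℂ) • S.π y S.ξ‖ ^ 2) (((1 + c ^ 2) * ‖D.ρ a S.ξ‖) ^ 2) ε := by
  classical
  set P : ℝ := 1 + c ^ 2 with hP
  have P0 : 0 < P := by positivity
  set T := fun v => (P : ℂ) • (D.ρ a (D.ρ (v * star v) (S.π y S.ξ)) -
    S.π (star v) (D.ρ v (S.π a' (D.ρ y S.ξ)))) with hT
  obtain ⟨ι, _, w, v, w0, w1, hv, h1⟩ := mazur (T := T)
    (m := D.ρ a (S.π y S.ξ) - (c : ℂ) • S.π a' (D.ρ y S.ξ)) (P := fun v => ‖v‖ ≤ 1 ∧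
      S.π v S.ξ = (c : ℂ) • D.ρ v S.ξ ∧ D.ρ (v * star v) S.ξ = S.π (v * star v) S.ξ)
    (fun μ ε hε => by
      obtain ⟨v, a1, a2, a3, a4⟩ := h {μ, D.ρ (star a) μ, S.π y S.ξ, S.π a' (D.ρ y S.ξ)}
        (ε / (2 * P)) (by positivity)
      refine ⟨v, ⟨a1, a2, a3⟩, ?_⟩
      have b1 := (a4 (S.π y S.ξ) (by simp) (D.ρ (star a) μ) (by simp)).1
      have b2 := (a4 (S.π a' (D.ρ y S.ξ)) (by simp) μ (by simp)).2
      rw [D.inner_ρ_left, D.inner_ρ_left] at b1
      have b3 := mul_le_mul_of_nonneg_left (norm_sub_le_of_le b1 b2) P0.le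
      rw [← Real.norm_of_nonneg P0.le, ← Complex.norm_real, ← norm_mul, Complex.norm_real,
        Real.norm_of_nonneg P0.le] at b3
      refine le_of_eq_of_le (congrArg _ ?_) (b3.trans_eq (by field_simp; ring))
      have : (P : ℂ) ≠ 0 := by exact_mod_cast P0.ne'
      simp only [hT, inner_sub_right, inner_smul_right]
      push_cast
      field_simp
      ring) hε
  have e1 : ∀ i, ‖(√(w i) : ℂ)‖ ^ 2 = w i := fun i => by
    rw [Complex.norm_real, Real.norm_eq_abs, sq_abs, Real.sq_sqrt (w0 i)]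
  have k : ∀ {f : ι → H} {r : ℝ}, (∀ i, ‖f i‖ ≤ r) → ∑ i, ‖(√(w i) : ℂ) • f i‖ ^ 2 ≤ r ^ 2 :=
    fun {f r} hf => by
      rw [← one_mul (r ^ 2), ← w1, Finset.sum_mul]
      refine Finset.sum_le_sum fun i _ => ?_
      rw [norm_smul, mul_pow, e1]
      gcongr
      exacts [w0 i, hf i]
  refine ⟨ι, inferInstance, fun i => (√(w i) : ℂ) • (y * v i),
    fun i => (√(w i) : ℂ) • (P : ℂ) • S.π (star (v i)) (D.ρ a S.ξ), ?_, k fun i => ?_, ?_⟩
  · simp only [map_smul, D.ρ_smul, ContinuousLinearMap.smul_apply, ← smul_sub]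
    refine k fun i => ?_
    rw [map_mul, ContinuousLinearMap.mul_apply, (hv i).2.1, D.ρ_mul_apply, map_smul, D.π_ρ,
      ← map_smul, ← map_sub]
    exact (D.norm_ρ_le _ _).trans ((mul_le_of_le_one_left (norm_nonneg _) (hv i).1).trans_eq
      (norm_sub_rev _ _))
  · rw [norm_smul, Complex.norm_real, Real.norm_of_nonneg P0.le]
    refine mul_le_mul_of_nonneg_left ((S.norm_apply_le _ _).trans ?_) P0.le
    rw [norm_star]
    exact mul_le_of_le_one_left (norm_nonneg _) (hv i).1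
  · refine le_of_eq_of_le ?_ h1
    congr 3
    ext i
    have a1 : S.π (y * v i) (S.π (star (v i)) (D.ρ a S.ξ)) =
        D.ρ a (D.ρ (v i * star (v i)) (S.π y S.ξ)) := by
      rw [← D.π_ρ y, (hv i).2.2]
      simp only [D.π_ρ, map_mul, ContinuousLinearMap.mul_apply]
    have a2 : D.ρ (y * v i) (S.π (star (v i)) (D.ρ a S.ξ)) =
        S.π (star (v i)) (D.ρ (v i) (S.π a' (D.ρ y S.ξ))) := by
      rw [← ha, D.ρ_mul_apply]
      simp only [D.π_ρ]
    simp only [map_smul, D.ρ_smul, ContinuousLinearMap.smul_apply, a1, a2, hT, ← smul_sub]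
    rw [smul_comm (P : ℂ), smul_smul, ← Complex.ofReal_mul, Real.mul_self_sqrt (w0 i),
      Complex.coe_smul]

/-- Ramps in the variable `exp (s / 2)`. -/
noncomputable def rp (κ : ℝ) (k : ℕ) (s : ℝ) : ℝ := max 0 (min 1 (Real.exp (s / 2) / κ - k + 1))

/-- The partition of unity. -/
noncomputable def gk (κ : ℝ) (k : ℕ) (s : ℝ) : ℝ := rp κ k s - rp κ (k + 1) s

lemma gk_cont (κ : ℝ) (k : ℕ) : Continuous (gk κ k) := by unfold gk rp; fun_prop

lemma gk_nn (κ : ℝ) (k : ℕ) (s : ℝ) : 0 ≤ gk κ k s := by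
  unfold gk rp
  rw [sub_nonneg]
  gcongr
  simp

lemma gk_sum {κ : ℝ} (hκ : 0 < κ) (J : ℕ) (s : ℝ) :
    ∑ k ∈ Finset.range J, gk κ k s = 1 - rp κ J s := by
  simp only [gk]
  rw [Finset.sum_range_sub' fun k => rp κ k s, rp, min_eq_left, max_eq_right zero_le_one]
  simp only [Nat.cast_zero, sub_zero, le_add_iff_nonneg_left]
  positivity

lemma gk_supp {κ : ℝ} (hκ : 0 < κ) {k : ℕ} {s : ℝ} (h : gk κ k s ≠ 0) :
    |Real.exp (s / 2) - (k + 1) * κ| ≤ 2 * κ := by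
  obtain ⟨u, hu⟩ : ∃ u, u = Real.exp (s / 2) / κ := ⟨_, rfl⟩
  have e : Real.exp (s / 2) - (k + 1) * κ = (u - (k + 1)) * κ := by rw [hu]; field_simp
  rw [e, abs_mul, abs_of_pos hκ]
  gcongr
  by_contra h0
  simp only [gk, rp, ← hu, Nat.cast_add, Nat.cast_one] at h
  rcases lt_abs.1 (not_le.1 h0) with h1 | h1
  · rw [min_eq_left (by linarith), min_eq_left (by linarith), sub_self] at h
    exact h rfl
  · rw [max_eq_left ((min_le_right _ _).trans (by linarith)),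
      max_eq_left ((min_le_right _ _).trans (by linarith)), sub_self] at h
    exact h rfl

omit [PartialOrder A] [StarOrderedRing A] in
lemma approx (h : FarA D) {a a' : A} (ha : S.π a' S.ξ = D.ρ a S.ξ) {F : ℝ → ℂ} (hF : Continuous F)
    {L : ℝ} (hL : ∀ s, L < |s| → F s = 0) (β : H) : ∃ C : ℝ, 0 < C ∧ ∀ κ : ℝ, 0 < κ → κ ≤ 1 →
      ∃ x y, x * y ≤ C * κ ∧ Fm D (D.ρ a (D.fb F β) -
        S.π a' (D.fb (fun s => F s * (EE s * EE s)) β)) x y (C * κ) := by
  set E := Real.exp (L / 2)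
  have E0 : 0 < E := Real.exp_pos _
  have bF : BC F := .of_supp hF hL
  have bE : BC fun s => F s * EE s := .mul_supp hF hL P132.continuous_EE
  have bEE : BC fun s => F s * (EE s * EE s) :=
    .mul_supp hF hL (P132.continuous_EE.mul P132.continuous_EE)
  set N := (1 + (E + 4) ^ 2) * ‖D.ρ a S.ξ‖
  set C₁ := (2 * (9 * ‖D.fb F β‖ ^ 2) + 2 * (E + 5) ^ 2) * ((E + 2) * N ^ 2)
  set C₂ := 1 + ‖a‖ + (E + 4) * ‖a'‖ + ‖a'‖ * (3 * ‖D.fb (fun s => F s * EE s) β‖)
  refine ⟨C₁ + C₂, by positivity, fun κ hκ hκ1 => ?_⟩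
  set J := ⌈E / κ⌉₊ + 1 with hJ
  have J0 : (1 : ℝ) ≤ J := by simp [hJ]
  have J1 : E / κ + 1 ≤ J := by simpa [hJ] using Nat.le_ceil _
  have J2 : J * κ ≤ E + 2 := by
    have := mul_le_mul_of_nonneg_right (Nat.ceil_lt_add_one (div_pos E0 hκ).le).le hκ.le
    rw [add_mul, div_mul_cancel₀ _ hκ.ne'] at this
    simp only [hJ, Nat.cast_add, Nat.cast_one]
    linarith
  choose c c0 c1 hc using fun k : ℕ => h ((k + 1) * κ) κ (by positivity) hκ
  have c2 : ∀ k < J, c k ≤ E + 4 := fun k hk => by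
    have : (k : ℝ) * κ ≤ J * κ := by gcongr
    linarith [(abs_le.1 (c1 k)).2]
  have c3 : ∀ k s, ‖(EE s - c k) * gk κ k s‖ ≤ 3 * κ * gk κ k s := fun k s => by
    rcases eq_or_ne (gk κ k s) 0 with h0 | h0
    · simp [h0]
    rw [norm_mul, Complex.norm_real, Real.norm_of_nonneg (gk_nn _ _ _), EE, ← Complex.ofReal_sub,
      Complex.norm_real, Real.norm_eq_abs]
    gcongr
    · exact gk_nn _ _ _
    · linarith [abs_sub_le (Real.exp (s / 2)) ((k + 1) * κ) (c k), gk_supp hκ h0,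
        abs_sub_comm (c k) ((k + 1) * κ), c1 k]
  have g1 : ∀ s, ∑ k ∈ Finset.range J, gk κ k s ≤ 1 := fun s => by
    rw [gk_sum hκ, sub_le_self_iff]
    exact le_max_left _ _
  have g2 : ∀ s, F s * ∑ k ∈ Finset.range J, (gk κ k s : ℂ) = F s := fun s => by
    rcases lt_or_ge L |s| with h0 | h0
    · simp [hL s h0]
    have : Real.exp (s / 2) / κ ≤ E / κ := by
      gcongr
      exact Real.exp_le_exp.2 (by linarith [le_abs_self s])
    rw [← Complex.ofReal_sum, gk_sum hκ, rp, max_eq_left ((min_le_right _ _).trans (by linarith))]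
    simp
  have cg : ∀ k, Continuous fun s => (gk κ k s : ℂ) := fun k =>
    Complex.continuous_ofReal.comp (gk_cont κ k)
  have b1 : ∀ k, BC fun s => F s * gk κ k s := fun k => .mul_supp hF hL (cg k)
  have b2 : ∀ k, BC fun s => F s * gk κ k s * EE s := fun k => by
    simpa only [mul_assoc] using BC.mul_supp hF hL ((cg k).fun_mul P132.continuous_EE)
  have b3 : ∀ k, BC fun s => F s * gk κ k s * EE s - c k * (F s * gk κ k s) := fun k =>
    (b2 k).sub ((BC.const _).mul (b1 k))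
  set e := κ / J with he
  have e0 : 0 < e := by positivity
  have e1 : J * e = κ := by rw [he]; field_simp
  have hk : ∀ k < J, Fm D (D.ρ a (D.fb (fun s => F s * gk κ k s) β) -
      (c k : ℂ) • S.π a' (D.fb (fun s => F s * gk κ k s * EE s) β))
      (2 * ‖D.fb (fun s => F s * gk κ k s * EE s - c k * (F s * gk κ k s)) β‖ ^ 2 +
        2 * ((E + 5) * e) ^ 2) (N ^ 2) ((1 + ‖a‖ + (E + 4) * ‖a'‖) * e) := fun k hk => by
    obtain ⟨y, y1, y2⟩ := D.gr2' (hF.fun_mul (cg k)) (L := L) (fun s hs => by simp [hL s hs]) β e0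
    have n1 : ‖(c k : ℂ)‖ ≤ E + 4 := by
      rw [Complex.norm_real, Real.norm_of_nonneg (c0 k).le]
      exact c2 k hk
    refine (piece (hc k) ha y e0).mono ?_ ?_ ?_
    · have a1 := norm_sub_le_of_le y2 ((norm_smul_le (c k : ℂ) _).trans
        (mul_le_mul n1 y1 (norm_nonneg _) (by positivity)))
      rw [D.sub (b2 k) ((BC.const _).mul (b1 k)), D.smul (b1 k), ContinuousLinearMap.sub_apply,
        ContinuousLinearMap.smul_apply]
      rw [smul_sub, sub_sub_sub_comm] at a1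
      have a2 := (norm_le_norm_add_norm_sub' _ _).trans (add_le_add le_rfl a1)
      refine (pow_le_pow_left₀ (norm_nonneg _) a2 2).trans ?_
      rw [show e + (E + 4) * e = (E + 5) * e by ring]
      nlinarith [sq_nonneg (‖D.fb (fun s => F s * gk κ k s * EE s) β -
        (c k : ℂ) • D.fb (fun s => F s * gk κ k s) β‖ - (E + 5) * e)]
    · have := c0 k
      simp only [N]
      gcongr
      exact c2 k hk
    · have a1 := (D.norm_ρ_le a _).trans (mul_le_mul_of_nonneg_left y1 (norm_nonneg _))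
      have a2 := (norm_smul_le (c k : ℂ) _).trans (mul_le_mul n1 ((S.norm_apply_le a' _).trans
        (mul_le_mul_of_nonneg_left y2 (norm_nonneg _))) (norm_nonneg _) (by positivity))
      have a3 := norm_sub_le_of_le a1 a2
      rw [map_sub, map_sub, smul_sub, sub_sub_sub_comm] at a3
      exact (add_le_add le_rfl a3).trans_eq (by ring)
  have e3 : ∀ k s, F s * gk κ k s * EE s - c k * (F s * gk κ k s) =
      F s * ((EE s - c k) * gk κ k s) := fun k s => by ring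
  refine ⟨_, _, ?_, (Fm.sum hk).mono le_rfl le_rfl ?_⟩
  · have a1 := D.sum_sq_le' (Finset.range J) (fun k _ => b3 k) bF (C := 9 * κ ^ 2) (fun s => by
      calc _ ≤ ∑ k ∈ Finset.range J, 9 * κ ^ 2 * ‖F s‖ ^ 2 * gk κ k s := by
            refine Finset.sum_le_sum fun k hk => ?_
            have a2 := (Finset.single_le_sum (fun k _ => gk_nn κ k s) hk).trans (g1 s)
            have a3 := gk_nn κ k s
            rw [e3, norm_mul, mul_pow]
            calc _ ≤ ‖F s‖ ^ 2 * (3 * κ * gk κ k s) ^ 2 := by gcongr; exact c3 k s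
              _ = 9 * κ ^ 2 * ‖F s‖ ^ 2 * (gk κ k s * gk κ k s) := by ring
              _ ≤ _ := by gcongr; exact mul_le_of_le_one_left a3 a2
        _ ≤ _ := by
            rw [← Finset.mul_sum]
            exact mul_le_of_le_one_right (by positivity) (g1 s)) β
    simp only [Finset.sum_add_distrib, ← Finset.mul_sum, Finset.sum_const, Finset.card_range,
      nsmul_eq_mul]
    have a2 : J * ((E + 5) * e) ^ 2 ≤ (E + 5) ^ 2 * κ ^ 2 := by
      rw [← e1]
      nlinarith [mul_le_mul_of_nonneg_right J0 (show 0 ≤ J * ((E + 5) * e) ^ 2 by positivity)]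
    calc _ ≤ (2 * (9 * κ ^ 2 * ‖D.fb F β‖ ^ 2) + 2 * ((E + 5) ^ 2 * κ ^ 2)) * (J * N ^ 2) := by
          gcongr
      _ = (2 * (9 * ‖D.fb F β‖ ^ 2) + 2 * (E + 5) ^ 2) * ((J * κ) * N ^ 2) * κ := by ring
      _ ≤ (C₁ + C₂) * κ := by
          gcongr
          refine le_add_of_le_of_nonneg ?_ (by positivity)
          simp only [C₁]
          gcongr
  · have a1 : ∑ k ∈ Finset.range J, D.fb (fun s => F s * gk κ k s) = D.fb F := by
      rw [← D.sum _ fun k _ => b1 k]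
      simp only [← Finset.mul_sum, g2]
    have b4 : BC fun s => ∑ k ∈ Finset.range J, c k * (F s * gk κ k s * EE s) :=
      .sum _ fun k _ => (BC.const _).mul (b2 k)
    have a2 : ∑ k ∈ Finset.range J, (c k : ℂ) • D.fb (fun s => F s * gk κ k s * EE s) =
        D.fb fun s => ∑ k ∈ Finset.range J, c k * (F s * gk κ k s * EE s) := by
      rw [D.sum _ fun k _ => (BC.const _).mul (b2 k)]
      simp only [D.smul (b2 _)]
    have a3 := D.mono (bEE.sub b4) bE (C := 3 * κ) (by positivity) (fun s => by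
      have : F s * (EE s * EE s) - ∑ k ∈ Finset.range J, c k * (F s * gk κ k s * EE s) =
          (∑ k ∈ Finset.range J, (EE s - c k) * gk κ k s) * (F s * EE s) := by
        rw [← g2 s, Finset.mul_sum, Finset.sum_mul, ← Finset.sum_sub_distrib, ← Finset.mul_sum,
          g2 s, Finset.sum_mul]
        exact Finset.sum_congr rfl fun k _ => by ring
      rw [this, norm_mul]
      gcongr
      refine (norm_sum_le _ _).trans ((Finset.sum_le_sum fun k _ => c3 k s).trans ?_)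
      rw [← Finset.mul_sum]
      exact mul_le_of_le_one_right (by positivity) (g1 s)) β
    have a4 := (S.norm_apply_le a' _).trans (mul_le_mul_of_nonneg_left a3 (norm_nonneg _))
    rw [D.sub bEE b4, ← a2, ContinuousLinearMap.sub_apply, map_sub] at a4
    rw [Finset.sum_sub_distrib, ← map_sum, ← ContinuousLinearMap.sum_apply, a1,
      sub_sub_sub_cancel_left, Finset.sum_const, Finset.card_range, nsmul_eq_mul, mul_left_comm, e1]
    simp only [ContinuousLinearMap.sum_apply, map_sum, ContinuousLinearMap.smul_apply,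
      map_smul] at a4
    have : 0 ≤ C₁ * κ := by positivity
    refine (add_le_add le_rfl a4).trans ?_
    simp only [C₂]
    linarith

end Pr

open Pr in
theorem pairid {D : MD S} (h : FarA D) {ζ : H} (hζ : ζ ∈ D.V) {a a' : A}
    (ha : S.π a' S.ξ = D.ρ a S.ξ) {F : ℝ → ℂ} (hF : Continuous F) {L : ℝ}
    (hL : ∀ s, L < |s| → F s = 0) (β : H) :
    ⟪ζ, D.ρ a (D.fb F β)⟫_ℂ = ⟪ζ, S.π a' (D.fb (fun s => F s * (EE s * EE s)) β)⟫_ℂ := by
  obtain ⟨C, hC, h1⟩ := approx h ha hF hL β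
  rw [← sub_eq_zero, ← inner_sub_right]
  set T := D.ρ a (D.fb F β) - S.π a' (D.fb (fun s => F s * (EE s * EE s)) β)
  refine norm_le_zero_iff.1 (le_of_forall_pos_le_add fun ε hε => ?_)
  obtain ⟨δ, hδ, h2⟩ := P132.key hζ (‖T‖ + C) (half_pos hε)
  have hp : 0 < ‖ζ‖ + 1 := by positivity
  obtain ⟨x, y, a1, ι, _, Y, η, a2, a3, a4⟩ := h1 (min 1 (min (δ / C) (ε / 2 / (C * (‖ζ‖ + 1)))))
    (by positivity) (min_le_left _ _)
  have b1 : C * min 1 (min (δ / C) (ε / 2 / (C * (‖ζ‖ + 1)))) ≤ C :=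
    mul_le_of_le_one_right hC.le (min_le_left _ _)
  have b2 := h2 ι Y η ((mul_le_mul a2 a3 (by positivity) (le_trans (by positivity) a2)).trans
    (a1.trans ((le_div_iff₀' hC).1 ((min_le_right _ _).trans (min_le_left _ _)))))
    ((norm_le_norm_add_norm_sub' _ T).trans (by linarith))
  have b3 := (norm_inner_le_norm (𝕜 := ℂ) ζ _).trans (mul_le_mul (le_add_of_nonneg_right
    zero_le_one) (a4.trans (mul_le_mul_of_nonneg_left ((min_le_right _ _).trans (min_le_right _ _))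
    hC.le)) (norm_nonneg _) hp.le)
  rw [inner_sub_right] at b3
  have b4 := norm_sub_le_of_le b2 b3
  rw [sub_sub_cancel] at b4
  refine b4.trans_eq ?_
  field_simp
  ring

end Vale.Agent.P096
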