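import Vale.Agent.P096.G.Hom
import Vale.Agent.P132.GNS

/-! Reduction to separable standard forms. -/

namespace Vale.Agent.P096

open scoped InnerProductSpace Topology ComplexConjugate
open Filter TopologicalSpace
open Vale.Agent.P132 (FC BC ex pp qq rr EE chi Std PM MD)

universe u

/-- The lifting statement for separable standard forms. -/
def SL (ε δ : ℝ) : Prop :=
  ∀ (K : Type u) [NormedAddCommGroup K] [InnerProductSpace ℂ K] [CompleteSpace K]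
    [TopologicalSpace.SeparableSpace K] (A R D B : SA K) (Ω : K), SP A R Ω → CP D B →
    N4 δ A R D B → Lift ε A D

namespace Ra

variable {E : Type*} [CStarAlgebra E] {M N : StarSubalgebra ℂ E} {δ : ℝ}

lemma sep_adjoin {S : Set E} (h : S.Countable) : IsSeparable (StarAlgebra.adjoin ℂ S : Set E) := by
  have h1 : (S ∪ star S).Countable := h.union (h.preimage star_injective)
  have := h1.to_subtype
  have h2 : (Submonoid.closure (S ∪ star S) : Set E).Countable :=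
    (Set.countable_range fun l : List ↥(S ∪ star S) => (l.map Subtype.val).prod).mono fun x hx => by
      obtain ⟨l, a1, rfl⟩ := Submonoid.exists_list_of_mem_closure hx
      exact ⟨l.attachWith _ a1, by simp⟩
  have h3 := h2.isSeparable.span (R := ℂ)
  rwa [← Algebra.adjoin_eq_span, ← StarAlgebra.adjoin_toSubalgebra] at h3

lemma step (hδ : 0 < δ) (h : Near δ (M : Set E) N) (S : Set E) : ∃ T : Set E, S.Countable →
    S ⊆ M → T.Countable ∧ T ⊆ N ∧ Near (4 * δ) (StarAlgebra.adjoin ℂ S : Set E) T := by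
  by_cases h0 : S.Countable ∧ S ⊆ M
  swap
  · exact ⟨∅, fun h1 h2 => (h0 ⟨h1, h2⟩).elim⟩
  obtain ⟨c, c1, c2, c3⟩ := (sep_adjoin h0.1).exists_countable_dense_subset
  choose! f f1 f2 using h
  have k : c ⊆ M := c1.trans (StarAlgebra.adjoin_le h0.2)
  refine ⟨insert 0 (f '' c), fun _ _ => ⟨(c2.image f).insert 0,
    Set.insert_subset (zero_mem _) (Set.image_subset_iff.2 fun x hx => f1 x (k hx)), fun x hx => ?_⟩⟩
  rcases eq_or_ne x 0 with rfl | hx0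
  · exact ⟨0, Set.mem_insert _ _, by simp⟩
  have := norm_pos_iff.2 hx0
  obtain ⟨s, s1, s2⟩ := Metric.mem_closure_iff.1 (c3 hx) (min (δ * ‖x‖) ‖x‖) (by positivity)
  rw [dist_eq_norm, lt_min_iff] at s2
  refine ⟨f s, Set.mem_insert_of_mem _ ⟨s, s1, rfl⟩, ?_⟩
  have a1 : ‖s‖ ≤ 2 * ‖x‖ := by linarith [norm_le_norm_add_norm_sub x s]
  linarith [norm_sub_le_norm_sub_add_norm_sub x s (f s), f2 s (k s1),
    mul_le_mul_of_nonneg_left a1 hδ.le, mul_pos hδ this]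

lemma mem_union {S : ℕ → Set E} (h : Monotone S) {x : E} (hx : x ∈ StarAlgebra.adjoin ℂ (⋃ n, S n)) :
    ∃ n, x ∈ StarAlgebra.adjoin ℂ (S n) := by
  have k : ∀ {n m : ℕ}, n ≤ m → StarAlgebra.adjoin ℂ (S n) ≤ StarAlgebra.adjoin ℂ (S m) :=
    fun h' => StarAlgebra.adjoin_mono (h h')
  induction hx using StarAlgebra.adjoin_induction with
  | mem x hx => exact (Set.mem_iUnion.1 hx).imp fun n hn => StarAlgebra.subset_adjoin ℂ _ hn
  | algebraMap r => exact ⟨0, algebraMap_mem _ r⟩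
  | add x y _ _ h1 h2 =>
    obtain ⟨n, h1⟩ := h1
    obtain ⟨m, h2⟩ := h2
    exact ⟨_, add_mem (k (le_max_left n m) h1) (k (le_max_right n m) h2)⟩
  | mul x y _ _ h1 h2 =>
    obtain ⟨n, h1⟩ := h1
    obtain ⟨m, h2⟩ := h2
    exact ⟨_, mul_mem (k (le_max_left n m) h1) (k (le_max_right n m) h2)⟩
  | star x _ h1 => exact h1.imp fun _ => star_mem

end Ra

theorem exists_sep {E : Type*} [CStarAlgebra E] {M N : StarSubalgebra ℂ E} {δ : ℝ} (hδ : 0 < δ)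
    (h1 : Near δ (M : Set E) N) (h2 : Near δ (N : Set E) M) (F : Finset E) (hF : ∀ n ∈ F, n ∈ N) :
    ∃ M₀ ≤ M, ∃ N₀ ≤ N, (∀ n ∈ F, n ∈ N₀) ∧ TopologicalSpace.IsSeparable (M₀ : Set E) ∧
      Near (4 * δ) (M₀ : Set E) N₀ ∧ Near (4 * δ) (N₀ : Set E) M₀ := by
  choose φ hφ using Ra.step hδ h1
  choose ψ hψ using Ra.step hδ h2
  let P : ℕ → Set E × Set E := fun n =>
    Nat.rec (∅, (F : Set E)) (fun _ p => (p.1 ∪ ψ p.2, p.2 ∪ φ p.1)) n
  have k : ∀ n, ((P n).1.Countable ∧ (P n).1 ⊆ M) ∧ (P n).2.Countable ∧ (P n).2 ⊆ N := fun n => by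
    induction n with
    | zero => exact ⟨⟨Set.countable_empty, Set.empty_subset _⟩, F.countable_toSet, hF⟩
    | succ n ih =>
      have a1 := hφ _ ih.1.1 ih.1.2
      have a2 := hψ _ ih.2.1 ih.2.2
      exact ⟨⟨ih.1.1.union a2.1, Set.union_subset ih.1.2 a2.2.1⟩, ih.2.1.union a1.1,
        Set.union_subset ih.2.2 a1.2.1⟩
  refine ⟨StarAlgebra.adjoin ℂ (⋃ n, (P n).1),
    StarAlgebra.adjoin_le (Set.iUnion_subset fun n => (k n).1.2),
    StarAlgebra.adjoin ℂ (⋃ n, (P n).2),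
    StarAlgebra.adjoin_le (Set.iUnion_subset fun n => (k n).2.2),
    fun n hn => StarAlgebra.subset_adjoin ℂ _ (Set.mem_iUnion.2 ⟨0, hn⟩),
    Ra.sep_adjoin (Set.countable_iUnion fun n => (k n).1.1), fun x hx => ?_, fun x hx => ?_⟩
  · obtain ⟨n, hn⟩ := Ra.mem_union (monotone_nat_of_le_succ fun n => Set.subset_union_left) hx
    obtain ⟨y, a1, a2⟩ := (hφ _ (k n).1.1 (k n).1.2).2.2 x hn
    exact ⟨y, StarAlgebra.subset_adjoin ℂ _ (Set.mem_iUnion.2 ⟨n + 1, .inr a1⟩), a2⟩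
  · obtain ⟨n, hn⟩ := Ra.mem_union (monotone_nat_of_le_succ fun n => Set.subset_union_left) hx
    obtain ⟨y, a1, a2⟩ := (hψ _ (k n).2.1 (k n).2.2).2.2 x hn
    exact ⟨y, StarAlgebra.subset_adjoin ℂ _ (Set.mem_iUnion.2 ⟨n + 1, .inr a1⟩), a2⟩

namespace Ra

lemma ranges {E : Type*} [CStarAlgebra E] {E' : Type*} [CStarAlgebra E']
    {M N : StarSubalgebra ℂ E} {α : M →⋆ₐ[ℂ] E'} {β : N →⋆ₐ[ℂ] E'} {δ : ℝ} (hδ : 0 < δ)
    (hδ2 : δ ≤ 1 / 20) (hα : ∀ m, ‖α m‖ = ‖m‖) (hβ : ∀ m n, ‖β n - α m‖ ≤ δ * ‖n‖ + ‖(n : E) - m‖)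
    (h1 : Near δ (M : Set E) N) (h2 : Near δ (N : Set E) M) :
    Near (4 * δ) (α.range : Set E') β.range ∧ Near (4 * δ) (β.range : Set E') α.range ∧
      ∀ n : N, ∃ m : M, ‖(n : E) - m‖ ≤ δ * ‖n‖ ∧ ‖β n - α m‖ ≤ 2 * δ * ‖n‖ ∧ ‖β n‖ ≤ 2 * ‖n‖ := by
  have k1 : ∀ n : N, ∃ m : M, ‖(n : E) - m‖ ≤ δ * ‖n‖ ∧ ‖β n - α m‖ ≤ 2 * δ * ‖n‖ ∧
      ‖n‖ ≤ 2 * ‖β n‖ ∧ ‖β n‖ ≤ 2 * ‖n‖ := fun n => by
    obtain ⟨m, hm, e⟩ := h2 n n.2
    have e1 := hβ ⟨m, hm⟩ n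
    have e2 : ‖α ⟨m, hm⟩‖ = ‖m‖ := hα ⟨m, hm⟩
    have e3 := abs_le.1 (abs_norm_sub_norm_le (β n) (α ⟨m, hm⟩))
    have e4 := abs_le.1 (abs_norm_sub_norm_le (n : E) m)
    have e5 : ‖(n : E)‖ = ‖n‖ := rfl
    have e6 : δ * ‖n‖ ≤ 1 / 20 * ‖n‖ := by gcongr
    rw [e5] at e e4
    exact ⟨⟨m, hm⟩, e, by linarith, by linarith [norm_nonneg n], by linarith [norm_nonneg n]⟩
  refine ⟨?_, ?_, fun n => (k1 n).imp fun m h => ⟨h.1, h.2.1, h.2.2.2⟩⟩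
  · rintro _ ⟨m, rfl⟩
    obtain ⟨n, hn, e⟩ := h1 m m.2
    refine ⟨β ⟨n, hn⟩, ⟨_, rfl⟩, ?_⟩
    have e1 := hβ m ⟨n, hn⟩
    have e3 := It.le_two e (by linarith)
    have e4 : ‖(⟨n, hn⟩ : N)‖ = ‖n‖ := rfl
    have e5 : ‖(m : E)‖ = ‖m‖ := rfl
    change ‖α m - β ⟨n, hn⟩‖ ≤ 4 * δ * ‖α m‖
    rw [norm_sub_rev, hα]
    rw [norm_sub_rev, e5] at e
    rw [e4] at e1
    rw [e5] at e3
    nlinarith [norm_nonneg m]
  · rintro _ ⟨n, rfl⟩
    obtain ⟨m, -, e1, e2, -⟩ := k1 n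
    refine ⟨α m, ⟨_, rfl⟩, e1.trans ?_⟩
    change _ ≤ 4 * δ * ‖β n‖
    nlinarith

variable {H : Type*} [NormedAddCommGroup H] [InnerProductSpace ℂ H] [CompleteSpace H] {ι : Type}
  [Fintype ι] [DecidableEq ι]

/-- The commutant of an amplification only depends on the bicommutant. -/
lemma amp_bic {M : SA H} {X : Pw ι H →L[ℂ] Pw ι H} (h : ∀ m ∈ M, X * amp H ι m = amp H ι m * X)
    {y : H →L[ℂ] H} (hy : y ∈ cz (cz (M : Set (H →L[ℂ] H)) : Set (H →L[ℂ] H))) :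
    X * amp H ι y = amp H ι y * X := by
  have k : ∀ i j, ent X i j ∈ cz (M : Set (H →L[ℂ] H)) := fun i j => std_mem.2 fun m hm =>
    ContinuousLinearMap.ext fun v => by
      have a1 := congr($(h m hm) (PiLp.single 2 j v) i)
      have a2 : amp H ι m (PiLp.single 2 j v) = PiLp.single 2 j (m v) := PiLp.ext fun k => by
        rw [amp_apply]
        rcases eq_or_ne k j with rfl | hk
        · simp
        · simp [hk]
      simpa only [ContinuousLinearMap.mul_apply, a2, amp_apply, ent_apply] using a1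
  refine ContinuousLinearMap.ext fun v => PiLp.ext fun i => ?_
  rw [ContinuousLinearMap.mul_apply, ContinuousLinearMap.mul_apply, amp_apply, apply_eq_sum_ent,
    apply_eq_sum_ent, map_sum]
  exact Finset.sum_congr rfl fun j _ => by
    rw [amp_apply]
    exact congr($(std_mem.1 hy _ (k i j)) (v j)).symm

/-- The compression of a bicommutant is a bicommutant. -/
lemma cp_range {M R : SA H} (hM : CP M R) {S : Submodule ℂ (Pw ι H)} [CompleteSpace S]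
    {α : M →⋆ₐ[ℂ] (S →L[ℂ] S)} (hα : ∀ m v, (α m v : Pw ι H) = amp H ι m v)
    (hi : Function.Injective α) : CP α.range (cz ((α.range : SA S) : Set (S →L[ℂ] S))) := by
  have := hM.closed
  refine ⟨fun x hx y hy => (std_mem.1 hy x hx).symm, fun T hT => P132.GNS.bic_of α hi
    (fun X hX => ?_) fun T' h => (hT T' (std_mem.2 ?_)).symm, fun T hT => std_mem.2 hT⟩
  · classical
    choose a a1 a2 using fun i : Finset S × ℕ =>
      hX i.1 (1 / ((i.2 : ℝ) + 1)) Nat.one_div_pos_of_nat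
    let U : Ultrafilter (Finset S × ℕ) := Ultrafilter.of atTop
    have hU : (U : Filter (Finset S × ℕ)) ≤ atTop := Ultrafilter.of_le _
    have t1 : Tendsto (fun i : Finset S × ℕ => 1 / ((i.2 : ℝ) + 1)) U (𝓝 0) :=
      tendsto_one_div_add_atTop_nhds_zero_nat.comp
        ((tendsto_atTop_atTop_of_monotone monotone_snd fun b => ⟨(∅, b), le_rfl⟩).mono_left hU)
    obtain ⟨y, hy⟩ := exists_WT U (x := fun i => (a i : H →L[ℂ] H)) (.of_forall a1)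
    refine ⟨⟨y, hM.mem_lim hy (.of_forall fun i => (a i).2)⟩, ContinuousLinearMap.ext fun v =>
      Subtype.ext (PiLp.ext fun j => ?_)⟩
    rw [hα, amp_apply]
    refine hy.apply_eq (tendsto_iff_norm_sub_tendsto_zero.2 (squeeze_zero'
      (.of_forall fun _ => norm_nonneg _)
      (((eventually_ge_atTop (({v}, 0) : Finset S × ℕ)).filter_mono hU).mono fun i hi =>
        le_trans ?_ (a2 i v (hi.1 (Finset.mem_singleton_self v)))) t1))
    rw [← amp_apply, ← hα]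
    exact PiLp.norm_apply_le ((α (a i) v - X v : S) : Pw ι H) j
  · rintro _ ⟨m, rfl⟩
    exact h m

lemma pullback {E : Type*} [CStarAlgebra E] {M N : StarSubalgebra ℂ E}
    {α : M →⋆ₐ[ℂ] (H →L[ℂ] H)} {β : N →⋆ₐ[ℂ] (H →L[ℂ] H)} (a3 : ∀ m, ‖α m‖ = ‖m‖) {D : SA H}
    (bD : ∀ n, β n ∈ D) {ε η : ℝ} (hε : 0 ≤ ε) (h : Lift ε α.range D)
    (q : ∀ n : N, ∃ m : M, ‖(n : E) - m‖ ≤ η * ‖n‖ ∧ ‖β n - α m‖ ≤ 2 * η * ‖n‖ ∧
      ‖β n‖ ≤ 2 * ‖n‖) :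
    ∃ ψ : E →ₗ[ℂ] E, ∀ n ∈ N, ψ n ∈ M ∧ ‖ψ n - n‖ ≤ (2 * ε + 3 * η) * ‖n‖ := by
  have a2 : Function.Injective α := fun a b h => by
    rw [← sub_eq_zero, ← norm_eq_zero, ← a3, map_sub, h, sub_self, norm_zero]
  obtain ⟨φ, hφ⟩ := h
  choose g hg using fun n : N => (hφ ⟨β n, bD n⟩).1
  have hg' : ∀ n, α (g n) = φ ⟨β n, bD n⟩ := hg
  let ψ : Subalgebra.toSubmodule N.toSubalgebra →ₗ[ℂ] M :=
    { toFun := fun n => g ⟨n, n.2⟩
      map_add' a b := a2 (by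
        rw [map_add, hg', hg', hg', ← map_add]
        exact congrArg φ (Subtype.ext (map_add β ⟨a, a.2⟩ ⟨b, b.2⟩)))
      map_smul' c a := a2 (by
        rw [map_smul, hg', hg', ← map_smul]
        exact congrArg φ (Subtype.ext (map_smul β c ⟨a, a.2⟩))) }
  obtain ⟨ψ', hψ⟩ := LinearMap.exists_extend ψ
  refine ⟨M.subtype.toLinearMap ∘ₗ ψ', fun n n1 => ⟨(ψ' n).2, ?_⟩⟩
  have e : ψ' n = g ⟨n, n1⟩ := congr($hψ ⟨n, n1⟩)
  obtain ⟨m, e0, e1, e2⟩ := q ⟨n, n1⟩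
  have e3 : ‖(g ⟨n, n1⟩ : E) - m‖ = ‖φ ⟨_, bD ⟨n, n1⟩⟩ - α m‖ := by
    rw [← hg', ← map_sub, a3]; rfl
  have e4 := norm_sub_le_norm_sub_add_norm_sub (φ ⟨_, bD ⟨n, n1⟩⟩) (β ⟨n, n1⟩) (α m)
  have e5 := norm_sub_le_norm_sub_add_norm_sub (g ⟨n, n1⟩ : E) m n
  have e6 := (hφ ⟨_, bD ⟨n, n1⟩⟩).2.trans (mul_le_mul_of_nonneg_left e2 hε)
  have e7 : ‖(⟨n, n1⟩ : N)‖ = ‖n‖ := rfl
  rw [norm_sub_rev] at e0
  change ‖(ψ' n : E) - n‖ ≤ _
  rw [e]
  rw [e7] at e0 e1 e6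
  linarith

lemma sp_range {E : Type*} [CStarAlgebra E] {α : E →⋆ₐ[ℂ] (H →L[ℂ] H)} {R : SA H} {Ω : H}
    (h : CP α.range R) (hd : Cyc α.range Ω) (a0 : ∀ m, α m Ω = 0 → m = 0) (h1 : ‖Ω‖ = 1) :
    SP α.range R Ω := by
  refine ⟨h, hd, fun v η hη => ?_, h1⟩
  obtain ⟨S', _, b1, b2, b3⟩ := Fn.exists_cyc (StarAlgHom.id ℂ _) R Ω
  obtain ⟨m, hm⟩ := h.cX _ fun y hy => b2 ⟨y, hy⟩
  have hm' : α m = S'.starProjection := hm
  have b4 := a0 (1 - m) (by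
    rw [map_sub, map_one, hm', ContinuousLinearMap.sub_apply,
      Submodule.starProjection_eq_self_iff.2 b1]
    exact sub_self _)
  rw [← sub_eq_zero.1 b4, map_one] at hm'
  exact b3 v (Submodule.starProjection_eq_self_iff.1 (by rw [← hm']; rfl)) η hη

lemma xt_comm {S : Submodule ℂ H} [CompleteSpace S] {T : H →L[ℂ] H}
    (h : S.starProjection * T = T * S.starProjection) (y : S →L[ℂ] S) :
    y * cmp S T = cmp S T * y ↔ xt S y * T = T * xt S y := by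
  have e1 : xt S (y * cmp S T) = xt S y * T := by
    rw [xt_mul, xt_cmp, h, mul_assoc, isStarProjection_starProjection.1.eq, ← h,
      ← mul_assoc, xt_mul_proj]
  have e2 : xt S (cmp S T * y) = T * xt S y := by
    rw [xt_mul, xt_cmp, h, mul_assoc, mul_assoc, proj_mul_xt, proj_mul_xt]
  rw [← e1, ← e2]
  exact ⟨congrArg _, fun h => by simpa only [cmp_xt] using congrArg (cmp S) h⟩

lemma n4 {A A₀ B : SA H} {η : ℝ} (hη : 0 ≤ η) (cA : CP A (cz (A : Set (H →L[ℂ] H))))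
    (h0 : ∀ y, (∀ x ∈ A₀, x * y = y * x) ↔ ∀ x ∈ A, y * x = x * y)
    (q1 : Near η (A₀ : Set (H →L[ℂ] H)) B) (q2 : Near η (B : Set (H →L[ℂ] H)) A₀) :
    N4 (2 * KD * (2 * KD * η)) A (cz (A : Set (H →L[ℂ] H)))
      (cz (cz (B : Set (H →L[ℂ] H)) : Set (H →L[ℂ] H))) (cz (B : Set (H →L[ℂ] H))) := by
  have hK := one_le_KD
  have cD := (cp_cz (B : Set (H →L[ℂ] H))).symm
  have rb : Near (2 * KD * η) (cz (A : Set (H →L[ℂ] H)) : Set (H →L[ℂ] H))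
      (cz (B : Set (H →L[ℂ] H))) := fun x hx => by
    obtain ⟨y, b1, b2⟩ := near_comm _ hη q2 x ((h0 x).2 (std_mem.1 hx))
    exact ⟨y, std_mem.2 fun z hz => (b1 z hz).symm, b2⟩
  have br : Near (2 * KD * η) (cz (B : Set (H →L[ℂ] H)) : Set (H →L[ℂ] H))
      (cz (A : Set (H →L[ℂ] H))) := fun x hx => by
    obtain ⟨y, b1, b2⟩ := near_comm _ hη q1 x fun z hz => (std_mem.1 hx z hz).symm
    exact ⟨y, std_mem.2 ((h0 y).1 b1), b2⟩
  have d : 2 * KD * η ≤ 2 * KD * (2 * KD * η) :=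
    le_mul_of_one_le_left (by positivity) (by linarith)
  exact ⟨cA.near cD (by positivity) br, cD.near cA (by positivity) rb, rb.mono d, br.mono d⟩

end Ra

theorem sigLoc : ∃ C : ℝ, 1 ≤ C ∧ ∀ ε δ : ℝ, 0 ≤ ε → 0 < δ → C * δ ≤ 1 → SL.{u} ε (C * δ) →
    ∀ {H : Type u} [NormedAddCommGroup H] [InnerProductSpace ℂ H] [CompleteSpace H] (M N : SA H)
      {ι : Type} [Fintype ι] (ξ : ι → H),
      (∀ T, (∀ S, (∀ x ∈ M, S * x = x * S) → S * T = T * S) → T ∈ M) →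
      (∀ x ∈ M, (∀ i, x (ξ i) = 0) → x = 0) →
      Near δ (M : Set (H →L[ℂ] H)) N → Near δ (N : Set (H →L[ℂ] H)) M → ∀ F : Finset N,
        ∃ ψ : N →ₗ[ℂ] (H →L[ℂ] H), ∀ n ∈ F, ψ n ∈ M ∧ ‖ψ n - n‖ ≤ C * (ε + δ) * ‖n‖ := by
  have hK := one_le_KD
  have hK2 : KD ≤ KD ^ 3 := le_self_pow₀ hK three_ne_zero
  refine ⟨32000 * KD ^ 3, by linarith, fun ε δ hε hδ hδ1 hS {H} _ _ _ M N ι _ ξ hM hs h1 h2 F => ?_⟩
  classical
  have d1 : KD * δ ≤ KD ^ 3 * δ := by gcongr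
  have d2 : δ ≤ KD * δ := le_mul_of_one_le_left hδ.le hK
  rcases eq_or_ne (WithLp.toLp 2 ξ : Pw ι H) 0 with h0 | h0
  · have : Subsingleton (H →L[ℂ] H) :=
      subsingleton_of_zero_eq_one (hs 1 (one_mem _) fun i => congr($h0 i)).symm
    refine ⟨0, fun n _ => ⟨zero_mem _, ?_⟩⟩
    rw [Subsingleton.elim (_ - _) 0, norm_zero]
    positivity
  obtain ⟨i0⟩ : Nonempty ι := not_isEmpty_iff.1 fun _ => h0 (Subsingleton.elim _ _)
  have hπ : ∀ x, ‖amp H ι x‖ = ‖x‖ := NonUnitalStarAlgHom.norm_map _ fun a b h =>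
    ContinuousLinearMap.ext fun v => by
      have := congr($h (WithLp.toLp 2 fun _ => v) i0)
      rwa [amp_apply, amp_apply] at this
  set c : ℂ := ((‖(WithLp.toLp 2 ξ : Pw ι H)‖⁻¹ : ℝ) : ℂ) with hc
  have c0 : c ≠ 0 := by simpa [hc] using h0
  obtain ⟨M₀, m0, N₀, n0, f0, sp, k1, k2⟩ := exists_sep hδ h1 h2 (F.image Subtype.val)
    fun n hn => by obtain ⟨m, -, rfl⟩ := Finset.mem_image.1 hn; exact m.2
  obtain ⟨S, _, hΩ, he, hd⟩ := Fn.exists_cyc (amp H ι) M₀ (c • WithLp.toLp 2 ξ)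
  obtain ⟨ρ, r1, r2⟩ := Fn.exists_rho (amp H ι) hπ (by positivity) (by linarith) k2
    isStarProjection_starProjection he
  have cM := (cp_cz (M₀ : Set (H →L[ℂ] H))).symm
  set M₁ := cz (cz (M₀ : Set (H →L[ℂ] H)) : Set (H →L[ℂ] H))
  have m1 : M₀ ≤ M₁ := fun x hx => std_mem.2 fun y hy => (std_mem.1 hy x hx).symm
  have m2 : M₁ ≤ M := fun x hx => hM x fun T hT =>
    (std_mem.1 hx T (std_mem.2 fun y hy => hT y (m0 hy))).symm
  have he1 : ∀ m : M₁, S.starProjection * amp H ι m = amp H ι m * S.starProjection :=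
    fun m => Ra.amp_bic (fun m hm => he ⟨m, hm⟩) m.2
  obtain ⟨α, hα⟩ : ∃ α : M₁ →⋆ₐ[ℂ] (S →L[ℂ] S), ∀ m, α m = cmp S (amp H ι m) :=
    ⟨cmpHom ((amp H ι).comp M₁.subtype) he1, fun _ => rfl⟩
  obtain ⟨β, hβ⟩ : ∃ β : N₀ →⋆ₐ[ℂ] (S →L[ℂ] S), ∀ n, β n = cmp S (ρ n) :=
    ⟨cmpHom ρ r1, fun _ => rfl⟩
  have a1 : ∀ m v, (α m v : Pw ι H) = amp H ι m v := fun m v => by rw [hα, cmp_apply' (he1 m)]
  have a0 : ∀ m, α m ⟨_, hΩ⟩ = 0 → m = 0 := fun m hm => Subtype.ext (hs m (m2 m.2) fun i => by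
    have := congr(($((a1 m _).symm.trans (congrArg Subtype.val hm)) : Pw ι H) i)
    simpa [amp_apply, c0] using this)
  have a2 : Function.Injective α := (injective_iff_map_eq_zero α).2 fun m hm =>
    a0 m (by rw [hm]; rfl)
  have := cM.closed
  have a3 : ∀ m, ‖α m‖ = ‖m‖ := NonUnitalStarAlgHom.norm_map α a2
  have cA := Ra.cp_range cM a1 a2
  obtain ⟨α₀, hα₀⟩ : ∃ α₀ : M₀ →⋆ₐ[ℂ] (S →L[ℂ] S), ∀ m, α₀ m = α ⟨m, m1 m.2⟩ :=
    ⟨α.comp (StarSubalgebra.inclusion m1), fun _ => rfl⟩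
  obtain ⟨q1, q2, q3⟩ := Ra.ranges (E' := S →L[ℂ] S) (α := α₀) (β := β)
    (δ := 1600 * KD * δ) (by positivity) (by linarith) (fun m => by rw [hα₀, a3]; rfl)
    (fun m n => by
      rw [hα₀, hα, hβ, ← map_sub]
      refine (norm_cmp_le _).trans ((norm_sub_le_norm_sub_add_norm_sub _ (amp H ι n) _).trans
        (add_le_add ((r2 n).trans (le_of_eq (by ring))) ?_))
      rw [← map_sub, hπ]) (k1.mono (by linarith)) (k2.mono (by linarith))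
  have sA := Ra.sp_range cA (fun v η hη => by
      obtain ⟨x, hx, e⟩ := hd v v.2 η hη
      refine ⟨α ⟨x, m1 hx⟩, ⟨_, rfl⟩, ?_⟩
      rwa [← Submodule.norm_coe, Submodule.coe_sub, a1]) a0 (by
    rw [← Submodule.norm_coe, norm_smul, hc, Complex.norm_real, norm_inv, norm_norm,
      inv_mul_cancel₀ (norm_ne_zero_iff.2 h0)])
  have : SeparableSpace S := IsSeparable.separableSpace
    ((sp.image (f := fun x => amp H ι x (c • WithLp.toLp 2 ξ)) (by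
      have : Continuous (amp H ι) := map_continuous _
      fun_prop)).closure.mono fun v hv =>
      Metric.mem_closure_iff.2 fun η hη => by
        obtain ⟨x, hx, e⟩ := hd v hv _ (half_pos hη)
        exact ⟨_, ⟨x, hx, rfl⟩, by rw [dist_comm, dist_eq_norm]; linarith⟩)
  have n4 := Ra.n4 (by positivity) cA (fun y => ⟨fun h => ?_, fun h => ?_⟩) q1 q2
  · obtain ⟨ψ, hψ⟩ := Ra.pullback (β := β) a3 (fun n => std_mem.2 fun y hy =>
      (std_mem.1 hy _ (show β n ∈ β.range from ⟨n, rfl⟩)).symm) hε (hS S _ _ _ _ _ sA (cp_cz _).symm (n4.mono (by nlinarith)))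
      fun n => by
        obtain ⟨m, hm⟩ := q3 n
        exact ⟨⟨m, m1 m.2⟩, hα₀ m ▸ hm⟩
    refine ⟨ψ ∘ₗ N.subtype.toLinearMap, fun n hn => ?_⟩
    obtain ⟨e1, e2⟩ := hψ n (f0 n (Finset.mem_image_of_mem _ hn))
    have e3 : ε ≤ KD ^ 3 * ε := le_mul_of_one_le_left hε (hK.trans hK2)
    exact ⟨m2 e1, e2.trans (mul_le_mul_of_nonneg_right (by linarith) (norm_nonneg _))⟩
  · rintro _ ⟨m, rfl⟩
    change y * α m = α m * y
    rw [hα, Ra.xt_comm (he1 m)]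
    refine Ra.amp_bic (fun m hm => (Ra.xt_comm (he ⟨m, hm⟩) y).1 ?_) m.2
    exact (h _ ⟨⟨m, hm⟩, (hα₀ _).trans (hα _)⟩).symm
  · rintro _ ⟨m, rfl⟩
    exact (h _ ⟨_, (hα₀ m).symm⟩).symm

end Vale.Agent.P096
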