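import Vale.Agent.P096.G.RedA

/-! Reduction to separable standard forms, second part. -/

namespace Vale.Agent.P096

open scoped InnerProductSpace Topology ComplexConjugate
open Filter
open Vale.Agent.P132 (FC BC ex pp qq rr EE chi Std PM MD)

universe u

namespace RedB

/-- The lifting statement for algebras with a finite separating family. -/
def FL (c δ : ℝ) : Prop :=
  ∀ {H : Type u} [NormedAddCommGroup H] [InnerProductSpace ℂ H] [CompleteSpace H] (M N : SA H)
    {ι : Type} [Fintype ι] (ξ : ι → H),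
    (∀ T, (∀ S, (∀ x ∈ M, S * x = x * S) → S * T = T * S) → T ∈ M) →
    (∀ x ∈ M, (∀ i, x (ξ i) = 0) → x = 0) →
    Near δ (M : Set (H →L[ℂ] H)) N → Near δ (N : Set (H →L[ℂ] H)) M →
      ∃ ψ : N →ₗ[ℂ] (H →L[ℂ] H), ∀ n, ψ n ∈ M ∧ ‖ψ n - n‖ ≤ c * ‖n‖

theorem sigAll : ∃ C : ℝ, 1 ≤ C ∧ ∀ ε δ : ℝ, 0 ≤ ε → 0 < δ → C * δ ≤ 1 → SL.{u} ε (C * δ) →
    FL.{u} (C * (ε + δ)) δ := by
  classical
  obtain ⟨C, hC, h⟩ := sigLoc.{u}
  refine ⟨C, hC, fun ε δ hε hδ h1 h2 H _ _ _ M N ι _ ξ hM hs n1 n2 => ?_⟩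
  choose ψ hψ using h ε δ hε hδ h1 h2 M N ξ hM hs n1 n2
  let U : Ultrafilter (Finset N) := Ultrafilter.of atTop
  have hU : ∀ n : N, ∀ᶠ F : Finset N in U, n ∈ F := fun n =>
    ((eventually_ge_atTop ({n} : Finset N)).filter_mono (Ultrafilter.of_le _)).mono fun F hF =>
      hF (Finset.mem_singleton_self n)
  choose y hy using fun n : N => exists_WT U (x := fun F => ψ F n)
    (r := C * (ε + δ) * ‖n‖ + ‖(n : H →L[ℂ] H)‖) ((hU n).mono fun F hF => by
      linarith [norm_le_norm_add_norm_sub' (ψ F n) n, (hψ F n hF).2])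
  refine ⟨{ toFun := y
            map_add' := fun a b => (hy (a + b)).eq_of ((hy a).add (hy b))
              (Eventually.of_forall fun i => map_add _ _ _)
            map_smul' := fun c a => (hy (c • a)).eq_of ((hy a).smul c)
              (Eventually.of_forall fun i => map_smul _ _ _) }, fun n => ⟨?_, ?_⟩⟩
  · exact hM _ fun S hS => ((hy n).comm ((hU n).mono fun F hF => (hS _ (hψ F n hF).1).symm)).symm
  · exact ((hy n).sub (WT_of_strong fun _ => tendsto_const_nhds)).norm_le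
      ((hU n).mono fun F hF => (hψ F n hF).2)

variable {H : Type u} [NormedAddCommGroup H] [InnerProductSpace ℂ H] [CompleteSpace H]

lemma exists_sub (M : VonNeumannAlgebra H) (F : Finset H) : ∃ (S : Submodule ℂ H)
    (_ : CompleteSpace S), S.starProjection ∈ M ∧ (∀ v ∈ F, v ∈ S) ∧
      ∀ x ∈ M, (∀ v ∈ F, x v = 0) → x * S.starProjection = 0 := by
  let S := (Submodule.span ℂ {w | ∃ c ∈ M.commutant, ∃ v ∈ F, c v = w}).topologicalClosure
  have : CompleteSpace S := (Submodule.isClosed_topologicalClosure _).completeSpace_coe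
  have key : ∀ (T : H →L[ℂ] H) (Q : Submodule ℂ H), IsClosed (Q : Set H) →
      (∀ c ∈ M.commutant, ∀ v ∈ F, T (c v) ∈ Q) → ∀ w ∈ S, T w ∈ Q := fun T Q hQ h w hw =>
    Submodule.topologicalClosure_minimal (t := Q.comap (T : H →ₗ[ℂ] H)) _
      (Submodule.span_le.2 (by rintro _ ⟨c, hc, v, hv, rfl⟩; exact h c hc v hv))
      (hQ.preimage T.continuous) hw
  have mem : ∀ c ∈ M.commutant, ∀ v ∈ F, c v ∈ S := fun c hc v hv =>
    Submodule.le_topologicalClosure _ (Submodule.subset_span ⟨c, hc, v, hv, rfl⟩)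
  have inv : ∀ c ∈ M.commutant, ∀ w ∈ S, c w ∈ S := fun c hc =>
    key c S (Submodule.isClosed_topologicalClosure _) fun c' hc' v hv =>
      mem (c * c') (mul_mem hc hc') v hv
  refine ⟨S, this, vn_mem fun c hc => Fn.proj_comm (inv c hc) (inv _ (star_mem hc)),
    fun v hv => mem 1 (one_mem _) v hv, fun x hx h0 => ContinuousLinearMap.ext fun w => ?_⟩
  refine key x ⊥ isClosed_singleton (fun c hc v hv => ?_) _ (S.starProjection_apply_mem w)
  rw [← ContinuousLinearMap.mul_apply, vn_comm hx hc, ContinuousLinearMap.mul_apply, h0 v hv,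
    map_zero]
  exact zero_mem _

theorem cor {c δ : ℝ} (hfin : FL.{u} c (401 * δ)) (hc : 0 ≤ c) (hδ : 0 < δ) (hδ1 : 100 * δ ≤ 1)
    {M N : VonNeumannAlgebra H} (hMN : Near δ (M : Set (H →L[ℂ] H)) N)
    (hNM : Near δ (N : Set (H →L[ℂ] H)) M) (F : Finset H) :
    ∃ p : H →L[ℂ] H, ‖p‖ ≤ 1 ∧ (∀ v ∈ F, p v = v) ∧ ∃ ψ : N.toStarSubalgebra →ₗ[ℂ] (H →L[ℂ] H),
      ∀ n, ψ n ∈ M ∧ ‖ψ n - p * n * p‖ ≤ (c + 200 * δ) * ‖n‖ := by
  obtain ⟨S, _, hpM, hF, h2⟩ := exists_sub M F
  have hp : IsStarProjection S.starProjection := isStarProjection_starProjection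
  obtain ⟨c', hc', hpc⟩ := hMN _ hpM
  obtain ⟨q, hq, -, w, hw, hw1, hwq⟩ := proj_near N.toStarSubalgebra (P082.vn_closed N) hp hc'
    (ε := δ) (by
      rw [norm_sub_rev]
      exact hpc.trans (mul_le_of_le_one_right hδ.le hp.norm_le)) hδ1
  have hw2 : ‖star w - 1‖ ≤ 100 * δ := by rw [← norm_star, star_sub, star_star, star_one]; exact hw1
  let N' : StarSubalgebra ℂ (H →L[ℂ] H) := N.toStarSubalgebra.comap
    (Unitary.conjStarAlgAut ℂ _ (star (⟨w, hw⟩ : unitary (H →L[ℂ] H))) : _ →⋆ₐ[ℂ] _)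
  have hN' : ∀ y, y ∈ N' ↔ star w * y * star (star w) ∈ N := fun _ => Iff.rfl
  have hN1 : ∀ y ∈ N, w * y * star w ∈ N' := fun y hy => by
    rw [hN', star_star, ← mul_assoc, ← mul_assoc, hw.1, one_mul, mul_assoc, hw.1, mul_one]
    exact hy
  have hpM' : S.starProjection ∈ M.toStarSubalgebra := hpM
  have hpN : S.starProjection ∈ N' := by
    rw [hN', star_star, mul_assoc, ← hwq, ← mul_assoc, hw.1, one_mul]
    exact hq
  have n1 : Near (401 * δ) (M.toStarSubalgebra : Set (H →L[ℂ] H)) N' := fun x hx => by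
    obtain ⟨y, hy, e⟩ := hMN x hx
    refine ⟨_, hN1 y hy, ?_⟩
    have e1 := norm_conj_sub (y := y) hw hw1
    have e2 := norm_sub_le x (x - y)
    have e3 := norm_sub_le (x - y) (w * y * star w - y)
    rw [sub_sub_cancel] at e2
    rw [sub_sub_sub_cancel_right] at e3
    have e4 : δ * ‖x‖ ≤ ‖x‖ := mul_le_of_le_one_left (norm_nonneg _) (by linarith)
    nlinarith [mul_le_mul_of_nonneg_left (show ‖y‖ ≤ 2 * ‖x‖ by linarith) hδ.le]
  have n2 : Near (401 * δ) (N' : Set (H →L[ℂ] H)) M.toStarSubalgebra := fun y hy => by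
    obtain ⟨x, hx, e⟩ := hNM _ ((hN' y).1 hy)
    refine ⟨x, hx, ?_⟩
    have e1 := norm_conj_sub (y := y) (Unitary.star_mem hw) hw2
    have e2 := norm_conj_le (y := y) (Unitary.star_mem hw)
    have e3 := norm_sub_le (star w * y * star (star w) - x) (star w * y * star (star w) - y)
    rw [sub_sub_sub_cancel_left] at e3
    nlinarith [mul_le_mul_of_nonneg_left e2 hδ.le, mul_nonneg hδ.le (norm_nonneg y)]
  obtain ⟨ψ, hψ⟩ := hfin (corner S _ hpM') (corner S N' hpN)
    (fun i : Fin F.card => ⟨F.equivFin.symm i, hF _ (F.equivFin.symm i).2⟩)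
    (fun T hT => vn_mem (T := xt S T) fun c hc => by
      have c1 : S.starProjection * c = c * S.starProjection := vn_comm hpM' hc
      have c2 := hT (cmp S c) fun x hx => by
        rw [← cmp_xt x, ← cmp_mul _ c1, ← cmp_mul _ (by rw [proj_mul_xt, xt_mul_proj]),
          vn_comm (M := M) hx hc]
      have c3 := congrArg (xt S) c2
      have c4 : S.starProjection * c * S.starProjection * xt S T = c * xt S T := by
        rw [mul_assoc, proj_mul_xt, c1, mul_assoc, proj_mul_xt]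
      have c5 : xt S T * (S.starProjection * c * S.starProjection) = xt S T * c := by
        rw [mul_assoc, ← c1, ← mul_assoc, ← mul_assoc, xt_mul_proj, xt_mul_proj]
      rw [xt_mul, xt_mul, xt_cmp, c4, c5] at c3
      exact c3.symm)
    (fun x hxM h0 => by
      rw [← cmp_xt x, ← xt_mul_proj, h2 _ hxM fun v hv => ?_, map_zero]
      have := h0 (F.equivFin ⟨v, hv⟩)
      simp only [Equiv.symm_apply_apply] at this
      rw [xt_apply, Submodule.orthogonalProjection_mem_subspace_eq_self ⟨v, hF v hv⟩, this]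
      rfl)
    (n1.corner _ _ (by positivity)) (n2.corner _ _ (by positivity))
  let j : N.toStarSubalgebra →ₗ[ℂ] corner S N' hpN :=
    { toFun := fun n => ⟨cmp S (w * n * star w), cmp_mem hpN (hN1 n n.2)⟩
      map_add' := fun a b => Subtype.ext (by simp [mul_add, add_mul])
      map_smul' := fun a b => Subtype.ext (by simp) }
  refine ⟨_, hp.norm_le, fun v hv => Submodule.starProjection_eq_self_iff.2 (hF v hv),
    xt S ∘ₗ ψ ∘ₗ j, fun n => ⟨(hψ (j n)).1, ?_⟩⟩
  have e1 : (xt S ∘ₗ ψ ∘ₗ j) n - S.starProjection * n * S.starProjection =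
      xt S (ψ (j n) - j n) + xt S (cmp S (w * n * star w - n)) := by
    rw [map_sub, map_sub, map_sub, xt_cmp (n : H →L[ℂ] H)]
    exact (sub_add_sub_cancel _ _ _).symm
  have e2 : ‖j n‖ ≤ ‖n‖ := (norm_cmp_le _).trans (norm_conj_le hw)
  have e3 := (norm_xt_le _).trans ((hψ (j n)).2.trans (mul_le_mul_of_nonneg_left e2 hc))
  have e4 := (norm_xt_le (S := S) _).trans ((norm_cmp_le _).trans
    (norm_conj_sub (y := (n : H →L[ℂ] H)) hw hw1))
  rw [e1]
  refine (norm_add_le _ _).trans ((add_le_add e3 e4).trans_eq ?_)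
  show _ + _ * ‖n‖ = _
  ring

end RedB

theorem red : ∃ C : ℝ, 1 ≤ C ∧ ∀ ε δ : ℝ, 0 ≤ ε → 0 < δ → C * δ ≤ 1 → SL.{u} ε (C * δ) →
    ∀ {H : Type u} [NormedAddCommGroup H] [InnerProductSpace ℂ H] [CompleteSpace H]
      (M N : VonNeumannAlgebra H), Near δ (M : Set (H →L[ℂ] H)) N →
      Near δ (N : Set (H →L[ℂ] H)) M → ∃ ψ : N.toStarSubalgebra →ₗ[ℂ] (H →L[ℂ] H),
        ∀ n, ψ n ∈ M ∧ ‖ψ n - n‖ ≤ C * (ε + δ) * ‖n‖ := by
  classical
  obtain ⟨C, hC, h⟩ := RedB.sigAll.{u}
  refine ⟨401 * C + 200, by linarith, fun ε δ hε hδ h1 h2 H _ _ _ M N hMN hNM => ?_⟩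
  have hCδ : 0 ≤ C * δ := by positivity
  have hf : RedB.FL.{u} (C * (ε + 401 * δ)) (401 * δ) := h ε (401 * δ) hε (by positivity)
    (by nlinarith) fun K _ _ _ _ A R D B Ω s1 s2 s3 => h2 K A R D B Ω s1 s2 (s3.mono (by nlinarith))
  choose p hp1 hp2 ψ hψ using RedB.cor hf (by positivity) hδ (by nlinarith) hMN hNM
  have hb : ∀ F n, ‖ψ F n - p F * n * p F‖ ≤ (401 * C + 200) * (ε + δ) * ‖n‖ := fun F n =>
    (hψ F n).2.trans (mul_le_mul_of_nonneg_right (by nlinarith) (norm_nonneg _))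
  let U : Ultrafilter (Finset H) := Ultrafilter.of atTop
  have hU : ∀ v, ∀ᶠ F : Finset H in U, p F v = v := fun v =>
    ((eventually_ge_atTop ({v} : Finset H)).filter_mono (Ultrafilter.of_le _)).mono fun F hF =>
      hp2 F v (hF (Finset.mem_singleton_self v))
  have hw : ∀ n : H →L[ℂ] H, WT U (fun i => p i * n * p i) n := fun n => WT_of_strong fun v =>
    tendsto_const_nhds.congr' (((hU v).and (hU (n v))).mono fun F hF => by
      simp only [ContinuousLinearMap.mul_apply, hF.1, hF.2])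
  choose y hy using fun n : N.toStarSubalgebra => exists_WT U (x := fun i => ψ i n)
    (r := (401 * C + 200) * (ε + δ) * ‖n‖ + ‖(n : H →L[ℂ] H)‖) (Eventually.of_forall fun i => by
      have e1 := norm_add_le (ψ i n - p i * n * p i) (p i * n * p i)
      have e2 := (norm_mul_le (p i) (n : H →L[ℂ] H)).trans
        (mul_le_of_le_one_left (norm_nonneg _) (hp1 i))
      have e3 := (norm_mul_le (p i * n) (p i)).trans
        (mul_le_of_le_one_right (norm_nonneg _) (hp1 i))
      rw [sub_add_cancel] at e1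
      linarith [hb i n])
  refine ⟨{ toFun := y
            map_add' := fun a b => (hy (a + b)).eq_of ((hy a).add (hy b))
              (Eventually.of_forall fun i => map_add _ _ _)
            map_smul' := fun c a => (hy (c • a)).eq_of ((hy a).smul c)
              (Eventually.of_forall fun i => map_smul _ _ _) }, fun n => ⟨?_, ?_⟩⟩
  · exact vn_mem fun S hS => (hy n).comm (Eventually.of_forall fun i => vn_comm (hψ i n).1 hS)
  · exact ((hy n).sub (hw n)).norm_le (Eventually.of_forall fun i => hb i n)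

end Vale.Agent.P096
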