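import Vale.Agent.P096.G.Site
import Vale.Agent.P096.G.L2
import Mathlib.LinearAlgebra.Matrix.Kronecker
import Mathlib.Data.Finsupp.Encodable

/-! Construction of the sites. -/

namespace Vale.Agent.P096

open scoped InnerProductSpace Topology ComplexConjugate Kronecker
open Filter
open Vale.Agent.P132 (FC BC ex pp qq rr EE chi Std PM MD)

universe u

namespace SiteA

section site

variable {X : Type*} [AddCommGroup X] [Fintype X] [DecidableEq X]
  {K : Type*} [NormedAddCommGroup K] [InnerProductSpace ℂ K]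

omit [AddCommGroup X] [DecidableEq X] in
lemma bd (M : Matrix X X ℂ) (a b : X) : ‖M a b • (1 : K →L[ℂ] K)‖ ≤ ∑ a, ∑ b, ‖M a b‖ := by
  rw [norm_smul]
  refine (mul_le_of_le_one_right (norm_nonneg _) ContinuousLinearMap.norm_id_le).trans ?_
  exact (Finset.single_le_sum (f := fun b => ‖M a b‖) (fun _ _ => norm_nonneg _)
    (Finset.mem_univ b)).trans (Finset.single_le_sum (f := fun a => ∑ b, ‖M a b‖)
    (fun _ _ => by positivity) (Finset.mem_univ a))

/-- A matrix acting at one site. -/
noncomputable def sl (s : ℕ) (M : Matrix X X ℂ) : L2 (ℕ →₀ X) K →L[ℂ] L2 (ℕ →₀ X) K :=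
  ∑ x, dgL (fun v => M (v s) (v s + x) • 1) * prm (Equiv.addRight (Finsupp.single s x))

omit [DecidableEq X] in
lemma sl_apply' (s : ℕ) (M : Matrix X X ℂ) (ξ : L2 (ℕ →₀ X) K) (v : ℕ →₀ X) :
    sl s M ξ v = ∑ x, M (v s) (v s + x) • ξ (v + Finsupp.single s x) := by
  simp only [sl, ContinuousLinearMap.sum_apply, lp.coeFn_sum, Finset.sum_apply,
    ContinuousLinearMap.mul_apply, dgL_apply fun v : ℕ →₀ X => bd (K := K) M (v s) _, prm_apply]
  rfl

omit [DecidableEq X] in
lemma sl_apply (s : ℕ) (M : Matrix X X ℂ) (ξ : L2 (ℕ →₀ X) K) (v : ℕ →₀ X) :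
    sl s M ξ v = ∑ y, M (v s) y • ξ (v.update s y) := by
  rw [sl_apply']
  refine Fintype.sum_equiv (Equiv.addLeft (v s)) _ _ fun x => ?_
  refine congrArg (fun u => M (v s) (v s + x) • ξ u) (Finsupp.ext fun t => ?_)
  rcases eq_or_ne t s with rfl | h
  · simp
  · simp [h]

omit [DecidableEq X] in
lemma sl_comm {s s' : ℕ} (h : s ≠ s') (M M' : Matrix X X ℂ) :
    (sl s M * sl s' M' : L2 (ℕ →₀ X) K →L[ℂ] _) = sl s' M' * sl s M := L2.ext fun ξ v => by
  simp only [ContinuousLinearMap.mul_apply, sl_apply, Finset.smul_sum, smul_smul,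
    Finsupp.coe_update, Function.update_of_ne h, Function.update_of_ne h.symm]
  rw [Finset.sum_comm]
  simp only [mul_comm, Finsupp.update_comm _ h]

lemma sl_single (s : ℕ) (M : Matrix X X ℂ) {v : ℕ →₀ X} (h : v s = 0) (k : K) :
    sl s M (lp.single 2 v k) = ∑ x, M x 0 • (lp.single 2 (v + Finsupp.single s x) k :
      L2 (ℕ →₀ X) K) := by
  simp only [sl, ContinuousLinearMap.sum_apply, ContinuousLinearMap.mul_apply, prm_single,
    dgL_single fun v : ℕ →₀ X => bd (K := K) M (v s) _]
  refine Fintype.sum_equiv (Equiv.neg X) _ _ fun x => ?_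
  simp [h, lp.single_smul]

variable [CompleteSpace K]

variable (K) in
/-- The action at one site as a star homomorphism. -/
noncomputable def site (s : ℕ) : Matrix X X ℂ →⋆ₐ[ℂ] (L2 (ℕ →₀ X) K →L[ℂ] L2 (ℕ →₀ X) K) where
  toFun := sl s
  map_one' := L2.ext fun ξ v => by simp [sl_apply, Matrix.one_apply]
  map_mul' M M' := L2.ext fun ξ v => by
    simp only [ContinuousLinearMap.mul_apply, sl_apply, Finset.smul_sum, smul_smul,
      Finsupp.coe_update, Function.update_self, Finsupp.update_idem, Matrix.mul_apply,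
      Finset.sum_smul]
    exact Finset.sum_comm
  map_zero' := L2.ext fun ξ v => by simp [sl_apply]
  map_add' M M' := L2.ext fun ξ v => by simp [sl_apply, add_smul, Finset.sum_add_distrib]
  commutes' c := L2.ext fun ξ v => by simp [sl_apply, Matrix.algebraMap_matrix_apply]
  map_star' M := L2.ext fun ξ v => by
    rw [sl_apply', sl]
    simp only [star_sum, star_mul, star_prm, ContinuousLinearMap.sum_apply, lp.coeFn_sum,
      star_dgL fun v : ℕ →₀ X => bd (K := K) M (v s) _, Finset.sum_apply,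
      ContinuousLinearMap.mul_apply, prm_apply]
    refine Fintype.sum_equiv (Equiv.neg X) _ _ fun x => ?_
    rw [dgL_apply (C := ∑ a, ∑ b, ‖M a b‖) fun v => by rw [norm_star]; exact bd M _ _]
    simp

omit [DecidableEq X] in
lemma amp_sl (T : K →L[ℂ] K) (s : ℕ) (M : Matrix X X ℂ) :
    ampL (ℕ →₀ X) K T * sl s M = sl s M * ampL (ℕ →₀ X) K T := L2.ext fun ξ v => by
  simp only [ContinuousLinearMap.mul_apply, sl_apply, ampL_apply, map_sum, map_smul]

end site

abbrev M2 := Matrix (Fin 2) (Fin 2) ℂ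

abbrev M4 := Matrix (Fin 2 × Fin 2) (Fin 2 × Fin 2) ℂ

/-- Left tensor factor. -/
def kl : M2 →⋆ₐ[ℂ] M4 where
  toFun m := m ⊗ₖ (1 : M2)
  map_one' := Matrix.one_kronecker_one
  map_mul' m m' := by rw [← Matrix.mul_kronecker_mul, mul_one]
  map_zero' := Matrix.zero_kronecker _
  map_add' _ _ := Matrix.add_kronecker _ _ _
  commutes' c := by simp only [Algebra.algebraMap_eq_smul_one, Matrix.smul_kronecker,
    Matrix.one_kronecker_one]
  map_star' m := by simp only [Matrix.star_eq_conjTranspose, Matrix.conjTranspose_kronecker,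
    Matrix.conjTranspose_one]

/-- Right tensor factor. -/
def kr : M2 →⋆ₐ[ℂ] M4 where
  toFun m := (1 : M2) ⊗ₖ m
  map_one' := Matrix.one_kronecker_one
  map_mul' m m' := by rw [← Matrix.mul_kronecker_mul, mul_one]
  map_zero' := Matrix.kronecker_zero _
  map_add' _ _ := Matrix.kronecker_add _ _ _
  commutes' c := by simp only [Algebra.algebraMap_eq_smul_one, Matrix.kronecker_smul,
    Matrix.one_kronecker_one]
  map_star' m := by simp only [Matrix.star_eq_conjTranspose, Matrix.conjTranspose_kronecker,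
    Matrix.conjTranspose_one]

lemma klr (m m' : M2) : kl m * kr m' = kr m' * kl m := by
  show m ⊗ₖ (1 : M2) * (1 : M2) ⊗ₖ m' = (1 : M2) ⊗ₖ m' * m ⊗ₖ (1 : M2)
  simp only [← Matrix.mul_kronecker_mul, mul_one, one_mul]

/-- A reflection exchanging the first basis vector and the vacuum. -/
def refl (a b : ℝ) : M4 := Matrix.of fun x y =>
  if x.1 = x.2 ∧ y.1 = y.2 then (!![a, b; b, -a] x.1 y.1 : ℝ) else if x = y then 1 else 0

lemma star_refl (a b : ℝ) : star (refl a b) = refl a b := by
  ext ⟨i, j⟩ ⟨k, l⟩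
  fin_cases i <;> fin_cases j <;> fin_cases k <;> fin_cases l <;> simp [refl]

lemma refl_sq {a b : ℝ} (h : a * a + b * b = 1) : refl a b * refl a b = 1 := by
  have h' : (a : ℂ) * a + b * b = 1 := by exact_mod_cast h
  ext ⟨i, j⟩ ⟨k, l⟩
  fin_cases i <;> fin_cases j <;> fin_cases k <;> fin_cases l <;>
    simp [refl, Matrix.mul_apply, Fintype.sum_prod_type, h', mul_comm (b : ℂ) a,
      (add_comm _ _).trans h']

lemma loc {p : ℝ} (hp : 0 < p ∧ p < 1) : ∃ l r : M2 →⋆ₐ[ℂ] M4,
    (∀ m m', l m * r m' = r m' * l m) ∧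
    (∀ a b x, (√(wt p a) : ℂ) * l (eu a b) x 0 = (√(wt p b) : ℂ) * r (eu b a) x 0) ∧
    ∀ x, ∃ m, ∀ y, l m y 0 = if y = x then 1 else 0 := by
  have h2 : refl (√p) (√(1 - p)) * refl (√p) (√(1 - p)) = 1 := refl_sq (by
    rw [Real.mul_self_sqrt hp.1.le, Real.mul_self_sqrt (sub_pos.2 hp.2).le]; ring)
  let O : unitary M4 := ⟨refl (√p) (√(1 - p)), by rw [Unitary.mem_iff, star_refl]; exact ⟨h2, h2⟩⟩
  let c : M4 →⋆ₐ[ℂ] M4 := Unitary.conjStarAlgAut ℂ _ O
  have hc (T : M4) (x) : c T x 0 = ∑ z, (O : M4) x z * (T * refl (√p) (√(1 - p))) z 0 := by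
    show ((O : M4) * T * star (refl _ _)) x 0 = _
    rw [star_refl, mul_assoc, Matrix.mul_apply]
  have hl (m : M2) (z) : (kl m * refl (√p) (√(1 - p))) z 0 = m z.1 z.2 * √(wt p z.2) := by
    obtain ⟨i, j⟩ := z
    fin_cases j <;> simp [kl, refl, wt, Matrix.mul_apply, Fintype.sum_prod_type]
  have hr (m : M2) (z) : (kr m * refl (√p) (√(1 - p))) z 0 = m z.2 z.1 * √(wt p z.1) := by
    obtain ⟨i, j⟩ := z
    fin_cases i <;> simp [kr, refl, wt, Matrix.mul_apply, Fintype.sum_prod_type]
  refine ⟨c.comp kl, c.comp kr, fun m m' => ?_, fun a b x => ?_, fun x => ?_⟩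
  · simp only [StarAlgHom.comp_apply, ← map_mul, klr]
  · simp only [StarAlgHom.comp_apply, hc, hl, hr, Finset.mul_sum]
    refine Finset.sum_congr rfl fun z _ => ?_
    simp only [Matrix.single_apply]
    by_cases h : a = z.1 ∧ b = z.2
    · obtain ⟨rfl, rfl⟩ := h
      simp only [and_self, if_true]
      ring
    · rw [if_neg h, if_neg (by tauto)]
      simp
  · refine ⟨Matrix.of fun a b => refl (√p) (√(1 - p)) (a, b) x / √(wt p b), fun y => ?_⟩
    have h0 (b) : ((√(wt p b) : ℝ) : ℂ) ≠ 0 := by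
      have : 0 < wt p b := by
        fin_cases b
        · exact hp.1
        · exact sub_pos.2 hp.2
      simpa using (Real.sqrt_pos.2 this).ne'
    simp only [StarAlgHom.comp_apply, hc, hl, Matrix.of_apply, div_mul_cancel₀ _ (h0 _)]
    rw [← Matrix.one_apply, ← h2, Matrix.mul_apply]

end SiteA

open SiteA in
theorem exists_sites (w : ℕ → ℝ) (hw : ∀ s, 0 < w s ∧ w s < 1) (K : Type u) [NormedAddCommGroup K]
    [InnerProductSpace ℂ K] [CompleteSpace K] [TopologicalSpace.SeparableSpace K] :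
    ∃ (K' : Type u) (_ : NormedAddCommGroup K') (_ : InnerProductSpace ℂ K') (_ : CompleteSpace K'),
      TopologicalSpace.SeparableSpace K' ∧ Nonempty (Sites w K K') := by
  classical
  choose l r h1 h2 h3 using fun s => loc (hw s)
  refine ⟨L2 (ℕ →₀ Fin 2 × Fin 2) K, inferInstance, inferInstance, inferInstance, ?_, ⟨{
    amp := ampL _ K
    ι := lp.singleContinuousLinearMap ℂ (fun _ => K) 2 0
    L := fun s => (site K s).comp (l s)
    R := fun s => (site K s).comp (r s)
    hw := hw
    inner_ι := fun v v' => ?_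
    amp_ι := fun T v => ampL_single T 0 v
    aL := fun T s m => amp_sl T s _
    aR := fun T s m => amp_sl T s _
    LR := fun s s' m m' => ?_
    LL := fun h m m' => sl_comm h _ _
    RR := fun h m m' => sl_comm h _ _
    vac := fun s a b v => ?_
    dense := fun N hN h0 hL => L2.mem_of_single hN fun v k => ?_ }⟩⟩
  · have h : TopologicalSpace.IsSeparable (⋃ i, Set.range
        (lp.singleContinuousLinearMap ℂ (fun _ : ℕ →₀ Fin 2 × Fin 2 => K) 2 i)) :=
      .iUnion fun i => TopologicalSpace.isSeparable_range (ContinuousLinearMap.continuous _)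
    exact TopologicalSpace.isSeparable_univ_iff.1 ((h.span (R := ℂ)).closure.mono fun ξ _ =>
      L2.mem_of_single (Submodule.isClosed_topologicalClosure _) (fun i v =>
        Submodule.le_topologicalClosure _ (Submodule.subset_span
          (Set.mem_iUnion.2 ⟨i, Set.mem_range_self v⟩))) ξ)
  · exact (lp.inner_single_left _ _ _).trans (by simp)
  · rcases eq_or_ne s s' with rfl | h
    · simp only [StarAlgHom.comp_apply, ← map_mul, h1]
    · exact sl_comm h _ _
  · show _ • sl s (l s _) (lp.single 2 0 v) = _ • sl s (r s _) (lp.single 2 0 v)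
    simp only [sl_single s _ (v := 0) rfl, Finset.smul_sum, smul_smul, h2]
  · induction v using Finsupp.induction with
    | zero => exact h0 k
    | single_add s x v hs _ ih =>
      obtain ⟨m, hm⟩ := h3 s x
      have := hL s m _ ih
      change sl s (l s m) (lp.single 2 v k) ∈ N at this
      rw [sl_single s _ (Finsupp.notMem_support_iff.1 hs)] at this
      simpa [hm, add_comm] using this

end Vale.Agent.P096
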