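import Vale.Agent.P096.G.Tw

/-! The ergodic group. -/

namespace Vale.Agent.P096

open scoped InnerProductSpace Topology ComplexConjugate
open Filter
open Vale.Agent.P132 (FC BC ex pp qq rr EE chi Std PM MD)

universe u

namespace Sites

variable {K K' : Type u} [NormedAddCommGroup K] [InnerProductSpace ℂ K]
  [CompleteSpace K] [NormedAddCommGroup K'] [InnerProductSpace ℂ K'] [CompleteSpace K']
  (S : Sites (fun _ => 1 / 2) K K') {A R : SA K} {Ω : K}

open SiteC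

lemma Q_eq (s : ℕ) : S.Q s = (2 : ℂ)⁻¹ • (1 + S.L s px * S.R s px) *
    (2 : ℂ)⁻¹ • (1 + S.L s pz * S.R s pz) := by
  have e0 (a b : Fin 2) : √(wt (1 / 2) a) * √(wt (1 / 2) b) = 1 / 2 := by
    have (a : Fin 2) : wt (1 / 2) a = 1 / 2 := by fin_cases a <;> norm_num [wt]
    rw [this, this, Real.mul_self_sqrt (by norm_num)]
  have e1 : (1 : Matrix (Fin 2) (Fin 2) ℂ) = eu 0 0 + eu 1 1 := by
    ext i j; fin_cases i <;> fin_cases j <;> simp
  have e2 : px = eu 0 1 + eu 1 0 := by ext i j; fin_cases i <;> fin_cases j <;> simp [px]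
  have e3 : pz = eu 0 0 - eu 1 1 := by ext i j; fin_cases i <;> fin_cases j <;> simp [pz]
  have e4 : px * pz = eu 1 0 - eu 0 1 := by
    ext i j; fin_cases i <;> fin_cases j <;> simp [px, pz]
  have e5 : (1 : K' →L[ℂ] K') = S.L s 1 * S.R s 1 := by simp
  simp only [smul_mul_smul_comm, mul_add, add_mul, mul_one, one_mul, S.LR_mul, e4]
  rw [e5, e1, e2, e3]
  simp only [Q, e0, Fin.sum_univ_two, map_add, map_sub, mul_add, add_mul, mul_sub, sub_mul]
  push_cast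
  module

lemma pauli_Q (s : ℕ) {m : Matrix (Fin 2) (Fin 2) ℂ} (hm : m = px ∨ m = pz) :
    S.L s m * S.R s m * S.Q s = S.Q s := by
  have e1 : px * px = 1 := by ext i j; fin_cases i <;> fin_cases j <;> simp [px]
  have e2 : pz * pz = 1 := by ext i j; fin_cases i <;> fin_cases j <;> simp [pz]
  have e3 : pz * px = -(px * pz) := by rw [pxz, neg_neg]
  have e4 : px * (px * pz) = pz := by rw [← mul_assoc, e1, one_mul]
  have e5 : pz * (px * pz) = -px := by rw [← mul_assoc, e3, neg_mul, mul_assoc, e2, mul_one]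
  rw [Q_eq, smul_mul_smul_comm, mul_smul_comm]
  congr 1
  rcases hm with rfl | rfl <;>
  · simp only [mul_add, add_mul, mul_one, one_mul, S.LR_mul, e1, e2, e3, e4, e5, neg_mul, map_neg,
      mul_neg, neg_neg, map_one]
    abel

variable {S} {Ω' : K'} {W W' : ℕ → K' →L[ℂ] K'}

lemma St2.conj {W V T : K' →L[ℂ] K'} (hW : W ∈ unitary _) (hV : V ∈ unitary _)
    (h : star W * V * T = T * (star W * V)) : W * T * star W = V * T * star V := by
  have e : V = W * (star W * V) := by rw [← mul_assoc, hW.2, one_mul]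
  nth_rewrite 1 [e]
  rw [mul_assoc W (_ * _), h, mul_assoc, mul_assoc, mul_assoc, mul_assoc, hV.2, mul_one]

lemma St2.mul {W : K' →L[ℂ] K'} (hW : W ∈ unitary _) (T T' : K' →L[ℂ] K') :
    W * T * star W * (W * T' * star W) = W * (T * T') * star W := by
  simp only [mul_assoc]
  rw [← mul_assoc (star W) W, hW.1, one_mul]

lemma Tw.cL (h : S.Tw R Ω' W W') {s n : ℕ} (hs : s ≤ n) (m : Matrix (Fin 2) (Fin 2) ℂ) :
    W s * S.L s m * star (W s) = W n * S.L s m * star (W n) :=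
  St2.conj (h.un s) (h.un n) (h.con hs s s.lt_succ_self m).1

lemma Tw.cR (h : S.Tw R Ω' W W') {s n : ℕ} (hs : s ≤ n) (m : Matrix (Fin 2) (Fin 2) ℂ) :
    W' s * S.R s m * star (W' s) = W' n * S.R s m * star (W' n) :=
  St2.conj (h.un' s) (h.un' n) (h.con' hs s s.lt_succ_self m).2

lemma Tw.cLR (h : S.Tw R Ω' W W') (s n : ℕ) (m : Matrix (Fin 2) (Fin 2) ℂ) :
    W n * S.L s m * star (W n) * (W' n * S.R s m * star (W' n)) =
      W n * W' n * (S.L s m * S.R s m) * star (W n * W' n) := by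
  rw [S.swap _ _ (mul_mem (h.mem' n) (S.R_mem R s m)) (star_mem (h.mem n)),
    S.swap _ _ (h.mem' n) (S.L_mem R s m), (S.cp_up R).cm _ (h.mem n) _ (h.mem' n), star_mul]

/-- The generators of the group. -/
def St2.gen (S : Sites (fun _ => 1 / 2) K K') (R : SA K) (W W' : ℕ → K' →L[ℂ] K') :
    Set (unitary (K' →L[ℂ] K') × unitary (K' →L[ℂ] K')) :=
  {g | (∃ s m, (m = px ∨ m = pz) ∧ (g.1 : K' →L[ℂ] K') = W s * S.L s m * star (W s) ∧
    (g.2 : K' →L[ℂ] K') = W' s * S.R s m * star (W' s)) ∨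
    (g.1 : K' →L[ℂ] K') ∈ S.up R ⊓ S.up' R ∧ (g.2 : K' →L[ℂ] K') = star (g.1 : K' →L[ℂ] K')}

/-- The stabiliser of the vector. -/
def St2.stab (S : Sites (fun _ => 1 / 2) K K') (R : SA K) (Ω' : K') :
    Subgroup (unitary (K' →L[ℂ] K') × unitary (K' →L[ℂ] K')) where
  carrier := {g | (g.1 : K' →L[ℂ] K') ∈ S.up R ∧ (g.2 : K' →L[ℂ] K') ∈ S.up' R ∧
    (g.1 : K' →L[ℂ] K') ((g.2 : K' →L[ℂ] K') Ω') = Ω'}
  one_mem' := ⟨one_mem _, one_mem _, rfl⟩
  mul_mem' {a b} ha hb := ⟨mul_mem ha.1 hb.1, mul_mem ha.2.1 hb.2.1, by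
    show a.1.1 (b.1.1 (a.2.1 (b.2.1 Ω'))) = Ω'
    rw [(S.cp_up R).app hb.1 ha.2.1, hb.2.2, ha.2.2]⟩
  inv_mem' {a} ha := ⟨star_mem ha.1, star_mem ha.2.1, by
    show star a.1.1 (star a.2.1 Ω') = Ω'
    conv_lhs => rw [← ha.2.2, (S.cp_up R).app ha.1 ha.2.1, ← ContinuousLinearMap.mul_apply _ a.2.1,
      a.2.2.1, ContinuousLinearMap.one_apply, ← ContinuousLinearMap.mul_apply, a.1.2.1]
    rfl⟩

lemma Tw.gen_le (h : S.Tw R Ω' W W') : St2.gen S R W W' ⊆ St2.stab S R Ω' := by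
  rintro g (⟨s, m, hm, e1, e2⟩ | ⟨e1, e2⟩)
  · refine ⟨e1 ▸ mul_mem (mul_mem (h.mem s) (S.L_mem R s m)) (star_mem (h.mem s)),
      e2 ▸ mul_mem (mul_mem (h.mem' s) (S.R_mem R s m)) (star_mem (h.mem' s)), ?_⟩
    rw [e1, e2, ← ContinuousLinearMap.mul_apply, h.cLR, ContinuousLinearMap.mul_apply, ← h.fix,
      ← ContinuousLinearMap.mul_apply, mul_assoc, S.pauli_Q s hm, ContinuousLinearMap.mul_apply,
      h.fix, ← ContinuousLinearMap.mul_apply, (mul_mem (h.un s) (h.un' s)).2]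
    rfl
  · refine ⟨e1.1, e2 ▸ star_mem e1.2, ?_⟩
    rw [e2, ← ContinuousLinearMap.mul_apply, g.1.2.2]
    rfl

lemma Tw.am (h : S.Tw R Ω' W W') : Am (Subgroup.closure (St2.gen S R W W')) := by
  refine am_closure (m1, m1) (fun x => Prod.ext (Subtype.ext (by simp)) (Subtype.ext (by simp)))
    (Prod.ext (Subtype.ext (by simp)) (Subtype.ext (by simp)))
    (.inr ⟨neg_mem (one_mem _), by simp⟩) fun x hx y hy => ?_
  have cen {x y} (hx : x ∈ St2.gen S R W W') (e1 : (y.1 : K' →L[ℂ] K') ∈ S.up R ⊓ S.up' R)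
      (e2 : (y.2 : K' →L[ℂ] K') = star (y.1 : K' →L[ℂ] K')) : x * y = y * x :=
    Prod.ext (Subtype.ext ((S.cp_up R).cm _ (h.gen_le hx).1 _ e1.2))
      (Subtype.ext ((S.cp_up R).cm _ (e2 ▸ star_mem e1.1) _ (h.gen_le hx).2.1).symm)
  rcases id hx with ⟨s, m, hm, e1, e2⟩ | ⟨e1, e2⟩
  · rcases id hy with ⟨s', m', hm', e1', e2'⟩ | ⟨e1', e2'⟩
    · rw [h.cL (le_max_left s s')] at e1
      rw [h.cR (le_max_left s s')] at e2
      rw [h.cL (le_max_right s s')] at e1'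
      rw [h.cR (le_max_right s s')] at e2'
      simp only [Prod.ext_iff, Prod.fst_mul, Prod.snd_mul, Subtype.ext_iff, Submonoid.coe_mul, e1,
        e2, e1', e2', coe_m1, neg_mul, one_mul, St2.mul (h.un _), St2.mul (h.un' _)]
      rcases eq_or_ne s s' with rfl | hs
      · simp only [← map_mul]
        rcases hm with rfl | rfl <;> rcases hm' with rfl | rfl <;> simp [pxz]
      · exact .inl ⟨by rw [S.LL hs], by rw [S.RR hs]⟩
    · exact .inl (cen hx e1' e2')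
  · exact .inl (cen hy e1 e2).symm

theorem Tw.erg' {S : Sites (fun _ => 1 / 2) K K'} {Ω' : K'} {W W' : ℕ → K' →L[ℂ] K'}
    (h : S.Tw R Ω' W W') : ∃ (G : Type u) (_ : Group G) (p q : G →* (K' →L[ℂ] K')),
      Erg (S.up R) (S.up' R) (S.up R ⊓ S.up' R) Ω' p q := by
  let G := Subgroup.closure (St2.gen S R W W')
  let p : G →* (K' →L[ℂ] K') := (unitary _).subtype.comp ((MonoidHom.fst _ _).comp G.subtype)
  let q : G →* (K' →L[ℂ] K') := (unitary _).subtype.comp ((MonoidHom.snd _ _).comp G.subtype)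
  have h1 (g : G) : p g ∈ S.up R ∧ q g ∈ S.up' R ∧ p g (q g Ω') = Ω' :=
    (Subgroup.closure_le _).2 h.gen_le g.2
  let P (T : K' →L[ℂ] K') : Prop := ∃ (ι : Type) (_ : Fintype ι) (_ : Nonempty ι) (a : ι → G),
    (av fun i => p (a i) * q (a i)) = T
  have P1 {T T'} (hT : P T) (hT' : P T') : P (T * T') := by
    obtain ⟨ι, _, _, a, rfl⟩ := hT
    obtain ⟨κ, _, _, b, rfl⟩ := hT'
    refine ⟨ι × κ, inferInstance, inferInstance, fun i => a i.1 * b i.2, ?_⟩
    simp only [av_prod, av_mul, mul_av, map_mul, S.swap _ _ (h1 _).2.1 (h1 _).1]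
    exact av_comm _
  have P2 {s n} (hs : s ≤ n) {m} (hm : m = px ∨ m = pz) :
      P (W n * W' n * ((2 : ℂ)⁻¹ • (1 + S.L s m * S.R s m)) * star (W n * W' n)) := by
    have hu : m ∈ unitary _ := by rcases hm with rfl | rfl; exacts [px_unit, pz_unit]
    let g : G := ⟨(⟨_, mul_mem (mul_mem (h.un s) (Unitary.map_mem (S.L s) hu))
      (Unitary.star_mem (h.un s))⟩, ⟨_, mul_mem (mul_mem (h.un' s) (Unitary.map_mem (S.R s) hu))
      (Unitary.star_mem (h.un' s))⟩), Subgroup.subset_closure (.inl ⟨s, m, hm, rfl, rfl⟩)⟩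
    have e : p g * q g = W n * W' n * (S.L s m * S.R s m) * star (W n * W' n) := by
      rw [← h.cLR, ← h.cL hs, ← h.cR hs]
      rfl
    refine ⟨Fin 2, inferInstance, inferInstance, ![1, g], ?_⟩
    rw [mul_smul_comm, smul_mul_assoc, mul_add, add_mul, mul_one, (mul_mem (h.un n) (h.un' n)).2,
      ← e]
    simp [av]
  have P3 (n k) (hk : k ≤ n + 1) : P (W n * W' n * S.QQ k * star (W n * W' n)) := by
    have hu := mul_mem (h.un n) (h.un' n)
    induction k with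
    | zero => exact ⟨Unit, inferInstance, inferInstance, fun _ => 1, by
        rw [av_const, QQ, mul_one (W n * W' n), hu.2, map_one, map_one, mul_one]⟩
    | succ k ih =>
      rw [QQ, Q_eq, ← St2.mul hu, ← St2.mul hu]
      exact P1 (ih (by omega)) (P1 (P2 (by omega) (.inl rfl)) (P2 (by omega) (.inr rfl)))
  refine ⟨G, inferInstance, p, q, h.am, fun g => g.1.1.2, fun g => g.1.2.2, fun g => (h1 g).1,
    fun g => (h1 g).2.1, fun g => (h1 g).2.2, (S.cp_up R).closed.inter (S.cp_up R).symm.closed,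
    fun z hz hu => ⟨⟨(⟨z, hu⟩, ⟨star z, Unitary.star_mem hu⟩),
      Subgroup.subset_closure (.inr ⟨hz, rfl⟩)⟩, rfl, rfl⟩, fun ζ ε hε => ?_⟩
  obtain ⟨n, z, z1, z2, e⟩ := h.erg ζ ε hε
  obtain ⟨ι, _, _, a, ha⟩ := P3 n _ le_rfl
  refine ⟨ι, inferInstance, inferInstance, a, z, ⟨z1, z2⟩, ?_⟩
  have := congr($ha ζ)
  rw [av_apply] at this
  exact this ▸ e

end Sites

end Vale.Agent.P096
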