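import Vale.Agent.P096.G.GT
import Vale.Agent.P096.G.DensB

/-! The resolvents of the modular operators are close. -/

namespace Vale.Agent.P096

open scoped InnerProductSpace Topology ComplexConjugate
open Filter DensA
open Vale.Agent.P132 (FC BC ex pp qq rr EE chi Std PM MD)

universe u

namespace Wineq

variable {K : Type*} [NormedAddCommGroup K] [InnerProductSpace ℂ K] [CompleteSpace K]
  {G : Type u} [Group G] {δ : ℝ} {A R D B Z : SA K} {Ω : K} {p q : G →* (K →L[ℂ] K)}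
  {l : Filter (Avg G)} {m x y y' e e' : K →L[ℂ] K}

omit [CompleteSpace K] in
lemma col_snd {ι : Type*} [Fintype ι] [Nonempty ι] {y : ι → K →L[ℂ] K} (hy : Col y 1)
    {X : ι × ι → K →L[ℂ] K} {t : ℝ} (ht : 0 ≤ t) (h : ∀ i γ, ‖X i γ‖ ≤ t * ‖y i.2 γ‖) :
    Col X t := fun γ => by
  refine (nm_mono (g := fun i : ι × ι => y i.2 γ) ht fun i => h i γ).trans
    (mul_le_mul_of_nonneg_left ?_ ht)
  rw [nm_prod]
  dsimp only
  rw [nm_const, Real.norm_of_nonneg (nm_nonneg _)]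
  exact (hy γ).trans_eq (one_mul _)

omit [CompleteSpace K] in
lemma col_fst {ι : Type*} [Fintype ι] [Nonempty ι] {y : ι → K →L[ℂ] K} (hy : Col y 1)
    {X : ι × ι → K →L[ℂ] K} {t : ℝ} (ht : 0 ≤ t) (h : ∀ i γ, ‖X i γ‖ ≤ t * ‖y i.1 γ‖) :
    Col X t := fun γ => by
  refine (nm_mono (g := fun i : ι × ι => y i.1 γ) ht fun i => h i γ).trans
    (mul_le_mul_of_nonneg_left ?_ ht)
  rw [nm_prod, nm_comm]
  dsimp only
  rw [nm_const, Real.norm_of_nonneg (nm_nonneg _)]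
  exact (hy γ).trans_eq (one_mul _)

lemma pm (h : Al δ A R D B Z Ω p q) (hm : m ∈ Z) (g : G) : p g (m Ω) = q g⁻¹ (m Ω) := by
  rw [h.sA.app (h.pA _) (h.zR hm), ← h.sA.app (h.zA hm) (h.qR _), ← h.p_inv, inv_inv]

lemma pq' (h : Al δ A R D B Z Ω p q) (g g' : G) (v : K) :
    p g (star (q g') v) = star (q g') (p g v) := h.sA.app (h.pA g) (star_mem (h.qR g')) v

lemma rem (h : Al δ A R D B Z Ω p q) (hx : x ∈ A) (hm : m ∈ Z) {η : ℝ} (hη : 0 < η) :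
    ∃ η' > 0, ∀ k ∈ A, ∀ k' ∈ A, ‖k‖ ≤ 1 → ‖k'‖ ≤ 1 → ‖k Ω - Ω‖ ≤ η' → ‖k' Ω - Ω‖ ≤ η' →
      ∀ g g', ‖k' (p g' (x (p g (k (m Ω))))) - p g' (x (p g (m Ω)))‖ ≤ η := by
  have h0 : 0 < η / (‖x‖ + 1) := by positivity
  obtain ⟨ε₁, p1, s1⟩ := h.cut_small (m Ω) h0
  obtain ⟨ε₂, p2, s2⟩ := h.cut_small (x (m Ω)) h0
  refine ⟨min ε₁ ε₂, lt_min p1 p2, fun k hk k' hk' n1 n2 a1 a2 g g' => ?_⟩
  have e1 := (s1 k hk n1 (a1.trans (min_le_left _ _)) 1).1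
  have e2 := (s2 k' hk' n2 (a2.trans (min_le_right _ _)) g').1
  simp only [map_one, one_apply_eq_self] at e1
  have e3 : p g' (x (p g (m Ω))) = q g⁻¹ (p g' (x (m Ω))) := by
    rw [pm h hm, h.sA.app hx (h.qR _), h.pq]
  have e4 : k' (p g' (x (p g (k (m Ω))))) - p g' (x (p g (m Ω))) =
      k' (p g' (x (p g (k (m Ω) - m Ω)))) + q g⁻¹ (k' (p g' (x (m Ω))) - p g' (x (m Ω))) := by
    simp only [map_sub, e3, h.sA.app hk' (h.qR _)]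
    abel
  have e5 := k'.le_of_opNorm_le n2 (p g' (x (p g (k (m Ω) - m Ω))))
  have e6 := x.le_opNorm (p g (k (m Ω) - m Ω))
  rw [norm_unit_apply (h.pu _)] at e5 e6
  rw [e4]
  refine (norm_add_le _ _).trans ?_
  rw [norm_unit_apply (h.qu _)]
  have e7 := mul_le_mul_of_nonneg_left e1 (norm_nonneg x)
  have e8 : (‖x‖ + 1) * (η / (‖x‖ + 1)) = η := mul_div_cancel₀ _ (by positivity)
  linarith

lemma pack (h : Al δ A R D B Z Ω p q) (hl : Good Z Ω p q l) (hx : x ∈ A) (hy : y ∈ A)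
    (hy' : y' ∈ A) {t t' : ℝ} (ht : 0 ≤ t) (ht' : 0 ≤ t') (h1 : ∀ γ, ‖x γ‖ ≤ t * ‖y γ‖)
    (h2 : ∀ γ, ‖star x γ‖ ≤ t' * ‖y' γ‖) (he : Dn Z Ω (star y * y) e) (he1 : e ≤ 1)
    (he' : Dn Z Ω (star y' * y') e') (he1' : e' ≤ 1) (hm : m ∈ Z) {η : ℝ} (hη : 0 < η) :
    ∀ᶠ a : Avg G in l, ∃ X : a.ι × a.ι → K →L[ℂ] K, (∀ i, X i ∈ A) ∧ Col X t ∧
      Col (fun i => star (X i)) t' ∧ ∀ i,
        ‖X i (m Ω) - p (a.h i.1)⁻¹ (x (p (a.h i.2) (m Ω)))‖ ≤ η ∧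
        ‖star (X i) (m Ω) - p (a.h i.2)⁻¹ (star x (p (a.h i.1) (m Ω)))‖ ≤ η := by
  obtain ⟨ε₁, p1, s1⟩ := rem h hx hm hη
  obtain ⟨ε₂, p2, s2⟩ := rem h (star_mem hx) hm hη
  filter_upwards [h.cut hl hy he he1 (lt_min p1 p2), h.cut hl hy' he' he1' (lt_min p1 p2)]
  rintro a ⟨k, hk, k1, ks, k2, k3⟩ ⟨n, hn, n1, ns, n2, n3⟩
  have es : ∀ g g', star (n * p g⁻¹ * x * p g' * k) = k * p g'⁻¹ * star x * p g * n := fun g g' => by
    simp only [star_mul, star_hom h.pu, inv_inv, ks.star_eq, ns.star_eq, mul_assoc]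
  refine ⟨fun i => n * p (a.h i.1)⁻¹ * x * p (a.h i.2) * k, fun i =>
    mul_mem (mul_mem (mul_mem (mul_mem hn (h.pA _)) hx) (h.pA _)) hk,
    col_snd k3 ht fun i γ => ?_, col_fst n3 ht' fun i γ => ?_, fun i => ⟨?_, ?_⟩⟩
  · simp only [mul_apply_eq_comp]
    refine (n.le_of_opNorm_le n1 _).trans ?_
    rw [one_mul, norm_unit_apply (h.pu _)]
    exact h1 _
  · simp only [es, mul_apply_eq_comp]
    refine (k.le_of_opNorm_le k1 _).trans ?_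
    rw [one_mul, norm_unit_apply (h.pu _)]
    exact h2 _
  · exact s1 k hk n hn k1 n1 (k2.trans (min_le_left _ _)) (n2.trans (min_le_left _ _)) _ _
  · rw [es]
    exact s2 n hn k hk n1 k1 (n2.trans (min_le_right _ _)) (k2.trans (min_le_right _ _)) _ _

omit [CompleteSpace K] in
lemma inner_near {a a' b b' : K} {η N : ℝ} (ha : ‖a - a'‖ ≤ η) (hb : ‖b - b'‖ ≤ η) (h1 : η ≤ 1)
    (ha' : ‖a'‖ ≤ N) (hb' : ‖b'‖ ≤ N) : ‖⟪a, b⟫_ℂ - ⟪a', b'⟫_ℂ‖ ≤ η * (2 * N + 1) := by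
  have e1 : ⟪a, b⟫_ℂ - ⟪a', b'⟫_ℂ =
      ⟪a - a', b - b'⟫_ℂ + ⟪a - a', b'⟫_ℂ + ⟪a', b - b'⟫_ℂ := by
    simp only [inner_sub_left, inner_sub_right]; ring
  have h0 := (norm_nonneg _).trans ha
  have e2 := (norm_inner_le_norm (𝕜 := ℂ) (a - a') (b - b')).trans
    (mul_le_mul ha (hb.trans h1) (norm_nonneg _) h0)
  have e3 := (norm_inner_le_norm (𝕜 := ℂ) (a - a') b').trans (mul_le_mul ha hb' (norm_nonneg _) h0)
  have e4 := (norm_inner_le_norm (𝕜 := ℂ) a' (b - b')).trans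
    (mul_le_mul ha' hb (norm_nonneg _) ((norm_nonneg _).trans ha'))
  rw [e1]
  linarith [norm_add₃_le (a := ⟪a - a', b - b'⟫_ℂ) (b := ⟪a - a', b'⟫_ℂ) (c := ⟪a', b - b'⟫_ℂ)]

lemma dn_le (h : Al δ A R D B Z Ω p q) (hy : y ∈ A) (he : Dn Z Ω (star y * y) e)
    {s r : K →L[ℂ] K} (hr : r ∈ Z) (hrs : IsSelfAdjoint r) (h1 : s * r = 1) (h2 : r * s = 1)
    (h3 : e ≤ s * s) : Dn Z Ω (star (y * r) * (y * r)) (star r * e * r) ∧ star r * e * r ≤ 1 := by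
  constructor
  · simpa only [star_mul, mul_assoc] using h.dn_conj (mul_mem (star_mem hy) hy) he hr
  · have := star_left_conjugate_le_conjugate h3 r
    rw [mul_assoc _ (s * s), mul_assoc s, h1, mul_one] at this
    exact this.trans_eq (by rw [hrs.star_eq, h2])

lemma dn_one (he : Dn Z Ω (star y * y) e) : (⟪Ω, e Ω⟫_ℂ).re = ‖y Ω‖ ^ 2 := by
  have := he.2 1 (one_mem _)
  rw [one_apply_eq_self] at this
  rw [← this, nsq]

omit [CompleteSpace K] in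
lemma lim4 {ε μ : ℝ} {a b c d : K} (h : ∀ η > 0, ∃ a' b' c' d' : K, ‖a' - a‖ ≤ η ∧ ‖b' - b‖ ≤ η ∧
    ‖c' - c‖ ≤ η ∧ ‖d' - d‖ ≤ η ∧ ‖⟪b', d'⟫_ℂ - ⟪c', a'⟫_ℂ‖ ≤
      ε * (‖a'‖ ^ 2 + μ ^ 2 * ‖b'‖ ^ 2 + ‖c'‖ ^ 2 + μ⁻¹ ^ 2 * ‖d'‖ ^ 2)) :
    ‖⟪b, d⟫_ℂ - ⟪c, a⟫_ℂ‖ ≤ ε * (‖a‖ ^ 2 + μ ^ 2 * ‖b‖ ^ 2 + ‖c‖ ^ 2 + μ⁻¹ ^ 2 * ‖d‖ ^ 2) := by
  have hc : IsClosed {z : K × K × K × K | ‖⟪z.2.1, z.2.2.2⟫_ℂ - ⟪z.2.2.1, z.1⟫_ℂ‖ ≤
      ε * (‖z.1‖ ^ 2 + μ ^ 2 * ‖z.2.1‖ ^ 2 + ‖z.2.2.1‖ ^ 2 + μ⁻¹ ^ 2 * ‖z.2.2.2‖ ^ 2)} :=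
    isClosed_le (by fun_prop) (by fun_prop)
  refine hc.closure_subset (a := (a, b, c, d)) (Metric.mem_closure_iff.2 fun η hη => ?_)
  obtain ⟨a', b', c', d', h1, h2, h3, h4, h5⟩ := h (η / 2) (half_pos hη)
  refine ⟨(a', b', c', d'), h5, ?_⟩
  rw [dist_comm]
  simp only [Prod.dist_eq, max_lt_iff]
  simp only [dist_eq_norm]
  exact ⟨by linarith, by linarith, by linarith, by linarith⟩

end Wineq

open Wineq

theorem wineq {ε : ℝ} (hε : 0 < ε) : ∃ δ > 0, ∀ {K : Type u} [NormedAddCommGroup K] [InnerProductSpace ℂ K]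
    [CompleteSpace K] {G : Type u} [Group G] {A R D B Z : SA K} {Ω : K}
    {p q : G →* (K →L[ℂ] K)}, Quad δ A R D B Z Ω p q →
    ∀ μ : ℝ, 0 < μ → ∀ x ∈ A, ∀ c ∈ B, ‖⟪Ω, (x * c - c * x) Ω⟫_ℂ‖ ≤
      ε * (‖x Ω‖ ^ 2 + μ ^ 2 * ‖star x Ω‖ ^ 2 + ‖star c Ω‖ ^ 2 + μ⁻¹ ^ 2 * ‖c Ω‖ ^ 2) := by
  obtain ⟨δ, hδ, H⟩ := gt.{u} hε
  have hK := one_le_KD
  refine ⟨δ / (2 * KD), by positivity, ?_⟩
  intro K _ _ _ G _ A R D B Z Ω p q hQ μ hμ x hx c hc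
  have h := hQ.toAl
  have h' := hQ.sw.op.toAl
  have hcn := cn_of_near h.sA.cm (by positivity) h.n4.br
  rw [mul_div_cancel₀ _ (by positivity)] at hcn
  obtain ⟨l, _, hl⟩ := h.exists_good
  have hx2 := A.smul_mem (star_mem hx) (μ : ℂ)
  have hc3 := star_mem hc
  have hc4 := B.smul_mem hc ((μ⁻¹ : ℝ) : ℂ)
  obtain ⟨e₁, d1, -, n1, -⟩ := h.exists_dn (mul_mem (star_mem hx) hx) (.star_mul_self _)
  obtain ⟨e₂, d2, -, n2, -⟩ := h.exists_dn (mul_mem (star_mem hx2) hx2) (.star_mul_self _)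
  obtain ⟨e₃, d3, -, n3, -⟩ := h'.exists_dn (mul_mem (star_mem hc3) hc3) (.star_mul_self _)
  obtain ⟨e₄, d4, -, n4, -⟩ := h'.exists_dn (mul_mem (star_mem hc4) hc4) (.star_mul_self _)
  replace n1 := n1 (star_mul_self_nonneg _)
  replace n2 := n2 (star_mul_self_nonneg _)
  replace n3 := n3 (star_mul_self_nonneg _)
  replace n4 := n4 (star_mul_self_nonneg _)
  refine le_of_forall_pos_le_add fun κ hκ => ?_
  have hκ' : 0 < κ / 2 / ε := by positivity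
  obtain ⟨s, hs, r, hr, ss, rs, sr1, rs1, hss, -⟩ := h.exists_nrm
    (add_mem (add_mem (add_mem d1.1 d2.1) d3.1) d4.1) (by positivity) hκ'
  have n5 : 0 ≤ ((κ / 2 / ε : ℝ) : ℂ) • (1 : K →L[ℂ] K) := by
    rw [Complex.coe_smul]; exact smul_nonneg hκ'.le zero_le_one
  obtain ⟨f1, g1⟩ := dn_le h hx d1 hr rs sr1 rs1 (by
    rw [hss, add_assoc, add_assoc, add_assoc]; exact le_add_of_nonneg_right (by positivity))
  obtain ⟨f2, g2⟩ := dn_le h hx2 d2 hr rs sr1 rs1 (by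
    rw [hss, add_comm e₁, add_assoc, add_assoc, add_assoc]
    exact le_add_of_nonneg_right (by positivity))
  obtain ⟨f3, g3⟩ := dn_le h' hc3 d3 hr rs sr1 rs1 (by
    rw [hss, add_comm _ e₃, add_assoc, add_assoc]; exact le_add_of_nonneg_right (by positivity))
  obtain ⟨f4, g4⟩ := dn_le h' hc4 d4 hr rs sr1 rs1 (by
    rw [hss, add_comm _ e₄, add_assoc]; exact le_add_of_nonneg_right (by positivity))
  have sx : star (x * r) = star x * r := by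
    rw [star_mul, rs.star_eq, h.sA.cm _ (star_mem hx) r (h.zR hr)]
  have sc : star (c * r) = star c * r := by
    rw [star_mul, rs.star_eq, h'.sA.cm _ hc3 r (h'.zR hr)]
  set N := (‖x * r‖ + ‖c * r‖) * ‖s Ω‖ with hN
  have hN0 : 0 ≤ N := by positivity
  set η := min 1 (κ / 4 / (2 * N + 1)) with hη
  have hη0 : 0 < η := lt_min one_pos (by positivity)
  have hη1 : η * (2 * N + 1) ≤ κ / 4 := (le_div_iff₀ (by positivity)).1 (min_le_right _ _)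
  obtain ⟨a, ⟨X, x1, x2, x3, x4⟩, C, c1, c2, c3, c4⟩ := ((pack h hl (mul_mem hx (h.zA hr))
    (mul_mem hx (h.zA hr)) (mul_mem hx2 (h.zA hr)) zero_le_one (inv_pos.2 hμ).le
    (fun γ => (one_mul _).ge) (fun γ => by
      rw [sx, smul_mul_assoc, _root_.smul_apply, norm_smul, Complex.norm_real,
        Real.norm_of_nonneg hμ.le, inv_mul_cancel_left₀ hμ.ne']) f1 g1 f2 g2 hs hη0).and
    (pack h' (h.good_op hl) (mul_mem hc (h'.zA hr)) (mul_mem hc4 (h'.zA hr))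
      (mul_mem hc3 (h'.zA hr)) hμ.le zero_le_one (fun γ => by
      rw [smul_mul_assoc, _root_.smul_apply, norm_smul, Complex.norm_real,
        Real.norm_of_nonneg (inv_pos.2 hμ).le, mul_inv_cancel_left₀ hμ.ne'])
      (fun γ => by rw [sc, one_mul]) f4 g4 f3 g3 hs hη0)).exists
  have h1 := H A B h.sA.closed h.cD.symm.closed hcn (s Ω) μ hμ _ X C x1 c1 x2 x3 c3 c2
  have h2 : ‖s Ω‖ ^ 2 = ‖x Ω‖ ^ 2 + μ ^ 2 * ‖star x Ω‖ ^ 2 + ‖star c Ω‖ ^ 2 +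
      μ⁻¹ ^ 2 * ‖c Ω‖ ^ 2 + κ / 2 / ε := by
    rw [nsq, ss.star_eq, hss]
    simp only [_root_.add_apply, inner_add_right, Complex.add_re, dn_one d1, dn_one d2, dn_one d3,
      dn_one d4, _root_.smul_apply, norm_smul, Complex.norm_real, Real.norm_eq_abs, mul_pow,
      sq_abs, one_apply_eq_self, inner_smul_right, Complex.re_ofReal_mul]
    rw [← RCLike.re_to_complex, inner_self_eq_norm_sq, h.sA.nΩ, one_pow, mul_one]
  have nb : ∀ {T U V : K →L[ℂ] K}, U ∈ unitary _ → V ∈ unitary _ → ‖T‖ ≤ ‖x * r‖ + ‖c * r‖ →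
      ‖U (T (V (s Ω)))‖ ≤ N := fun {T U V} hU hV hT => by
    rw [norm_unit_apply hU, hN, ← norm_unit_apply hV (s Ω)]
    exact T.le_of_opNorm_le hT _
  have b1 : ‖x * r‖ ≤ ‖x * r‖ + ‖c * r‖ := le_add_of_nonneg_right (norm_nonneg _)
  have b2 : ‖c * r‖ ≤ ‖x * r‖ + ‖c * r‖ := le_add_of_nonneg_left (norm_nonneg _)
  have rsΩ : r (s Ω) = Ω := congr($rs1 Ω)
  have hxr := mul_mem hx (h.zA hr)
  have hcr := mul_mem hc (h'.zA hr)
  have h3 : ∀ i, ‖⟪Ω, (x * c - c * x) Ω⟫_ℂ - ⟪s Ω, (X i * C i - C i * X i) (s Ω)⟫_ℂ‖ ≤ κ / 2 := by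
    intro i
    have i1 := inner_near (x4 i).2 (c4 i).1 (min_le_left _ _)
      (nb (h.pu _) (h.pu _) (by rwa [norm_star])) (nb (h.qu _) (h.qu _) b2)
    have i2 := inner_near (c4 i).2 (x4 i).1 (min_le_left _ _)
      (nb (h.qu _) (h.qu _) (by rwa [norm_star])) (nb (h.pu _) (h.pu _) b1)
    have j1 : ∀ g g', ⟪p g'⁻¹ (star (x * r) (p g (s Ω))), q g⁻¹ ((c * r) (q g' (s Ω)))⟫_ℂ =
        ⟪Ω, x (c Ω)⟫_ℂ := fun g g' => by
      rw [← star_hom h.pu, ← star_hom h.qu, inner_star_l, pq' h, inner_star_r,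
        ← h.sA.app (star_mem hxr) (h.qR g), ← h.pq, h.W_fix hs, h.cD.app (h.pD _) hcr,
        h.W_fix hs, inner_star_l, mul_apply_eq_comp c, rsΩ, mul_apply_eq_comp,
        h.sA.app hx (h.zR hr), ← inner_star_l, rs.star_eq, rsΩ]
    have j2 : ∀ g g', ⟪q g'⁻¹ (star (c * r) (q g (s Ω))), p g⁻¹ ((x * r) (p g' (s Ω)))⟫_ℂ =
        ⟪Ω, c (x Ω)⟫_ℂ := fun g g' => by
      rw [← star_hom h.pu, ← star_hom h.qu, inner_star_l, pq' h', inner_star_r,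
        ← h'.sA.app (star_mem hcr) (h'.qR g), ← h'.pq, h'.W_fix hs, h'.cD.app (h'.pD _) hxr,
        h'.W_fix hs, inner_star_l, mul_apply_eq_comp x, rsΩ, mul_apply_eq_comp,
        h'.sA.app hc (h'.zR hr), ← inner_star_l, rs.star_eq, rsΩ]
    rw [j1, inner_star_l, norm_sub_rev] at i1
    rw [j2, inner_star_l, norm_sub_rev] at i2
    simp only [_root_.sub_apply, mul_apply_eq_comp, inner_sub_right]
    rw [sub_sub_sub_comm]
    linarith [norm_sub_le (⟪Ω, x (c Ω)⟫_ℂ - ⟪s Ω, X i (C i (s Ω))⟫_ℂ)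
      (⟪Ω, c (x Ω)⟫_ℂ - ⟪s Ω, C i (X i (s Ω))⟫_ℂ)]
  have h4 := norm_av_le h3
  rw [av_sub, av_const] at h4
  have h5 := norm_sub_norm_le ⟪Ω, (x * c - c * x) Ω⟫_ℂ
    (av fun i => ⟪s Ω, (X i * C i - C i * X i) (s Ω)⟫_ℂ)
  rw [h2, mul_add, mul_div_cancel₀ _ hε.ne'] at h1
  linarith

theorem pclose {ε : ℝ} (hε : 0 < ε) : ∃ δ > 0, ∀ {K : Type u} [NormedAddCommGroup K] [InnerProductSpace ℂ K]
    [CompleteSpace K] {G : Type u} [Group G] {A R D B Z : SA K} {Ω : K}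
    {p q : G →* (K →L[ℂ] K)}, Quad δ A R D B Z Ω p q →
    ∀ (M : Mod A R Ω) (M' : Mod D B Ω), PC M.toFC M'.toFC ε := by
  obtain ⟨δ, hδ, H⟩ := wineq.{u} (ε := ε / 4) (by positivity)
  refine ⟨δ, hδ, ?_⟩
  intro K _ _ _ G _ A R D B Z Ω p q h M M' s
  set P := M.fb fun x => pp (x + s)
  set P' := M'.fb fun x => pp (x + s)
  have hP' : star P' = P' := by
    rw [← M'.cj (F := fun x => pp (x + s))
      ⟨P132.bc_pp.1.comp (by fun_prop), P132.bc_pp.2.imp fun _ k x => k (x + s)⟩]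
    simp only [pp, Complex.conj_ofReal, P']
  have hμ := Real.exp_pos (s / 2)
  have e1 : Real.exp (s / 2) ^ 2 = Real.exp s := by rw [sq, ← Real.exp_add, add_halves]
  have e2 : ∀ v : K, (Real.exp (s / 2))⁻¹ ^ 2 * ‖(Real.exp s : ℂ) • v‖ ^ 2 =
      Real.exp s * ‖v‖ ^ 2 := fun v => by
    rw [norm_smul, Complex.norm_real, Real.norm_of_nonneg (Real.exp_pos s).le, inv_pow, e1]
    field_simp
  have e3 : ∀ x c : K →L[ℂ] K, ⟪Ω, (x * c - c * x) Ω⟫_ℂ =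
      ⟪star x Ω, c Ω⟫_ℂ - ⟪star c Ω, x Ω⟫_ℂ := fun x c => by
    simp only [_root_.sub_apply, mul_apply_eq_comp, inner_sub_right, inner_star_l]
  have key : ∀ ξ η : K, ‖⟪η, (P - P') ξ⟫_ℂ‖ ≤ ε / 2 * (‖ξ‖ ^ 2 + ‖η‖ ^ 2) := fun ξ η => by
    obtain ⟨v, a1, a2, a3⟩ := M.gr s ξ
    obtain ⟨w, b1, b2, b3⟩ := M'.gr s η
    have k1 := lim4 (ε := ε / 4) (μ := Real.exp (s / 2)) (a := P ξ) (b := v) (c := η - P' η)
      (d := (Real.exp s : ℂ) • w) fun t ht => by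
        obtain ⟨x, hx, -, -, i1, i2, -⟩ := a3 t ht
        obtain ⟨-, -, c, hc, -, -, i3, i4⟩ := b3 t ht
        exact ⟨_, _, _, _, i1, i2, i3, i4, e3 x c ▸ H h _ hμ x hx c hc⟩
    have k2 := lim4 (ε := ε / 4) (μ := Real.exp (s / 2)) (a := P' η) (b := w) (c := ξ - P ξ)
      (d := (Real.exp s : ℂ) • v) fun t ht => by
        obtain ⟨x, hx, -, -, i1, i2, -⟩ := b3 t ht
        obtain ⟨-, -, c, hc, -, -, i3, i4⟩ := a3 t ht
        exact ⟨_, _, _, _, i1, i2, i3, i4, e3 x c ▸ H h.sw _ hμ x hx c hc⟩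
    rw [e1, e2] at k1 k2
    rw [← Complex.norm_conj, map_sub, inner_conj_symm, inner_conj_symm] at k2
    have k3 : ⟪η, (P - P') ξ⟫_ℂ = (⟪(Real.exp s : ℂ) • v, w⟫_ℂ - ⟪P' η, ξ - P ξ⟫_ℂ) -
        (⟪v, (Real.exp s : ℂ) • w⟫_ℂ - ⟪η - P' η, P ξ⟫_ℂ) := by
      rw [_root_.sub_apply, inner_sub_right, ← hP', inner_star_r, hP']
      simp only [inner_smul_left, inner_smul_right, inner_sub_left, inner_sub_right,
        Complex.conj_ofReal]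
      ring
    rw [k3]
    refine (norm_sub_le _ _).trans ?_
    nlinarith
  refine ContinuousLinearMap.opNorm_le_bound _ hε.le fun ξ => ?_
  have k := key ((‖(P - P') ξ‖ : ℂ) • ξ) ((‖ξ‖ : ℂ) • (P - P') ξ)
  rw [map_smul, inner_smul_left, inner_smul_right, inner_self_eq_norm_sq_to_K] at k
  simp only [norm_mul, norm_smul, Complex.norm_conj, Complex.norm_real, norm_norm, norm_pow,
    RCLike.norm_ofReal, abs_norm] at k
  by_contra hlt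
  have k1 := not_le.1 hlt
  have k2 : 0 < ‖(P - P') ξ‖ := lt_of_le_of_lt (by positivity) k1
  have k3 : 0 < ‖ξ‖ := norm_pos_iff.2 fun e => by simp [e] at k2
  nlinarith [mul_lt_mul_of_pos_left k1 (mul_pos k3 (pow_pos k2 2))]

end Vale.Agent.P096
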