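import Vale.Agent.P096.G.Move
import Vale.Agent.P096.G.SiteA
import Vale.Agent.P096.G.St2
import Vale.Agent.P096.G.Ctr
import Vale.Agent.P096.G.Wineq
import Vale.Agent.P096.G.FcC
import Vale.Agent.P096.G.Dbl
import Vale.Agent.P096.G.CoreB
import Vale.Agent.P096.G.RedB
import Vale.Agent.P096.Main

/-! Assembly of the general case. -/

namespace Vale.Agent.P096

open scoped InnerProductSpace Topology ComplexConjugate
open Filter
open Vale.Agent.P132 (FC BC ex pp qq rr EE chi Std PM MD)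

universe u

section

variable {K : Type*} [NormedAddCommGroup K] [InnerProductSpace ℂ K] [CompleteSpace K]

lemma Quad.mono {G : Type*} [Group G] {δ δ' : ℝ} {A R D B Z : SA K} {Ω : K}
    {p q : G →* (K →L[ℂ] K)} (h : Quad δ A R D B Z Ω p q) (h' : δ ≤ δ') :
    Quad δ' A R D B Z Ω p q := ⟨{ h.toAl with n4 := h.n4.mono h' }, h.sD⟩

lemma Lift.mono {A D : SA K} {ε ε' : ℝ} (h : Lift ε A D) (h' : ε ≤ ε') : Lift ε' A D := by
  obtain ⟨ψ, hψ⟩ := h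
  exact ⟨ψ, fun n => ⟨(hψ n).1, (hψ n).2.trans (by gcongr)⟩⟩

/-- The unitary group as a homomorphism. -/
noncomputable def uHom (D : FC K) : Multiplicative ℝ →* (K →L[ℂ] K) where
  toFun t := D.U t.toAdd
  map_one' := D.U_zero
  map_mul' s t := D.U_add _ _

lemma uHom_un (D : FC K) (t : Multiplicative ℝ) : uHom D t ∈ unitary (K →L[ℂ] K) := by
  change D.U _ ∈ _
  rw [Unitary.mem_iff, D.star_U, ← D.U_add, ← D.U_add, neg_add_cancel, add_neg_cancel, D.U_zero]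
  exact ⟨rfl, rfl⟩

lemma near_un {X Y : SA K} {δ : ℝ} (hδ : 0 ≤ δ) (h : Near δ (X : Set (K →L[ℂ] K)) Y)
    {x : K →L[ℂ] K} (hx : x ∈ X) (hu : x ∈ unitary (K →L[ℂ] K)) : ∃ y ∈ Y, ‖x - y‖ ≤ δ := by
  obtain ⟨y, hy, e⟩ := h x hx
  exact ⟨y, hy, e.trans (mul_le_of_le_one_right hδ (norm_unit_le hu))⟩

end

theorem modclose {ε : ℝ} (hε : 0 < ε) : ∃ δ > 0, ∀ {K : Type u} [NormedAddCommGroup K]
    [InnerProductSpace ℂ K] [CompleteSpace K] {G : Type u} [Group G] {A R D B Z : SA K} {Ω : K}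
    {p q : G →* (K →L[ℂ] K)}, Quad δ A R D B Z Ω p q → ∀ (M : Mod A R Ω) (M' : Mod D B Ω) (t : ℝ),
      ‖M.U t - M'.U t‖ ≤ ε := by
  obtain ⟨C, hC, H1⟩ := dbl.{u}
  obtain ⟨η, hη, H2⟩ := fc_close.{u} (C := C) (by linarith) hε
  obtain ⟨δ, hδ, H3⟩ := pclose.{u} hη
  have h0 : 0 < min δ (min 1 (η / C)) := by positivity
  refine ⟨_, h0, fun h M M' => H2 _ _ (H3 (h.mono (min_le_left _ _)) M M') ?_⟩
  have h1 := (min_le_right δ _).trans (min_le_right 1 (η / C))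
  rw [le_div_iff₀' (by linarith)] at h1
  intro t r Λ n w a1 a2 a3 a4 a5 a6 s ξ hξ
  refine (H1 h0.le ((min_le_right _ _).trans (min_le_left _ _)) h M M' t r Λ n w a1 a2 a3 a4 a5 a6
    s ξ hξ).trans ?_
  gcongr

theorem alLift {ε : ℝ} (hε : 0 < ε) : ∃ δ > 0, ∀ {K : Type u} [NormedAddCommGroup K]
    [InnerProductSpace ℂ K] [CompleteSpace K] {G : Type u} [Group G] {A R D B Z : SA K} {Ω : K}
    {p q : G →* (K →L[ℂ] K)}, Al δ A R D B Z Ω p q → Lift ε A D := by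
  obtain ⟨C, hC, H1⟩ := coreLift.{u}
  obtain ⟨η, hη, e1⟩ : ∃ η > 0, 61 * C * η ≤ min 1 ε :=
    ⟨min 1 ε / (61 * C), by positivity, by rw [mul_div_cancel₀ _ (by positivity)]⟩
  have e2 := e1.trans (min_le_left _ _)
  have e3 := e1.trans (min_le_right _ _)
  obtain ⟨δ, hδ, H2⟩ := modclose.{u} hη
  have h0 : 0 < min δ η := by positivity
  have h1 := min_le_right δ η
  have h2 : η ≤ C * η := by nlinarith
  refine ⟨_, h0, fun {K} _ _ _ G _ A R D B Z Ω p q h => ?_⟩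
  have hq := h.quad h0.le (by linarith)
  obtain ⟨M⟩ := exists_Mod hq.sA
  obtain ⟨M'⟩ := exists_Mod hq.sD
  obtain ⟨w, hw, w1, w2, -⟩ := intertw (am_comm _) (uHom_un M.toFC) (uHom_un M'.toFC)
    (fun t => H2 (hq.mono (min_le_left _ _)) M M' t.toAdd) (by linarith)
  have w3 : ∀ t, M.U t * w = w * M'.U t := fun t => w2 (.ofAdd t)
  have w4 : ∀ t, star w * M.U t = M'.U t * star w := fun t => by
    have := congrArg star (w3 (-t))
    rwa [star_mul, star_mul, M.star_U, M'.star_U, neg_neg] at this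
  have n1 : N4 (41 * η) A R (cjs ⟨w, hw⟩ D) (cjs ⟨w, hw⟩ B) :=
    (h.n4.cjs h0.le (by linarith) (w := ⟨w, hw⟩) w1).mono (by linarith)
  have i1 : ∀ t, ∀ y ∈ cjs ⟨w, hw⟩ B, M.U t * y * M.U (-t) ∈ cjs ⟨w, hw⟩ B := fun t y hy => by
    rw [mem_cjs] at hy ⊢
    have h3 := M'.invY t _ hy
    simp only [mul_assoc] at h3 ⊢
    rwa [w3, ← mul_assoc (star w), w4, mul_assoc]
  have l1 := H1 A R _ _ Ω (41 * η) M (by positivity) (by linarith) h.sA (h.cD.cjs _) n1 i1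
  exact (l1.of_cjs w1).mono (by linarith)

theorem ergLift {ε : ℝ} (hε : 0 < ε) : ∃ δ > 0, ∀ {K : Type u} [NormedAddCommGroup K]
    [InnerProductSpace ℂ K] [CompleteSpace K] {G : Type u} [Group G] {A R D B Z : SA K} {Ω : K}
    {p q : G →* (K →L[ℂ] K)}, SP A R Ω → CP D B → N4 δ A R D B → Erg A R Z Ω p q →
      Lift ε A D := by
  obtain ⟨C, hC, H1⟩ := move.{u}
  obtain ⟨η, hη, H2⟩ := alLift.{u} (half_pos hε)
  obtain ⟨δ, hδ, e1⟩ : ∃ δ > 0, 25 * C * C * δ ≤ min (min 1 η) ε :=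
    ⟨min (min 1 η) ε / (25 * C * C), by positivity, by rw [mul_div_cancel₀ _ (by positivity)]⟩
  have e2 := e1.trans ((min_le_left _ _).trans (min_le_left _ _))
  have e3 := e1.trans ((min_le_left _ _).trans (min_le_right _ _))
  have e4 := e1.trans (min_le_right _ _)
  have h1 : δ ≤ C * δ := by nlinarith
  have h2 : C * δ ≤ C * C * δ := by nlinarith
  refine ⟨δ, hδ, fun {K} _ _ _ G _ A R D B Z Ω p q hs hD hn he => ?_⟩
  obtain ⟨w, hw, w1, w2, -⟩ := H1 p D B δ he.am he.pu hD hδ (by linarith)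
    fun g => near_un hδ.le hn.ad (he.pA g) (he.pu g)
  have n1 := (hn.cjs hδ.le (by linarith) (w := ⟨w, hw⟩) w1).mono
    (show _ ≤ 5 * C * δ by linarith)
  have c1 := hD.cjs ⟨w, hw⟩
  obtain ⟨v, hv, v1, v2, v3⟩ := H1 q _ _ (5 * C * δ) he.am he.qu c1.symm (by positivity)
    (by linarith) fun g => near_un (by positivity) n1.rb (he.qR g) (he.qu g)
  have pD : ∀ g, p g ∈ cjs ⟨v, hv⟩ (cjs ⟨w, hw⟩ D) := fun g => by
    have h3 : p g ∈ cjs ⟨w, hw⟩ D := mem_cjs.2 (w2 g)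
    rw [mem_cjs, mul_assoc, v3 _ (fun g' => hs.cm _ (he.pA g) _ (he.qR g')) (c1.cm _ h3),
      ← mul_assoc, hv.1, one_mul]
    exact h3
  have qB : ∀ g, q g ∈ cjs ⟨v, hv⟩ (cjs ⟨w, hw⟩ B) := fun g => mem_cjs.2 (v2 g)
  have key : Z ≤ A ⊓ R ⊓ (cjs ⟨v, hv⟩ (cjs ⟨w, hw⟩ D) ⊓ cjs ⟨v, hv⟩ (cjs ⟨w, hw⟩ B)) := by
    intro z hz
    obtain ⟨u, c, h3, rfl⟩ := exists_four he.cl hz
    refine sum_mem fun i _ => SMulMemClass.smul_mem _ ?_
    obtain ⟨g, g1, g2⟩ := he.cen _ (h3 i).2.1 (h3 i).1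
    have g3 : u i = star (q g) := by rw [g2, star_star]
    exact ⟨⟨g1 ▸ he.pA g, g3 ▸ star_mem (he.qR g)⟩, g1 ▸ pD g, g3 ▸ star_mem (qB g)⟩
  refine (((H2 (Z := A ⊓ R ⊓ (cjs ⟨v, hv⟩ (cjs ⟨w, hw⟩ D) ⊓ cjs ⟨v, hv⟩ (cjs ⟨w, hw⟩ B)))
    ⟨hs, c1.cjs _, (n1.cjs (by positivity) (by linarith) (w := ⟨v, hv⟩) v1).mono
    (by linarith), he.pu, he.qu, he.pA, pD, he.qR, qB, he.fix,
    fun z => by simp only [StarSubalgebra.mem_inf, and_assoc], fun ζ κ hκ => ?_⟩).of_cjs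
      v1).of_cjs w1).mono (by linarith)
  obtain ⟨ι, i1, i2, h, z, hz, e⟩ := he.erg ζ κ hκ
  exact ⟨ι, i1, i2, h, z, key hz, e⟩

theorem sepLift {ε : ℝ} (hε : 0 < ε) : ∃ δ > 0, SL.{u} ε δ := by
  obtain ⟨η, hη, H⟩ := ergLift.{u} hε
  have hK := one_le_KD
  have h0 : 0 < η / (4 * KD ^ 2) / (4 * KD ^ 2) := by positivity
  refine ⟨_, h0, fun K _ _ _ _ A R D B Ω hs hD hn => ?_⟩
  obtain ⟨w, hw, hw'⟩ := exists_weights
  obtain ⟨K₁, _, _, _, _, ⟨S₁⟩⟩ := exists_sites w hw K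
  obtain ⟨K₂, _, _, _, _, ⟨S₂⟩⟩ := exists_sites (fun _ => 1 / 2) (fun _ => by norm_num) K₁
  have s1 := S₁.sp_up hs
  obtain ⟨Ω', W, W', ht⟩ := S₂.exists_tw s1 (ctr_of_far s1 (S₁.far_up R Ω hw'))
  obtain ⟨G, _, p, q, he⟩ := ht.erg'
  have n2 := S₂.n4_up (by positivity) (S₁.n4_up h0.le hn)
  rw [mul_div_cancel₀ _ (by positivity), mul_div_cancel₀ _ (by positivity)] at n2
  exact S₁.lift_up hs.toCP hD hε.le (S₂.lift_up s1.toCP (S₁.cp_up B) hε.le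
    (H ht.sp (S₂.cp_up _) n2 he))

theorem main_full {ε : ℝ} (hε : 0 < ε) : ∃ δ > 0, ∀ (H : Type u) [NormedAddCommGroup H]
    [InnerProductSpace ℂ H] [CompleteSpace H] (M N : VonNeumannAlgebra H),
    Metric.hausdorffDist ((M : Set (H →L[ℂ] H)) ∩ Metric.closedBall 0 1)
      ((N : Set (H →L[ℂ] H)) ∩ Metric.closedBall 0 1) < δ →
      ∃ u ∈ unitary (H →L[ℂ] H), (∀ T, T ∈ N ↔ ∃ x ∈ M, T = u * x * star u) ∧ ‖u - 1‖ < ε := by
  obtain ⟨a, ha, H1⟩ := red.{u}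
  obtain ⟨b, hb, H2⟩ := conj_of_lift.{u}
  obtain ⟨η, hη, e1⟩ : ∃ η > 0, b * (a * (η + η)) = min 1 (ε / 2) :=
    ⟨min 1 (ε / 2) / (2 * a * b), by positivity, by field_simp; norm_num⟩
  obtain ⟨κ, hκ, H3⟩ := sepLift.{u} hη
  have h4 := min_le_left 1 (ε / 2)
  have h5 := min_le_right 1 (ε / 2)
  have h0 : 0 < min η (κ / a) := by positivity
  have h6 := min_le_left η (κ / a)
  have h7 := min_le_right η (κ / a)
  rw [le_div_iff₀' (by linarith)] at h7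
  have h8 : a * η ≤ b * (a * η) := le_mul_of_one_le_left (by positivity) hb
  refine ⟨_, h0, fun H _ _ _ M N h => ?_⟩
  have h2 := near_of_dist M N h
  have h3 := near_of_dist N M (Metric.hausdorffDist_comm.trans_lt h)
  obtain ⟨ψ, hψ⟩ := H1 η _ hη.le h0 (by nlinarith)
    (fun K _ _ _ _ A R D B Ω hs hD hn => H3 K A R D B Ω hs hD (hn.mono h7)) M N h2 h3
  obtain ⟨u, hu, u1, u2⟩ := H2 M N (a * (η + η)) (by positivity) (e1.trans_le h4)
    (h2.mono (by nlinarith)) ⟨ψ, fun n => ⟨(hψ n).1, (hψ n).2.trans (by gcongr)⟩⟩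
  exact ⟨u, hu, u1, by linarith⟩

end Vale.Agent.P096
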