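import Vale.Agent.P096.G.Defs

/-! Infinitely many two level sites. -/

namespace Vale.Agent.P096

open scoped InnerProductSpace Topology ComplexConjugate
open Filter
open Vale.Agent.P132 (FC BC ex pp qq rr EE chi Std PM MD)

universe u

/-- The two weights. -/
def wt (p : ℝ) : Fin 2 → ℝ := ![p, 1 - p]

/-- Matrix units. -/
abbrev eu (a b : Fin 2) : Matrix (Fin 2) (Fin 2) ℂ := Matrix.single a b 1

/-- A tensor product of `K` with a product of standard forms of two by two matrices. -/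
structure Sites (w : ℕ → ℝ) (K K' : Type*) [NormedAddCommGroup K] [InnerProductSpace ℂ K]
    [CompleteSpace K] [NormedAddCommGroup K'] [InnerProductSpace ℂ K'] [CompleteSpace K'] where
  amp : (K →L[ℂ] K) →⋆ₐ[ℂ] (K' →L[ℂ] K')
  ι : K →L[ℂ] K'
  L : ℕ → Matrix (Fin 2) (Fin 2) ℂ →⋆ₐ[ℂ] (K' →L[ℂ] K')
  R : ℕ → Matrix (Fin 2) (Fin 2) ℂ →⋆ₐ[ℂ] (K' →L[ℂ] K')
  hw : ∀ s, 0 < w s ∧ w s < 1
  inner_ι : ∀ v v', ⟪ι v, ι v'⟫_ℂ = ⟪v, v'⟫_ℂ
  amp_ι : ∀ T v, amp T (ι v) = ι (T v)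
  aL : ∀ T s m, amp T * L s m = L s m * amp T
  aR : ∀ T s m, amp T * R s m = R s m * amp T
  LR : ∀ s s' m m', L s m * R s' m' = R s' m' * L s m
  LL : ∀ {s s'}, s ≠ s' → ∀ m m', L s m * L s' m' = L s' m' * L s m
  RR : ∀ {s s'}, s ≠ s' → ∀ m m', R s m * R s' m' = R s' m' * R s m
  vac : ∀ s a b v, (√(wt (w s) a) : ℂ) • L s (eu a b) (ι v) =
    (√(wt (w s) b) : ℂ) • R s (eu b a) (ι v)
  dense : ∀ N : Submodule ℂ K', IsClosed (N : Set K') → (∀ v, ι v ∈ N) →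
    (∀ s m, ∀ ξ ∈ N, L s m ξ ∈ N) → ∀ ξ, ξ ∈ N

namespace Sites

variable {w : ℕ → ℝ} {K K' : Type*} [NormedAddCommGroup K] [InnerProductSpace ℂ K]
  [CompleteSpace K] [NormedAddCommGroup K'] [InnerProductSpace ℂ K'] [CompleteSpace K']
  (S : Sites w K K')

/-- The projection on the vacuum at one site. -/
noncomputable def Q (s : ℕ) : K' →L[ℂ] K' :=
  ∑ a, ∑ b, ((√(wt (w s) a) * √(wt (w s) b) : ℝ) : ℂ) • (S.L s (eu a b) * S.R s (eu a b))

/-- The projection on the vacuum at the first sites. -/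
noncomputable def QQ : ℕ → K' →L[ℂ] K'
  | 0 => 1
  | n + 1 => QQ n * S.Q n

/-- Operators that do not touch the first sites. -/
def Cmn (n : ℕ) (C : K' →L[ℂ] K') : Prop :=
  ∀ s < n, ∀ m, C * S.L s m = S.L s m * C ∧ C * S.R s m = S.R s m * C

/-- The amplification of the commutant of `Y`. -/
noncomputable def up (Y : SA K) : SA K' :=
  cz (S.amp '' (Y : Set (K →L[ℂ] K)) ∪ ⋃ s, Set.range (S.R s))

/-- The amplification of `Y`. -/
noncomputable def up' (Y : SA K) : SA K' := cz (S.up Y : Set (K' →L[ℂ] K'))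

end Sites

end Vale.Agent.P096
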