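import Vale.Agent.P096.G.Site

/-! Vacuum projections. -/

namespace Vale.Agent.P096

open scoped InnerProductSpace Topology ComplexConjugate
open Filter
open Vale.Agent.P132 (FC BC ex pp qq rr EE chi Std PM MD)

universe u

lemma SiteB.wt_pos {p : ℝ} (h : 0 < p ∧ p < 1) (a : Fin 2) : 0 < wt p a := by
  fin_cases a
  · exact h.1
  · exact sub_pos.2 h.2

lemma SiteB.sq {p : ℝ} (h : 0 < p ∧ p < 1) (a : Fin 2) :
    ((√(wt p a) : ℝ) : ℂ) * (√(wt p a) : ℝ) = (wt p a : ℝ) := by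
  rw [← Complex.ofReal_mul, Real.mul_self_sqrt (SiteB.wt_pos h a).le]

lemma SiteB.sum_sq {p : ℝ} (h : 0 < p ∧ p < 1) :
    ∑ a, ((√(wt p a) : ℝ) : ℂ) * (√(wt p a) : ℝ) = 1 := by
  simp only [SiteB.sq h]
  simp [wt]

lemma SiteB.eu_sum (m : Matrix (Fin 2) (Fin 2) ℂ) : m = ∑ a, ∑ b, m a b • eu a b := by
  simpa using Matrix.matrix_eq_sum_single m

lemma SiteB.star_eu (a b : Fin 2) : star (eu a b) = eu b a := by
  simp [Matrix.star_eq_conjTranspose]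

namespace Sites

variable {w : ℕ → ℝ} {K K' : Type*} [NormedAddCommGroup K] [InnerProductSpace ℂ K]
  [CompleteSpace K] [NormedAddCommGroup K'] [InnerProductSpace ℂ K'] [CompleteSpace K']
  (S : Sites w K K')

lemma norm_ι (v : K) : ‖S.ι v‖ = ‖v‖ := by
  rw [@norm_eq_sqrt_re_inner ℂ, S.inner_ι, ← norm_eq_sqrt_re_inner]

lemma LR_mul (s : ℕ) (m₁ m₁' m₂ m₂' : Matrix (Fin 2) (Fin 2) ℂ) :
    S.L s m₁ * S.R s m₁' * (S.L s m₂ * S.R s m₂') = S.L s (m₁ * m₂) * S.R s (m₁' * m₂') := by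
  rw [map_mul, map_mul, mul_assoc, ← mul_assoc (S.R s m₁'), ← S.LR, mul_assoc, mul_assoc]

lemma Q_LR (s : ℕ) (m m' : Matrix (Fin 2) (Fin 2) ℂ) : S.Q s * (S.L s m * S.R s m') * S.Q s =
    (∑ a, ∑ b, ((√(wt (w s) a) * √(wt (w s) b) : ℝ) : ℂ) * (m a b * m' a b)) • S.Q s := by
  have e (m : Matrix (Fin 2) (Fin 2) ℂ) (a b c d : Fin 2) : eu a b * m * eu c d = m b c • eu a d := by
    simp [Matrix.single_mul_mul_single]
  simp only [Q, smul_mul_assoc, mul_smul_comm, LR_mul, e, map_smul,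
    Fin.sum_univ_two, add_mul, mul_add, Complex.ofReal_mul]
  module

lemma Q_proj (s : ℕ) : IsStarProjection (S.Q s) := by
  refine ⟨?_, ?_⟩
  · have := S.Q_LR s 1 1
    rw [map_one, map_one, mul_one, mul_one] at this
    rw [IsIdempotentElem, this]
    simpa [Fin.sum_univ_two] using congrArg (· • S.Q s) (SiteB.sum_sq (S.hw s))
  · simp only [IsSelfAdjoint, Q, star_sum, star_smul, star_mul, ← map_star, SiteB.star_eu, ← S.LR,
      Complex.star_def, Complex.conj_ofReal]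
    rw [Finset.sum_comm]
    exact Finset.sum_congr rfl fun a _ => Finset.sum_congr rfl fun b _ => by rw [mul_comm (√_ : ℝ)]

lemma Q_ι (s : ℕ) (v : K) : S.Q s (S.ι v) = S.ι v := by
  have e (a b : Fin 2) : ((√(wt (w s) a) * √(wt (w s) b) : ℝ) : ℂ) •
      S.L s (eu a b) (S.R s (eu a b) (S.ι v)) =
      (((√(wt (w s) b) : ℝ) : ℂ) * (√(wt (w s) b) : ℝ)) • S.L s (eu a a) (S.ι v) := by
    rw [Complex.ofReal_mul, mul_comm, mul_smul, ← map_smul, ← S.vac, map_smul, smul_smul,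
      ← ContinuousLinearMap.mul_apply, ← map_mul, Matrix.single_mul_single_same, mul_one]
  simp only [Q, ContinuousLinearMap.sum_apply, ContinuousLinearMap.smul_apply,
    ContinuousLinearMap.mul_apply, e, ← Finset.sum_smul, SiteB.sum_sq (S.hw s), one_smul]
  rw [← ContinuousLinearMap.sum_apply, ← map_sum, Matrix.sum_single_one, map_one]
  rfl

lemma comm_Q {s : ℕ} {C : K' →L[ℂ] K'}
    (h : ∀ m, C * S.L s m = S.L s m * C ∧ C * S.R s m = S.R s m * C) : C * S.Q s = S.Q s * C := by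
  simp only [Q, Finset.sum_mul, Finset.mul_sum, smul_mul_assoc, mul_smul_comm]
  refine Finset.sum_congr rfl fun a _ => Finset.sum_congr rfl fun b _ => ?_
  rw [← mul_assoc, (h _).1, mul_assoc, (h _).2, mul_assoc]

lemma Cmn.mono {S : Sites w K K'} {n n' : ℕ} {C : K' →L[ℂ] K'} (h : S.Cmn n C) (hn : n' ≤ n) :
    S.Cmn n' C := fun s hs => h s (hs.trans_le hn)

lemma Cmn.QQ {S : Sites w K K'} {n : ℕ} {C : K' →L[ℂ] K'} (h : S.Cmn n C) :
    C * S.QQ n = S.QQ n * C := by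
  induction n with
  | zero => simp [Sites.QQ]
  | succ n ih =>
    rw [Sites.QQ, ← mul_assoc, ih (h.mono n.le_succ), mul_assoc, S.comm_Q (h n n.lt_succ_self),
      mul_assoc]

lemma cmn_amp (n : ℕ) (T : K →L[ℂ] K) : S.Cmn n (S.amp T) := fun s _ m => ⟨S.aL T s m, S.aR T s m⟩

lemma cmn_L {n s : ℕ} (h : n ≤ s) (m : Matrix (Fin 2) (Fin 2) ℂ) : S.Cmn n (S.L s m) :=
  fun _ hs _ => ⟨S.LL (hs.trans_le h).ne' _ _, S.LR _ _ _ _⟩

lemma cmn_R {n s : ℕ} (h : n ≤ s) (m : Matrix (Fin 2) (Fin 2) ℂ) : S.Cmn n (S.R s m) :=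
  fun _ hs _ => ⟨(S.LR _ _ _ _).symm, S.RR (hs.trans_le h).ne' _ _⟩

lemma Cmn.mul {S : Sites w K K'} {n : ℕ} {C C' : K' →L[ℂ] K'} (h : S.Cmn n C) (h' : S.Cmn n C') :
    S.Cmn n (C * C') := fun s hs m =>
  ⟨by rw [mul_assoc, (h' s hs m).1, ← mul_assoc, (h s hs m).1, mul_assoc],
    by rw [mul_assoc, (h' s hs m).2, ← mul_assoc, (h s hs m).2, mul_assoc]⟩

lemma Cmn.add {S : Sites w K K'} {n : ℕ} {C C' : K' →L[ℂ] K'} (h : S.Cmn n C) (h' : S.Cmn n C') :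
    S.Cmn n (C + C') := fun s hs m =>
  ⟨by rw [add_mul, mul_add, (h' s hs m).1, (h s hs m).1],
    by rw [add_mul, mul_add, (h' s hs m).2, (h s hs m).2]⟩

lemma Cmn.star {S : Sites w K K'} {n : ℕ} {C : K' →L[ℂ] K'} (h : S.Cmn n C) :
    S.Cmn n (star C) := fun s hs m =>
  ⟨by simpa only [star_mul, ← map_star, star_star] using
      congrArg Star.star (h s hs (Star.star m)).1.symm,
    by simpa only [star_mul, ← map_star, star_star] using
      congrArg Star.star (h s hs (Star.star m)).2.symm⟩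

lemma cmn_Q {n s : ℕ} (h : n ≤ s) : S.Cmn n (S.Q s) := fun _ hs _ =>
  ⟨(S.comm_Q fun _ => ⟨S.LL (hs.trans_le h).ne _ _, S.LR _ _ _ _⟩).symm,
    (S.comm_Q fun _ => ⟨(S.LR _ _ _ _).symm, S.RR (hs.trans_le h).ne _ _⟩).symm⟩

lemma QQ_proj (n : ℕ) : IsStarProjection (S.QQ n) := by
  induction n with
  | zero => exact .one _
  | succ n ih => exact ih.mul (S.Q_proj n) (S.cmn_Q le_rfl).QQ.symm

lemma QQ_ι (n : ℕ) (v : K) : S.QQ n (S.ι v) = S.ι v := by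
  induction n with
  | zero => rfl
  | succ n ih => rw [QQ, ContinuousLinearMap.mul_apply, Q_ι, ih]

lemma Q_L {s s' : ℕ} (h : s' ≠ s) (m : Matrix (Fin 2) (Fin 2) ℂ) (ξ : K') :
    S.Q s (S.L s' m ξ) = S.L s' m (S.Q s ξ) :=
  congr($(S.comm_Q fun _ => ⟨S.LL h m _, S.LR _ _ _ _⟩) ξ).symm

lemma far (ξ : K') {ε : ℝ} (hε : 0 < ε) : ∃ n, ∀ s ≥ n, ‖S.Q s ξ - ξ‖ ≤ ε := by
  let N : Submodule ℂ K' :=
    { carrier := {ξ | Tendsto (fun s => S.Q s ξ) atTop (𝓝 ξ)}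
      add_mem' := fun h h' => by simpa using Tendsto.add h h'
      zero_mem' := by simp
      smul_mem' := fun c _ h => by simpa using Tendsto.const_smul h c }
  have h : ξ ∈ N := S.dense N ((LipschitzWith.uniformEquicontinuous (fun s => S.Q s) 1 fun s =>
      (S.Q s).lipschitz.weaken (IsStarProjection.norm_le _ (S.Q_proj s))
      ).equicontinuous.isClosed_setOfPred_tendsto continuous_id)
    (fun v => by simp [N, Q_ι]) (fun s m ξ h => ?_) ξ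
  · obtain ⟨n, hn⟩ := Metric.tendsto_atTop.1 h ε hε
    exact ⟨n, fun s hs => by rw [← dist_eq_norm]; exact (hn s hs).le⟩
  · exact (((S.L s m).continuous.tendsto ξ).comp h).congr' ((eventually_gt_atTop s).mono
      fun s' hs => (S.Q_L hs.ne m ξ).symm)

/-- Vectors that only involve the first sites. -/
noncomputable def lev : ℕ → Submodule ℂ K'
  | 0 => LinearMap.range (S.ι : K →ₗ[ℂ] K')
  | n + 1 => Submodule.span ℂ {ξ | ∃ m, ∃ θ ∈ lev n, S.L n m θ = ξ}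

lemma lev_mono : Monotone S.lev := monotone_nat_of_le_succ fun n θ h =>
  Submodule.subset_span ⟨1, θ, h, by rw [map_one]; rfl⟩

lemma lev_ind {n : ℕ} {P : Submodule ℂ K'} (h : ∀ m, ∀ θ ∈ S.lev n, S.L n m θ ∈ P) :
    S.lev (n + 1) ≤ P := Submodule.span_le.2 fun _ ⟨m, θ, hθ, e⟩ => e ▸ h m θ hθ

lemma lev_Q (n : ℕ) : ∀ s ≥ n, ∀ θ ∈ S.lev n, S.Q s θ = θ := by
  induction n with
  | zero => rintro s - _ ⟨v, rfl⟩; exact S.Q_ι s v
  | succ n ih =>
    intro s hs θ hθ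
    refine S.lev_ind (P := LinearMap.eqLocus (S.Q s : K' →ₗ[ℂ] K') LinearMap.id)
      (fun m θ hθ => ?_) hθ
    show S.Q s _ = S.L n m θ
    rw [S.Q_L (Nat.lt_of_succ_le hs).ne, ih s (by omega) θ hθ]

lemma lev_QQ (n : ℕ) : ∀ θ ∈ S.lev n, S.QQ n θ ∈ S.lev 0 := by
  induction n with
  | zero => exact fun θ h => h
  | succ n ih =>
    intro θ hθ
    refine S.lev_ind (P := (S.lev 0).comap (S.QQ (n + 1) : K' →ₗ[ℂ] K')) (fun m θ hθ => ?_) hθ
    have := congr($(S.Q_LR n m 1) θ)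
    simp only [map_one, mul_one, ContinuousLinearMap.mul_apply, S.lev_Q n n le_rfl θ hθ,
      ContinuousLinearMap.smul_apply] at this
    show S.QQ n (S.Q n _) ∈ S.lev 0
    rw [this, map_smul]
    exact Submodule.smul_mem _ _ (ih θ hθ)

lemma lev_L (n : ℕ) : ∀ s < n, ∀ m, ∀ θ ∈ S.lev n, S.L s m θ ∈ S.lev n := by
  induction n with
  | zero => exact fun s hs => absurd hs s.not_lt_zero
  | succ n ih =>
    intro s hs m θ hθ
    refine S.lev_ind (P := (S.lev (n + 1)).comap (S.L s m : K' →ₗ[ℂ] K')) (fun m' θ hθ => ?_) hθ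
    refine Submodule.subset_span ?_
    rcases (Nat.le_of_lt_succ hs).eq_or_lt with rfl | h
    · exact ⟨m * m', θ, hθ, by rw [map_mul]; rfl⟩
    · exact ⟨m', _, ih s h m θ hθ, congr($(S.LL h.ne' m' m) θ)⟩

lemma lim (θ : K') {ε : ℝ} (hε : 0 < ε) : ∃ n₀ v, ∀ n ≥ n₀, ‖S.QQ n θ - S.ι v‖ ≤ ε := by
  have hd := S.lev_mono.directed_le
  have h : θ ∈ (⨆ n, S.lev n).topologicalClosure := S.dense _ (Submodule.isClosed_topologicalClosure _)
    (fun v => Submodule.le_topologicalClosure _ (Submodule.mem_iSup_of_mem (p := S.lev) 0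
      (LinearMap.mem_range_self (S.ι : K →ₗ[ℂ] K') v)))
    (fun s m ξ h => map_mem_closure (S.L s m).continuous h fun θ hθ => by
      obtain ⟨n, hn⟩ := (Submodule.mem_iSup_of_directed _ hd).1 hθ
      exact Submodule.mem_iSup_of_mem (max n (s + 1)) (S.lev_L _ s (by omega) m θ
        (S.lev_mono (le_max_left _ _) hn))) θ
  obtain ⟨θ', h1, h2⟩ := Metric.mem_closure_iff.1 h ε hε
  obtain ⟨n₀, hn⟩ := (Submodule.mem_iSup_of_directed _ hd).1 h1
  obtain ⟨v, hv⟩ := S.lev_QQ n₀ θ' hn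
  refine ⟨n₀, v, fun n hn' => ?_⟩
  have e : S.QQ n θ' = S.ι v := by
    induction n, hn' using Nat.le_induction with
    | base => exact hv.symm
    | succ n hn' ih => rw [QQ, ContinuousLinearMap.mul_apply, S.lev_Q n₀ n hn' θ' hn, ih]
  rw [← e, ← map_sub]
  refine ((S.QQ n).le_of_opNorm_le (IsStarProjection.norm_le _ (S.QQ_proj n)) _).trans ?_
  rw [one_mul, ← dist_eq_norm]
  exact h2.le

lemma L_ι_mem {N : Submodule ℂ K'} {v : K} {s : ℕ} (h : ∀ m, S.R s m (S.ι v) ∈ N)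
    (m : Matrix (Fin 2) (Fin 2) ℂ) : S.L s m (S.ι v) ∈ N := by
  rw [SiteB.eu_sum m]
  simp only [map_sum, map_smul, ContinuousLinearMap.sum_apply, ContinuousLinearMap.smul_apply]
  refine sum_mem fun a _ => sum_mem fun b _ => N.smul_mem _ ?_
  have h0 : ((√(wt (w s) a) : ℝ) : ℂ) ≠ 0 := by
    simpa using (Real.sqrt_pos.2 (SiteB.wt_pos (S.hw s) a)).ne'
  rw [← N.smul_mem_iff h0, S.vac]
  exact N.smul_mem _ (h _)

lemma denseR (N : Submodule ℂ K') (hN : IsClosed (N : Set K')) (h0 : ∀ v, S.ι v ∈ N)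
    (h : ∀ s m, ∀ ξ ∈ N, S.R s m ξ ∈ N) (ξ : K') : ξ ∈ N := by
  let 𝒮 : Set (Submodule ℂ K') := {N | IsClosed (N : Set K') ∧ (∀ v, S.ι v ∈ N) ∧
    ∀ s m, ∀ ξ ∈ N, S.R s m ξ ∈ N}
  have h1 : IsClosed ((sInf 𝒮 : Submodule ℂ K') : Set K') := by
    rw [Submodule.coe_sInf]
    exact isClosed_biInter fun N hN => hN.1
  have h2 : ∀ v, S.ι v ∈ sInf 𝒮 := fun v => Submodule.mem_sInf.2 fun N hN => hN.2.1 v
  have h3 : ∀ s m, ∀ ξ ∈ sInf 𝒮, S.R s m ξ ∈ sInf 𝒮 := fun s m ξ hξ =>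
    Submodule.mem_sInf.2 fun N hN => hN.2.2 s m ξ (Submodule.mem_sInf.1 hξ N hN)
  refine Submodule.mem_sInf.1 (S.dense _ h1 h2 (fun s m ξ hξ => ?_) ξ) N ⟨hN, h0, h⟩
  refine Submodule.mem_sInf.1 hξ ((sInf 𝒮).comap (S.L s m : K' →ₗ[ℂ] K'))
    ⟨h1.preimage (S.L s m).continuous, fun v => S.L_ι_mem (fun m => h3 s m _ (h2 v)) m,
      fun s' m' ξ hξ => ?_⟩
  have e : S.L s m (S.R s' m' ξ) = S.R s' m' (S.L s m ξ) := congr($(S.LR s s' m m') ξ)
  show S.L s m (S.R s' m' ξ) ∈ sInf 𝒮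
  rw [e]
  exact h3 s' m' _ hξ

end Sites

end Vale.Agent.P096
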