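import Vale.Agent.P096.G.SiteB
import Vale.Agent.P096.G.Hom
import Vale.Agent.P096.G.Am

/-! The amplified algebras. -/

namespace Vale.Agent.P096

open scoped InnerProductSpace Topology ComplexConjugate
open Filter
open Vale.Agent.P132 (FC BC ex pp qq rr EE chi Std PM MD)

universe u

namespace SiteC

/-- Groups generated by elements that commute up to a central involution. -/
lemma am_closure {G : Type*} [Group G] (z : G) (hz : ∀ x, z * x = x * z) (h2 : z * z = 1)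
    {k : Set G} (hk : z ∈ k) (h : ∀ x ∈ k, ∀ y ∈ k, x * y = y * x ∨ x * y = z * (y * x)) :
    Am (Subgroup.closure k) := by
  have h3 (x) : z * (z * x) = x := by rw [← mul_assoc, h2, one_mul]
  have h4 (x y) : x * (z * y) = z * (x * y) := by rw [← mul_assoc, ← hz, mul_assoc]
  have sy {x y : G} (h : x * y = y * x ∨ x * y = z * (y * x)) :
      y * x = x * y ∨ y * x = z * (x * y) := h.imp Eq.symm fun e => by rw [e, h3]
  let H (y : G) : Subgroup G :=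
    { carrier := {x | x * y = y * x ∨ x * y = z * (y * x)}
      one_mem' := .inl (by simp)
      mul_mem' := fun {a b} ha hb => by
        rcases ha with ha | ha <;> rcases hb with hb | hb
        · exact .inl (by rw [mul_assoc, hb, ← mul_assoc, ha, mul_assoc])
        · exact .inr (by rw [mul_assoc, hb, h4, ← mul_assoc a, ha, mul_assoc])
        · exact .inr (by rw [mul_assoc, hb, ← mul_assoc, ha, mul_assoc, mul_assoc])
        · exact .inl (by rw [mul_assoc, hb, h4, ← mul_assoc a, ha, mul_assoc z, h3, mul_assoc])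
      inv_mem' := fun {a} ha => by
        refine sy (ha.imp (fun e => ?_) fun e => ?_)
        · rw [mul_inv_eq_iff_eq_mul, mul_assoc, ← e, inv_mul_cancel_left]
        · rw [mul_inv_eq_iff_eq_mul, mul_assoc, mul_assoc, ← h4, ← e, inv_mul_cancel_left] }
  refine am_of_central ⟨z, Subgroup.subset_closure hk⟩ (fun x => Subtype.ext (hz x))
    (Subtype.ext h2) fun x y => ?_
  have : (x : G) ∈ H y := (Subgroup.closure_le _).2 (fun a ha =>
    sy ((Subgroup.closure_le (H a)).2 (fun b hb => h b hb a ha) y.2)) x.2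
  exact this.imp Subtype.ext Subtype.ext

/-- First Pauli matrix. -/
def px : Matrix (Fin 2) (Fin 2) ℂ := !![0, 1; 1, 0]

/-- Third Pauli matrix. -/
def pz : Matrix (Fin 2) (Fin 2) ℂ := !![1, 0; 0, -1]

lemma px_unit : px ∈ unitary (Matrix (Fin 2) (Fin 2) ℂ) := by
  constructor <;> ext i j <;> fin_cases i <;> fin_cases j <;> simp [px, Matrix.mul_apply]

lemma pz_unit : pz ∈ unitary (Matrix (Fin 2) (Fin 2) ℂ) := by
  constructor <;> ext i j <;> fin_cases i <;> fin_cases j <;> simp [pz, Matrix.mul_apply]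

lemma pxz : px * pz = -(pz * px) := by
  ext i j
  fin_cases i <;> fin_cases j <;> simp [px, pz]

lemma pauli (m : Matrix (Fin 2) (Fin 2) ℂ) : m = ((m 0 0 + m 1 1) / 2) • 1 +
    ((m 0 1 + m 1 0) / 2) • px + ((m 0 0 - m 1 1) / 2) • pz + ((m 1 0 - m 0 1) / 2) • (px * pz) := by
  ext i j
  fin_cases i <;> fin_cases j <;> simp [px, pz] <;> ring

lemma comm_pauli {E : Type*} [Ring E] [Algebra ℂ E] [Star E]
    (ρ : Matrix (Fin 2) (Fin 2) ℂ →⋆ₐ[ℂ] E) {T : E} (hx : T * ρ px = ρ px * T)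
    (hz : T * ρ pz = ρ pz * T) (m : Matrix (Fin 2) (Fin 2) ℂ) : T * ρ m = ρ m * T := by
  rw [pauli m]
  simp only [map_add, map_smul, map_one, map_mul]
  exact ((((Commute.one_right T).smul_right _).add_right (Commute.smul_right hx _)).add_right
    (Commute.smul_right hz _)).add_right ((Commute.mul_right hx hz).smul_right _)

variable {K : Type*} [NormedAddCommGroup K] [InnerProductSpace ℂ K] [CompleteSpace K]

/-- Minus one as a unitary. -/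
def m1 : unitary (K →L[ℂ] K) := ⟨-1, by simp [Unitary.mem_iff]⟩

@[simp] lemma coe_m1 : ((m1 : unitary (K →L[ℂ] K)) : K →L[ℂ] K) = -1 := rfl

/-- The closed orbit of a vector. -/
lemma orb (X : SA K) (v : K) : ∃ N : Submodule ℂ K, IsClosed (N : Set K) ∧ (∀ x ∈ X, x v ∈ N) ∧
    (∀ x ∈ X, ∀ ξ ∈ N, x ξ ∈ N) ∧ ∀ ξ ∈ N, ∀ η > 0, ∃ x ∈ X, ‖x v - ξ‖ ≤ η := by
  refine ⟨(X.toSubalgebra.toSubmodule.map
    (ContinuousLinearMap.apply ℂ K v : (K →L[ℂ] K) →ₗ[ℂ] K)).topologicalClosure,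
    Submodule.isClosed_topologicalClosure _,
    fun x hx => Submodule.le_topologicalClosure _ ⟨x, hx, rfl⟩,
    fun x hx ξ hξ => map_mem_closure x.continuous hξ ?_, fun ξ hξ η hη => ?_⟩
  · rintro _ ⟨y, hy, rfl⟩
    exact ⟨x * y, X.mul_mem hx hy, rfl⟩
  · obtain ⟨_, ⟨y, hy, rfl⟩, h⟩ := Metric.mem_closure_iff.1 hξ η hη
    exact ⟨y, hy, by rw [← dist_eq_norm, dist_comm]; exact h.le⟩

lemma est {Q T : K →L[ℂ] K} (hQ : IsStarProjection Q) {c : ℂ} (h : Q * T * Q = c • Q) {C : ℝ}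
    (hT : ‖T‖ ≤ 1) (hc : ‖c‖ ≤ C) (ξ ξ' : K) : ‖⟪ξ', T ξ⟫_ℂ - c * ⟪ξ', ξ⟫_ℂ‖ ≤
      (1 + C) * (‖Q ξ' - ξ'‖ * ‖ξ‖ + ‖ξ'‖ * ‖Q ξ - ξ‖) := by
  have hC : 0 ≤ C := (norm_nonneg _).trans hc
  let T' := T - c • (1 : K →L[ℂ] K)
  have h1 : ‖T'‖ ≤ 1 + C := (norm_sub_le _ _).trans (add_le_add hT (by
    rw [norm_smul]
    exact (mul_le_of_le_one_right (norm_nonneg _) ContinuousLinearMap.norm_id_le).trans hc))
  have h2 : Q * T' * Q = 0 := by
    rw [mul_sub, sub_mul, h, mul_smul_comm, mul_one, smul_mul_assoc, hQ.isIdempotentElem.eq,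
      sub_self]
  have h3 : ⟪Q ξ', T' (Q ξ)⟫_ℂ = 0 := by
    rw [← ContinuousLinearMap.adjoint_inner_right, ← ContinuousLinearMap.star_eq_adjoint,
      hQ.isSelfAdjoint.star_eq]
    exact (congrArg _ congr($h2 ξ)).trans (inner_zero_right _)
  have h4 : ⟪ξ', T ξ⟫_ℂ - c * ⟪ξ', ξ⟫_ℂ = -⟪Q ξ' - ξ', T' ξ⟫_ℂ - ⟪Q ξ', T' (Q ξ - ξ)⟫_ℂ := by
    rw [map_sub T', inner_sub_right, h3, inner_sub_left]
    simp [T', inner_sub_right, inner_smul_right]
    ring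
  have h5 : ‖Q ξ'‖ ≤ ‖ξ'‖ := (Q.le_of_opNorm_le (IsStarProjection.norm_le _ hQ) _).trans (by simp)
  have h6 := (norm_inner_le_norm (𝕜 := ℂ) (Q ξ' - ξ') (T' ξ)).trans
    (mul_le_mul_of_nonneg_left (T'.le_of_opNorm_le h1 _) (norm_nonneg _))
  have h7 := (norm_inner_le_norm (𝕜 := ℂ) (Q ξ') (T' (Q ξ - ξ))).trans
    (mul_le_mul h5 (T'.le_of_opNorm_le h1 _) (norm_nonneg _) (norm_nonneg _))
  rw [h4]
  refine (norm_sub_le _ _).trans ?_
  rw [norm_neg]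
  linarith

lemma norm_eu {E : Type*} [CStarAlgebra E] (ρ : Matrix (Fin 2) (Fin 2) ℂ →⋆ₐ[ℂ] E) (a b : Fin 2) :
    ‖ρ (eu a b)‖ ≤ 1 := by
  have h : IsStarProjection (ρ (eu b b)) := IsStarProjection.map
    ⟨by simp [IsIdempotentElem], SiteB.star_eu b b⟩ ρ
  have h1 := IsStarProjection.norm_le _ h
  have h2 : ρ (eu b b) = star (ρ (eu a b)) * ρ (eu a b) := by
    rw [← map_star, ← map_mul, SiteB.star_eu, Matrix.single_mul_single_same, mul_one]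
  rw [h2, CStarRing.norm_star_mul_self] at h1
  nlinarith [norm_nonneg (ρ (eu a b))]

end SiteC

open SiteC

namespace Sites

variable {w : ℕ → ℝ} {K K' : Type*} [NormedAddCommGroup K] [InnerProductSpace ℂ K]
  [CompleteSpace K] [NormedAddCommGroup K'] [InnerProductSpace ℂ K'] [CompleteSpace K']
  (S : Sites w K K')
  {A R D B : SA K} {Ω : K}

lemma mem_up {T : K' →L[ℂ] K'} : T ∈ S.up R ↔
    (∀ a ∈ R, T * S.amp a = S.amp a * T) ∧ ∀ s m, T * S.R s m = S.R s m * T := by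
  rw [up, mem_cz]
  refine ⟨fun h => ⟨fun a ha => (h _ (.inl ⟨a, ha, rfl⟩)).1,
    fun s m => (h _ (.inr (Set.mem_iUnion.2 ⟨s, m, rfl⟩))).1⟩, fun h x hx => ?_⟩
  rcases hx with ⟨a, ha, rfl⟩ | hx
  · exact ⟨h.1 a ha, by rw [← map_star]; exact h.1 _ (star_mem ha)⟩
  · obtain ⟨s, m, rfl⟩ := Set.mem_iUnion.1 hx
    exact ⟨h.2 s m, by rw [← map_star]; exact h.2 s _⟩

lemma cp_up (R : SA K) : CP (S.up R) (S.up' R) := cp_cz _

lemma amp_mem (h : CP A R) {x : K →L[ℂ] K} (hx : x ∈ A) : S.amp x ∈ S.up R :=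
  S.mem_up.2 ⟨fun a ha => by rw [← map_mul, ← map_mul, h.cm x hx a ha], S.aR x⟩

lemma L_mem (R : SA K) (s : ℕ) (m : Matrix (Fin 2) (Fin 2) ℂ) : S.L s m ∈ S.up R :=
  S.mem_up.2 ⟨fun a _ => (S.aL a s m).symm, fun s' m' => S.LR s s' m m'⟩

lemma amp_mem' {a : K →L[ℂ] K} (ha : a ∈ R) : S.amp a ∈ S.up' R :=
  (S.cp_up R).cY _ fun _ hx => ((S.mem_up.1 hx).1 a ha).symm

lemma R_mem (R : SA K) (s : ℕ) (m : Matrix (Fin 2) (Fin 2) ℂ) : S.R s m ∈ S.up' R :=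
  (S.cp_up R).cY _ fun _ hx => ((S.mem_up.1 hx).2 s m).symm

theorem sp_up (h : SP A R Ω) : SP (S.up R) (S.up' R) (S.ι Ω) := by
  refine ⟨S.cp_up R, fun v => ?_, fun v => ?_, by rw [S.norm_ι, h.nΩ]⟩
  · obtain ⟨N, h1, h2, h3, h4⟩ := orb (S.up R) (S.ι Ω)
    exact h4 v (S.dense N h1 (std_ind h.dX (p := fun v => S.ι v ∈ N) (h1.preimage S.ι.continuous)
      fun x hx => S.amp_ι x Ω ▸ h2 _ (S.amp_mem h.toCP hx)) (fun s m => h3 _ (S.L_mem R s m)) v)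
  · obtain ⟨N, h1, h2, h3, h4⟩ := orb (S.up' R) (S.ι Ω)
    exact h4 v (S.denseR N h1 (std_ind h.dY (p := fun v => S.ι v ∈ N) (h1.preimage S.ι.continuous)
      fun x hx => S.amp_ι x Ω ▸ h2 _ (S.amp_mem' hx)) (fun s m => h3 _ (S.R_mem R s m)) v)

lemma near_up {δ : ℝ} (hδ : 0 ≤ δ) (h : Near δ (B : Set (K →L[ℂ] K)) R) :
    Near (2 * KD * δ) (S.up R : Set (K' →L[ℂ] K')) (S.up B) := fun X hX => by
  obtain ⟨T, h1, h2⟩ := near_hom S.amp hδ h (S.mem_up.1 hX).1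
  let k : Set (unitary (K' →L[ℂ] K')) :=
    {u | ∃ s m, (m = -1 ∨ m = px ∨ m = pz) ∧ (u : K' →L[ℂ] K') = S.R s m}
  have ha : Am (Subgroup.closure k) := am_closure m1 (fun _ => Subtype.ext (by simp))
    (Subtype.ext (by simp)) ⟨0, -1, .inl rfl, by simp⟩ (by
      rintro x ⟨s, m, hm, hx⟩ y ⟨s', m', hm', hy⟩
      simp only [Subtype.ext_iff, Submonoid.coe_mul, hx, hy, coe_m1, neg_mul, one_mul]
      rcases eq_or_ne s s' with rfl | hs
      · simp only [← map_mul, ← map_neg]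
        rcases hm with rfl | rfl | rfl <;> rcases hm' with rfl | rfl | rfl <;> simp [pxz]
      · exact .inl (S.RR hs _ _))
  let p : Subgroup.closure k →* (K' →L[ℂ] K') :=
    (unitary (K' →L[ℂ] K')).subtype.comp (Subgroup.closure k).subtype
  have hc {Y : K' →L[ℂ] K'} (hY : ∀ s m, Y * S.R s m = S.R s m * Y) (g) : Y * p g = p g * Y := by
    obtain ⟨g, hg⟩ := g
    show Y * g = g * Y
    induction hg using Subgroup.closure_induction with
    | mem x hx => obtain ⟨s, m, -, hx⟩ := hx; rw [hx, hY]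
    | one => simp
    | mul x y _ _ hx hy => exact Commute.mul_right hx hy
    | inv x _ hx =>
      show Y * star (x : K' →L[ℂ] K') = star (x : K' →L[ℂ] K') * Y
      rw [← one_mul (Y * _), ← x.2.1, mul_assoc, ← mul_assoc _ Y, ← hx, mul_assoc, x.2.2, mul_one]
  obtain ⟨T', e1, e2, e3⟩ := near_fix ha (p := p) (fun g => g.1.2) (Y := S.amp '' B) (X := X)
    (S := T) (by
      rintro g _ ⟨c, hc', rfl⟩
      rw [mul_assoc, hc (S.aR c), ← mul_assoc, show star (p g) * p g = 1 from g.1.2.1, one_mul]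
      exact ⟨c, hc', rfl⟩) (hc (S.mem_up.1 hX).2) (by rintro _ ⟨c, hc', rfl⟩; exact h1 c hc')
  refine ⟨T', S.mem_up.2 ⟨fun c hc' => e1 _ ⟨c, hc', rfl⟩, fun s => comm_pauli _ ?_ ?_⟩,
    e3.trans h2⟩
  · exact e2 ⟨⟨_, Unitary.map_mem (S.R s) px_unit⟩,
      Subgroup.subset_closure ⟨s, px, .inr (.inl rfl), rfl⟩⟩
  · exact e2 ⟨⟨_, Unitary.map_mem (S.R s) pz_unit⟩,
      Subgroup.subset_closure ⟨s, pz, .inr (.inr rfl), rfl⟩⟩

theorem n4_up {δ : ℝ} (hδ : 0 ≤ δ) (h : N4 δ A R D B) :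
    N4 (4 * KD ^ 2 * δ) (S.up R) (S.up' R) (S.up B) (S.up' B) := by
  have h1 := one_le_KD
  have h2 : 2 * KD * δ ≤ 4 * KD ^ 2 * δ := mul_le_mul_of_nonneg_right (by nlinarith) hδ
  have h3 : 2 * KD * (2 * KD * δ) ≤ 4 * KD ^ 2 * δ := le_of_eq (by ring)
  have h4 : 0 ≤ 2 * KD * δ := by positivity
  exact ⟨(S.near_up hδ h.br).mono h2, (S.near_up hδ h.rb).mono h2,
    ((S.cp_up R).symm.near (S.cp_up B).symm h4 (S.near_up hδ h.rb)).mono h3,
    ((S.cp_up B).symm.near (S.cp_up R).symm h4 (S.near_up hδ h.br)).mono h3⟩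

lemma adj_amp (a : K →L[ℂ] K) (ξ : K') : S.ι.adjoint (S.amp a ξ) = a (S.ι.adjoint ξ) :=
  ext_inner_left ℂ fun u => by
    rw [ContinuousLinearMap.adjoint_inner_right, ← ContinuousLinearMap.adjoint_inner_left,
      ← ContinuousLinearMap.star_eq_adjoint, ← map_star, S.amp_ι,
      ← ContinuousLinearMap.adjoint_inner_right, ContinuousLinearMap.star_eq_adjoint,
      ContinuousLinearMap.adjoint_inner_left]

lemma adj_ι (v : K) : S.ι.adjoint (S.ι v) = v :=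
  ext_inner_left ℂ fun u => by rw [ContinuousLinearMap.adjoint_inner_right, S.inner_ι]

theorem lift_up (h : CP A R) (h' : CP D B) {ε : ℝ} (hε : 0 ≤ ε) (hl : Lift ε (S.up R) (S.up B)) :
    Lift ε A D := by
  obtain ⟨ψ, hψ⟩ := hl
  let c : D →ₗ[ℂ] S.up B :=
    { toFun := fun n => ⟨S.amp n, S.amp_mem h' n.2⟩
      map_add' := fun _ _ => Subtype.ext (by simp)
      map_smul' := fun _ _ => Subtype.ext (by simp) }
  let d : (K' →L[ℂ] K') →ₗ[ℂ] (K →L[ℂ] K) :=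
    { toFun := fun T => S.ι.adjoint ∘L T ∘L S.ι
      map_add' := fun _ _ => by ext; simp
      map_smul' := fun _ _ => by ext; simp }
  have h1 : ‖S.ι‖ ≤ 1 := S.ι.opNorm_le_bound zero_le_one fun v => by rw [S.norm_ι, one_mul]
  refine ⟨d ∘ₗ ψ ∘ₗ c, fun n => ⟨h.cX _ fun a ha => ContinuousLinearMap.ext fun v => ?_, ?_⟩⟩
  · show S.ι.adjoint (ψ (c n) (S.ι (a v))) = a (S.ι.adjoint (ψ (c n) (S.ι v)))
    rw [← S.amp_ι, ← S.adj_amp]
    exact congrArg _ congr($((S.mem_up.1 (hψ (c n)).1).1 a ha) (S.ι v))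
  · refine ContinuousLinearMap.opNorm_le_bound _ (by positivity) fun v => ?_
    have e : ((d ∘ₗ ψ ∘ₗ c) n - n) v = S.ι.adjoint ((ψ (c n) - c n) (S.ι v)) := by
      show S.ι.adjoint (ψ (c n) (S.ι v)) - _ = S.ι.adjoint (ψ (c n) (S.ι v) - S.amp n (S.ι v))
      rw [map_sub, S.amp_ι, S.adj_ι]
      rfl
    have h2 : ‖c n‖ ≤ ‖n‖ := NonUnitalStarAlgHom.norm_apply_le S.amp (n : K →L[ℂ] K)
    have h3 := (ψ (c n) - c n).le_of_opNorm_le ((hψ (c n)).2.trans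
      (mul_le_mul_of_nonneg_left h2 hε)) (S.ι v)
    rw [S.norm_ι] at h3
    rw [e]
    exact (S.ι.adjoint.le_of_opNorm_le ((ContinuousLinearMap.adjoint.norm_map _).trans_le h1)
      _).trans ((one_mul _).trans_le h3)

theorem far_up (R : SA K) (Ω : K) (h : ∀ c₀ κ : ℝ, 0 < c₀ → 0 < κ → ∃ c : ℝ, 0 < c ∧ |c - c₀| ≤ κ ∧
    ∀ n, ∃ s ≥ n, w s = (1 + c ^ 2)⁻¹) : Far (S.up R) (S.up' R) (S.ι Ω) := by
  intro c₀ κ h0 hκ
  obtain ⟨c, hc, h1, h2⟩ := h c₀ κ h0 hκ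
  refine ⟨c, hc, h1, fun F ε hε => ?_⟩
  have t1 (ξ : K') : Tendsto (fun s => ‖S.Q s ξ - ξ‖) atTop (𝓝 0) :=
    Metric.tendsto_atTop.2 fun η hη => (S.far ξ (half_pos hη)).imp fun n hn s hs => by
      simpa using (hn s hs).trans_lt (half_lt_self hη)
  have t2 : ∀ᶠ s in atTop, ∀ ξ ∈ F, ∀ ξ' ∈ F,
      (1 + (1 + c)) * (‖S.Q s ξ' - ξ'‖ * ‖ξ‖ + ‖ξ'‖ * ‖S.Q s ξ - ξ‖) ≤ ε := by
    simp only [eventually_all_finset]
    intro ξ _ ξ' _
    exact ((((t1 ξ').mul_const _).add ((t1 ξ).const_mul _)).const_mul _).eventually_le_const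
      (by simpa using hε)
  obtain ⟨n, hn⟩ := eventually_atTop.1 t2
  obtain ⟨s, hs, hw⟩ := h2 n
  have p0 : (0 : ℝ) < (1 + c ^ 2)⁻¹ := by positivity
  have p1 : (1 + c ^ 2)⁻¹ ≤ 1 := inv_le_one_of_one_le₀ (by nlinarith)
  have w0 : wt (w s) 0 = (1 + c ^ 2)⁻¹ := hw
  have w1 : √(wt (w s) 1) = c * √(wt (w s) 0) := by
    rw [w0, show wt (w s) 1 = c ^ 2 * (1 + c ^ 2)⁻¹ by
      show 1 - w s = _
      rw [hw]; field_simp; ring, Real.sqrt_mul (sq_nonneg c), Real.sqrt_sq hc.le]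
  have w2 : ((√(wt (w s) 0) : ℝ) : ℂ) ≠ 0 := by
    rw [w0]; exact_mod_cast (Real.sqrt_pos.2 p0).ne'
  have w3 : √(wt (w s) 0) * √(wt (w s) 0) = (1 + c ^ 2)⁻¹ := by rw [w0, Real.mul_self_sqrt p0.le]
  refine ⟨S.L s (eu 0 1), S.L_mem R _ _, S.R s (eu 1 0), S.R_mem R _ _, S.R s (eu 0 0),
    S.R_mem R _ _, norm_eu _ _ _, by rw [← map_star, SiteB.star_eu], ?_, ?_, ?_,
    fun ξ hξ ξ' hξ' => ⟨?_, ?_⟩⟩
  · refine smul_right_injective _ w2 ?_
    simp only [S.vac, w1, smul_smul, Complex.ofReal_mul, mul_comm]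
  · refine smul_right_injective _ w2 ?_
    simp only [← map_star, SiteB.star_eu, ← S.vac, w1, smul_smul, Complex.ofReal_mul, mul_comm]
  · refine smul_right_injective _ w2 ?_
    simp only [← map_star, SiteB.star_eu, ← S.vac, ← ContinuousLinearMap.mul_apply, ← map_mul,
      Matrix.single_mul_single_same, mul_one]
  · refine (est (S.Q_proj s) ?_ (norm_eu _ _ _) ?_ ξ ξ').trans (hn s hs ξ hξ ξ' hξ')
    · have := S.Q_LR s 1 (eu 0 0)
      rw [map_one, one_mul] at this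
      rw [this, ← w3]
      simp [Fin.sum_univ_two]
    · rw [Complex.norm_real, Real.norm_of_nonneg p0.le]
      linarith
  · refine (est (T := star (S.L s (eu 0 1)) * S.R s (eu 1 0)) (S.Q_proj s) ?_ ?_ ?_ ξ ξ').trans
      (hn s hs ξ hξ ξ' hξ')
    · rw [← map_star, SiteB.star_eu, S.Q_LR, ← w3, ← mul_assoc, ← w1]
      simp [Fin.sum_univ_two]
    · exact (norm_mul_le _ _).trans (mul_le_one₀ (by rw [norm_star]; exact norm_eu _ _ _)
        (norm_nonneg _) (norm_eu _ _ _))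
    · rw [Complex.norm_real, Real.norm_of_nonneg (by positivity)]
      nlinarith

end Sites

theorem exists_weights : ∃ w : ℕ → ℝ, (∀ s, 0 < w s ∧ w s < 1) ∧ ∀ c₀ κ : ℝ, 0 < c₀ → 0 < κ →
    ∃ c : ℝ, 0 < c ∧ |c - c₀| ≤ κ ∧ ∀ n, ∃ s ≥ n, w s = (1 + c ^ 2)⁻¹ := by
  obtain ⟨e, he⟩ := exists_surjective_nat {q : ℚ // 0 < q}
  refine ⟨fun s => (1 + ((e s.unpair.1).1 : ℝ) ^ 2)⁻¹, fun s => ⟨by positivity, ?_⟩,
    fun c₀ κ h0 hκ => ?_⟩
  · have : (0 : ℝ) < (e s.unpair.1).1 := by exact_mod_cast (e s.unpair.1).2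
    exact inv_lt_one_of_one_lt₀ (by nlinarith)
  · obtain ⟨q, h1, h2⟩ := exists_rat_btwn (lt_add_of_pos_right c₀ hκ)
    obtain ⟨i, hi⟩ := he ⟨q, by exact_mod_cast h0.trans h1⟩
    exact ⟨q, h0.trans h1, abs_le.2 ⟨by linarith, by linarith⟩, fun n =>
      ⟨i.pair n, Nat.right_le_pair _ _, by simp [hi]⟩⟩

end Vale.Agent.P096
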