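import Vale.Agent.P096.G.Blk

/-! The twisted sites. -/

namespace Vale.Agent.P096

open scoped InnerProductSpace Topology ComplexConjugate
open Filter
open Vale.Agent.P132 (FC BC ex pp qq rr EE chi Std PM MD)

universe u

namespace Sites

variable {K K' : Type u} [NormedAddCommGroup K] [InnerProductSpace ℂ K]
  [CompleteSpace K] [NormedAddCommGroup K'] [InnerProductSpace ℂ K'] [CompleteSpace K']
  (S : Sites (fun _ => 1 / 2) K K') {A R : SA K} {Ω : K}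

/-- Twisting unitaries and the limit vector. -/
structure Tw (R : SA K) (Ω' : K') (W W' : ℕ → K' →L[ℂ] K') : Prop where
  sp : SP (S.up R) (S.up' R) Ω'
  mem : ∀ n, W n ∈ S.up R
  mem' : ∀ n, W' n ∈ S.up' R
  un : ∀ n, W n ∈ unitary (K' →L[ℂ] K')
  un' : ∀ n, W' n ∈ unitary (K' →L[ℂ] K')
  con : ∀ {n n'}, n ≤ n' → S.Cmn (n + 1) (star (W n) * W n')
  con' : ∀ {n n'}, n ≤ n' → S.Cmn (n + 1) (star (W' n) * W' n')
  fix : ∀ n, S.Q n (star (W n * W' n) Ω') = star (W n * W' n) Ω'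
  erg : ∀ (ζ : K') (ε : ℝ), 0 < ε → ∃ n, ∃ z ∈ S.up R, z ∈ S.up' R ∧
    ‖(W n * W' n) (S.QQ (n + 1) (star (W n * W' n) ζ)) - z Ω'‖ ≤ ε

/-- The state of the construction. -/
structure TwS (R : SA K) where
  n : ℕ
  W : K' →L[ℂ] K'
  W' : K' →L[ℂ] K'
  ep : ℝ
  pr : S.Pr R 0 W W'
  pos : 0 < ep

lemma Pr.cyc {S : Sites (fun _ => 1 / 2) K K'} {n : ℕ} {W W' : K' →L[ℂ] K'} (p : S.Pr R n W W')
    (h : SP A R Ω) : SP (S.up R) (S.up' R) ((W * W') (S.ι Ω)) := by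
  have h1 := S.sp_up h
  have key {X Y : SA K'} {O : K'} (h : SP X Y O) {u u' : K' →L[ℂ] K'} (hu : u ∈ X) (hu' : u' ∈ Y)
      (g : u ∈ unitary _) (g' : u' ∈ unitary _) : Cyc X ((u * u') O) := fun v η hη => by
    obtain ⟨x, hx, e⟩ := h.dX (star u' v) η hη
    refine ⟨x * star u, mul_mem hx (star_mem hu), ?_⟩
    rw [← norm_unit_apply g', map_sub, ← h.app hx hu', ← ContinuousLinearMap.mul_apply u', g'.2]
      at e
    rwa [← ContinuousLinearMap.mul_apply, mul_assoc, ← mul_assoc (star u), g.1, one_mul]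
  exact ⟨h1.toCP, key h1 p.mem p.mem' p.un p.un',
    h1.cm _ p.mem _ p.mem' ▸ key h1.symm p.mem' p.mem p.un' p.un,
    by rw [norm_unit_apply (mul_mem p.un p.un'), h1.nΩ]⟩

lemma tw_step (h : SP A R Ω) (hc : Ctr A R Ω) (ζ : K') {r : ℝ} (hr : 0 < r) (p : S.TwS R) :
    ∃ p' : S.TwS R, p.n < p'.n ∧ S.Pr R p.n (star p.W * p'.W) (star p.W' * p'.W') ∧
      ‖(p'.W * p'.W') (S.ι Ω) - (p.W * p.W') (S.ι Ω)‖ ≤ p.ep / 2 ∧ p'.ep ≤ p.ep / 2 ∧
      ∀ O, ‖O - (p'.W * p'.W') (S.ι Ω)‖ ≤ p'.ep → (∃ x ∈ S.up R, ‖x O - ζ‖ ≤ 2 * r) ∧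
        (∃ x ∈ S.up' R, ‖x O - ζ‖ ≤ 2 * r) ∧ ∃ z ∈ S.up R, z ∈ S.up' R ∧
          ‖(p'.W * p'.W') (S.QQ p'.n (star (p'.W * p'.W') ζ)) - z O‖ ≤ 2 * r := by
  obtain ⟨n', hn, C, c1, C', c2, z, z1, z2, c3, c4, c5, c6, n1, n2⟩ :=
    S.blk h hc p.n (star (p.W * p.W') ζ) hr (half_pos p.pos)
  have p1 := p.pr.mul ⟨c1, c2, c3, c4, c5.mono p.n.zero_le, c6.mono p.n.zero_le⟩
  have e1 := S.swap p.W C' p.pr.mem' c1
  obtain ⟨x, hx, n3⟩ := (p1.cyc h).dX ζ r hr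
  obtain ⟨y, hy, n4⟩ := (p1.cyc h).dY ζ r hr
  have h0 : 0 < ‖x‖ + ‖y‖ + ‖S.amp z‖ + 1 := by positivity
  have key {O O' : K'} (hO : ‖O - O'‖ ≤ min (p.ep / 2) (r / (‖x‖ + ‖y‖ + ‖S.amp z‖ + 1)))
      (T : K' →L[ℂ] K') (hT : ‖T‖ ≤ ‖x‖ + ‖y‖ + ‖S.amp z‖ + 1) {v : K'} (hv : ‖T O' - v‖ ≤ r) :
      ‖T O - v‖ ≤ 2 * r := by
    have f1 := norm_add_le (T (O - O')) (T O' - v)
    rw [map_sub, sub_add_sub_cancel, ← map_sub] at f1
    have f2 := (T.le_of_opNorm_le hT (O - O')).trans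
      (mul_le_mul_of_nonneg_left (hO.trans (min_le_right _ _)) h0.le)
    rw [mul_div_cancel₀ _ h0.ne'] at f2
    linarith
  refine ⟨⟨n', p.W * C, p.W' * C', min (p.ep / 2) (r / (‖x‖ + ‖y‖ + ‖S.amp z‖ + 1)), p1,
    lt_min (half_pos p.pos) (div_pos hr h0)⟩, hn, ?_, ?_, min_le_left _ _, fun O hO =>
    ⟨⟨x, hx, key hO x (by linarith [norm_nonneg y, norm_nonneg (S.amp z)]) n3⟩,
      ⟨y, hy, key hO y (by linarith [norm_nonneg x, norm_nonneg (S.amp z)]) n4⟩,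
      S.amp z, S.amp_mem h.toCP z1, S.amp_mem' z2, ?_⟩⟩
  · simp only [← mul_assoc, p.pr.un.1, p.pr.un'.1, one_mul]
    exact ⟨c1, c2, c3, c4, c5, c6⟩
  · simp only [e1]
    rw [ContinuousLinearMap.mul_apply _ (C * C'), ← map_sub,
      norm_unit_apply (mul_mem p.pr.un p.pr.un')]
    exact n1
  · rw [norm_sub_rev]
    refine key hO _ (by linarith [norm_nonneg x, norm_nonneg y]) ?_
    have e2 : S.amp z ((p.W * C * (p.W' * C')) (S.ι Ω)) = (p.W * C * (p.W' * C')) (S.ι (z Ω)) := by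
      rw [← S.amp_ι, ContinuousLinearMap.mul_apply, ContinuousLinearMap.mul_apply _ (p.W' * C'),
        ← (S.cp_up R).app p1.mem (S.amp_mem' z2), (S.cp_up R).app (S.amp_mem h.toCP z1) p1.mem']
    simp only
    rw [e2, ← map_sub, norm_unit_apply (mul_mem p1.un p1.un'), e1, star_mul, norm_sub_rev]
    exact n2

lemma pr_one (n : ℕ) : S.Pr R n 1 1 :=
  ⟨one_mem _, one_mem _, one_mem _, one_mem _, fun _ _ _ => by simp, fun _ _ _ => by simp⟩

/-- A chain of states. -/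
structure Chain (Ω : K) (p : ℕ → S.TwS R) : Prop where
  mono : StrictMono fun k => (p k).n
  pr : ∀ k l, k ≤ l → S.Pr R (p k).n (star (p k).W * (p l).W) (star (p k).W' * (p l).W')
  near : ∀ k l, k ≤ l →
    ‖((p l).W * (p l).W') (S.ι Ω) - ((p k).W * (p k).W') (S.ι Ω)‖ ≤ (p k).ep - (p l).ep
  small : ∀ k, (p k).ep ≤ (1 / 2) ^ k

variable {S} {p : ℕ → S.TwS R}

lemma chain_of (h0 : (p 0).ep = 1) (f1 : ∀ k, (p k).n < (p (k + 1)).n)
    (f2 : ∀ k, S.Pr R (p k).n (star (p k).W * (p (k + 1)).W) (star (p k).W' * (p (k + 1)).W'))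
    (f3 : ∀ k, ‖((p (k + 1)).W * (p (k + 1)).W') (S.ι Ω) - ((p k).W * (p k).W') (S.ι Ω)‖ ≤
      (p k).ep / 2) (f4 : ∀ k, (p (k + 1)).ep ≤ (p k).ep / 2) : S.Chain Ω p := by
  have g1 : StrictMono fun k => (p k).n := strictMono_nat_of_lt_succ f1
  refine ⟨g1, fun k l hl => ?_, fun k l hl => ?_, fun k => ?_⟩
  · induction l, hl using Nat.le_induction with
    | base => simpa only [(p k).pr.un.1, (p k).pr.un'.1] using S.pr_one _
    | succ l hl ih =>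
      have q := f2 l
      have q' := ih.mul ⟨q.mem, q.mem', q.un, q.un', q.cm.mono (g1.monotone hl),
        q.cm'.mono (g1.monotone hl)⟩
      simpa only [mul_assoc, ← mul_assoc (p l).W, ← mul_assoc (p l).W', (p l).pr.un.2,
        (p l).pr.un'.2, one_mul] using q'
  · induction l, hl using Nat.le_induction with
    | base => simp
    | succ l hl ih =>
      exact (norm_sub_le_norm_sub_add_norm_sub _ _ _).trans ((add_le_add (f3 l) ih).trans
        (by linarith [f4 l]))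
  · induction k with
    | zero => exact (h0.trans (pow_zero _).symm).le
    | succ k ih => rw [pow_succ]; linarith [f4 k]

lemma TwS.un (p : S.TwS R) : p.W * p.W' ∈ unitary _ := mul_mem p.pr.un p.pr.un'

lemma Chain.lim (h : S.Chain Ω p) : ∃ O, Tendsto (fun k => ((p k).W * (p k).W') (S.ι Ω)) atTop (𝓝 O) ∧
    ∀ k, ‖O - ((p k).W * (p k).W') (S.ι Ω)‖ ≤ (p k).ep := by
  obtain ⟨O, hO⟩ := cauchySeq_tendsto_of_complete (u := fun k => ((p k).W * (p k).W') (S.ι Ω))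
    (cauchySeq_of_le_tendsto_0' (fun k => (1 / 2 : ℝ) ^ k) (fun k l hl => by
      rw [dist_comm, dist_eq_norm]
      linarith [h.near k l hl, h.small k, (p l).pos])
      (tendsto_pow_atTop_nhds_zero_of_lt_one (by norm_num) (by norm_num)))
  exact ⟨O, hO, fun k => le_of_tendsto (hO.sub_const _).norm
    ((eventually_ge_atTop k).mono fun l hl => by linarith [h.near k l hl, (p l).pos])⟩

lemma Chain.eq (h : S.Chain Ω p) {k l : ℕ} (hl : k ≤ l) : (p l).W * (p l).W' =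
    (p k).W * (p k).W' * (star (p k).W * (p l).W * (star (p k).W' * (p l).W')) := by
  rw [← S.swap _ _ (p k).pr.mem' (h.pr k l hl).mem, ← mul_assoc (p k).W, (p k).pr.un.2,
    ← mul_assoc (p k).W', (p k).pr.un'.2, one_mul, one_mul]

lemma Chain.fix (h : S.Chain Ω p) {O : K'}
    (hO : Tendsto (fun k => ((p k).W * (p k).W') (S.ι Ω)) atTop (𝓝 O)) {n k : ℕ} (hn : n < (p k).n) :
    S.Q n (star ((p k).W * (p k).W') O) = star ((p k).W * (p k).W') O := by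
  refine (isClosed_eq (f := (S.Q n * star ((p k).W * (p k).W') : K' →L[ℂ] K'))
    (g := (star ((p k).W * (p k).W') : K' →L[ℂ] K')) (ContinuousLinearMap.continuous _)
    (ContinuousLinearMap.continuous _)).mem_of_tendsto hO ((eventually_ge_atTop k).mono
      fun l hl => ?_)
  have q := h.pr _ _ hl
  have e := S.comm_Q ((q.cm.mul q.cm') n hn)
  rw [Set.mem_setOf_eq, ← ContinuousLinearMap.mul_apply, ← ContinuousLinearMap.mul_apply (star _),
    mul_assoc, h.eq hl, ← mul_assoc (star _), (p k).un.1, one_mul, ← e,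
    ContinuousLinearMap.mul_apply, S.Q_ι]

lemma Chain.conj (h : S.Chain Ω p) {k l : ℕ} (hl : k ≤ l) :
    (p l).W * (p l).W' * S.QQ (p k).n * star ((p l).W * (p l).W') =
      (p k).W * (p k).W' * S.QQ (p k).n * star ((p k).W * (p k).W') := by
  have q := h.pr _ _ hl
  have key (V D Q : K' →L[ℂ] K') (h1 : D * Q = Q * D) (h2 : D * star D = 1) :
      V * D * Q * star (V * D) = V * Q * star V := by
    rw [star_mul, mul_assoc V, h1, mul_assoc, mul_assoc, ← mul_assoc D, h2, one_mul, mul_assoc]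
  rw [h.eq hl, key _ _ _ (q.cm.mul q.cm').QQ (mul_mem q.un q.un').2]

lemma Tw.task {d : ℕ → K'} (hd : DenseRange d) (ζ : K') {ε : ℝ} (hε : 0 < ε) :
    ∃ k : ℕ, ‖d k.unpair.1 - ζ‖ ≤ ε / 2 ∧ 2 * (1 / ((k : ℝ) + 1)) ≤ ε / 2 := by
  obtain ⟨j, hj⟩ := hd.exists_dist_lt ζ (half_pos hε)
  obtain ⟨m, hm⟩ := exists_nat_one_div_lt (show 0 < ε / 4 by positivity)
  refine ⟨j.pair m, by rw [Nat.unpair_pair, ← dist_eq_norm, dist_comm]; exact hj.le, ?_⟩
  linarith [Nat.one_div_le_one_div (α := ℝ) (Nat.right_le_pair j m)]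

variable (S) in
theorem exists_tw [TopologicalSpace.SeparableSpace K'] (h : SP A R Ω) (hc : Ctr A R Ω) :
    ∃ Ω' W W', S.Tw R Ω' W W' := by
  obtain ⟨d, hd⟩ := TopologicalSpace.exists_dense_seq K'
  choose f f1 f2 f3 f4 f5 using fun k : ℕ =>
    S.tw_step h hc (d k.unpair.1) (Nat.one_div_pos_of_nat (n := k))
  obtain ⟨p, h0, hp⟩ : ∃ p : ℕ → S.TwS R, (p 0).ep = 1 ∧ ∀ k, p (k + 1) = f k (p k) :=
    ⟨fun k => Nat.rec ⟨0, 1, 1, 1, S.pr_one 0, one_pos⟩ f k, rfl, fun _ => rfl⟩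
  have c : S.Chain Ω p := chain_of h0 (fun k => hp k ▸ f1 k _) (fun k => hp k ▸ f2 k _)
    (fun k => hp k ▸ f3 k _) fun k => hp k ▸ f4 k _
  obtain ⟨O, hO, g4⟩ := c.lim
  have g5 (k) := f5 k (p k) O (hp k ▸ g4 (k + 1))
  refine ⟨O, fun n => (p (n + 1)).W, fun n => (p (n + 1)).W', ⟨S.cp_up R, fun v η hη => ?_,
    fun v η hη => ?_, ?_⟩, fun n => (p _).pr.mem, fun n => (p _).pr.mem', fun n => (p _).pr.un,
    fun n => (p _).pr.un', fun hn => (c.pr _ _ (by omega)).cm.mono (c.mono.id_le _),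
    fun hn => (c.pr _ _ (by omega)).cm'.mono (c.mono.id_le _),
    fun n => c.fix hO (c.mono.id_le (n + 1)), fun ζ ε hε => ?_⟩
  · obtain ⟨k, k1, k2⟩ := Tw.task hd v hη
    obtain ⟨x, hx, e⟩ := (g5 k).1
    exact ⟨x, hx, (norm_sub_le_norm_sub_add_norm_sub _ _ _).trans ((add_le_add e k1).trans
      (by linarith))⟩
  · obtain ⟨k, k1, k2⟩ := Tw.task hd v hη
    obtain ⟨x, hx, e⟩ := (g5 k).2.1
    exact ⟨x, hx, (norm_sub_le_norm_sub_add_norm_sub _ _ _).trans ((add_le_add e k1).trans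
      (by linarith))⟩
  · refine tendsto_nhds_unique hO.norm ?_
    simp only [norm_unit_apply (p _).un, S.norm_ι, h.nΩ, tendsto_const_nhds]
  · obtain ⟨k, k1, k2⟩ := Tw.task hd ζ hε
    obtain ⟨z, z1, z2, e⟩ := (g5 k).2.2
    rw [← hp] at e
    have hl : k + 1 ≤ (p (k + 1)).n := c.mono.id_le (k + 1)
    obtain ⟨n, hn⟩ := Nat.exists_eq_succ_of_ne_zero (hl.trans_lt' k.succ_pos).ne'
    have e1 := congr($(c.conj hl) ζ)
    have e3 : ‖((p (k + 1)).W * (p (k + 1)).W') (S.QQ (p (k + 1)).n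
        (star ((p (k + 1)).W * (p (k + 1)).W') (ζ - d k.unpair.1)))‖ ≤ ε / 2 := by
      rw [norm_unit_apply (p _).un]
      refine ((S.QQ _).le_of_opNorm_le (IsStarProjection.norm_le _ (S.QQ_proj _)) _).trans ?_
      rwa [one_mul, norm_unit_apply (Unitary.star_mem (p _).un), norm_sub_rev]
    rw [map_sub, map_sub, map_sub] at e3
    rw [hn] at e e1 e3
    refine ⟨n, z, z1, z2, ?_⟩
    exact (congrArg (‖· - z O‖) e1).trans_le ((norm_sub_le_norm_sub_add_norm_sub _ _ _).trans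
      ((add_le_add e3 e).trans (by linarith)))

end Sites

end Vale.Agent.P096
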