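import Vale.Agent.P096.G.Pair

/-! Contraction towards the centre. -/

namespace Vale.Agent.P096

open scoped InnerProductSpace Topology ComplexConjugate
open Filter
open Vale.Agent.P132 (FC BC ex pp qq rr EE chi Std PM MD bc_chi bc_chi_mul continuous_EE
  continuous_chi chi_supp conj_chi)

universe u

section abs

variable {A : Type*} [CStarAlgebra A] [PartialOrder A] [StarOrderedRing A] {H : Type*}
  [NormedAddCommGroup H] [InnerProductSpace ℂ H] [CompleteSpace H] {S : Std A H}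

lemma conj_chi_EE (L s : ℝ) : conj (chi L s * (EE s * EE s)) = chi L s * (EE s * EE s) := by
  simp only [map_mul, conj_chi, EE, Complex.conj_ofReal]

theorem vfix {D : MD S} (h : FarA D) {ζ : H} (hζ : ζ ∈ D.V) : D.Fix ζ := by
  refine fix_of _ fun L => ext_inner_right ℂ fun β => ?_
  have := pairid h hζ (a := 1) (a' := 1) (by rw [D.ρ_one, map_one]) (continuous_chi L)
    (fun s hs => chi_supp hs) β
  rw [D.ρ_one, map_one, one_apply_eq_self, one_apply_eq_self, D.toFC.inner_right (bc_chi L),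
    D.toFC.inner_right (F := fun s => chi L s * (EE s * EE s))
      (bc_chi_mul L (continuous_EE.mul continuous_EE))] at this
  simpa only [conj_chi, conj_chi_EE] using this

theorem vcen0 {D : MD S} (h : FarA D) {x : A} (hx : S.π x S.ξ ∈ D.V) : D.ρ x = S.π x := by
  have hi := MD.inv_iff_fix.2 (vfix h hx)
  rw [← sub_eq_zero, ← star_eq_zero]
  refine ContinuousLinearMap.ext fun δ => pairs D fun a a' ha => ?_
  rw [ContinuousLinearMap.star_eq_adjoint, ContinuousLinearMap.adjoint_inner_right,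
    inner_eq_zero_symm]
  suffices h1 : (D.ρ x - S.π x) (D.ρ (star a) S.ξ) = 0 by rw [h1, inner_zero_right]
  refine norm_le_zero_iff.1 (le_of_forall_pos_le_add fun ε hε => ?_)
  obtain ⟨L, hL⟩ := D.toFC.chi_near ((D.ρ x - S.π x) (D.ρ (star a) S.ξ)) hε
  have b1 := bc_chi_mul L continuous_EE
  have b2 : BC fun s => chi L s * (EE s * EE s) := bc_chi_mul L (continuous_EE.mul continuous_EE)
  have h1 := D.gr1' b1 (by simpa only [mul_assoc] using b2) (star a')
  rw [D.ρ_ξ, star_star, ha, D.J_ρ, D.J_ξ, ← D.gr1' (bc_chi L) b1] at h1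
  simp only [mul_assoc] at h1
  have h2 : D.fb (chi L) ((D.ρ x - S.π x) (D.ρ (star a) S.ξ)) = 0 := by
    rw [sub_apply, map_sub, sub_eq_zero]
    refine ext_inner_right ℂ fun β => ?_
    have := pairid h hx ha (continuous_chi L) (fun s hs => chi_supp hs) β
    rw [← D.inner_ρ_left, ← D.π_ρ, D.toFC.inner_right (bc_chi L), ← S.inner_star_left, ← hi.ρ_ξ,
      D.π_ρ (star a'), D.toFC.inner_right b2] at this
    simp only [conj_chi, conj_chi_EE] at this
    rw [hi.fb_ρ b2, ← h1, ← hi.fb_ρ (bc_chi L)] at this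
    exact this.symm
  simpa only [h2, sub_zero, zero_add] using hL L le_rfl

omit [CompleteSpace H] in
lemma sq_le_of_near {β p q : H} (h : (⟪β - p, q - p⟫_ℂ).re ≤ 0) :
    ‖β - p‖ ^ 2 + ‖q - p‖ ^ 2 ≤ ‖β - q‖ ^ 2 := by
  have := @norm_sub_sq ℂ _ _ _ _ (β - p) (q - p)
  rw [sub_sub_sub_cancel_right, RCLike.re_to_complex] at this
  linarith

theorem vcen {D : MD S} (h : FarA D) {ζ : H} (hζ : ζ ∈ D.V) {ε : ℝ} (hε : 0 < ε) :
    ∃ z, D.ρ z = S.π z ∧ ‖ζ - S.π z S.ξ‖ ≤ ε := by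
  obtain ⟨x, hx⟩ := Metric.denseRange_iff.1 S.cyc ζ ε hε
  obtain ⟨p, hp, h1, -⟩ := P132.exists_near (K := {β | ∃ y, ‖y‖ ≤ ‖x‖ ∧ S.π y S.ξ = β})
    ⟨_, x, le_rfl, rfl⟩ (by
      rintro _ ⟨y, hy, rfl⟩ _ ⟨z, hz, rfl⟩ a b ha hb hab
      refine ⟨a • y + b • z, ?_, by simp [← Complex.coe_smul]⟩
      refine (norm_add_le _ _).trans ?_
      rw [norm_smul, norm_smul, Real.norm_of_nonneg ha, Real.norm_of_nonneg hb]
      calc _ ≤ a * ‖x‖ + b * ‖x‖ := by gcongr
        _ = _ := by rw [← add_mul, hab, one_mul]) ζ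
  obtain ⟨l, z, _, h2, h3, rfl⟩ := S.exists_lim (fun _ h => h) hp
  have hz := h3.norm_le h2
  have h4 := fun y (hy : ‖y‖ ≤ ‖x‖) => sq_le_of_near (h1 _ (subset_closure ⟨y, hy, rfl⟩))
  refine ⟨z, vcen0 h fun e he => ?_, ?_⟩
  · set d := ‖ζ - S.π z S.ξ‖
    have hd : 0 ≤ d := norm_nonneg _
    set κ := min (min 1 (e / 2)) (e ^ 2 / (16 * (d + 1)))
    have k0 : 0 < κ := by positivity
    have k1 : κ ≤ 1 := (min_le_left _ _).trans (min_le_left _ _)
    have k2 : κ ≤ e / 2 := (min_le_left _ _).trans (min_le_right _ _)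
    have k3 : κ * (16 * (d + 1)) ≤ e ^ 2 := (le_div_iff₀ (by positivity)).1 (min_le_right _ _)
    obtain ⟨η, h5, h6⟩ := hζ κ k0
    refine ⟨min η (κ / (‖x‖ + 1)), by positivity, fun u hu h7 => ?_⟩
    have h8 := h6 u hu (h7.trans (min_le_left _ _))
    have h9 := (le_div_iff₀ (by positivity)).1 (h7.trans (min_le_right _ _))
    rw [← MD.norm_Wu_sub hu] at h8 ⊢
    have a1 : ‖D.Wu u (S.π z S.ξ) - S.π (u * z * star u) S.ξ‖ ≤ κ := by
      rw [MD.Wu, mul_apply_eq_comp, mul_assoc, S.mul_apply, ← map_sub, MD.norm_π_un hu,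
        S.mul_apply, ← D.π_ρ, ← map_sub]
      refine (S.norm_apply_le _ _).trans ?_
      rw [norm_sub_rev, MD.norm_ad_star]
      nlinarith [norm_nonneg (S.π u S.ξ - D.ρ u S.ξ)]
    have a2 := h4 (u * z * star u) (by
      rwa [CStarRing.norm_mul_mem_unitary _ (Unitary.star_mem hu), CStarRing.norm_mem_unitary_mul _ hu])
    have a3 : ‖ζ - S.π (u * z * star u) S.ξ‖ ≤ κ + d + κ := by
      refine (norm_sub_le_norm_sub_add_norm_sub _ (D.Wu u (S.π z S.ξ)) _).trans (add_le_add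
        ((norm_sub_le_norm_sub_add_norm_sub _ (D.Wu u ζ) _).trans (add_le_add ?_ ?_)) a1)
      · rwa [norm_sub_rev]
      · rw [← map_sub, MD.norm_Wu hu]
    have a4 : ‖S.π (u * z * star u) S.ξ - S.π z S.ξ‖ ≤ e / 2 :=
      (abs_le_of_sq_le_sq' (by nlinarith [pow_le_pow_left₀ (norm_nonneg _) a3 2]) (by positivity)).2
    exact (norm_sub_le_norm_sub_add_norm_sub _ _ _).trans ((add_le_add a1 a4).trans (by linarith))
  · rw [dist_eq_norm] at hx
    have := pow_le_pow_left₀ (norm_nonneg _) hx.le 2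
    exact (abs_le_of_sq_le_sq' (by linarith [h4 x le_rfl, sq_nonneg ‖S.π x S.ξ - S.π z S.ξ‖])
      hε.le).2

end abs

end Vale.Agent.P096
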